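import Mathlib

namespace Vale.Agent.P162

open Finset

/-- `cb j = C(2j,j) / 4^j`, the probability that a fair walk of `2 j` steps is balanced. -/
noncomputable def cb (j : ℕ) : ℝ := (Nat.centralBinom j : ℝ) / 4 ^ j

theorem cb_zero : cb 0 = 1 := by simp [cb]

theorem cb_pos (j : ℕ) : 0 < cb j := by
  unfold cb
  have : 0 < (Nat.centralBinom j : ℝ) := by exact_mod_cast Nat.centralBinom_pos j
  positivity

theorem cb_succ (j : ℕ) : cb (j + 1) = cb j * ((2 * (j : ℝ) + 1) / (2 * (j : ℝ) + 2)) := by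
  unfold cb
  have h := Nat.succ_mul_centralBinom_succ j
  have h' : ((j : ℝ) + 1) * (Nat.centralBinom (j + 1) : ℝ)
      = 2 * (2 * (j : ℝ) + 1) * (Nat.centralBinom j : ℝ) := by exact_mod_cast h
  have hj : (0 : ℝ) < (j : ℝ) + 1 := by positivity
  have e : (Nat.centralBinom (j + 1) : ℝ)
      = 2 * (2 * (j : ℝ) + 1) * (Nat.centralBinom j : ℝ) / ((j : ℝ) + 1) := by
    rw [eq_div_iff hj.ne']; linarith
  rw [e, pow_succ]
  field_simp
  ring

theorem cb_succ_le (j : ℕ) : cb (j + 1) ≤ cb j := by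
  rw [cb_succ]
  have h : (2 * (j : ℝ) + 1) / (2 * (j : ℝ) + 2) ≤ 1 := by
    rw [div_le_one (by positivity)]; linarith
  calc cb j * ((2 * (j : ℝ) + 1) / (2 * (j : ℝ) + 2)) ≤ cb j * 1 :=
        mul_le_mul_of_nonneg_left h (cb_pos j).le
    _ = cb j := mul_one _

theorem cb_antitone : Antitone cb := antitone_nat_of_succ_le cb_succ_le

theorem cb_le_one (j : ℕ) : cb j ≤ 1 := by
  have := cb_antitone (Nat.zero_le j)
  rwa [cb_zero] at this

theorem cb_sq_lower (j : ℕ) (hj : 1 ≤ j) : 1 / (4 * (j : ℝ)) ≤ cb j ^ 2 := by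
  induction j, hj using Nat.le_induction with
  | base =>
    have h1 : Nat.centralBinom 1 = 2 := by decide
    unfold cb
    rw [h1]; norm_num
  | succ j hj ih =>
    have hj' : (1 : ℝ) ≤ (j : ℝ) := by exact_mod_cast hj
    rw [cb_succ, mul_pow]
    push_cast
    have h2 : 1 / (4 * ((j : ℝ) + 1))
        ≤ 1 / (4 * (j : ℝ)) * ((2 * (j : ℝ) + 1) / (2 * (j : ℝ) + 2)) ^ 2 := by
      rw [div_pow, div_mul_div_comm, div_le_div_iff₀ (by positivity) (by positivity)]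
      nlinarith
    exact h2.trans (mul_le_mul_of_nonneg_right ih (by positivity))

theorem cb_lower (j : ℕ) (hj : 1 ≤ j) : 1 / (2 * Real.sqrt j) ≤ cb j := by
  have hj' : (1 : ℝ) ≤ (j : ℝ) := by exact_mod_cast hj
  have hs : 0 < Real.sqrt j := Real.sqrt_pos.mpr (by linarith)
  have h := cb_sq_lower j hj
  have h2 : (1 / (2 * Real.sqrt j)) ^ 2 ≤ cb j ^ 2 := by
    rw [div_pow, mul_pow, Real.sq_sqrt (by linarith)]
    norm_num
    have : ((j : ℝ))⁻¹ * (1 / 4) = 1 / (4 * (j : ℝ)) := by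
      field_simp
    linarith
  exact abs_le_of_sq_le_sq' h2 (cb_pos j).le |>.2

/-- `1 / cb j ≤ 2 sqrt j`. -/
theorem inv_cb_le (j : ℕ) (hj : 1 ≤ j) : 1 / cb j ≤ 2 * Real.sqrt j := by
  have hj' : (1 : ℝ) ≤ (j : ℝ) := by exact_mod_cast hj
  have hs : 0 < Real.sqrt j := Real.sqrt_pos.mpr (by linarith)
  have h := cb_lower j hj
  rw [div_le_iff₀ (cb_pos j)]
  rw [div_le_iff₀ (by positivity)] at h
  linarith

theorem cb_le_succ_mul_exp (i : ℕ) :
    cb i ≤ cb (i + 1) * Real.exp (1 / (2 * (i : ℝ) + 1)) := by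
  rw [cb_succ]
  have h1 : 1 / (2 * (i : ℝ) + 1) + 1 ≤ Real.exp (1 / (2 * (i : ℝ) + 1)) := Real.add_one_le_exp _
  have h2 : (2 * (i : ℝ) + 1) / (2 * (i : ℝ) + 2) * (1 / (2 * (i : ℝ) + 1) + 1) = 1 := by
    field_simp
    ring
  calc cb i = cb i * ((2 * (i : ℝ) + 1) / (2 * (i : ℝ) + 2) * (1 / (2 * (i : ℝ) + 1) + 1)) := by
        rw [h2, mul_one]
    _ ≤ cb i * ((2 * (i : ℝ) + 1) / (2 * (i : ℝ) + 2) * Real.exp (1 / (2 * (i : ℝ) + 1))) := by
        apply mul_le_mul_of_nonneg_left _ (cb_pos i).le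
        exact mul_le_mul_of_nonneg_left h1 (by positivity)
    _ = _ := by ring

/-- Slow variation of the central binomial probability. -/
theorem cb_ratio (j n : ℕ) :
    cb j ≤ cb (j + n) * Real.exp ((n : ℝ) / (2 * (j : ℝ) + 1)) := by
  induction n with
  | zero => simp
  | succ n ih =>
    have h := cb_le_succ_mul_exp (j + n)
    have h3 : 1 / (2 * ((j + n : ℕ) : ℝ) + 1) ≤ 1 / (2 * (j : ℝ) + 1) := by
      apply one_div_le_one_div_of_le (by positivity)
      push_cast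
      have : (0 : ℝ) ≤ (n : ℝ) := by positivity
      linarith
    have h4 : Real.exp (1 / (2 * ((j + n : ℕ) : ℝ) + 1)) ≤ Real.exp (1 / (2 * (j : ℝ) + 1)) :=
      Real.exp_le_exp.mpr h3
    have e : ((n + 1 : ℕ) : ℝ) / (2 * (j : ℝ) + 1)
        = 1 / (2 * (j : ℝ) + 1) + (n : ℝ) / (2 * (j : ℝ) + 1) := by
      push_cast; ring
    rw [e, Real.exp_add, ← add_assoc]
    calc cb j ≤ cb (j + n) * Real.exp ((n : ℝ) / (2 * (j : ℝ) + 1)) := ih
      _ ≤ (cb (j + n + 1) * Real.exp (1 / (2 * ((j + n : ℕ) : ℝ) + 1)))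
            * Real.exp ((n : ℝ) / (2 * (j : ℝ) + 1)) :=
          mul_le_mul_of_nonneg_right h (Real.exp_pos _).le
      _ ≤ (cb (j + n + 1) * Real.exp (1 / (2 * (j : ℝ) + 1)))
            * Real.exp ((n : ℝ) / (2 * (j : ℝ) + 1)) := by
          apply mul_le_mul_of_nonneg_right _ (Real.exp_pos _).le
          exact mul_le_mul_of_nonneg_left h4 (cb_pos _).le
      _ = _ := by ring

theorem cb_ratio' (j j' : ℕ) (h : j ≤ j') :
    cb j ≤ cb j' * Real.exp (((j' : ℝ) - (j : ℝ)) / (2 * (j : ℝ) + 1)) := by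
  obtain ⟨n, rfl⟩ := Nat.exists_eq_add_of_le h
  have := cb_ratio j n
  have e : (((j + n : ℕ) : ℝ) - (j : ℝ)) = (n : ℝ) := by push_cast; ring
  rwa [e]

/-- `4^k ≤ 2 k C(2k,k)`. -/
theorem four_pow_le (k : ℕ) (hk : 0 < k) :
    (4 : ℝ) ^ k ≤ 2 * (k : ℝ) * (Nat.centralBinom k : ℝ) := by
  exact_mod_cast Nat.four_pow_le_two_mul_self_mul_centralBinom k hk

/-! ### Chernoff bound for the symmetric binomial law -/

theorem binom_mgf (k : ℕ) (l : ℝ) :
    ∑ u ∈ range (k + 1), (k.choose u : ℝ) * Real.exp (l * (2 * (u : ℝ) - (k : ℝ)))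
      = (2 * Real.cosh l) ^ k := by
  have h : 2 * Real.cosh l = Real.exp l + Real.exp (-l) := by
    rw [Real.cosh_eq]; ring
  rw [h, add_pow]
  apply Finset.sum_congr rfl
  intro u hu
  have hu' : u ≤ k := by
    have := Finset.mem_range.mp hu; omega
  rw [← Real.exp_nat_mul, ← Real.exp_nat_mul, ← Real.exp_add, mul_comm]
  congr 2
  rw [Nat.cast_sub hu']
  ring

theorem binom_mgf_le (k : ℕ) (l : ℝ) :
    ∑ u ∈ range (k + 1), (k.choose u : ℝ) * Real.exp (l * (2 * (u : ℝ) - (k : ℝ)))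
      ≤ 2 ^ k * Real.exp ((k : ℝ) * l ^ 2 / 2) := by
  rw [binom_mgf, mul_pow]
  apply mul_le_mul_of_nonneg_left _ (by positivity)
  have h := Real.cosh_le_exp_half_sq l
  calc Real.cosh l ^ k ≤ (Real.exp (l ^ 2 / 2)) ^ k :=
        pow_le_pow_left₀ (Real.cosh_pos l).le h k
    _ = Real.exp ((k : ℝ) * l ^ 2 / 2) := by
        rw [← Real.exp_nat_mul]; congr 1; ring

theorem chernoff_upper (k : ℕ) (hk : 0 < k) (w : ℝ) (hw : 0 ≤ w) :
    ∑ u ∈ (range (k + 1)).filter (fun u : ℕ => (k : ℝ) / 2 + w ≤ (u : ℝ)), (k.choose u : ℝ)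
      ≤ 2 ^ k * Real.exp (-2 * w ^ 2 / (k : ℝ)) := by
  have hk' : (0 : ℝ) < (k : ℝ) := by exact_mod_cast hk
  set l : ℝ := 2 * w / (k : ℝ) with hl
  have hl0 : 0 ≤ l := by positivity
  have h1 : ∑ u ∈ (range (k + 1)).filter (fun u : ℕ => (k : ℝ) / 2 + w ≤ (u : ℝ)),
      (k.choose u : ℝ) * Real.exp (l * (2 * w))
      ≤ ∑ u ∈ range (k + 1), (k.choose u : ℝ) * Real.exp (l * (2 * (u : ℝ) - (k : ℝ))) := by
    calc _ ≤ ∑ u ∈ (range (k + 1)).filter (fun u : ℕ => (k : ℝ) / 2 + w ≤ (u : ℝ)),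
          (k.choose u : ℝ) * Real.exp (l * (2 * (u : ℝ) - (k : ℝ))) := by
          apply Finset.sum_le_sum
          intro u hu
          have hu2 := (Finset.mem_filter.mp hu).2
          apply mul_le_mul_of_nonneg_left _ (by positivity)
          apply Real.exp_le_exp.mpr
          apply mul_le_mul_of_nonneg_left _ hl0
          linarith
      _ ≤ _ := by
          apply Finset.sum_le_sum_of_subset_of_nonneg (Finset.filter_subset _ _)
          intro u _ _
          positivity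
  rw [← Finset.sum_mul] at h1
  have h2 := h1.trans (binom_mgf_le k l)
  have hpos : 0 < Real.exp (l * (2 * w)) := Real.exp_pos _
  rw [← le_div_iff₀ hpos] at h2
  refine h2.trans (le_of_eq ?_)
  rw [mul_div_assoc, ← Real.exp_sub]
  congr 2
  rw [hl]
  field_simp
  ring

theorem chernoff_lower (k : ℕ) (hk : 0 < k) (w : ℝ) (hw : 0 ≤ w) :
    ∑ u ∈ (range (k + 1)).filter (fun u : ℕ => (u : ℝ) ≤ (k : ℝ) / 2 - w), (k.choose u : ℝ)
      ≤ 2 ^ k * Real.exp (-2 * w ^ 2 / (k : ℝ)) := by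
  have hk' : (0 : ℝ) < (k : ℝ) := by exact_mod_cast hk
  set l : ℝ := -(2 * w / (k : ℝ)) with hl
  have hl0 : l ≤ 0 := by
    rw [hl]; have : 0 ≤ 2 * w / (k : ℝ) := by positivity
    linarith
  have h1 : ∑ u ∈ (range (k + 1)).filter (fun u : ℕ => (u : ℝ) ≤ (k : ℝ) / 2 - w),
      (k.choose u : ℝ) * Real.exp (l * (-(2 * w)))
      ≤ ∑ u ∈ range (k + 1), (k.choose u : ℝ) * Real.exp (l * (2 * (u : ℝ) - (k : ℝ))) := by
    calc _ ≤ ∑ u ∈ (range (k + 1)).filter (fun u : ℕ => (u : ℝ) ≤ (k : ℝ) / 2 - w),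
          (k.choose u : ℝ) * Real.exp (l * (2 * (u : ℝ) - (k : ℝ))) := by
          apply Finset.sum_le_sum
          intro u hu
          have hu2 := (Finset.mem_filter.mp hu).2
          apply mul_le_mul_of_nonneg_left _ (by positivity)
          apply Real.exp_le_exp.mpr
          apply mul_le_mul_of_nonpos_left _ hl0
          linarith
      _ ≤ _ := by
          apply Finset.sum_le_sum_of_subset_of_nonneg (Finset.filter_subset _ _)
          intro u _ _
          positivity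
  rw [← Finset.sum_mul] at h1
  have h2 := h1.trans (binom_mgf_le k l)
  have hpos : 0 < Real.exp (l * (-(2 * w))) := Real.exp_pos _
  rw [← le_div_iff₀ hpos] at h2
  refine h2.trans (le_of_eq ?_)
  rw [mul_div_assoc, ← Real.exp_sub]
  congr 2
  rw [hl]
  field_simp
  ring

/-- Two sided Chernoff (Hoeffding) bound for `Bin(k,1/2)`. -/
theorem chernoff (k : ℕ) (hk : 0 < k) (w : ℝ) (hw : 0 ≤ w) :
    ∑ u ∈ (range (k + 1)).filter (fun u : ℕ => w ≤ |(u : ℝ) - (k : ℝ) / 2|), (k.choose u : ℝ)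
      ≤ 2 ^ k * (2 * Real.exp (-2 * w ^ 2 / (k : ℝ))) := by
  have hsub : (range (k + 1)).filter (fun u : ℕ => w ≤ |(u : ℝ) - (k : ℝ) / 2|)
      ⊆ (range (k + 1)).filter (fun u : ℕ => (k : ℝ) / 2 + w ≤ (u : ℝ))
        ∪ (range (k + 1)).filter (fun u : ℕ => (u : ℝ) ≤ (k : ℝ) / 2 - w) := by
    intro u hu
    obtain ⟨h1, h2⟩ := Finset.mem_filter.mp hu
    rw [Finset.mem_union, Finset.mem_filter, Finset.mem_filter]
    rcases le_abs.mp h2 with h | h
    · left; exact ⟨h1, by linarith⟩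
    · right; exact ⟨h1, by linarith⟩
  calc _ ≤ ∑ u ∈ (range (k + 1)).filter (fun u : ℕ => (k : ℝ) / 2 + w ≤ (u : ℝ))
        ∪ (range (k + 1)).filter (fun u : ℕ => (u : ℝ) ≤ (k : ℝ) / 2 - w), (k.choose u : ℝ) := by
        apply Finset.sum_le_sum_of_subset_of_nonneg hsub
        intro u _ _
        positivity
    _ ≤ ∑ u ∈ (range (k + 1)).filter (fun u : ℕ => (k : ℝ) / 2 + w ≤ (u : ℝ)), (k.choose u : ℝ)
        + ∑ u ∈ (range (k + 1)).filter (fun u : ℕ => (u : ℝ) ≤ (k : ℝ) / 2 - w), (k.choose u : ℝ) := by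
        rw [← Finset.sum_union_inter]
        have : 0 ≤ ∑ u ∈ (range (k + 1)).filter (fun u : ℕ => (k : ℝ) / 2 + w ≤ (u : ℝ))
          ∩ (range (k + 1)).filter (fun u : ℕ => (u : ℝ) ≤ (k : ℝ) / 2 - w), (k.choose u : ℝ) := by
          apply Finset.sum_nonneg; intro u _; positivity
        linarith
    _ ≤ _ := by
        have := chernoff_upper k hk w hw
        have := chernoff_lower k hk w hw
        linarith

end Vale.Agent.P162
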