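import Mathlib

namespace Vale.Agent.P162

theorem poly_ineq (x : ℝ) (hx : 1 ≤ x) :
    4 * (2 * x + 3) * (2 * x + 1) ^ 5 ≤ (x + 1) ^ 2 * (4 * x + 3) ^ 2 * (4 * x + 1) ^ 2 := by
  have h : (x + 1) ^ 2 * (4 * x + 3) ^ 2 * (4 * x + 1) ^ 2 - 4 * (2 * x + 3) * (2 * x + 1) ^ 5
      = 32 * x ^ 4 + 32 * x ^ 3 - 7 * x ^ 2 - 14 * x - 3 := by ring
  have h2 : 0 ≤ 32 * x ^ 4 + 32 * x ^ 3 - 7 * x ^ 2 - 14 * x - 3 := by
    obtain ⟨y, hy, rfl⟩ : ∃ y : ℝ, 0 ≤ y ∧ x = y + 1 := ⟨x - 1, by linarith, by ring⟩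
    have : 32 * (y + 1) ^ 4 + 32 * (y + 1) ^ 3 - 7 * (y + 1) ^ 2 - 14 * (y + 1) - 3
        = 32 * y ^ 4 + 160 * y ^ 3 + 281 * y ^ 2 + 196 * y + 40 := by ring
    rw [this]
    positivity
  linarith

theorem centralBinom_ineq (k : ℕ) (hk : 1 ≤ k) :
    3 * (2 * (k : ℝ) + 1) * (Nat.centralBinom k : ℝ) ^ 4 ≤ 4 * (Nat.centralBinom (2 * k) : ℝ) ^ 2 := by
  induction k, hk using Nat.le_induction with
  | base =>
    have h1 : Nat.centralBinom 1 = 2 := by decide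
    have h2 : Nat.centralBinom (2 * 1) = 6 := by decide
    rw [h1, h2]; norm_num
  | succ k hk ih =>
    have hk' : (1 : ℝ) ≤ (k : ℝ) := by exact_mod_cast hk
    set A := (Nat.centralBinom k : ℝ) with hA
    set B := (Nat.centralBinom (2 * k) : ℝ) with hB
    set A' := (Nat.centralBinom (k + 1) : ℝ) with hA'
    set B' := (Nat.centralBinom (2 * k + 1) : ℝ) with hB'
    have e0 : 2 * (k + 1) = 2 * k + 1 + 1 := by ring
    rw [e0]
    set B'' := (Nat.centralBinom (2 * k + 1 + 1) : ℝ) with hB''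
    have r1 : ((k : ℝ) + 1) * A' = 2 * (2 * (k : ℝ) + 1) * A := by
      have := Nat.succ_mul_centralBinom_succ k
      have h : (((k + 1) * Nat.centralBinom (k + 1) : ℕ) : ℝ)
          = ((2 * (2 * k + 1) * Nat.centralBinom k : ℕ) : ℝ) := by rw [this]
      push_cast at h
      rw [hA', hA]
      linarith
    have r2 : (2 * (k : ℝ) + 1) * B' = 2 * (4 * (k : ℝ) + 1) * B := by
      have := Nat.succ_mul_centralBinom_succ (2 * k)
      have h : (((2 * k + 1) * Nat.centralBinom (2 * k + 1) : ℕ) : ℝ)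
          = ((2 * (2 * (2 * k) + 1) * Nat.centralBinom (2 * k) : ℕ) : ℝ) := by rw [this]
      push_cast at h
      rw [hB', hB]
      linarith
    have r3 : (2 * (k : ℝ) + 2) * B'' = 2 * (4 * (k : ℝ) + 3) * B' := by
      have := Nat.succ_mul_centralBinom_succ (2 * k + 1)
      have h : (((2 * k + 1 + 1) * Nat.centralBinom (2 * k + 1 + 1) : ℕ) : ℝ)
          = ((2 * (2 * (2 * k + 1) + 1) * Nat.centralBinom (2 * k + 1) : ℕ) : ℝ) := by rw [this]
      push_cast at h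
      rw [hB'', hB']
      linarith
    set x := (k : ℝ) with hx
    have hx1 : 0 < x + 1 := by linarith
    have hx2 : 0 < 2 * x + 1 := by linarith
    have eA : A' = 2 * (2 * x + 1) * A / (x + 1) := by
      rw [eq_div_iff hx1.ne']; linarith
    have eB : B'' = 2 * (4 * x + 3) * (4 * x + 1) * B / ((x + 1) * (2 * x + 1)) := by
      rw [eq_div_iff (by positivity)]
      have : (2 * x + 2) * (2 * x + 1) * B'' = 4 * (4 * x + 3) * (4 * x + 1) * B := by
        calc (2 * x + 2) * (2 * x + 1) * B'' = (2 * x + 1) * ((2 * x + 2) * B'') := by ring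
          _ = (2 * x + 1) * (2 * (4 * x + 3) * B') := by rw [r3]
          _ = 2 * (4 * x + 3) * ((2 * x + 1) * B') := by ring
          _ = 2 * (4 * x + 3) * (2 * (4 * x + 1) * B) := by rw [r2]
          _ = 4 * (4 * x + 3) * (4 * x + 1) * B := by ring
      linarith
    have hcast : ((k + 1 : ℕ) : ℝ) = x + 1 := by push_cast; rfl
    rw [hcast, eA, eB]
    have hB2 : 0 ≤ B ^ 2 := by positivity
    have hp := poly_ineq x hk'
    have lhs : 3 * (2 * (x + 1) + 1) * (2 * (2 * x + 1) * A / (x + 1)) ^ 4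
        = (3 * (2 * x + 1) * A ^ 4) * (16 * (2 * x + 3) * (2 * x + 1) ^ 3 / (x + 1) ^ 4) := by
      field_simp
      ring
    have rhs : 4 * (2 * (4 * x + 3) * (4 * x + 1) * B / ((x + 1) * (2 * x + 1))) ^ 2
        = (4 * B ^ 2) * (4 * (4 * x + 3) ^ 2 * (4 * x + 1) ^ 2 / ((x + 1) ^ 2 * (2 * x + 1) ^ 2)) := by
      field_simp
      ring
    rw [lhs, rhs]
    have hc : 16 * (2 * x + 3) * (2 * x + 1) ^ 3 / (x + 1) ^ 4
        ≤ 4 * (4 * x + 3) ^ 2 * (4 * x + 1) ^ 2 / ((x + 1) ^ 2 * (2 * x + 1) ^ 2) := by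
      rw [div_le_div_iff₀ (by positivity) (by positivity)]
      have : 16 * (2 * x + 3) * (2 * x + 1) ^ 3 * ((x + 1) ^ 2 * (2 * x + 1) ^ 2)
          = 4 * (x + 1) ^ 2 * (4 * (2 * x + 3) * (2 * x + 1) ^ 5) := by ring
      rw [this]
      have : 4 * (4 * x + 3) ^ 2 * (4 * x + 1) ^ 2 * (x + 1) ^ 4
          = 4 * (x + 1) ^ 2 * ((x + 1) ^ 2 * (4 * x + 3) ^ 2 * (4 * x + 1) ^ 2) := by ring
      rw [this]
      exact mul_le_mul_of_nonneg_left hp (by positivity)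
    calc (3 * (2 * x + 1) * A ^ 4) * (16 * (2 * x + 3) * (2 * x + 1) ^ 3 / (x + 1) ^ 4)
        ≤ (4 * B ^ 2) * (16 * (2 * x + 3) * (2 * x + 1) ^ 3 / (x + 1) ^ 4) :=
          mul_le_mul_of_nonneg_right ih (by positivity)
      _ ≤ _ := mul_le_mul_of_nonneg_left hc (by positivity)

/-- `C(2k,k)^2 / C(4k,2k)` is at most `2/3` and at most `1/sqrt k`. -/
theorem ratio_bounds (k : ℕ) (hk : 1 ≤ k) :
    ((2 * k).choose k : ℝ) ^ 2 / ((2 * (2 * k)).choose (2 * k) : ℝ) ≤ 2 / 3 ∧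
    ((2 * k).choose k : ℝ) ^ 2 / ((2 * (2 * k)).choose (2 * k) : ℝ) ≤ 1 / Real.sqrt k := by
  have h := centralBinom_ineq k hk
  rw [Nat.centralBinom_eq_two_mul_choose, Nat.centralBinom_eq_two_mul_choose] at h
  set a := ((2 * k).choose k : ℝ) with ha
  set b := ((2 * (2 * k)).choose (2 * k) : ℝ) with hb
  have hk' : (1 : ℝ) ≤ (k : ℝ) := by exact_mod_cast hk
  have hbpos : 0 < b := by
    rw [hb]; exact_mod_cast Nat.choose_pos (by omega)
  have hr0 : 0 ≤ a ^ 2 / b := by positivity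
  have hsq : (a ^ 2 / b) ^ 2 ≤ 4 / (3 * (2 * (k : ℝ) + 1)) := by
    rw [div_pow, div_le_div_iff₀ (by positivity) (by positivity)]
    nlinarith [h]
  constructor
  · have : (a ^ 2 / b) ^ 2 ≤ (2 / 3) ^ 2 := by
      refine hsq.trans ?_
      rw [div_le_iff₀ (by positivity)]
      nlinarith
    exact abs_le_of_sq_le_sq' this (by norm_num) |>.2
  · have hs : 0 < Real.sqrt k := Real.sqrt_pos.mpr (by linarith)
    have : (a ^ 2 / b) ^ 2 ≤ (1 / Real.sqrt k) ^ 2 := by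
      refine hsq.trans ?_
      rw [div_pow, one_pow, Real.sq_sqrt (by linarith), div_le_div_iff₀ (by positivity) (by linarith)]
      nlinarith
    exact abs_le_of_sq_le_sq' this (by positivity) |>.2

end Vale.Agent.P162
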