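import Mathlib

namespace Vale.Agent.P162

open Finset

section count

variable {α : Type*} [Fintype α] [DecidableEq α]

theorem exists_perm_map_eq (F₁ F₂ : Finset α) (h : F₁.card = F₂.card) :
    ∃ σ : Equiv.Perm α, F₁.map σ.toEmbedding = F₂ := by
  have e : {x // x ∈ F₁} ≃ {x // x ∈ F₂} := Fintype.equivOfCardEq (by simpa using h)
  refine ⟨e.extendSubtype, ?_⟩
  apply Finset.eq_of_subset_of_card_le
  · intro y hy
    obtain ⟨x, hx, rfl⟩ := Finset.mem_map.mp hy
    exact e.extendSubtype_mem x hx
  · rw [Finset.card_map, h]

theorem card_fiber_eq (E F₁ F₂ : Finset α) (h : F₁.card = F₂.card) :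
    (univ.filter fun g : Equiv.Perm α => E.map g.toEmbedding = F₁).card
      = (univ.filter fun g : Equiv.Perm α => E.map g.toEmbedding = F₂).card := by
  obtain ⟨σ, hσ⟩ := exists_perm_map_eq F₁ F₂ h
  have hmul : ∀ (τ g : Equiv.Perm α), E.map (τ * g).toEmbedding
      = (E.map g.toEmbedding).map τ.toEmbedding := by
    intro τ g
    rw [Finset.map_map]
    rfl
  refine Finset.card_nbij' (fun g => σ * g) (fun g => σ⁻¹ * g) ?_ ?_ ?_ ?_
  · intro g hg
    simp only [Finset.coe_filter, Finset.mem_univ, true_and, Set.mem_ofPred_eq] at hg ⊢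
    rw [hmul, hg, hσ]
  · intro g hg
    simp only [Finset.coe_filter, Finset.mem_univ, true_and, Set.mem_ofPred_eq] at hg ⊢
    rw [hmul, hg, ← hσ, Finset.map_map]
    ext x
    simp
  · intro g _; simp
  · intro g _; simp

theorem card_filter_inter (T : Finset α) (e k : ℕ) (hk : k ≤ e) :
    ((powersetCard e (univ : Finset α)).filter fun F => (F ∩ T).card = k).card
      = T.card.choose k * (Tᶜ).card.choose (e - k) := by
  rw [← Finset.card_powersetCard, ← Finset.card_powersetCard, ← Finset.card_product]
  refine Finset.card_nbij' (fun F => (F ∩ T, F ∩ Tᶜ)) (fun AB => AB.1 ∪ AB.2) ?_ ?_ ?_ ?_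
  · intro F hF
    simp only [Finset.coe_filter, Finset.mem_powersetCard, Finset.subset_univ, true_and,
      Set.mem_ofPred_eq] at hF
    simp only [Finset.coe_product, Set.mem_prod, Finset.mem_coe, Finset.mem_powersetCard]
    refine ⟨⟨Finset.inter_subset_right, hF.2⟩, Finset.inter_subset_right, ?_⟩
    have := Finset.card_inter_add_card_sdiff F T
    rw [← Finset.sdiff_eq_inter_compl]
    omega
  · intro AB hAB
    simp only [Finset.coe_product, Set.mem_prod, Finset.mem_coe, Finset.mem_powersetCard] at hAB
    obtain ⟨⟨hA, hAc⟩, hB, hBc⟩ := hAB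
    simp only [Finset.coe_filter, Finset.mem_powersetCard, Finset.subset_univ, true_and,
      Set.mem_ofPred_eq]
    have hdisj : Disjoint AB.1 AB.2 :=
      Finset.disjoint_of_subset_left hA (Finset.disjoint_of_subset_right hB disjoint_compl_right)
    refine ⟨by rw [Finset.card_union_of_disjoint hdisj]; omega, ?_⟩
    have : (AB.1 ∪ AB.2) ∩ T = AB.1 := by
      ext x
      simp only [Finset.mem_inter, Finset.mem_union]
      constructor
      · rintro ⟨h1 | h1, h2⟩
        · exact h1
        · exact absurd h2 (Finset.mem_compl.mp (hB h1))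
      · intro h1; exact ⟨Or.inl h1, hA h1⟩
    rw [this, hAc]
  · intro F _
    ext x
    by_cases hx : x ∈ T <;> simp [hx]
  · intro AB hAB
    simp only [Finset.coe_product, Set.mem_prod, Finset.mem_coe, Finset.mem_powersetCard] at hAB
    obtain ⟨⟨hA, _⟩, hB, _⟩ := hAB
    ext x
    · simp only [Finset.mem_inter, Finset.mem_union]
      constructor
      · rintro ⟨h1 | h1, h2⟩
        · exact h1
        · exact absurd h2 (Finset.mem_compl.mp (hB h1))
      · intro h1; exact ⟨Or.inl h1, hA h1⟩
    · simp only [Finset.mem_inter, Finset.mem_union]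
      constructor
      · rintro ⟨h1 | h1, h2⟩
        · exact absurd (hA h1) (Finset.mem_compl.mp h2)
        · exact h1
      · intro h1; exact ⟨Or.inr h1, hB h1⟩

/-- Number of permutations sending exactly `k` elements of `E` into `T`. -/
theorem card_perm_inter (E T : Finset α) (k : ℕ) (hk : k ≤ E.card) :
    (univ.filter fun g : Equiv.Perm α => (E.filter fun x => g x ∈ T).card = k).card
        * (Fintype.card α).choose E.card
      = (Fintype.card α).factorial * (T.card.choose k * (Tᶜ).card.choose (E.card - k)) := by
  classical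
  set c := (univ.filter fun g : Equiv.Perm α => E.map g.toEmbedding = E).card with hc
  have hfib : ∀ F ∈ powersetCard E.card (univ : Finset α),
      (univ.filter fun g : Equiv.Perm α => E.map g.toEmbedding = F).card = c := by
    intro F hF
    exact card_fiber_eq E F E (Finset.mem_powersetCard.mp hF).2
  have hmaps : ∀ g : Equiv.Perm α, E.map g.toEmbedding ∈ powersetCard E.card (univ : Finset α) := by
    intro g
    simp [Finset.mem_powersetCard]
  have htot : (Fintype.card α).factorial = (Fintype.card α).choose E.card * c := by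
    rw [← Fintype.card_perm, ← Finset.card_univ,
      Finset.card_eq_sum_card_fiberwise (f := fun g : Equiv.Perm α => E.map g.toEmbedding)
        (t := powersetCard E.card (univ : Finset α)) (fun g _ => hmaps g),
      Finset.sum_congr rfl hfib, Finset.sum_const, Finset.card_powersetCard, Finset.card_univ,
      smul_eq_mul]
  have hX : ∀ g : Equiv.Perm α, (E.filter fun x => g x ∈ T).card
      = (E.map g.toEmbedding ∩ T).card := by
    intro g
    rw [← Finset.filter_mem_eq_inter, Finset.filter_map, Finset.card_map]
    rfl
  have hcnt : (univ.filter fun g : Equiv.Perm α => (E.filter fun x => g x ∈ T).card = k).card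
      = (T.card.choose k * (Tᶜ).card.choose (E.card - k)) * c := by
    rw [← card_filter_inter T E.card k hk]
    rw [Finset.card_eq_sum_card_fiberwise (f := fun g : Equiv.Perm α => E.map g.toEmbedding)
        (t := (powersetCard E.card (univ : Finset α)).filter fun F => (F ∩ T).card = k)]
    · rw [Finset.sum_congr rfl (g := fun _ => c), Finset.sum_const, smul_eq_mul]
      intro F hF
      rw [Finset.mem_filter] at hF
      rw [← hfib F hF.1]
      congr 1
      ext g
      simp only [Finset.mem_filter, Finset.mem_univ, true_and]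
      constructor
      · rintro ⟨_, h2⟩; exact h2
      · intro h2; exact ⟨by rw [hX, h2]; exact hF.2, h2⟩
    · intro g hg
      simp only [Finset.coe_filter, Finset.mem_univ, true_and, Set.mem_ofPred_eq] at hg
      simp only [Finset.coe_filter, Set.mem_ofPred_eq]
      exact ⟨hmaps g, by rw [← hX]; exact hg⟩
  rw [hcnt, htot]
  ring

end count

end Vale.Agent.P162
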