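import Vale.Agent.P162.General
import Vale.Agent.P162.Count

namespace Vale.Agent.P162

open Finset

theorem thorpLaw_nonneg (m : ℕ) (g : Equiv.Perm (Fin (2 * m))) : 0 ≤ thorpLaw m g := by
  unfold thorpLaw; positivity

theorem sum_thorpLaw (m : ℕ) : ∑ g, thorpLaw m g = 1 := by
  unfold thorpLaw
  rw [← Finset.sum_div, ← Nat.cast_sum,
    ← Finset.card_eq_sum_card_fiberwise (f := fun c : Fin m → Bool => thorpPerm m c)
      (s := univ) (t := univ) (fun _ _ => Finset.mem_coe.mpr (Finset.mem_univ _))]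
  simp

theorem exists_of_thorpLaw_ne_zero (m : ℕ) (g : Equiv.Perm (Fin (2 * m)))
    (hg : thorpLaw m g ≠ 0) : ∃ c, thorpPerm m c = g := by
  unfold thorpLaw at hg
  have h1 : (univ.filter fun c : Fin m → Bool => thorpPerm m c = g).card ≠ 0 := by
    intro h; apply hg; rw [h]; simp
  obtain ⟨c, hc⟩ := Finset.card_pos.mp (Nat.pos_of_ne_zero h1)
  exact ⟨c, (Finset.mem_filter.mp hc).2⟩

theorem thorpFun_val (m : ℕ) (c : Fin m → Bool) (x : Fin (2 * m)) :
    ∃ b : ℕ, b < 2 ∧ (thorpFun m c x).val = 2 * (x.val % m) + b := by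
  unfold thorpFun
  have hx := x.isLt
  by_cases h : x.val < m
  · simp only [h, dif_pos]
    rw [Nat.mod_eq_of_lt h]
    split_ifs
    · exact ⟨1, by norm_num, rfl⟩
    · exact ⟨0, by norm_num, rfl⟩
  · simp only [h, dif_neg, not_false_eq_true]
    have : x.val % m = x.val - m := by
      rw [Nat.mod_eq_sub_mod (by omega), Nat.mod_eq_of_lt (by omega)]
    rw [this]
    split_ifs
    · exact ⟨0, by norm_num, rfl⟩
    · exact ⟨1, by norm_num, rfl⟩

theorem thorpPerm_testBit (e : ℕ) (c : Fin (2 ^ e) → Bool) (x : Fin (2 * 2 ^ e)) (k : ℕ)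
    (hk : k < e) : (thorpPerm (2 ^ e) c x).val.testBit (k + 1) = x.val.testBit k := by
  obtain ⟨b, hb, hv⟩ := thorpFun_val (2 ^ e) c x
  have : (thorpPerm (2 ^ e) c x).val = 2 * (x.val % 2 ^ e) + b := hv
  rw [this, Nat.testBit_succ]
  have h2 : (2 * (x.val % 2 ^ e) + b) / 2 = x.val % 2 ^ e := by omega
  rw [h2, Nat.testBit_mod_two_pow]
  simp [hk]

theorem reach_testBit (e s : ℕ) (g : Equiv.Perm (Fin (2 * 2 ^ e)))
    (hg : Reach {a | thorpLaw (2 ^ e) a ≠ 0} s g) (x : Fin (2 * 2 ^ e)) (k : ℕ)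
    (hk : k + s ≤ e) : (g x).val.testBit (k + s) = x.val.testBit k := by
  induction s generalizing g x k with
  | zero => rw [show g = 1 from hg]; rfl
  | succ s ih =>
    obtain ⟨h, a, hh, ha, rfl⟩ := hg
    obtain ⟨c, rfl⟩ := exists_of_thorpLaw_ne_zero _ a ha
    rw [Equiv.Perm.mul_apply, show k + (s + 1) = (k + 1) + s by ring, ih h hh _ (k + 1) (by omega)]
    exact thorpPerm_testBit e c x k (by omega)

/-- Flipping bit `i` halves any bit-`i`-insensitive subset of `Fin N`, `N = 2 ^ d`. -/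
theorem two_mul_card_testBit (N d i : ℕ) (hN : N = 2 ^ d) (hi : i < d) (P : ℕ → Prop)
    [DecidablePred P] (hP : ∀ x, P (x ^^^ 2 ^ i) ↔ P x) :
    2 * ((univ : Finset (Fin N)).filter fun x => P x.val ∧ x.val.testBit i = false).card
      = ((univ : Finset (Fin N)).filter fun x => P x.val).card := by
  have hlt : ∀ x : Fin N, x.val ^^^ 2 ^ i < N := by
    intro x
    have h1 : x.val < 2 ^ d := hN ▸ x.isLt
    have h2 : x.val ^^^ 2 ^ i < 2 ^ d :=
      Nat.xor_lt_two_pow h1 (Nat.pow_lt_pow_right (by norm_num) hi)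
    omega
  have hflip : ∀ x : ℕ, (x ^^^ 2 ^ i).testBit i = !x.testBit i := by
    intro x
    rw [Nat.testBit_xor, Nat.testBit_two_pow_self]
    simp
  have hswap : ((univ : Finset (Fin N)).filter fun x => P x.val ∧ x.val.testBit i = false).card
      = ((univ : Finset (Fin N)).filter fun x => P x.val ∧ x.val.testBit i = true).card := by
    refine Finset.card_nbij' (fun x => ⟨x.val ^^^ 2 ^ i, hlt x⟩) (fun x => ⟨x.val ^^^ 2 ^ i, hlt x⟩)
      ?_ ?_ ?_ ?_
    · intro x hx
      simp only [Finset.coe_filter, Finset.mem_univ, true_and, Set.mem_ofPred_eq] at hx ⊢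
      exact ⟨(hP _).mpr hx.1, by rw [hflip, hx.2]; rfl⟩
    · intro x hx
      simp only [Finset.coe_filter, Finset.mem_univ, true_and, Set.mem_ofPred_eq] at hx ⊢
      exact ⟨(hP _).mpr hx.1, by rw [hflip, hx.2]; rfl⟩
    · intro x _
      apply Fin.ext
      simp
    · intro x _
      apply Fin.ext
      simp
  have hsplit : ((univ : Finset (Fin N)).filter fun x => P x.val).card
      = ((univ : Finset (Fin N)).filter fun x => P x.val ∧ x.val.testBit i = false).card
        + ((univ : Finset (Fin N)).filter fun x => P x.val ∧ x.val.testBit i = true).card := by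
    rw [← Finset.card_union_of_disjoint]
    · congr 1
      ext x
      simp only [Finset.mem_filter, Finset.mem_univ, true_and, Finset.mem_union]
      cases x.val.testBit i <;> simp
    · rw [Finset.disjoint_filter]
      intro x _ h1 h2
      rw [h1.2] at h2
      exact absurd h2.2 (by simp)
  rw [hsplit, ← hswap]
  ring

end Vale.Agent.P162
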