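import Vale.Agent.P162.Ent2
import Vale.Agent.P162.Bits

/-!
# P162 bridge, part A: general facts on convolution powers and on averages over classes
-/

namespace Vale.Agent.P162

open Finset

set_option linter.unusedSectionVars false

section convgen

variable {G : Type*} [Group G] [Fintype G] [DecidableEq G]

theorem conv_assoc (μ ν ρ : G → ℝ) : conv (conv μ ν) ρ = conv μ (conv ν ρ) := by
  funext g
  unfold conv
  simp_rw [Finset.sum_mul, Finset.mul_sum]
  rw [Finset.sum_comm]
  refine Finset.sum_congr rfl fun k _ => ?_
  rw [← Equiv.sum_comp (Equiv.mulLeft k)]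
  refine Finset.sum_congr rfl fun h _ => ?_
  simp [mul_assoc]

theorem conv_delta_left (μ : G → ℝ) : conv (fun g : G => if g = 1 then (1 : ℝ) else 0) μ = μ := by
  funext g
  unfold conv
  rw [Finset.sum_eq_single (1 : G)]
  · simp
  · intro b _ hb; simp [hb]
  · intro h; exact absurd (Finset.mem_univ _) h

theorem conv_delta_right (μ : G → ℝ) : conv μ (fun g : G => if g = 1 then (1 : ℝ) else 0) = μ := by
  funext g
  unfold conv
  rw [Finset.sum_eq_single g]
  · simp
  · intro b _ hb
    have : b⁻¹ * g ≠ 1 := by
      intro h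
      apply hb
      have := congrArg (fun z => b * z) h
      simpa using this.symm
    simp [this]
  · intro h; exact absurd (Finset.mem_univ _) h

theorem convPow_succ' (μ : G → ℝ) (t : ℕ) : convPow μ (t + 1) = conv μ (convPow μ t) := by
  induction t with
  | zero =>
    show conv (convPow μ 0) μ = conv μ (convPow μ 0)
    simp only [convPow]
    rw [conv_delta_left, conv_delta_right]
  | succ t ih =>
    show conv (convPow μ (t + 1)) μ = conv μ (convPow μ (t + 1))
    conv_lhs => rw [ih]
    rw [conv_assoc]
    rfl

end convgen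

/-- Convolution with the law of one Thorp shuffle on the left: an average over the coins. -/
theorem conv_thorpLaw (m : ℕ) (ν : Equiv.Perm (Fin (2 * m)) → ℝ) (g : Equiv.Perm (Fin (2 * m))) :
    conv (thorpLaw m) ν g = (∑ c : Fin m → Bool, ν ((thorpPerm m c)⁻¹ * g)) / 2 ^ m := by
  unfold conv thorpLaw
  have h1 : ∀ h : Equiv.Perm (Fin (2 * m)),
      ((univ.filter fun c : Fin m → Bool => thorpPerm m c = h).card : ℝ) / 2 ^ m * ν (h⁻¹ * g)
        = ∑ c : Fin m → Bool, (if thorpPerm m c = h then ν (h⁻¹ * g) / 2 ^ m else 0) := by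
    intro h
    rw [Finset.card_filter]
    push_cast
    rw [Finset.sum_div, Finset.sum_mul]
    refine Finset.sum_congr rfl fun c _ => ?_
    split_ifs <;> ring
  simp_rw [h1]
  rw [Finset.sum_comm, Finset.sum_div]
  refine Finset.sum_congr rfl fun c _ => ?_
  rw [Finset.sum_ite_eq]
  simp

section avggen

open Vale.Agent.P335

open scoped Classical

variable {Ω Ω' : Type*} [Fintype Ω] [Fintype Ω'] {K K' : Type*}

/-- Transport of a conditional expectation along a bijection. -/
theorem avg_comp_equiv (b : Ω' ≃ Ω) (k : Ω → K) (F : Ω → ℝ) (x : Ω') :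
    avg (fun y => k (b y)) (fun y => F (b y)) x = avg k F (b x) := by
  unfold avg
  have hmem : ∀ i : Ω', i ∈ cls (fun y => k (b y)) x ↔ b i ∈ cls k (b x) := by
    intro i; simp [mem_cls]
  rw [Finset.sum_equiv b hmem (fun i _ => rfl), Finset.card_equiv b hmem]

/-- The conditional expectation depends on the key only through its kernel. -/
theorem avg_eq_of_kernel {k : Ω → K} {k' : Ω → K'} (h : ∀ x y, k x = k y ↔ k' x = k' y) :
    avg k = avg k' := by
  funext F x
  apply avg_eq_of_cls_eq
  ext y
  simp [mem_cls, h]

/-- A conditional expectation computed through a parametrisation of the class. -/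
theorem avg_eq_of_param {ι : Type*} [Fintype ι] (k : Ω → K) (x : Ω) (f : ι → Ω)
    (hinj : Function.Injective f) (hmem : ∀ c, k (f c) = k x)
    (hsurj : ∀ y, k y = k x → ∃ c, f c = y) (F : Ω → ℝ) :
    avg k F x = (∑ c, F (f c)) / (Fintype.card ι : ℝ) := by
  unfold avg
  have himg : cls k x = univ.image f := by
    ext y
    simp only [mem_cls, mem_image, mem_univ, true_and]
    constructor
    · intro hy; exact hsurj y hy
    · rintro ⟨c, rfl⟩; exact hmem c
  rw [himg, Finset.sum_image (fun a _ b _ hab => hinj hab), Finset.card_image_of_injective _ hinj,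
    Finset.card_univ]

end avggen

end Vale.Agent.P162
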