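import Vale.Agent.P162.Ent2

/-!
# P162: a few more lemmas on `avg`   (task A4)
-/

namespace Vale.Agent.P162

open Finset Real Vale.Agent.P335

open scoped Classical

noncomputable section

variable {Ω : Type*} [Fintype Ω] {K K' : Type*}

/-- `avg` only depends on the partition induced by the key. -/
theorem avg_congr_of_iff {k : Ω → K} {k' : Ω → K'} (h : ∀ x y, k x = k y ↔ k' x = k' y) :
    (avg k : (Ω → ℝ) → Ω → ℝ) = avg k' := by
  funext F x
  apply avg_eq_of_cls_eq
  ext y
  rw [mem_cls, mem_cls]
  exact h y x

/-- An injective key gives the identity. -/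
theorem avg_of_injective {k : Ω → K} (h : Function.Injective k) (F : Ω → ℝ) : avg k F = F :=
  avg_of_invariant (fun x y hxy => by rw [h hxy])

/-- A constant key gives the mean. -/
theorem avg_of_const_key {k : Ω → K} (h : ∀ x y, k x = k y) (F : Ω → ℝ) :
    avg k F = fun _ => mean F := by
  funext x
  have hc : cls k x = univ := by
    ext y
    simp [mem_cls, h y x]
  unfold avg mean
  rw [hc, card_univ]

theorem avg_const (k : Ω → K) (c : ℝ) : avg k (fun _ : Ω => c) = fun _ => c :=
  avg_of_invariant (fun _ _ _ => rfl)

end

end Vale.Agent.P162
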