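import Vale.Agent.P162.SLAbs
import Vale.Agent.P162.EntExtra

/-!
# P162: the clean single class model: statements of L1 and SL+ on `Perm X`

`X` = positions of one class, `γ` = the bit that is resampled, `ι0` = flip of that bit,
`ℓ` = label of the pair `{x, ι0 x}`, `α` = top bit.  A group element `g : Perm X` sends cards to
positions.  Keys: `lkey λ g = λ ∘ g`.
-/

namespace Vale.Agent.P162

open Finset Vale.Agent.P335

open scoped Classical

noncomputable section

variable {X : Type*} [Fintype X] [DecidableEq X] {β : Type*}

/-- The key `g ↦ lam ∘ g` attached to a label function `lam` on the positions. -/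
def lkey {B : Type*} (lam : X → B) (g : Equiv.Perm X) : X → B := fun c => lam (g c)

/-- The pair structure on the positions. -/
structure PairStr (γ : X → Bool) (ι0 : X → X) (ℓ : X → β) : Prop where
  invol : ∀ x, ι0 (ι0 x) = x
  flip : ∀ x, γ (ι0 x) = !γ x
  lab : ∀ x y, ℓ x = ℓ y ↔ (y = x ∨ y = ι0 x)

/-- The pair structure together with a top bit; every cell has `2 ^ (r - 1)` points. -/
structure TopStr (r : ℕ) (α γ : X → Bool) (ι0 : X → X) (ℓ : X → β) : Prop extends
    PairStr γ ι0 ℓ where
  top : ∀ x, α (ι0 x) = α x
  cells : ∀ a c : Bool, (univ.filter (fun x => α x = a ∧ γ x = c)).card = 2 ^ (r - 1)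

end

end Vale.Agent.P162
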