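import Vale.Agent.P162.Tensor

/-!
# P162: localised conditional expectations on `Perm (Cube d)` (definitions)

See `notes/P162_proof.md`, sections 1 and 3.
-/

namespace Vale.Agent.P162

open Finset Vale.Agent.P335

open scoped Classical

noncomputable section

/-- Positions of the deck of `2 ^ d` cards. -/
abbrev Cube (d : ℕ) : Type := Fin d → Bool

variable {d : ℕ}

/-- Keep the coordinates in `S`, erase the others. -/
def mask (S : Set (Fin d)) (p : Cube d) : Cube d := fun i => if i ∈ S then p i else false

/-- Label of a position: inside `T` only the `S`-coordinates are remembered, outside `T`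
everything is. -/
def lab (T : Set (Cube d)) (S : Set (Fin d)) (p : Cube d) : Bool × Cube d :=
  if p ∈ T then (true, mask S p) else (false, p)

/-- The key `g ↦ lab ∘ g`. -/
def key (T : Set (Cube d)) (S : Set (Fin d)) (g : Equiv.Perm (Cube d)) :
    Cube d → Bool × Cube d := fun c => lab T S (g c)

/-- Coordinates `i < j` or `i ≥ j + s`. -/
def US (d j s : ℕ) : Set (Fin d) := {i | i.val < j ∨ j + s ≤ i.val}

/-- Coordinates `i ≤ j` or `i > j + r`. -/
def VS (d j r : ℕ) : Set (Fin d) := {i | i.val ≤ j ∨ j + r < i.val}

/-- `T` is a union of classes of `mask S`. -/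
def Saturated (S : Set (Fin d)) (T : Set (Cube d)) : Prop :=
  ∀ p q, mask S p = mask S q → (p ∈ T ↔ q ∈ T)

/-- The class of `p0`. -/
def cell (S : Set (Fin d)) (p0 : Cube d) : Set (Cube d) := {p | mask S p = mask S p0}

/-- The multi-level inequality for the block `T`. -/
def MLcube (d : ℕ) (T : Set (Cube d)) (j r : ℕ) (ε : ℕ → ℝ) : Prop :=
  MLkey r ε (fun s => key T (US d j s)) (key T (VS d j r))

/-- The densities along one pass: `passSeq F 0 = F`, step `j` resamples column `j`. -/
def passSeq (F : Equiv.Perm (Cube d) → ℝ) : ℕ → Equiv.Perm (Cube d) → ℝ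
  | 0 => F
  | j + 1 => avg (key Set.univ (US d j 1)) (passSeq F j)

/-- One pass = `d` steps. -/
def pass (F : Equiv.Perm (Cube d) → ℝ) : Equiv.Perm (Cube d) → ℝ := passSeq F d

end

end Vale.Agent.P162
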