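import Vale.Agent.P162.Cube
import Vale.Agent.P162.Clean

/-!
# P162: the pair structure and the top structure on one cell of the cube   (task D5, part 1)

`T = cell (US d j (r+1)) p0`, `γ p = p j`, `α p = p (j+r)`, `ι0` = flip of coordinate `j`,
`ℓ p = mask (US d j 1) p`.
-/

namespace Vale.Agent.P162

open Finset Vale.Agent.P335

open scoped Classical

noncomputable section

variable {d : ℕ}

theorem mask_eq_iff (S : Set (Fin d)) (p q : Cube d) :
    mask S p = mask S q ↔ ∀ i ∈ S, p i = q i := by
  constructor
  · intro h i hi
    have := congrFun h i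
    simpa [mask, hi] using this
  · intro h
    funext i
    by_cases hi : i ∈ S
    · simp [mask, hi, h i hi]
    · simp [mask, hi]

theorem mem_cell_iff (S : Set (Fin d)) (p0 p : Cube d) :
    p ∈ cell S p0 ↔ ∀ i ∈ S, p i = p0 i := by
  unfold cell
  exact mask_eq_iff S p p0

/-- the resampled bit -/
def cGam (j r : ℕ) (hjr : j + r < d) (p0 : Cube d) (p : cell (US d j (r + 1)) p0) : Bool :=
  p.1 ⟨j, by omega⟩

/-- the top bit -/
def cAl (j r : ℕ) (hjr : j + r < d) (p0 : Cube d) (p : cell (US d j (r + 1)) p0) : Bool :=
  p.1 ⟨j + r, hjr⟩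

/-- flip of coordinate `j` -/
def cIota (j r : ℕ) (hjr : j + r < d) (p0 : Cube d) (p : cell (US d j (r + 1)) p0) :
    cell (US d j (r + 1)) p0 :=
  ⟨Function.update p.1 ⟨j, by omega⟩ (!p.1 ⟨j, by omega⟩), by
    rw [mem_cell_iff]
    intro i hi
    have hp := (mem_cell_iff _ _ _).1 p.2 i hi
    have hne : i ≠ ⟨j, by omega⟩ := by
      intro h
      subst h
      simp only [US, Set.mem_ofPred_eq] at hi
      omega
    rw [Function.update_of_ne hne]
    exact hp⟩

/-- label of the pair -/
def cEll (j r : ℕ) (p0 : Cube d) (p : cell (US d j (r + 1)) p0) : Cube d :=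
  mask (US d j 1) p.1

theorem mem_US_one_iff (j : ℕ) (hj : j < d) (i : Fin d) : i ∈ US d j 1 ↔ i ≠ ⟨j, hj⟩ := by
  simp only [US, Set.mem_ofPred_eq, ne_eq, Fin.ext_iff]
  omega

theorem cell_pairStr (j r : ℕ) (hjr : j + r < d) (p0 : Cube d) :
    PairStr (cGam j r hjr p0) (cIota j r hjr p0) (cEll j r p0) where
  invol := by
    intro x
    apply Subtype.ext
    funext i
    by_cases hi : i = ⟨j, by omega⟩
    · subst hi
      simp [cIota]
    · simp [cIota, Function.update_of_ne hi]
  flip := by
    intro x
    simp [cGam, cIota]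
  lab := by
    intro x y
    unfold cEll
    rw [mask_eq_iff]
    constructor
    · intro h
      by_cases hj : x.1 ⟨j, by omega⟩ = y.1 ⟨j, by omega⟩
      · left
        apply Subtype.ext
        funext i
        by_cases hi : i = ⟨j, by omega⟩
        · subst hi; exact hj.symm
        · exact (h i ((mem_US_one_iff j (by omega) i).2 hi)).symm
      · right
        apply Subtype.ext
        funext i
        by_cases hi : i = ⟨j, by omega⟩
        · subst hi
          simp only [cIota, Function.update_self]
          revert hj
          cases x.1 ⟨j, by omega⟩ <;> cases y.1 ⟨j, by omega⟩ <;> simp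
        · simp only [cIota, Function.update_of_ne hi]
          exact (h i ((mem_US_one_iff j (by omega) i).2 hi)).symm
    · rintro (h | h) i hi
      · rw [h]
      · rw [h]
        have hne := (mem_US_one_iff j (by omega) i).1 hi
        simp only [cIota, Function.update_of_ne hne]

theorem card_fin_Ioo (j r : ℕ) (hr : 1 ≤ r) (hjr : j + r < d) :
    (univ.filter (fun i : Fin d => j < i.val ∧ i.val < j + r)).card = r - 1 := by
  have h : (univ.filter (fun i : Fin d => j < i.val ∧ i.val < j + r)) =
      (univ : Finset (Fin (r - 1))).image (fun t => (⟨j + 1 + t.val, by omega⟩ : Fin d)) := by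
    ext i
    simp only [Finset.mem_filter, Finset.mem_univ, true_and, Finset.mem_image]
    constructor
    · rintro ⟨h1, h2⟩
      refine ⟨⟨i.val - j - 1, by omega⟩, ?_⟩
      apply Fin.ext
      simp only
      omega
    · rintro ⟨t, rfl⟩
      have := t.2
      simp only
      omega
  rw [h, Finset.card_image_of_injective, Finset.card_univ, Fintype.card_fin]
  intro a b hab
  apply Fin.ext
  have := congrArg Fin.val hab
  simp only at this
  omega

/-- number of points of the cube with prescribed values outside a set of coordinates -/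
theorem card_prescribed (P : Fin d → Prop) (q : Cube d) :
    (univ.filter (fun p : Cube d => ∀ i, ¬ P i → p i = q i)).card =
      2 ^ (univ.filter (fun i : Fin d => P i)).card := by
  have h : (univ.filter (fun p : Cube d => ∀ i, ¬ P i → p i = q i)) =
      Fintype.piFinset (fun i : Fin d => if P i then (univ : Finset Bool) else {q i}) := by
    ext p
    simp only [Finset.mem_filter, Finset.mem_univ, true_and, Fintype.mem_piFinset]
    constructor
    · intro h i
      by_cases hi : P i
      · simp [hi]
      · simp [hi, h i hi]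
    · intro h i hi
      have := h i
      simpa [hi] using this
  rw [h, Fintype.card_piFinset]
  have h2 : ∀ i : Fin d, (if P i then (univ : Finset Bool) else {q i}).card = if P i then 2 else 1 := by
    intro i
    by_cases hi : P i <;> simp [hi]
  simp_rw [h2]
  rw [Finset.prod_ite]
  simp

theorem cell_topStr (j r : ℕ) (hr : 1 ≤ r) (hjr : j + r < d) (p0 : Cube d) :
    TopStr r (cAl j r hjr p0) (cGam j r hjr p0) (cIota j r hjr p0) (cEll j r p0) where
  toPairStr := cell_pairStr j r hjr p0
  top := by
    intro x
    have hne : (⟨j + r, hjr⟩ : Fin d) ≠ ⟨j, by omega⟩ := by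
      intro h
      have := congrArg Fin.val h
      simp only at this
      omega
    simp only [cAl, cIota, Function.update_of_ne hne]
  cells := by
    intro a c
    set q : Cube d := fun i => if i.val = j then c else if i.val = j + r then a else p0 i with hq
    have e := card_prescribed (fun i : Fin d => j < i.val ∧ i.val < j + r) q
    have e3 : (univ.filter (fun p : Cube d =>
        ∀ i : Fin d, ¬ (j < i.val ∧ i.val < j + r) → p i = q i)).card = 2 ^ (r - 1) := by
      rw [← card_fin_Ioo j r hr hjr]
      convert e
    rw [← e3]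
    have hj : j < d := by omega
    have hq1 : q ⟨j, hj⟩ = c := by simp [hq]
    have hq2 : q ⟨j + r, hjr⟩ = a := by
      simp only [hq]
      rw [if_neg (by omega), if_pos trivial]
    have hq3 : ∀ i : Fin d, i.val ≠ j → i.val ≠ j + r → q i = p0 i := by
      intro i h1 h2
      simp only [hq]
      rw [if_neg h1, if_neg h2]
    apply Finset.card_bij (fun x _ => x.1)
    · intro x hx
      rw [Finset.mem_filter] at hx ⊢
      refine ⟨Finset.mem_univ _, ?_⟩
      intro i hi
      have hx2 := (mem_cell_iff _ _ _).1 x.2 i
      by_cases h1 : i.val = j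
      · have : i = ⟨j, hj⟩ := Fin.ext h1
        subst this
        rw [hq1]
        exact hx.2.2
      · by_cases h2 : i.val = j + r
        · have : i = ⟨j + r, hjr⟩ := Fin.ext h2
          subst this
          rw [hq2]
          exact hx.2.1
        · rw [hq3 i h1 h2]
          apply hx2
          simp only [US, Set.mem_ofPred_eq]
          omega
    · intro x _ y _ h
      exact Subtype.ext h
    · intro p hp
      rw [Finset.mem_filter] at hp
      have hp := hp.2
      have hmem : p ∈ cell (US d j (r + 1)) p0 := by
        rw [mem_cell_iff]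
        intro i hi
        simp only [US, Set.mem_ofPred_eq] at hi
        rw [hp i (by omega)]
        exact hq3 i (by omega) (by omega)
      refine ⟨⟨p, hmem⟩, ?_, rfl⟩
      rw [Finset.mem_filter]
      refine ⟨Finset.mem_univ _, ?_, ?_⟩
      · show p ⟨j + r, hjr⟩ = a
        rw [hp ⟨j + r, hjr⟩ (by simp only; omega)]
        exact hq2
      · show p ⟨j, _⟩ = c
        rw [hp ⟨j, hj⟩ (by simp only; omega)]
        exact hq1

/-- on the cell, `mask (VS d j r)` induces the same partition as `γ` -/
theorem cell_mask_VS_iff (j r : ℕ) (hjr : j + r < d) (p0 : Cube d)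
    (p q : cell (US d j (r + 1)) p0) :
    mask (VS d j r) p.1 = mask (VS d j r) q.1 ↔ cGam j r hjr p0 p = cGam j r hjr p0 q := by
  rw [mask_eq_iff]
  have hj : j < d := by omega
  constructor
  · intro h
    exact h ⟨j, by omega⟩ (by simp [VS])
  · intro h i hi
    by_cases h1 : i.val = j
    · have : i = ⟨j, hj⟩ := Fin.ext h1
      subst this
      exact h
    · have hi' : i ∈ US d j (r + 1) := by
        simp only [VS, US, Set.mem_ofPred_eq] at hi ⊢
        omega
      rw [(mem_cell_iff _ _ _).1 p.2 i hi', (mem_cell_iff _ _ _).1 q.2 i hi']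

/-- on the cell, `mask (US d j r)` induces the same partition as `α` -/
theorem cell_mask_US_iff (j r : ℕ) (hjr : j + r < d) (p0 : Cube d)
    (p q : cell (US d j (r + 1)) p0) :
    mask (US d j r) p.1 = mask (US d j r) q.1 ↔ cAl j r hjr p0 p = cAl j r hjr p0 q := by
  rw [mask_eq_iff]
  constructor
  · intro h
    exact h ⟨j + r, hjr⟩ (by simp [US])
  · intro h i hi
    by_cases h1 : i.val = j + r
    · have : i = ⟨j + r, hjr⟩ := Fin.ext h1
      subst this
      exact h
    · have hi' : i ∈ US d j (r + 1) := by
        simp only [US, Set.mem_ofPred_eq] at hi ⊢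
        omega
      rw [(mem_cell_iff _ _ _).1 p.2 i hi', (mem_cell_iff _ _ _).1 q.2 i hi']

/-- on the cell, `mask (VS d j (r-1))` induces the same partition as `(α, γ)` -/
theorem cell_mask_VS_pred_iff (j r : ℕ) (hr : 1 ≤ r) (hjr : j + r < d) (p0 : Cube d)
    (p q : cell (US d j (r + 1)) p0) :
    mask (VS d j (r - 1)) p.1 = mask (VS d j (r - 1)) q.1 ↔
      (cAl j r hjr p0 p, cGam j r hjr p0 p) = (cAl j r hjr p0 q, cGam j r hjr p0 q) := by
  rw [mask_eq_iff, Prod.mk.injEq]
  have hj : j < d := by omega
  constructor
  · intro h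
    refine ⟨h ⟨j + r, hjr⟩ ?_, h ⟨j, by omega⟩ (by simp [VS])⟩
    simp only [VS, Set.mem_ofPred_eq]
    omega
  · rintro ⟨ha, hc⟩ i hi
    by_cases h1 : i.val = j + r
    · have : i = ⟨j + r, hjr⟩ := Fin.ext h1
      subst this
      exact ha
    · by_cases h2 : i.val = j
      · have : i = ⟨j, hj⟩ := Fin.ext h2
        subst this
        exact hc
      · have hi' : i ∈ US d j (r + 1) := by
          simp only [VS, US, Set.mem_ofPred_eq] at hi ⊢
          omega
        rw [(mem_cell_iff _ _ _).1 p.2 i hi', (mem_cell_iff _ _ _).1 q.2 i hi']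

/-- labels with the same partition give keys with the same partition -/
theorem lkey_iff_of_iff {X : Type*} {B B' : Type*} {lam : X → B} {lam' : X → B'}
    (h : ∀ p q, lam p = lam q ↔ lam' p = lam' q) (x y : Equiv.Perm X) :
    lkey lam x = lkey lam y ↔ lkey lam' x = lkey lam' y := by
  unfold lkey
  rw [funext_iff, funext_iff]
  exact forall_congr' fun c => h _ _

end

end Vale.Agent.P162
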