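import Mathlib

namespace Vale.Agent.P162

/-- `exp x - 1 ≤ x exp x` for every real `x`. -/
theorem exp_sub_one_le (x : ℝ) : Real.exp x - 1 ≤ x * Real.exp x := by
  have h := Real.add_one_le_exp (-x)
  have h2 : (-x + 1) * Real.exp x ≤ Real.exp (-x) * Real.exp x :=
    mul_le_mul_of_nonneg_right h (Real.exp_pos x).le
  rw [← Real.exp_add] at h2
  simp at h2
  linarith

theorem exp_le_quad_of_nonneg (x : ℝ) (hx : 0 ≤ x) :
    Real.exp x ≤ 1 + x + x ^ 2 * Real.exp x / 2 := by
  have hd : ∀ y : ℝ, HasDerivAt (fun y : ℝ => 1 + y + y ^ 2 * Real.exp y / 2 - Real.exp y)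
      (1 + (2 * y * Real.exp y + y ^ 2 * Real.exp y) / 2 - Real.exp y) y := by
    intro y
    have h1 : HasDerivAt (fun y : ℝ => y ^ 2) (2 * y) y := by
      simpa using hasDerivAt_pow 2 y
    have h2 := (h1.mul (Real.hasDerivAt_exp y)).div_const 2
    have h3 := (((hasDerivAt_id y).const_add 1).add h2).sub (Real.hasDerivAt_exp y)
    exact h3
  have hmono : Monotone (fun y : ℝ => 1 + y + y ^ 2 * Real.exp y / 2 - Real.exp y) := by
    apply monotone_of_deriv_nonneg
    · intro y; exact (hd y).differentiableAt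
    · intro y
      rw [(hd y).deriv]
      have := exp_sub_one_le y
      have h2 : 0 ≤ y ^ 2 * Real.exp y := by positivity
      nlinarith
  have := hmono hx
  simp at this
  linarith

theorem exp_le_quad_of_nonpos (x : ℝ) (hx : x ≤ 0) :
    Real.exp x ≤ 1 + x + x ^ 2 / 2 := by
  have hd : ∀ y : ℝ, HasDerivAt (fun y : ℝ => 1 + y + y ^ 2 / 2 - Real.exp y)
      (1 + (2 * y) / 2 - Real.exp y) y := by
    intro y
    have h1 : HasDerivAt (fun y : ℝ => y ^ 2) (2 * y) y := by
      simpa using hasDerivAt_pow 2 y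
    have h3 := (((hasDerivAt_id y).const_add 1).add (h1.div_const 2)).sub (Real.hasDerivAt_exp y)
    exact h3
  have hanti : Antitone (fun y : ℝ => 1 + y + y ^ 2 / 2 - Real.exp y) := by
    apply antitone_of_deriv_nonpos
    · intro y; exact (hd y).differentiableAt
    · intro y
      rw [(hd y).deriv]
      have := Real.add_one_le_exp y
      linarith
  have := hanti hx
  simp at this
  linarith

/-- Second order Taylor bound for the exponential. -/
theorem exp_le_quad (x : ℝ) : Real.exp x ≤ 1 + x + x ^ 2 * Real.exp |x| / 2 := by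
  rcases le_total 0 x with hx | hx
  · rw [abs_of_nonneg hx]; exact exp_le_quad_of_nonneg x hx
  · have h := exp_le_quad_of_nonpos x hx
    have h1 : 1 ≤ Real.exp |x| := Real.one_le_exp (abs_nonneg x)
    have h2 : x ^ 2 * 1 ≤ x ^ 2 * Real.exp |x| := mul_le_mul_of_nonneg_left h1 (by positivity)
    linarith

/-- auxiliary function for the Pinsker type inequality. -/
noncomputable def psiAux (x : ℝ) : ℝ := Real.log x - (x - 1) * (5 * x + 1) / (2 * x * (x + 2))

theorem hasDerivAt_psiAux (x : ℝ) (hx : 0 < x) :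
    HasDerivAt psiAux ((x - 1) ^ 3 / (x ^ 2 * (x + 2) ^ 2)) x := by
  have h1 : HasDerivAt (fun y : ℝ => (y - 1) * (5 * y + 1)) (1 * (5 * x + 1) + (x - 1) * (5 * 1)) x :=
    ((hasDerivAt_id x).sub_const 1).mul ((((hasDerivAt_id x).const_mul 5)).add_const 1)
  have h2 : HasDerivAt (fun y : ℝ => 2 * y * (y + 2)) (2 * 1 * (x + 2) + 2 * x * 1) x :=
    ((hasDerivAt_id x).const_mul 2).mul ((hasDerivAt_id x).add_const 2)
  have hne : 2 * x * (x + 2) ≠ 0 := by positivity
  have h3 := (Real.hasDerivAt_log hx.ne').sub (h1.div h2 hne)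
  have e : x⁻¹ - ((1 * (5 * x + 1) + (x - 1) * (5 * 1)) * (2 * x * (x + 2))
      - (x - 1) * (5 * x + 1) * (2 * 1 * (x + 2) + 2 * x * 1)) / (2 * x * (x + 2)) ^ 2
      = (x - 1) ^ 3 / (x ^ 2 * (x + 2) ^ 2) := by
    field_simp
    ring
  rw [← e]
  exact h3

theorem psiAux_one : psiAux 1 = 0 := by simp [psiAux]

theorem psiAux_nonneg (x : ℝ) (hx : 0 < x) : 0 ≤ psiAux x := by
  rcases le_total 1 x with h | h
  · have hmono : MonotoneOn psiAux (Set.Ici 1) := by
      apply monotoneOn_of_deriv_nonneg (convex_Ici 1)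
      · intro y hy
        have hy' : (0 : ℝ) < y := lt_of_lt_of_le one_pos hy
        exact (hasDerivAt_psiAux y hy').continuousAt.continuousWithinAt
      · intro y hy
        rw [interior_Ici] at hy
        have hy' : (0 : ℝ) < y := lt_trans one_pos hy
        exact (hasDerivAt_psiAux y hy').differentiableAt.differentiableWithinAt
      · intro y hy
        rw [interior_Ici] at hy
        have hy1 : (1 : ℝ) < y := hy
        have hy' : (0 : ℝ) < y := lt_trans one_pos hy
        rw [(hasDerivAt_psiAux y hy').deriv]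
        have : 0 ≤ y - 1 := by linarith
        positivity
    have := hmono (Set.mem_Ici.mpr le_rfl) (Set.mem_Ici.mpr h) h
    rwa [psiAux_one] at this
  · have hanti : AntitoneOn psiAux (Set.Ioc 0 1) := by
      apply antitoneOn_of_deriv_nonpos (convex_Ioc 0 1)
      · intro y hy
        exact (hasDerivAt_psiAux y hy.1).continuousAt.continuousWithinAt
      · intro y hy
        rw [interior_Ioc] at hy
        exact (hasDerivAt_psiAux y hy.1).differentiableAt.differentiableWithinAt
      · intro y hy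
        rw [interior_Ioc] at hy
        rw [(hasDerivAt_psiAux y hy.1).deriv]
        have h1 : y - 1 ≤ 0 := by linarith [hy.2]
        have h3 : (y - 1) ^ 3 ≤ 0 := by
          have : (y - 1) ^ 3 = (y - 1) ^ 2 * (y - 1) := by ring
          rw [this]
          exact mul_nonpos_of_nonneg_of_nonpos (by positivity) h1
        have hy0 := hy.1
        exact div_nonpos_of_nonpos_of_nonneg h3 (by positivity)
    have := hanti (Set.mem_Ioc.mpr ⟨hx, h⟩) (Set.mem_Ioc.mpr ⟨one_pos, le_rfl⟩) h
    rwa [psiAux_one] at this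

/-- The pointwise inequality behind Pinsker: `3 (x-1)^2 ≤ (2x+4)(x log x - x + 1)`. -/
theorem pinsker_pointwise (x : ℝ) (hx : 0 < x) :
    3 * (x - 1) ^ 2 ≤ (2 * x + 4) * (x * Real.log x - x + 1) := by
  have h := psiAux_nonneg x hx
  unfold psiAux at h
  have h2 : (x - 1) * (5 * x + 1) / (2 * x * (x + 2)) ≤ Real.log x := by linarith
  rw [div_le_iff₀ (by positivity)] at h2
  nlinarith

/-- The same inequality including `x = 0` (with `0 log 0 = 0`). -/
theorem pinsker_pointwise' (x : ℝ) (hx : 0 ≤ x) :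
    3 * (x - 1) ^ 2 ≤ (2 * x + 4) * (x * Real.log x - x + 1) := by
  rcases hx.eq_or_lt with h | h
  · subst h; norm_num
  · exact pinsker_pointwise x h

/-- the form used in L1: `(r-1)^2 ≤ (2 (r+2)/3) (r log r - r + 1)`. -/
theorem sq_le_klFun (r : ℝ) (hr : 0 ≤ r) :
    (r - 1) ^ 2 ≤ (2 * (r + 2) / 3) * (r * Real.log r - r + 1) := by
  have := pinsker_pointwise' r hr
  linarith

end Vale.Agent.P162
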