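import Mathlib
import Vale.Agent.P162.RealIneq

/-!
# P162: analytic core of the concrete L1 (section 4 of notes/P162_proof.md)
-/

namespace Vale.Agent.P162

open Finset Real

/-- log-sum inequality with a sub-probability weight `w`. -/
theorem log_sum_ineq {ι : Type*} (s : Finset ι) (a w : ι → ℝ) (ha : ∀ i ∈ s, 0 ≤ a i)
    (hw : ∀ i ∈ s, 0 ≤ w i) (haw : ∀ i ∈ s, w i = 0 → a i = 0) (hW : ∑ i ∈ s, w i ≤ 1) :
    (∑ i ∈ s, a i) * log (∑ i ∈ s, a i) ≤ ∑ i ∈ s, a i * (log (a i) - log (w i)) := by
  set S := ∑ i ∈ s, a i with hS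
  have hS0 : 0 ≤ S := sum_nonneg ha
  rcases hS0.eq_or_lt with h0 | hpos
  · have hz : ∀ i ∈ s, a i = 0 := (sum_eq_zero_iff_of_nonneg ha).mp h0.symm
    rw [← h0, zero_mul]
    apply le_of_eq
    symm
    apply sum_eq_zero
    intro i hi
    rw [hz i hi, zero_mul]
  · have key : ∀ i ∈ s, a i - S * w i ≤ a i * (log (a i) - log (w i)) - a i * log S := by
      intro i hi
      rcases (ha i hi).eq_or_lt with h0 | hai
      · rw [← h0]
        have := mul_nonneg hS0 (hw i hi)
        simp only [zero_mul, sub_zero, zero_sub]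
        linarith
      · have hwi : 0 < w i := by
          rcases (hw i hi).eq_or_lt with h0 | h
          · exact absurd (haw i hi h0.symm) hai.ne'
          · exact h
        have hx : 0 < S * w i / a i := by positivity
        have h1 := Real.log_le_sub_one_of_pos hx
        rw [log_div (by positivity) hai.ne', log_mul hpos.ne' hwi.ne'] at h1
        have h2 := mul_le_mul_of_nonneg_left h1 hai.le
        have h3 : a i * (S * w i / a i - 1) = S * w i - a i := by
          field_simp
        rw [h3] at h2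
        nlinarith
    have hsum := sum_le_sum key
    rw [sum_sub_distrib, sum_sub_distrib, ← mul_sum, ← sum_mul, ← hS] at hsum
    have : S * ∑ i ∈ s, w i ≤ S * 1 := mul_le_mul_of_nonneg_left hW hS0
    linarith

/-- The one step inequality for the law of the transversal. -/
theorem core_step {ι Y : Type*} (J : Finset ι) (S : Finset Y) (a : ι → Y → ℝ)
    (c : ι → Y → Prop) [∀ j y, Decidable (c j y)] (q : ι → ℝ) (N : ℝ) (hN : 0 < N)
    (ha : ∀ j ∈ J, ∀ y ∈ S, 0 ≤ a j y)
    (hac : ∀ j ∈ J, ∀ y ∈ S, ¬ c j y → a j y = 0)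
    (hq : ∀ j ∈ J, ∑ y ∈ S, a j y = q j)
    (hqpos : ∀ j ∈ J, 0 < q j)
    (hq1 : ∑ j ∈ J, q j = 1)
    (hhalf : ∀ i ∈ J, ∀ j ∈ J, i ≠ j → ∑ y ∈ S, (if c j y then a i y else 0) = q i / 2) :
    ∑ y ∈ S, (∑ j ∈ J, a j y) * log (∑ j ∈ J, a j y) ≤
      ∑ j ∈ J, ∑ y ∈ S, a j y * log (a j y) - ∑ j ∈ J, q j * log (N * q j)
        + log (N * (1 + ∑ j ∈ J, q j ^ 2) / 2) := by
  classical
  set nu : Y → ℝ := fun y => ∑ j ∈ J, a j y with hnu
  set Z : Y → ℝ := fun y => ∑ j ∈ J, if c j y then N * q j else 0 with hZ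
  have hnu0 : ∀ y ∈ S, 0 ≤ nu y := fun y hy => sum_nonneg fun j hj => ha j hj y hy
  have hZ0 : ∀ y, 0 ≤ Z y := by
    intro y
    apply sum_nonneg
    intro j hj
    split_ifs
    · exact (mul_pos hN (hqpos j hj)).le
    · exact le_rfl
  have hZpos : ∀ y, ∀ j ∈ J, c j y → 0 < Z y := by
    intro y j hj hc
    have h1 : (if c j y then N * q j else 0) ≤ Z y := by
      apply single_le_sum (f := fun j => if c j y then N * q j else 0) _ hj
      intro i hi
      show 0 ≤ if c i y then N * q i else 0
      split_ifs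
      · exact (mul_pos hN (hqpos i hi)).le
      · exact le_rfl
    rw [if_pos hc] at h1
    exact lt_of_lt_of_le (mul_pos hN (hqpos j hj)) h1
  -- step 1 : pointwise log-sum inequality
  have step1 : ∀ y ∈ S, nu y * log (nu y) ≤
      ∑ j ∈ J, (a j y * log (a j y) - a j y * log (N * q j)) + nu y * log (Z y) := by
    intro y hy
    have h := log_sum_ineq J (fun j => a j y) (fun j => (if c j y then N * q j else 0) / Z y)
      (fun j hj => ha j hj y hy)
      (fun j hj => by
        apply div_nonneg _ (hZ0 y)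
        split_ifs
        · exact (mul_pos hN (hqpos j hj)).le
        · exact le_rfl)
      (fun j hj h0 => by
        by_cases hc : c j y
        · exfalso
          rw [if_pos hc] at h0
          have h1 := hZpos y j hj hc
          have h2 := mul_pos hN (hqpos j hj)
          have : 0 < N * q j / Z y := by positivity
          exact this.ne' h0
        · exact hac j hj y hy hc)
      (by
        rw [← sum_div]
        exact div_self_le_one _)
    refine h.trans ?_
    rw [hnu]
    simp only
    rw [sum_mul, ← sum_add_distrib]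
    apply le_of_eq
    apply sum_congr rfl
    intro j hj
    by_cases hc : c j y
    · rw [if_pos hc, log_div (mul_pos hN (hqpos j hj)).ne' (hZpos y j hj hc).ne']
      ring
    · rw [hac j hj y hy hc]
      ring
  -- the constant
  have hPj : ∀ j ∈ J, ∑ y ∈ S, (if c j y then nu y else 0) = (1 + q j) / 2 := by
    intro j hj
    have h1 : ∀ y ∈ S, (if c j y then nu y else 0) = ∑ i ∈ J, if c j y then a i y else 0 := by
      intro y _
      split_ifs
      · rfl
      · simp
    rw [sum_congr rfl h1, sum_comm]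
    rw [← add_sum_erase J _ hj]
    have h2 : ∑ y ∈ S, (if c j y then a j y else 0) = q j := by
      rw [← hq j hj]
      apply sum_congr rfl
      intro y hy
      split_ifs with hc
      · rfl
      · exact (hac j hj y hy hc).symm
    have h3 : ∑ i ∈ J.erase j, ∑ y ∈ S, (if c j y then a i y else 0) = ∑ i ∈ J.erase j, q i / 2 := by
      apply sum_congr rfl
      intro i hi
      exact hhalf i (mem_of_mem_erase hi) j hj (ne_of_mem_erase hi)
    rw [h2, h3, ← sum_div]
    have h4 : ∑ i ∈ J.erase j, q i = 1 - q j := by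
      rw [← hq1, ← add_sum_erase J _ hj]
      ring
    rw [h4]
    ring
  set C : ℝ := N * (1 + ∑ j ∈ J, q j ^ 2) / 2 with hC
  have hCpos : 0 < C := by
    have : 0 ≤ ∑ j ∈ J, q j ^ 2 := sum_nonneg fun j _ => sq_nonneg _
    positivity
  have hnuZ : ∑ y ∈ S, nu y * Z y = C := by
    have h1 : ∀ y ∈ S, nu y * Z y = ∑ j ∈ J, N * q j * (if c j y then nu y else 0) := by
      intro y _
      rw [hZ]
      simp only
      rw [mul_sum]
      apply sum_congr rfl
      intro j _
      split_ifs <;> ring
    rw [sum_congr rfl h1, sum_comm]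
    have h2 : ∀ j ∈ J, ∑ y ∈ S, N * q j * (if c j y then nu y else 0) = N * q j * ((1 + q j) / 2) := by
      intro j hj
      rw [← mul_sum, hPj j hj]
    rw [sum_congr rfl h2, hC]
    have h3 : ∀ j ∈ J, N * q j * ((1 + q j) / 2) = N / 2 * (q j + q j ^ 2) := by
      intro j _
      ring
    rw [sum_congr rfl h3, ← mul_sum, sum_add_distrib, hq1]
    ring
  have hnu1 : ∑ y ∈ S, nu y = 1 := by
    rw [hnu]
    simp only
    rw [sum_comm, sum_congr rfl hq, hq1]
  -- step 2 : Jensen
  have step2 : ∑ y ∈ S, nu y * log (Z y) ≤ log C := by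
    have h1 : ∀ y ∈ S, nu y * log (Z y) ≤ nu y * Z y / C - nu y + nu y * log C := by
      intro y hy
      rcases (hnu0 y hy).eq_or_lt with h0 | hpos
      · rw [← h0]; simp
      · have hZy : 0 < Z y := by
          by_contra hcon
          have hall : ∀ j ∈ J, a j y = 0 := by
            intro j hj
            by_cases hc : c j y
            · exact absurd (hZpos y j hj hc) hcon
            · exact hac j hj y hy hc
          have : nu y = 0 := sum_eq_zero hall
          exact hpos.ne' this
        have h2 := Real.log_le_sub_one_of_pos (div_pos hZy hCpos)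
        rw [log_div hZy.ne' hCpos.ne'] at h2
        have h3 := mul_le_mul_of_nonneg_left h2 hpos.le
        have h4 : nu y * (Z y / C - 1) = nu y * Z y / C - nu y := by ring
        rw [h4] at h3
        linarith
    have h2 := sum_le_sum h1
    rw [sum_add_distrib, sum_sub_distrib, ← sum_div, hnuZ, hnu1, ← sum_mul, hnu1,
      div_self hCpos.ne'] at h2
    linarith
  -- conclusion
  have h3 := sum_le_sum step1
  rw [sum_add_distrib, sum_comm] at h3
  have h4 : ∑ j ∈ J, ∑ y ∈ S, (a j y * log (a j y) - a j y * log (N * q j)) =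
      ∑ j ∈ J, ∑ y ∈ S, a j y * log (a j y) - ∑ j ∈ J, q j * log (N * q j) := by
    rw [← sum_sub_distrib]
    apply sum_congr rfl
    intro j hj
    rw [sum_sub_distrib, ← sum_mul, hq j hj]
  rw [h4] at h3
  linarith

/-- The numerical inequality `L ≤ (5/6) D(q)`. -/
theorem core_num {ι : Type*} (J : Finset ι) (q : ι → ℝ) (hJ : J.card = 1 ∨ 3 ≤ J.card)
    (hqpos : ∀ j ∈ J, 0 < q j) (hq1 : ∑ j ∈ J, q j = 1) :
    log ((J.card : ℝ) / (J.card + 1) * (1 + ∑ j ∈ J, q j ^ 2)) ≤
      5 / 6 * ∑ j ∈ J, q j * log (J.card * q j) := by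
  rcases hJ with h1 | h3
  · obtain ⟨j, rfl⟩ := card_eq_one.mp h1
    simp only [sum_singleton] at hq1 ⊢
    rw [hq1]
    norm_num
  · set N : ℝ := (J.card : ℝ) with hN
    have hN3 : (3 : ℝ) ≤ N := by rw [hN]; exact_mod_cast h3
    have hNpos : 0 < N := by linarith
    set D := ∑ j ∈ J, q j * log (N * q j) with hD
    have hqle : ∀ j ∈ J, q j ≤ 1 := by
      intro j hj
      rw [← hq1]
      exact single_le_sum (fun i hi => (hqpos i hi).le) hj
    -- chi square
    have hchi : N * ∑ j ∈ J, q j ^ 2 - 1 ≤ 2 * (N + 2) / 3 * D := by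
      have h1 : ∀ j ∈ J, (N * q j - 1) ^ 2 ≤
          2 * (N + 2) / 3 * (N * q j * log (N * q j) - N * q j + 1) := by
        intro j hj
        have hr : 0 ≤ N * q j := (mul_pos hNpos (hqpos j hj)).le
        have h2 := sq_le_klFun (N * q j) hr
        have h3 : 0 ≤ N * q j * log (N * q j) - N * q j + 1 := by
          have hr' := mul_pos hNpos (hqpos j hj)
          have := Real.log_le_sub_one_of_pos (inv_pos.mpr hr')
          rw [log_inv] at this
          have h5 := mul_le_mul_of_nonneg_left this hr
          have h6 : N * q j * ((N * q j)⁻¹ - 1) = 1 - N * q j := by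
            rw [mul_sub, mul_inv_cancel₀ hr'.ne', mul_one]
          rw [h6] at h5
          linarith
        have h4 : N * q j ≤ N := by
          have := hqle j hj
          nlinarith
        refine h2.trans ?_
        apply mul_le_mul_of_nonneg_right _ h3
        linarith
      have h2 := sum_le_sum h1
      rw [← mul_sum] at h2
      have e1 : ∑ j ∈ J, (N * q j - 1) ^ 2 = N * (N * ∑ j ∈ J, q j ^ 2 - 1) := by
        have : ∀ j ∈ J, (N * q j - 1) ^ 2 = N ^ 2 * q j ^ 2 - 2 * N * q j + 1 := by
          intro j _; ring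
        rw [sum_congr rfl this, sum_add_distrib, sum_sub_distrib, ← mul_sum, ← mul_sum, hq1]
        simp only [sum_const, nsmul_eq_mul, mul_one]
        rw [← hN]
        ring
      have e2 : ∑ j ∈ J, (N * q j * log (N * q j) - N * q j + 1) = N * D := by
        rw [sum_add_distrib, sum_sub_distrib, ← mul_sum, hq1]
        simp only [sum_const, nsmul_eq_mul, mul_one]
        rw [← hN, hD, mul_sum]
        have : ∀ j ∈ J, N * q j * log (N * q j) = N * (q j * log (N * q j)) := by
          intro j _; ring
        rw [sum_congr rfl this]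
        ring
      rw [e1, e2] at h2
      have h5 : N * (N * ∑ j ∈ J, q j ^ 2 - 1) ≤ N * (2 * (N + 2) / 3 * D) := by
        calc _ ≤ _ := h2
          _ = _ := by ring
      exact le_of_mul_le_mul_left h5 hNpos
    have hD0 : 0 ≤ D := by
      have hsq : 1 ≤ N * ∑ j ∈ J, q j ^ 2 := by
        have := sq_sum_le_card_mul_sum_sq (s := J) (f := q)
        rw [hq1] at this
        rw [← hN] at this
        linarith
      have : 0 ≤ 2 * (N + 2) / 3 * D := by linarith
      have h2 : 0 < 2 * (N + 2) / 3 := by positivity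
      exact nonneg_of_mul_nonneg_right this h2
    have hpos : 0 < N / (N + 1) * (1 + ∑ j ∈ J, q j ^ 2) := by
      have : 0 ≤ ∑ j ∈ J, q j ^ 2 := sum_nonneg fun j _ => sq_nonneg _
      positivity
    have h1 := Real.log_le_sub_one_of_pos hpos
    refine h1.trans ?_
    have e : N / (N + 1) * (1 + ∑ j ∈ J, q j ^ 2) - 1 = (N * ∑ j ∈ J, q j ^ 2 - 1) / (N + 1) := by
      field_simp
      ring
    rw [e, div_le_iff₀ (by linarith)]
    refine hchi.trans ?_
    nlinarith

end Vale.Agent.P162
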