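import Mathlib

/-!
# P162: perfect matchings and transversals, root peeling (section 4 of notes/P162_proof.md)
-/

namespace Vale.Agent.P162

open Finset Equiv

variable {α : Type*} [Fintype α] [DecidableEq α]

/-- Perfect matchings of the finset `V`: involutions whose set of moved points is exactly `V`. -/
def Mat (V : Finset α) : Finset (Perm α) :=
  univ.filter fun m => m * m = 1 ∧ ∀ x, m x ≠ x ↔ x ∈ V

/-- `y` contains exactly one point of every pair of `m` inside `V`. -/
def IsTr (V : Finset α) (m : Perm α) (y : Finset α) : Prop := ∀ x ∈ V, (x ∈ y ↔ m x ∉ y)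

instance (V : Finset α) (m : Perm α) (y : Finset α) : Decidable (IsTr V m y) := by
  unfold IsTr
  infer_instance

theorem mem_Mat {V : Finset α} {m : Perm α} :
    m ∈ Mat V ↔ m * m = 1 ∧ ∀ x, m x ≠ x ↔ x ∈ V := by
  simp [Mat]

theorem Mat_apply_apply {V : Finset α} {m : Perm α} (hm : m ∈ Mat V) (x : α) : m (m x) = x := by
  have := (mem_Mat.mp hm).1
  have h2 := congrArg (fun f : Perm α => f x) this
  simpa using h2

theorem Mat_fix {V : Finset α} {m : Perm α} (hm : m ∈ Mat V) {x : α} (hx : x ∉ V) : m x = x := by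
  by_contra h
  exact hx (((mem_Mat.mp hm).2 x).mp h)

theorem Mat_ne {V : Finset α} {m : Perm α} (hm : m ∈ Mat V) {x : α} (hx : x ∈ V) : m x ≠ x :=
  ((mem_Mat.mp hm).2 x).mpr hx

theorem Mat_map_mem {V : Finset α} {m : Perm α} (hm : m ∈ Mat V) {x : α} (hx : x ∈ V) :
    m x ∈ V := by
  apply ((mem_Mat.mp hm).2 (m x)).mp
  rw [Mat_apply_apply hm]
  exact (Mat_ne hm hx).symm

theorem Mat_empty : Mat (∅ : Finset α) = {1} := by
  ext m
  rw [mem_Mat, mem_singleton]
  constructor
  · rintro ⟨_, h⟩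
    ext x
    by_contra hx
    exact absurd ((h x).mp hx) (notMem_empty x)
  · rintro rfl
    simp

theorem peel_mem {V : Finset α} {m : Perm α} (hm : m ∈ Mat V) {ρ j : α} (hρ : ρ ∈ V)
    (hj : m ρ = j) : m * swap ρ j ∈ Mat ((V.erase ρ).erase j) := by
  have hjρ : j ≠ ρ := hj ▸ Mat_ne hm hρ
  have hmj : m j = ρ := by rw [← hj, Mat_apply_apply hm]
  have hval : ∀ x, (m * swap ρ j) x = if x = ρ then ρ else if x = j then j else m x := by
    intro x
    rw [Perm.mul_apply]
    by_cases h1 : x = ρ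
    · subst h1
      simp [hmj]
    · by_cases h2 : x = j
      · subst h2
        simp [h1, hj]
      · rw [swap_apply_of_ne_of_ne h1 h2]
        simp [h1, h2]
  have hmne : ∀ x, x ≠ ρ → x ≠ j → m x ≠ ρ ∧ m x ≠ j := by
    intro x h1 h2
    constructor
    · intro h
      apply h2
      rw [← hj, ← h, Mat_apply_apply hm]
    · intro h
      apply h1
      rw [← hmj, ← h, Mat_apply_apply hm]
  rw [mem_Mat]
  constructor
  · ext x
    rw [Perm.mul_apply, Perm.one_apply]
    by_cases h1 : x = ρ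
    · rw [hval x, if_pos h1, hval, if_pos rfl, h1]
    · by_cases h2 : x = j
      · rw [hval x, if_neg h1, if_pos h2, hval, if_neg hjρ, if_pos rfl, h2]
      · rw [hval x, if_neg h1, if_neg h2, hval, if_neg (hmne x h1 h2).1, if_neg (hmne x h1 h2).2,
          Mat_apply_apply hm]
  · intro x
    rw [hval, mem_erase, mem_erase]
    by_cases h1 : x = ρ
    · simp [h1]
    · by_cases h2 : x = j
      · simp [h2, hjρ]
      · rw [if_neg h1, if_neg h2, (mem_Mat.mp hm).2 x]
        simp [h1, h2]

theorem unpeel_val {V : Finset α} {ρ j : α} {m : Perm α}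
    (hm : m ∈ Mat ((V.erase ρ).erase j)) (x : α) :
    (m * swap ρ j) x = if x = ρ then j else if x = j then ρ else m x := by
  have hfρ : m ρ = ρ := Mat_fix hm (by simp)
  have hfj : m j = j := Mat_fix hm (by simp)
  rw [Perm.mul_apply]
  by_cases h1 : x = ρ
  · subst h1
    simp [hfj]
  · by_cases h2 : x = j
    · subst h2
      simp [h1, hfρ]
    · rw [swap_apply_of_ne_of_ne h1 h2]
      simp [h1, h2]

theorem unpeel_mem {V : Finset α} {ρ j : α} (hρ : ρ ∈ V) (hj : j ∈ V.erase ρ) {m : Perm α}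
    (hm : m ∈ Mat ((V.erase ρ).erase j)) : m * swap ρ j ∈ Mat V := by
  have hjρ : j ≠ ρ := ne_of_mem_erase hj
  have hjV : j ∈ V := mem_of_mem_erase hj
  have hfρ : m ρ = ρ := Mat_fix hm (by simp)
  have hfj : m j = j := Mat_fix hm (by simp)
  have hval := unpeel_val hm
  have hmne : ∀ x, x ≠ ρ → x ≠ j → m x ≠ ρ ∧ m x ≠ j := by
    intro x h1 h2
    constructor
    · intro h
      apply h1
      rw [← Mat_apply_apply hm x, h, hfρ]
    · intro h
      apply h2
      rw [← Mat_apply_apply hm x, h, hfj]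
  rw [mem_Mat]
  constructor
  · ext x
    rw [Perm.mul_apply, Perm.one_apply]
    by_cases h1 : x = ρ
    · rw [hval x, if_pos h1, hval, if_neg hjρ, if_pos rfl, h1]
    · by_cases h2 : x = j
      · rw [hval x, if_neg h1, if_pos h2, hval, if_pos rfl, h2]
      · rw [hval x, if_neg h1, if_neg h2, hval, if_neg (hmne x h1 h2).1, if_neg (hmne x h1 h2).2,
          Mat_apply_apply hm]
  · intro x
    rw [hval]
    by_cases h1 : x = ρ
    · subst h1
      simp [hjρ, hρ]
    · by_cases h2 : x = j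
      · subst h2
        simp [h1, hjV, Ne.symm h1]
      · rw [if_neg h1, if_neg h2, (mem_Mat.mp hm).2 x]
        simp [h1, h2]

/-- Root peeling for sums over perfect matchings. -/
theorem sum_Mat_peel {β : Type*} [AddCommMonoid β] (V : Finset α) {ρ : α} (hρ : ρ ∈ V)
    (f : Perm α → β) :
    ∑ m ∈ Mat V, f m =
      ∑ j ∈ V.erase ρ, ∑ m ∈ Mat ((V.erase ρ).erase j), f (m * swap ρ j) := by
  have hmaps : ∀ m ∈ Mat V, m ρ ∈ V.erase ρ := by
    intro m hm
    exact mem_erase.mpr ⟨Mat_ne hm hρ, Mat_map_mem hm hρ⟩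
  rw [← sum_fiberwise_of_maps_to hmaps]
  apply sum_congr rfl
  intro j hj
  apply sum_nbij' (fun m => m * swap ρ j) (fun m => m * swap ρ j)
  · intro m hm
    rw [mem_filter] at hm
    exact peel_mem hm.1 hρ hm.2
  · intro m hm
    rw [mem_filter]
    refine ⟨unpeel_mem hρ hj hm, ?_⟩
    rw [unpeel_val hm, if_pos rfl]
  · intro m _
    rw [mul_assoc, swap_mul_self, mul_one]
  · intro m _
    rw [mul_assoc, swap_mul_self, mul_one]
  · intro m _
    rw [mul_assoc, swap_mul_self, mul_one]

/-- Being a transversal only depends on the trace of `y` on `V`. -/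
theorem IsTr_congr {V : Finset α} {m : Perm α} (hm : m ∈ Mat V) {y y' : Finset α}
    (h : ∀ x ∈ V, (x ∈ y ↔ x ∈ y')) : IsTr V m y ↔ IsTr V m y' := by
  unfold IsTr
  constructor
  · intro H x hx
    rw [← h x hx, ← h (m x) (Mat_map_mem hm hx)]
    exact H x hx
  · intro H x hx
    rw [h x hx, h (m x) (Mat_map_mem hm hx)]
    exact H x hx

/-- Root peeling for transversals. -/
theorem IsTr_peel {V : Finset α} {ρ j : α} (hρ : ρ ∈ V) (hj : j ∈ V.erase ρ) {m : Perm α}
    (hm : m ∈ Mat ((V.erase ρ).erase j)) (y : Finset α) :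
    IsTr V (m * swap ρ j) y ↔ (ρ ∈ y ↔ j ∉ y) ∧ IsTr ((V.erase ρ).erase j) m y := by
  have hjρ : j ≠ ρ := ne_of_mem_erase hj
  have hjV : j ∈ V := mem_of_mem_erase hj
  have hval := unpeel_val hm
  unfold IsTr
  constructor
  · intro H
    constructor
    · have := H ρ hρ
      rwa [hval, if_pos rfl] at this
    · intro x hx
      rw [mem_erase, mem_erase] at hx
      have := H x hx.2.2
      rwa [hval, if_neg hx.2.1, if_neg hx.1] at this
  · rintro ⟨h1, H⟩ x hx
    rw [hval]
    by_cases e1 : x = ρ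
    · rw [if_pos e1, e1]
      exact h1
    · by_cases e2 : x = j
      · rw [if_neg e1, if_pos e2, e2]
        tauto
      · rw [if_neg e1, if_neg e2]
        exact H x (mem_erase.mpr ⟨e2, mem_erase.mpr ⟨e1, hx⟩⟩)

omit [Fintype α] in
/-- Root peeling for sums over subsets. -/
theorem sum_powerset_peel {β : Type*} [AddCommMonoid β] (V : Finset α) {ρ j : α} (hρ : ρ ∈ V)
    (hj : j ∈ V.erase ρ) (g : Finset α → β) :
    ∑ y ∈ V.powerset, (if (ρ ∈ y ↔ j ∉ y) then g y else 0) =
      ∑ t ∈ ((V.erase ρ).erase j).powerset, (g (insert ρ t) + g (insert j t)) := by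
  have hjρ : j ≠ ρ := ne_of_mem_erase hj
  have hV : V = insert ρ (insert j ((V.erase ρ).erase j)) := by
    rw [insert_erase hj, insert_erase hρ]
  have h1 : j ∉ (V.erase ρ).erase j := by simp
  have h2 : ρ ∉ insert j ((V.erase ρ).erase j) := by
    rw [insert_erase hj]
    simp
  conv_lhs => rw [hV]
  rw [sum_powerset_insert h2, sum_powerset_insert h1, sum_powerset_insert h1]
  have hmem : ∀ t ∈ ((V.erase ρ).erase j).powerset, ρ ∉ t ∧ j ∉ t := by
    intro t ht
    rw [mem_powerset] at ht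
    constructor
    · intro h
      have := ht h
      simp at this
    · intro h
      have := ht h
      simp at this
  have e1 : ∑ t ∈ ((V.erase ρ).erase j).powerset, (if (ρ ∈ t ↔ j ∉ t) then g t else 0) = 0 := by
    apply sum_eq_zero
    intro t ht
    obtain ⟨a, b⟩ := hmem t ht
    rw [if_neg]
    tauto
  have e2 : ∑ t ∈ ((V.erase ρ).erase j).powerset,
      (if (ρ ∈ insert j t ↔ j ∉ insert j t) then g (insert j t) else 0) =
      ∑ t ∈ ((V.erase ρ).erase j).powerset, g (insert j t) := by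
    apply sum_congr rfl
    intro t ht
    obtain ⟨a, b⟩ := hmem t ht
    rw [if_pos]
    simp [a, Ne.symm hjρ]
  have e3 : ∑ t ∈ ((V.erase ρ).erase j).powerset,
      (if (ρ ∈ insert ρ t ↔ j ∉ insert ρ t) then g (insert ρ t) else 0) =
      ∑ t ∈ ((V.erase ρ).erase j).powerset, g (insert ρ t) := by
    apply sum_congr rfl
    intro t ht
    obtain ⟨a, b⟩ := hmem t ht
    rw [if_pos]
    simp [b, hjρ]
  have e4 : ∑ t ∈ ((V.erase ρ).erase j).powerset,
      (if (ρ ∈ insert ρ (insert j t) ↔ j ∉ insert ρ (insert j t)) then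
        g (insert ρ (insert j t)) else 0) = 0 := by
    apply sum_eq_zero
    intro t _
    rw [if_neg]
    simp
  rw [e1, e2, e3, e4, zero_add, add_zero, sum_add_distrib, add_comm]

end Vale.Agent.P162
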