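import Mathlib
import Vale.Agent.P162.MatchL1a
import Vale.Agent.P162.MatchL1b

/-!
# P162: the concrete L1 (section 4 of notes/P162_proof.md)

A law `lam` on the perfect matchings of `V`, `nu` the law of a uniformly random transversal.
`D(nu | uniform on balanced sets) ≤ (5/6) D(lam | uniform on matchings)`.
-/

namespace Vale.Agent.P162

open Finset Equiv Real

variable {α : Type*} [Fintype α] [DecidableEq α]

/-- The (unnormalised) law of a uniformly random transversal of a random matching. -/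
noncomputable def nu (V : Finset α) (lam : Perm α → ℝ) (y : Finset α) : ℝ :=
  ∑ m ∈ Mat V, if IsTr V m y then lam m / 2 ^ (V.card / 2) else 0

/-- The number of perfect matchings of a set with `2 κ` points. -/
def NM : ℕ → ℕ
  | 0 => 1
  | κ + 1 => (2 * κ + 1) * NM κ

theorem NM_pos (κ : ℕ) : 0 < NM κ := by
  induction κ with
  | zero => simp [NM]
  | succ n ih => simp only [NM]; positivity

omit [Fintype α] in
theorem card_peel {V : Finset α} {κ : ℕ} (hV : V.card = 2 * (κ + 1)) {ρ j : α} (hρ : ρ ∈ V)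
    (hj : j ∈ V.erase ρ) : ((V.erase ρ).erase j).card = 2 * κ := by
  rw [card_erase_of_mem hj, card_erase_of_mem hρ, hV]
  omega

theorem card_Mat (κ : ℕ) : ∀ V : Finset α, V.card = 2 * κ → (Mat V).card = NM κ := by
  induction κ with
  | zero =>
    intro V hV
    have : V = ∅ := card_eq_zero.mp (by simpa using hV)
    rw [this, Mat_empty]
    simp [NM]
  | succ κ ih =>
    intro V hV
    have hne : V.Nonempty := card_pos.mp (by omega)
    obtain ⟨ρ, hρ⟩ := hne
    rw [card_eq_sum_ones, sum_Mat_peel V hρ]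
    have : ∀ j ∈ V.erase ρ, ∑ _m ∈ Mat ((V.erase ρ).erase j), 1 = NM κ := by
      intro j hj
      rw [← card_eq_sum_ones]
      exact ih _ (card_peel hV hρ hj)
    rw [sum_congr rfl this, sum_const, card_erase_of_mem hρ, hV]
    simp only [NM, smul_eq_mul]
    congr 1

theorem nu_nonneg {V : Finset α} {lam : Perm α → ℝ} (h : ∀ m ∈ Mat V, 0 ≤ lam m) (y : Finset α) :
    0 ≤ nu V lam y := by
  unfold nu
  apply sum_nonneg
  intro m hm
  split_ifs
  · exact div_nonneg (h m hm) (by positivity)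
  · exact le_rfl

theorem nu_congr {V : Finset α} (lam : Perm α → ℝ) {y y' : Finset α}
    (h : ∀ x ∈ V, (x ∈ y ↔ x ∈ y')) : nu V lam y = nu V lam y' := by
  unfold nu
  apply sum_congr rfl
  intro m hm
  simp only [IsTr_congr hm h]

theorem nu_div (V : Finset α) (lam : Perm α → ℝ) (c : ℝ) (y : Finset α) :
    nu V (fun m => lam m / c) y = nu V lam y / c := by
  unfold nu
  rw [sum_div]
  apply sum_congr rfl
  intro m _
  split_ifs
  · ring
  · simp

/-- the piece of `nu` coming from the matchings which pair the root `ρ` with `j`. -/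
noncomputable def nuPart (V : Finset α) (lam : Perm α → ℝ) (ρ j : α) (y : Finset α) : ℝ :=
  if (ρ ∈ y ↔ j ∉ y) then nu ((V.erase ρ).erase j) (fun m => lam (m * swap ρ j)) y / 2 else 0

theorem nu_peel {V : Finset α} {κ : ℕ} (hV : V.card = 2 * (κ + 1)) {ρ : α} (hρ : ρ ∈ V)
    (lam : Perm α → ℝ) (y : Finset α) :
    nu V lam y = ∑ j ∈ V.erase ρ, nuPart V lam ρ j y := by
  unfold nu nuPart
  rw [sum_Mat_peel V hρ]
  apply sum_congr rfl
  intro j hj
  have hc := card_peel hV hρ hj
  have e1 : V.card / 2 = κ + 1 := by omega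
  have e2 : ((V.erase ρ).erase j).card / 2 = κ := by omega
  unfold nu
  rw [e1, e2]
  by_cases hcy : (ρ ∈ y ↔ j ∉ y)
  · rw [if_pos hcy, sum_div]
    apply sum_congr rfl
    intro m hm
    have hiff := IsTr_peel hρ hj hm y
    by_cases ht : IsTr ((V.erase ρ).erase j) m y
    · rw [if_pos (hiff.mpr ⟨hcy, ht⟩), if_pos ht, pow_succ]
      field_simp
    · rw [if_neg (fun h => ht (hiff.mp h).2), if_neg ht, zero_div]
  · rw [if_neg hcy]
    apply sum_eq_zero
    intro m hm
    have hiff := IsTr_peel hρ hj hm y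
    rw [if_neg (fun h => hcy (hiff.mp h).1)]

theorem nu_insert_root {V : Finset α} (ρ j : α) (lam : Perm α → ℝ) (t : Finset α) :
    nu ((V.erase ρ).erase j) lam (insert ρ t) = nu ((V.erase ρ).erase j) lam t := by
  apply nu_congr
  intro x hx
  rw [mem_erase, mem_erase] at hx
  simp [hx.2.1]

theorem nu_insert_partner {V : Finset α} (ρ j : α) (lam : Perm α → ℝ) (t : Finset α) :
    nu ((V.erase ρ).erase j) lam (insert j t) = nu ((V.erase ρ).erase j) lam t := by
  apply nu_congr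
  intro x hx
  rw [mem_erase, mem_erase] at hx
  simp [hx.1]

/-- sums of functions of `nuPart`. -/
theorem sum_nuPart {V : Finset α} {ρ j : α} (hρ : ρ ∈ V) (hj : j ∈ V.erase ρ)
    (lam : Perm α → ℝ) (φ : ℝ → ℝ) (hφ : φ 0 = 0) :
    ∑ y ∈ V.powerset, φ (nuPart V lam ρ j y) =
      ∑ t ∈ ((V.erase ρ).erase j).powerset,
        2 * φ (nu ((V.erase ρ).erase j) (fun m => lam (m * swap ρ j)) t / 2) := by
  have h1 : ∀ y ∈ V.powerset, φ (nuPart V lam ρ j y) = if (ρ ∈ y ↔ j ∉ y) then
      φ (nu ((V.erase ρ).erase j) (fun m => lam (m * swap ρ j)) y / 2) else 0 := by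
    intro y _
    unfold nuPart
    split_ifs
    · rfl
    · exact hφ
  rw [sum_congr rfl h1, sum_powerset_peel V hρ hj]
  apply sum_congr rfl
  intro t _
  rw [nu_insert_root, nu_insert_partner]
  ring

/-- total mass of `nu`. -/
theorem sum_nu (κ : ℕ) : ∀ (V : Finset α), V.card = 2 * κ → ∀ lam : Perm α → ℝ,
    ∑ y ∈ V.powerset, nu V lam y = ∑ m ∈ Mat V, lam m := by
  induction κ with
  | zero =>
    intro V hV lam
    have : V = ∅ := card_eq_zero.mp (by simpa using hV)
    subst this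
    simp [nu, Mat_empty, IsTr]
  | succ κ ih =>
    intro V hV lam
    have hne : V.Nonempty := card_pos.mp (by omega)
    obtain ⟨ρ, hρ⟩ := hne
    rw [sum_Mat_peel V hρ, sum_congr rfl (fun y _ => nu_peel hV hρ lam y), sum_comm]
    apply sum_congr rfl
    intro j hj
    rw [sum_nuPart hρ hj lam (fun x => x) rfl, ← ih _ (card_peel hV hρ hj)]
    apply sum_congr rfl
    intro t _
    ring

theorem mul_log_mul (x : ℝ) {c : ℝ} (hc : c ≠ 0) : x * log (x * c) = x * log x + x * log c := by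
  by_cases hx : x = 0
  · simp [hx]
  · rw [log_mul hx hc]
    ring

/-- the half mass identity `P(Y_j ≠ Y_ρ, b = i) = q_i / 2`. -/
theorem sum_nuPart_half {V : Finset α} {κ : ℕ} (hV : V.card = 2 * (κ + 1)) {ρ i j : α}
    (hρ : ρ ∈ V) (hi : i ∈ V.erase ρ) (hj : j ∈ V.erase ρ) (hij : i ≠ j) (lam : Perm α → ℝ) :
    ∑ y ∈ V.powerset, (if (ρ ∈ y ↔ j ∉ y) then nuPart V lam ρ i y else 0) =
      (∑ m ∈ Mat ((V.erase ρ).erase i), lam (m * swap ρ i)) / 2 := by
  have hiρ : i ≠ ρ := ne_of_mem_erase hi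
  have hjρ : j ≠ ρ := ne_of_mem_erase hj
  set lam' : Perm α → ℝ := fun m => lam (m * swap ρ i) with hlam'
  have h1 : ∀ y ∈ V.powerset, (if (ρ ∈ y ↔ j ∉ y) then nuPart V lam ρ i y else 0) =
      if (ρ ∈ y ↔ i ∉ y) then
        (if (ρ ∈ y ↔ j ∉ y) then nu ((V.erase ρ).erase i) lam' y / 2 else 0) else 0 := by
    intro y _
    unfold nuPart
    split_ifs <;> rfl
  rw [sum_congr rfl h1, sum_powerset_peel V hρ hi, ← sum_nu κ _ (card_peel hV hρ hi), sum_div]
  apply sum_congr rfl
  intro t ht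
  rw [mem_powerset] at ht
  have hρt : ρ ∉ t := by
    intro h
    have := ht h
    simp at this
  rw [nu_insert_root, nu_insert_partner]
  by_cases hjt : j ∈ t
  · rw [if_neg, if_pos, zero_add]
    · simp [hρt, Ne.symm hiρ, hjt]
    · simp [hjt]
  · rw [if_pos, if_neg, add_zero]
    · simp [hρt, Ne.symm hiρ, hjt, Ne.symm hij]
    · simp [hjt, hjρ]


/-- total mass of a weight on matchings. -/
noncomputable def mass (V : Finset α) (lam : Perm α → ℝ) : ℝ := ∑ m ∈ Mat V, lam m

/-- entropy functional of the transversal, with reference constant `c`. -/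
noncomputable def DYu (V : Finset α) (lam : Perm α → ℝ) (c : ℝ) : ℝ :=
  ∑ t ∈ V.powerset, nu V lam t * log (nu V lam t * c)

/-- entropy functional of the matching, with reference constant `c`. -/
noncomputable def DMu (V : Finset α) (lam : Perm α → ℝ) (c : ℝ) : ℝ :=
  ∑ m ∈ Mat V, lam m * log (lam m * c)

/-- the weight on the matchings of `V` minus the root pair. -/
def lamP (lam : Perm α → ℝ) (ρ j : α) : Perm α → ℝ := fun m => lam (m * swap ρ j)

/-- `V` minus the root pair. -/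
def VP (V : Finset α) (ρ j : α) : Finset α := (V.erase ρ).erase j

/-- from normalised weights to arbitrary positive weights. -/
theorem scale_L1 {V : Finset α} {cb nm : ℝ}
    (h : ∀ lam : Perm α → ℝ, (∀ m ∈ Mat V, 0 < lam m) → mass V lam = 1 →
      DYu V lam cb ≤ 5 / 6 * DMu V lam nm)
    (lam : Perm α → ℝ) (hpos : ∀ m ∈ Mat V, 0 < lam m) (hq : 0 < mass V lam) :
    DYu V lam (cb / mass V lam) ≤ 5 / 6 * DMu V lam (nm / mass V lam) := by
  set q := mass V lam with hqdef
  have h1 := h (fun m => lam m / q) (fun m hm => div_pos (hpos m hm) hq)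
    (by unfold mass; rw [← sum_div]; exact div_self hq.ne')
  have h2 := mul_le_mul_of_nonneg_left h1 hq.le
  have e1 : q * DYu V (fun m => lam m / q) cb = DYu V lam (cb / q) := by
    unfold DYu
    rw [mul_sum]
    apply sum_congr rfl
    intro t _
    rw [nu_div]
    have : nu V lam t / q * cb = nu V lam t * (cb / q) := by ring
    rw [this]
    field_simp
  have e2 : q * (5 / 6 * DMu V (fun m => lam m / q) nm) = 5 / 6 * DMu V lam (nm / q) := by
    unfold DMu
    rw [mul_left_comm, mul_sum]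
    congr 1
    apply sum_congr rfl
    intro m _
    have : lam m / q * nm = lam m * (nm / q) := by ring
    rw [this]
    field_simp
  rw [e1, e2] at h2
  exact h2

theorem mass_peel (V : Finset α) {ρ : α} (hρ : ρ ∈ V) (lam : Perm α → ℝ) :
    mass V lam = ∑ j ∈ V.erase ρ, mass (VP V ρ j) (lamP lam ρ j) := by
  unfold mass VP lamP
  exact sum_Mat_peel V hρ lam

theorem lamP_pos {V : Finset α} {ρ j : α} (hρ : ρ ∈ V) (hj : j ∈ V.erase ρ) {lam : Perm α → ℝ}
    (hpos : ∀ m ∈ Mat V, 0 < lam m) : ∀ m ∈ Mat (VP V ρ j), 0 < lamP lam ρ j m := by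
  intro m hm
  exact hpos _ (unpeel_mem hρ hj hm)

theorem mass_pos {V : Finset α} {κ : ℕ} (hV : V.card = 2 * κ) {lam : Perm α → ℝ}
    (hpos : ∀ m ∈ Mat V, 0 < lam m) : 0 < mass V lam := by
  apply sum_pos hpos
  apply card_pos.mp
  rw [card_Mat κ _ hV]
  exact NM_pos κ

/-- chain rule for the entropy of the matching. -/
theorem DMu_peel {V : Finset α} {κ : ℕ} (hV : V.card = 2 * (κ + 1)) {ρ : α} (hρ : ρ ∈ V)
    {lam : Perm α → ℝ} (hpos : ∀ m ∈ Mat V, 0 < lam m) {N nm : ℝ} (hN : 0 < N) (hnm : 0 < nm) :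
    DMu V lam (N * nm) =
      ∑ j ∈ V.erase ρ, DMu (VP V ρ j) (lamP lam ρ j) (nm / mass (VP V ρ j) (lamP lam ρ j))
      + ∑ j ∈ V.erase ρ, mass (VP V ρ j) (lamP lam ρ j) *
          log (N * mass (VP V ρ j) (lamP lam ρ j)) := by
  rw [← sum_add_distrib]
  unfold DMu
  rw [sum_Mat_peel V hρ]
  apply sum_congr rfl
  intro j hj
  have hqj : 0 < mass (VP V ρ j) (lamP lam ρ j) :=
    mass_pos (card_peel hV hρ hj) (lamP_pos hρ hj hpos)
  set q := mass (VP V ρ j) (lamP lam ρ j) with hq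
  have : q * log (N * q) = ∑ m ∈ Mat (VP V ρ j), lamP lam ρ j m * log (N * q) := by
    rw [← sum_mul]
    rfl
  rw [this, ← sum_add_distrib]
  apply sum_congr rfl
  intro m hm
  have hl : 0 < lamP lam ρ j m := lamP_pos hρ hj hpos m hm
  show lamP lam ρ j m * log (lamP lam ρ j m * (N * nm)) = _
  rw [← mul_add, ← log_mul (by positivity) (by positivity)]
  congr 2
  field_simp

theorem sum_nuPart_eq_mass {V : Finset α} {κ : ℕ} (hV : V.card = 2 * (κ + 1)) {ρ j : α}
    (hρ : ρ ∈ V) (hj : j ∈ V.erase ρ) (lam : Perm α → ℝ) :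
    ∑ y ∈ V.powerset, nuPart V lam ρ j y = mass (VP V ρ j) (lamP lam ρ j) := by
  rw [sum_nuPart hρ hj lam (fun x => x) rfl]
  have h : mass (VP V ρ j) (lamP lam ρ j) =
      ∑ t ∈ (VP V ρ j).powerset, nu (VP V ρ j) (lamP lam ρ j) t :=
    (sum_nu κ _ (card_peel hV hρ hj) _).symm
  rw [h]
  apply sum_congr rfl
  intro t _
  show 2 * (nu (VP V ρ j) (lamP lam ρ j) t / 2) = _
  ring

/-- the entropy sum of one part. -/
theorem sum_nuPart_log {V : Finset α} {κ : ℕ} (hV : V.card = 2 * (κ + 1)) {ρ j : α}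
    (hρ : ρ ∈ V) (hj : j ∈ V.erase ρ) {lam : Perm α → ℝ} (hpos : ∀ m ∈ Mat V, 0 < lam m)
    {cb : ℝ} (hcb : 0 < cb) :
    ∑ y ∈ V.powerset, nuPart V lam ρ j y * log (nuPart V lam ρ j y) =
      DYu (VP V ρ j) (lamP lam ρ j) (cb / mass (VP V ρ j) (lamP lam ρ j))
        - mass (VP V ρ j) (lamP lam ρ j) * log (2 * cb)
        + mass (VP V ρ j) (lamP lam ρ j) * log (mass (VP V ρ j) (lamP lam ρ j)) := by
  have hqj : 0 < mass (VP V ρ j) (lamP lam ρ j) :=
    mass_pos (card_peel hV hρ hj) (lamP_pos hρ hj hpos)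
  have hm : ∑ t ∈ (VP V ρ j).powerset, nu (VP V ρ j) (lamP lam ρ j) t =
      mass (VP V ρ j) (lamP lam ρ j) := sum_nu κ _ (card_peel hV hρ hj) _
  set q := mass (VP V ρ j) (lamP lam ρ j) with hq
  rw [sum_nuPart hρ hj lam (fun x => x * log x) (by simp)]
  unfold DYu
  have e1 : q * log (2 * cb) =
      ∑ t ∈ (VP V ρ j).powerset, nu (VP V ρ j) (lamP lam ρ j) t * log (2 * cb) := by
    rw [← sum_mul, hm]
  have e2 : q * log q =
      ∑ t ∈ (VP V ρ j).powerset, nu (VP V ρ j) (lamP lam ρ j) t * log q := by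
    rw [← sum_mul, hm]
  rw [e1, e2, ← sum_sub_distrib, ← sum_add_distrib]
  apply sum_congr rfl
  intro t _
  show 2 * (nu (VP V ρ j) (lamP lam ρ j) t / 2 * log (nu (VP V ρ j) (lamP lam ρ j) t / 2)) = _
  set x := nu (VP V ρ j) (lamP lam ρ j) t with hx
  rw [mul_log_mul x (div_pos hcb hqj).ne']
  have e3 : x / 2 * log (x / 2) = (x * log (x * 2⁻¹)) / 2 := by
    rw [div_eq_mul_inv x 2]
    ring
  rw [e3, mul_log_mul x (by norm_num : (2 : ℝ)⁻¹ ≠ 0)]
  rw [log_div hcb.ne' hqj.ne', log_mul (by norm_num) hcb.ne', log_inv]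
  ring

/-- the key inequality for the entropy of the transversal. -/
theorem DYu_peel {V : Finset α} {κ : ℕ} (hV : V.card = 2 * (κ + 1)) {ρ : α} (hρ : ρ ∈ V)
    {lam : Perm α → ℝ} (hpos : ∀ m ∈ Mat V, 0 < lam m) (hsum : mass V lam = 1) :
    DYu V lam (Nat.centralBinom (κ + 1) : ℝ) ≤
      ∑ j ∈ V.erase ρ, DYu (VP V ρ j) (lamP lam ρ j)
        ((Nat.centralBinom κ : ℝ) / mass (VP V ρ j) (lamP lam ρ j))
      + log (((V.erase ρ).card : ℝ) / ((V.erase ρ).card + 1) *
          (1 + ∑ j ∈ V.erase ρ, mass (VP V ρ j) (lamP lam ρ j) ^ 2)) := by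
  set J := V.erase ρ with hJ
  have hJcard : J.card = 2 * κ + 1 := by
    rw [hJ, card_erase_of_mem hρ, hV]
    omega
  set q : α → ℝ := fun j => mass (VP V ρ j) (lamP lam ρ j) with hq
  have hqpos : ∀ j ∈ J, 0 < q j := fun j hj =>
    mass_pos (card_peel hV hρ hj) (lamP_pos hρ hj hpos)
  have hq1 : ∑ j ∈ J, q j = 1 := by
    rw [← hsum, mass_peel V hρ]
  set N : ℝ := (J.card : ℝ) with hN
  have hNval : N = 2 * κ + 1 := by
    rw [hN, hJcard]
    push_cast
    ring
  have hNpos : 0 < N := by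
    rw [hNval]
    positivity
  set cb : ℝ := (Nat.centralBinom κ : ℝ) with hcb
  have hcbpos : 0 < cb := by
    rw [hcb]
    exact_mod_cast Nat.centralBinom_pos κ
  have hmass : ∑ y ∈ V.powerset, nu V lam y = 1 := by
    rw [sum_nu (κ + 1) V hV]
    exact hsum
  have hcore := core_step J V.powerset (fun j y => nuPart V lam ρ j y)
    (fun j y => (ρ ∈ y ↔ j ∉ y)) q N hNpos
    (by
      intro j hj y _
      show 0 ≤ nuPart V lam ρ j y
      unfold nuPart
      split_ifs
      · exact div_nonneg (nu_nonneg (fun m hm => (lamP_pos hρ hj hpos m hm).le) y) (by norm_num)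
      · exact le_rfl)
    (by
      intro j _ y _ hc
      show nuPart V lam ρ j y = 0
      unfold nuPart
      rw [if_neg hc])
    (fun j hj => sum_nuPart_eq_mass hV hρ hj lam)
    hqpos hq1
    (by
      intro i hi j hj hij
      exact sum_nuPart_half hV hρ hi hj hij lam)
  have hDq : ∑ j ∈ J, q j * log (N * q j) = ∑ j ∈ J, q j * log (q j) + log N := by
    have : ∀ j ∈ J, q j * log (N * q j) = q j * log (q j) + q j * log N := by
      intro j hj
      rw [log_mul hNpos.ne' (hqpos j hj).ne']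
      ring
    rw [sum_congr rfl this, sum_add_distrib, ← sum_mul, hq1, one_mul]
  have hcb' : (Nat.centralBinom (κ + 1) : ℝ) * (N + 1) = 4 * N * cb := by
    have := Nat.succ_mul_centralBinom_succ κ
    have h2 : ((κ : ℝ) + 1) * (Nat.centralBinom (κ + 1) : ℝ) = 2 * (2 * κ + 1) * cb := by
      rw [hcb]
      exact_mod_cast this
    rw [hNval]
    linarith
  have hcb1pos : 0 < (Nat.centralBinom (κ + 1) : ℝ) := by
    exact_mod_cast Nat.centralBinom_pos (κ + 1)
  have hsq : 0 ≤ ∑ j ∈ J, q j ^ 2 := sum_nonneg fun j _ => sq_nonneg _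
  have e1 : DYu V lam (Nat.centralBinom (κ + 1) : ℝ) =
      ∑ y ∈ V.powerset, nu V lam y * log (nu V lam y) + log (Nat.centralBinom (κ + 1) : ℝ) := by
    unfold DYu
    rw [sum_congr rfl (fun y _ => mul_log_mul (nu V lam y) hcb1pos.ne'), sum_add_distrib,
      ← sum_mul, hmass, one_mul]
  have e2 : ∑ y ∈ V.powerset, nu V lam y * log (nu V lam y) =
      ∑ y ∈ V.powerset, (∑ j ∈ J, nuPart V lam ρ j y) * log (∑ j ∈ J, nuPart V lam ρ j y) := by
    apply sum_congr rfl
    intro y _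
    rw [nu_peel hV hρ lam y]
  rw [e1, e2]
  rw [sum_congr rfl (fun j hj => sum_nuPart_log hV hρ hj hpos hcbpos), sum_add_distrib,
    sum_sub_distrib, ← sum_mul, hq1, one_mul, hDq] at hcore
  have e3 : log (N / (N + 1) * (1 + ∑ j ∈ J, q j ^ 2)) =
      log (N * (1 + ∑ j ∈ J, q j ^ 2) / 2) + log (Nat.centralBinom (κ + 1) : ℝ)
        - log (2 * cb) - log N := by
    rw [← log_mul (by positivity) hcb1pos.ne', ← log_div (by positivity) (by positivity),
      ← log_div (by positivity) hNpos.ne']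
    congr 1
    have hN1 : N + 1 ≠ 0 := by positivity
    have : (Nat.centralBinom (κ + 1) : ℝ) = 4 * N * cb / (N + 1) := by
      rw [eq_div_iff hN1, hcb']
    rw [this]
    field_simp
    ring
  rw [e3]
  linarith

/-- The concrete L1, by induction on the number of pairs. -/
theorem concrete_L1_aux (κ : ℕ) : ∀ (V : Finset α), V.card = 2 * κ → ∀ lam : Perm α → ℝ,
    (∀ m ∈ Mat V, 0 < lam m) → mass V lam = 1 →
    DYu V lam (Nat.centralBinom κ : ℝ) ≤ 5 / 6 * DMu V lam (NM κ : ℝ) := by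
  induction κ with
  | zero =>
    intro V hV lam _ hsum
    have : V = ∅ := card_eq_zero.mp (by simpa using hV)
    subst this
    unfold mass at hsum
    rw [Mat_empty, sum_singleton] at hsum
    simp [DYu, DMu, nu, Mat_empty, IsTr, hsum, NM]
  | succ κ ih =>
    intro V hV lam hpos hsum
    have hne : V.Nonempty := card_pos.mp (by omega)
    obtain ⟨ρ, hρ⟩ := hne
    have hJcard : (V.erase ρ).card = 2 * κ + 1 := by
      rw [card_erase_of_mem hρ, hV]
      omega
    have hqpos : ∀ j ∈ V.erase ρ, 0 < mass (VP V ρ j) (lamP lam ρ j) := fun j hj =>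
      mass_pos (card_peel hV hρ hj) (lamP_pos hρ hj hpos)
    have hq1 : ∑ j ∈ V.erase ρ, mass (VP V ρ j) (lamP lam ρ j) = 1 := by
      rw [← hsum, mass_peel V hρ]
    have hIH : ∀ j ∈ V.erase ρ,
        DYu (VP V ρ j) (lamP lam ρ j) ((Nat.centralBinom κ : ℝ) / mass (VP V ρ j) (lamP lam ρ j)) ≤
        5 / 6 * DMu (VP V ρ j) (lamP lam ρ j) ((NM κ : ℝ) / mass (VP V ρ j) (lamP lam ρ j)) := by
      intro j hj
      exact scale_L1 (ih (VP V ρ j) (card_peel hV hρ hj)) _ (lamP_pos hρ hj hpos) (hqpos j hj)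
    have hY := DYu_peel hV hρ hpos hsum
    have hNpos : (0 : ℝ) < ((V.erase ρ).card : ℝ) := by
      rw [hJcard]
      positivity
    have hnm : (0 : ℝ) < (NM κ : ℝ) := by exact_mod_cast NM_pos κ
    have hM := DMu_peel hV hρ hpos hNpos hnm
    have e : (NM (κ + 1) : ℝ) = ((V.erase ρ).card : ℝ) * (NM κ : ℝ) := by
      rw [hJcard]
      simp only [NM]
      push_cast
      ring
    have hnum := core_num (V.erase ρ) (fun j => mass (VP V ρ j) (lamP lam ρ j)) (by omega)
      hqpos hq1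
    rw [e, hM]
    have hs := sum_le_sum hIH
    rw [← mul_sum] at hs
    linarith

theorem Mat_card_even_absurd {V : Finset α} {m : Perm α} (hm : m ∈ Mat V) {κ : ℕ}
    (hκ : V.card = 2 * κ + 1) : False := by
  have h1 : m ^ 2 = 1 := by
    rw [pow_two]
    exact (mem_Mat.mp hm).1
  have h2 := Perm.two_dvd_card_support h1
  have h3 : m.support = V := by
    ext x
    rw [Perm.mem_support]
    exact (mem_Mat.mp hm).2 x
  rw [h3, hκ] at h2
  omega

/-- **Concrete L1.** -/
theorem concrete_L1 (V : Finset α) (lam : Perm α → ℝ) (hpos : ∀ m ∈ Mat V, 0 < lam m)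
    (hsum : ∑ m ∈ Mat V, lam m = 1) :
    ∑ y ∈ V.powerset, nu V lam y * log (nu V lam y * ((V.card.choose (V.card / 2) : ℕ) : ℝ)) ≤
      5 / 6 * ∑ m ∈ Mat V, lam m * log (lam m * ((Mat V).card : ℝ)) := by
  rcases Nat.even_or_odd' V.card with ⟨κ, hκ | hκ⟩
  · have h := concrete_L1_aux κ V hκ lam hpos hsum
    unfold DYu DMu at h
    have e1 : V.card / 2 = κ := by omega
    rw [e1, hκ, card_Mat κ V hκ]
    exact h
  · exfalso
    have hempty : Mat V = ∅ := by
      by_contra hne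
      obtain ⟨m, hm⟩ := nonempty_iff_ne_empty.mpr hne
      exact Mat_card_even_absurd hm hκ
    rw [hempty, sum_empty] at hsum
    exact zero_ne_one hsum

end Vale.Agent.P162
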