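import Mathlib
import Vale.Agent.P162.MatchL1

/-!
# P162: (L1) concrete form: random perfect matching, fresh transversal   (tasks E1..)

See `notes/P162_proof.md`, section 4, CONCRETE L1.
A perfect matching of the finset `S` is a permutation `m` of the ambient type with `m ∘ m = id`,
without fixed point in `S`, and equal to the identity outside `S`.
The induction is done in `MatchL1.lean`; here it is transported to the definitions below.
-/

namespace Vale.Agent.P162

open Finset

open scoped Classical

noncomputable section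

variable {V : Type*} [Fintype V] [DecidableEq V]

/-- `m` is a perfect matching of `S`. -/
def IsMatch (S : Finset V) (m : Equiv.Perm V) : Prop :=
  (∀ v, m (m v) = v) ∧ (∀ v ∈ S, m v ≠ v) ∧ (∀ v, v ∉ S → m v = v)

/-- `y` picks exactly one endpoint of every pair of `m` (and nothing outside `S`). -/
def IsTrans (S : Finset V) (m : Equiv.Perm V) (y : V → Bool) : Prop :=
  (∀ v ∈ S, y (m v) = !y v) ∧ (∀ v, v ∉ S → y v = false)

/-- Law of a uniformly random transversal of a random matching with law `lam`
(`κ` = number of pairs). -/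
def nuLaw (S : Finset V) (κ : ℕ) (lam : Equiv.Perm V → ℝ) (y : V → Bool) : ℝ :=
  ∑ m, if IsTrans S m y then lam m / 2 ^ κ else 0

theorem isMatch_iff_mem_Mat (S : Finset V) (m : Equiv.Perm V) : IsMatch S m ↔ m ∈ Mat S := by
  rw [mem_Mat]
  unfold IsMatch
  constructor
  · rintro ⟨h1, h2, h3⟩
    refine ⟨?_, ?_⟩
    · ext v
      simpa using h1 v
    · intro x
      constructor
      · intro hx
        by_contra hxS
        exact hx (h3 x hxS)
      · exact h2 x
  · rintro ⟨h1, h2⟩
    refine ⟨?_, ?_, ?_⟩
    · intro v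
      have := congrArg (fun f : Equiv.Perm V => f v) h1
      simpa using this
    · intro v hv
      exact (h2 v).mpr hv
    · intro v hv
      by_contra h
      exact hv ((h2 v).mp h)

theorem NM_eq_doubleFactorial (κ : ℕ) : NM κ = Nat.doubleFactorial (2 * κ - 1) := by
  induction κ with
  | zero => simp [NM]
  | succ n ih =>
    rcases n with _ | n
    · simp [NM]
    · have e : 2 * (n + 1 + 1) - 1 = (2 * (n + 1) - 1) + 2 := by omega
      rw [e, Nat.doubleFactorial_add_two, ← ih]
      show (2 * (n + 1) + 1) * NM (n + 1) = _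
      congr 1

/-- the subset coded by `y`. -/
def toSet (y : V → Bool) : Finset V := univ.filter fun v => y v = true

omit [DecidableEq V] in
theorem mem_toSet (y : V → Bool) (v : V) : v ∈ toSet y ↔ y v = true := by
  simp [toSet]

omit [DecidableEq V] in
theorem isTrans_iff (S : Finset V) (m : Equiv.Perm V) (y : V → Bool)
    (hy : ∀ v, v ∉ S → y v = false) : IsTrans S m y ↔ IsTr S m (toSet y) := by
  unfold IsTrans IsTr
  constructor
  · rintro ⟨h1, _⟩ x hx
    rw [mem_toSet, mem_toSet, h1 x hx]
    cases y x <;> simp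
  · intro h
    refine ⟨?_, hy⟩
    intro v hv
    have := h v hv
    rw [mem_toSet, mem_toSet] at this
    cases h1 : y v <;> cases h2 : y (m v) <;> simp_all

theorem nuLaw_eq_nu (κ : ℕ) (S : Finset V) (hS : S.card = 2 * κ) (lam : Equiv.Perm V → ℝ)
    (hzero : ∀ m, ¬ IsMatch S m → lam m = 0) (y : V → Bool) (hy : ∀ v, v ∉ S → y v = false) :
    nuLaw S κ lam y = nu S lam (toSet y) := by
  unfold nuLaw nu
  have e : S.card / 2 = κ := by omega
  rw [e]
  symm
  apply sum_subset_zero_on_sdiff (subset_univ _)
  · intro m hm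
    rw [mem_sdiff] at hm
    have : lam m = 0 := hzero m (fun h => hm.2 ((isMatch_iff_mem_Mat S m).mp h))
    rw [this]
    simp
  · intro m _
    have := isTrans_iff S m y hy
    by_cases h : IsTrans S m y
    · rw [if_pos h, if_pos (this.mp h)]
    · rw [if_neg h, if_neg (fun h' => h (this.mpr h'))]

theorem nuLaw_eq_zero (κ : ℕ) (S : Finset V) (lam : Equiv.Perm V → ℝ) (y : V → Bool)
    (hy : ¬ ∀ v, v ∉ S → y v = false) : nuLaw S κ lam y = 0 := by
  unfold nuLaw
  apply sum_eq_zero
  intro m _
  rw [if_neg]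
  intro h
  exact hy h.2

/-- CONCRETE L1: `D(Y) ≤ (5/6) D(M)`. -/
theorem L1_concrete (κ : ℕ) (S : Finset V) (hS : S.card = 2 * κ) (lam : Equiv.Perm V → ℝ)
    (hpos : ∀ m, IsMatch S m → 0 < lam m) (hzero : ∀ m, ¬ IsMatch S m → lam m = 0)
    (hsum : ∑ m, lam m = 1) :
    ∑ y, nuLaw S κ lam y * Real.log (nuLaw S κ lam y * ((2 * κ).choose κ : ℝ))
      ≤ 5 / 6 * ∑ m, lam m * Real.log (lam m * (Nat.doubleFactorial (2 * κ - 1) : ℝ)) := by
  have hsub : ∀ f : Equiv.Perm V → ℝ, (∀ m, lam m = 0 → f m = 0) →
      ∑ m ∈ Mat S, f m = ∑ m, f m := by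
    intro f hf
    apply sum_subset (subset_univ _)
    intro m _ hm
    exact hf m (hzero m (fun h => hm ((isMatch_iff_mem_Mat S m).mp h)))
  have hmain := concrete_L1_aux κ S hS lam
    (fun m hm => hpos m ((isMatch_iff_mem_Mat S m).mpr hm))
    (by
      unfold mass
      rw [hsub lam (fun m h => h), hsum])
  unfold DYu DMu at hmain
  rw [hsub (fun m => lam m * Real.log (lam m * (NM κ : ℝ))) (fun m h => by simp [h]),
    NM_eq_doubleFactorial, Nat.centralBinom_eq_two_mul_choose] at hmain
  refine le_trans (le_of_eq ?_) hmain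
  -- the sum over `y`
  have h1 : ∑ y : V → Bool, nuLaw S κ lam y * Real.log (nuLaw S κ lam y * ((2 * κ).choose κ : ℝ)) =
      ∑ y ∈ univ.filter (fun y : V → Bool => ∀ v, v ∉ S → y v = false),
        nuLaw S κ lam y * Real.log (nuLaw S κ lam y * ((2 * κ).choose κ : ℝ)) := by
    symm
    apply sum_subset (subset_univ _)
    intro y _ hy
    rw [mem_filter] at hy
    rw [nuLaw_eq_zero κ S lam y (fun h => hy ⟨mem_univ _, h⟩), zero_mul]
  rw [h1]
  apply sum_nbij' (fun y => toSet y) (fun t v => decide (v ∈ t))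
  · intro y hy
    rw [mem_filter] at hy
    rw [mem_powerset]
    intro v hv
    rw [mem_toSet] at hv
    by_contra hvS
    rw [hy.2 v hvS] at hv
    exact Bool.false_ne_true hv
  · intro t ht
    rw [mem_powerset] at ht
    rw [mem_filter]
    refine ⟨mem_univ _, ?_⟩
    intro v hv
    simp only [decide_eq_false_iff_not]
    exact fun h => hv (ht h)
  · intro y _
    funext v
    simp only [mem_toSet]
    cases y v <;> simp
  · intro t _
    ext v
    rw [mem_toSet]
    simp
  · intro y hy
    rw [mem_filter] at hy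
    rw [nuLaw_eq_nu κ S hS lam hzero y hy.2]

end

end Vale.Agent.P162
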