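import Vale.Agent.P162.EntExtra

/-!
# P162: push-forward of a density under a key with fibres of constant size

If all classes of the key `k` have the same number of points then `k` is equidistributed on its
range and `ent (avg k F)` is the relative entropy of the push-forward law with respect to the
uniform law on the range.
-/

namespace Vale.Agent.P162

open Finset Real Vale.Agent.P335

open scoped Classical

noncomputable section

variable {Ω : Type*} [Fintype Ω] {K : Type*} [Fintype K]

/-- Push-forward of the density `F` (with respect to the uniform probability) under `k`. -/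
def push (k : Ω → K) (F : Ω → ℝ) (t : K) : ℝ :=
  (∑ g ∈ univ.filter (fun g => k g = t), F g) / (Fintype.card Ω : ℝ)

/-- The range of the key. -/
def rng (k : Ω → K) : Finset K := univ.filter (fun t => ∃ g, k g = t)

theorem mem_rng {k : Ω → K} {t : K} : t ∈ rng k ↔ ∃ g, k g = t := by
  simp [rng]

theorem key_mem_rng (k : Ω → K) (g : Ω) : k g ∈ rng k := mem_rng.2 ⟨g, rfl⟩

theorem push_eq_zero {k : Ω → K} (F : Ω → ℝ) {t : K} (ht : t ∉ rng k) : push k F t = 0 := by
  unfold push
  have : univ.filter (fun g => k g = t) = ∅ := by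
    rw [filter_eq_empty_iff]
    intro g _ hg
    exact ht (mem_rng.2 ⟨g, hg⟩)
  rw [this]
  simp

theorem sum_key_of_fibers {k : Ω → K} {Z : ℕ} (hZ : ∀ g, (cls k g).card = Z) (Φ : K → ℝ) :
    ∑ g, Φ (k g) = (Z : ℝ) * ∑ t ∈ rng k, Φ t := by
  rw [← sum_fiberwise_of_maps_to (fun g _ => key_mem_rng k g), mul_sum]
  refine sum_congr rfl (fun t ht => ?_)
  obtain ⟨g0, rfl⟩ := mem_rng.1 ht
  have h1 : ∑ g ∈ univ.filter (fun g => k g = k g0), Φ (k g)
      = ∑ _g ∈ univ.filter (fun g => k g = k g0), Φ (k g0) :=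
    sum_congr rfl (fun g hg => by rw [(mem_filter.1 hg).2])
  rw [h1, sum_const, nsmul_eq_mul]
  have := hZ g0
  unfold cls at this
  rw [this]

theorem card_eq_of_fibers {k : Ω → K} {Z : ℕ} (hZ : ∀ g, (cls k g).card = Z) :
    (Fintype.card Ω : ℝ) = (Z : ℝ) * ((rng k).card : ℝ) := by
  have := sum_key_of_fibers hZ (fun _ => 1)
  simpa using this

theorem mean_key_of_fibers [Nonempty Ω] {k : Ω → K} {Z : ℕ} (hZ : ∀ g, (cls k g).card = Z)
    (Φ : K → ℝ) : mean (fun g => Φ (k g)) = (∑ t ∈ rng k, Φ t) / ((rng k).card : ℝ) := by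
  have hZ0 : (Z : ℝ) ≠ 0 := by
    obtain ⟨g⟩ := ‹Nonempty Ω›
    have := cls_card_pos k g
    rw [hZ g] at this
    positivity
  unfold mean
  rw [sum_key_of_fibers hZ, card_eq_of_fibers hZ, mul_div_mul_left _ _ hZ0]

theorem rng_card_pos [Nonempty Ω] (k : Ω → K) : 0 < (rng k).card := by
  obtain ⟨g⟩ := ‹Nonempty Ω›
  exact card_pos.mpr ⟨k g, key_mem_rng k g⟩

theorem avg_eq_push {k : Ω → K} {Z : ℕ} (hZ : ∀ g, (cls k g).card = Z) (F : Ω → ℝ) (g : Ω) :
    avg k F g = push k F (k g) * ((rng k).card : ℝ) := by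
  have hZ0 : (Z : ℝ) ≠ 0 := by
    have := cls_card_pos k g
    rw [hZ g] at this
    positivity
  have hR0 : ((rng k).card : ℝ) ≠ 0 := by
    have : 0 < (rng k).card := card_pos.mpr ⟨k g, key_mem_rng k g⟩
    positivity
  unfold avg push
  rw [hZ g, card_eq_of_fibers hZ]
  unfold cls
  field_simp

theorem sum_push (k : Ω → K) (F : Ω → ℝ) : ∑ t, push k F t = mean F := by
  unfold push mean
  rw [← sum_div]
  congr 1
  convert sum_fiberwise (univ : Finset Ω) k F

/-- The entropy of `avg k F` as a relative entropy of the push-forward. -/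
theorem ent_avg_eq_push [Nonempty Ω] {k : Ω → K} {Z : ℕ} (hZ : ∀ g, (cls k g).card = Z)
    {F : Ω → ℝ} (h1 : mean F = 1) :
    ent (avg k F) = ∑ t, push k F t * log (push k F t * ((rng k).card : ℝ)) := by
  have hR0 : ((rng k).card : ℝ) ≠ 0 := by
    have := rng_card_pos k
    positivity
  rw [ent_of_mean_one (by rw [mean_avg, h1])]
  have e1 : (fun x => avg k F x * log (avg k F x)) =
      fun g => (fun t => push k F t * ((rng k).card : ℝ) * log (push k F t * ((rng k).card : ℝ)))
        (k g) := by
    funext g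
    simp only [avg_eq_push hZ F g]
  rw [e1, mean_key_of_fibers hZ
    (fun t => push k F t * ((rng k).card : ℝ) * log (push k F t * ((rng k).card : ℝ))), sum_div]
  have e2 : ∑ t, push k F t * log (push k F t * ((rng k).card : ℝ))
      = ∑ t ∈ rng k, push k F t * log (push k F t * ((rng k).card : ℝ)) := by
    symm
    apply sum_subset (subset_univ _)
    intro t _ ht
    rw [push_eq_zero F ht]
    simp
  rw [e2]
  refine sum_congr rfl (fun t _ => ?_)
  field_simp

end

end Vale.Agent.P162
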