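import Vale.Agent.P162.PairBasics
import Vale.Agent.P162.L1Concrete
import Vale.Agent.P162.Push

/-!
# P162: perfect matchings of the whole type: count, conjugation key
-/

namespace Vale.Agent.P162

open Finset Vale.Agent.P335

open scoped Classical

noncomputable section

set_option linter.unusedSectionVars false

variable {X : Type*} [Fintype X] [DecidableEq X]

theorem isMatch_univ_iff {κ : ℕ} (hX : Fintype.card X = 2 * κ) (m : Equiv.Perm X) :
    IsMatch univ m ↔ m.cycleType = Multiset.replicate κ 2 := by
  constructor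
  · rintro ⟨h1, h2, -⟩
    have hsq : m ^ 2 = 1 := by
      ext v
      simp [pow_two, h1]
    have hall : ∀ c ∈ m.cycleType, c = 2 := Equiv.Perm.pow_prime_eq_one_iff.1 hsq
    have hsupp : m.support = univ := by
      ext v
      simp [Equiv.Perm.mem_support, h2 v (mem_univ v)]
    have hsum := m.sum_cycleType
    rw [hsupp, card_univ, hX] at hsum
    have hrep := Multiset.eq_replicate_of_mem hall
    rw [hrep, Multiset.sum_replicate, smul_eq_mul] at hsum
    have : Multiset.card m.cycleType = κ := by omega
    rw [hrep, this]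
  · intro hc
    have hall : ∀ c ∈ m.cycleType, c = 2 := by
      intro c hcm
      rw [hc] at hcm
      exact Multiset.eq_of_mem_replicate hcm
    have hsq : m ^ 2 = 1 := Equiv.Perm.pow_prime_eq_one_iff.2 hall
    have hsum := m.sum_cycleType
    rw [hc, Multiset.sum_replicate, smul_eq_mul] at hsum
    have hsupp : m.support = univ := by
      apply eq_univ_of_card
      rw [← hsum, hX]
      ring
    refine ⟨?_, ?_, ?_⟩
    · intro v
      have := congrArg (fun f : Equiv.Perm X => f v) hsq
      simpa [pow_two] using this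
    · intro v _
      have : v ∈ m.support := by rw [hsupp]; exact mem_univ v
      exact Equiv.Perm.mem_support.1 this
    · intro v hv
      exact absurd (mem_univ v) hv

theorem two_mul_factorial_eq (κ : ℕ) :
    (2 * κ).factorial = Nat.doubleFactorial (2 * κ - 1) * (2 ^ κ * κ.factorial) := by
  cases κ with
  | zero => simp
  | succ n =>
    have h1 : 2 * (n + 1) = (2 * n + 1) + 1 := by ring
    have h2 : 2 * (n + 1) - 1 = 2 * n + 1 := by omega
    rw [h2, ← Nat.doubleFactorial_two_mul, h1, Nat.factorial_eq_mul_doubleFactorial]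
    ring

theorem card_isMatch_univ {κ : ℕ} (hX : Fintype.card X = 2 * κ) :
    (univ.filter (fun m : Equiv.Perm X => IsMatch univ m)).card
      = Nat.doubleFactorial (2 * κ - 1) := by
  have h0 : (univ.filter (fun m : Equiv.Perm X => IsMatch univ m))
      = univ.filter (fun m : Equiv.Perm X => m.cycleType = Multiset.replicate κ 2) := by
    ext m
    simp only [mem_filter, mem_univ, true_and]
    exact isMatch_univ_iff hX m
  rw [h0]
  have h1 := Equiv.Perm.card_of_cycleType_mul_eq X (Multiset.replicate κ 2)
  have hcond : (Multiset.replicate κ 2).sum ≤ Fintype.card X ∧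
      ∀ a ∈ Multiset.replicate κ 2, 2 ≤ a := by
    constructor
    · rw [Multiset.sum_replicate, smul_eq_mul, hX]
      omega
    · intro a ha
      rw [Multiset.eq_of_mem_replicate ha]
  rw [if_pos hcond] at h1
  have hprod : ∏ n ∈ (Multiset.replicate κ 2).toFinset, ((Multiset.replicate κ 2).count n).factorial
      = κ.factorial := by
    by_cases hκ : κ = 0
    · subst hκ
      simp
    · rw [Multiset.toFinset_replicate, if_neg hκ, prod_singleton, Multiset.count_replicate_self]
  have hsub : Fintype.card X - (Multiset.replicate κ 2).sum = 0 := by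
    rw [Multiset.sum_replicate, smul_eq_mul, hX]
    omega
  rw [hprod, hsub, Multiset.prod_replicate, hX, two_mul_factorial_eq, Nat.factorial_zero,
    one_mul] at h1
  have hpos : 0 < 2 ^ κ * κ.factorial := by positivity
  have h2 := Nat.eq_of_mul_eq_mul_right hpos h1
  convert h2

/-- The conjugation key `g ↦ g⁻¹ σ g`. -/
def Mkey (σ g : Equiv.Perm X) : Equiv.Perm X := g⁻¹ * σ * g

theorem Mkey_apply (σ g : Equiv.Perm X) (c : X) : Mkey σ g c = g⁻¹ (σ (g c)) := rfl

theorem card_cls_Mkey (σ g : Equiv.Perm X) : (cls (Mkey σ) g).card = (cls (Mkey σ) 1).card := by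
  refine card_bij' (fun x _ => x * g⁻¹) (fun x _ => x * g) ?_ ?_ ?_ ?_
  · intro x hx
    rw [mem_cls] at hx ⊢
    unfold Mkey at hx ⊢
    have : σ = x * (g⁻¹ * σ * g) * x⁻¹ := by
      rw [← hx]
      group
    simp only [mul_inv_rev, inv_inv, inv_one, one_mul, mul_one]
    conv_lhs => rw [this]
    group
  · intro x hx
    rw [mem_cls] at hx ⊢
    unfold Mkey at hx ⊢
    simp only [inv_one, one_mul, mul_one] at hx
    simp only [mul_inv_rev]
    calc g⁻¹ * x⁻¹ * σ * (x * g) = g⁻¹ * (x⁻¹ * σ * x) * g := by group
      _ = g⁻¹ * σ * g := by rw [hx]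
  · intro x _
    simp
  · intro x _
    simp

theorem rng_Mkey {κ : ℕ} (hX : Fintype.card X = 2 * κ) {σ : Equiv.Perm X}
    (hσ : IsMatch univ σ) : rng (Mkey σ) = univ.filter (fun m : Equiv.Perm X => IsMatch univ m) := by
  ext m
  rw [mem_rng, mem_filter, isMatch_univ_iff hX]
  rw [isMatch_univ_iff hX] at hσ
  simp only [mem_univ, true_and]
  constructor
  · rintro ⟨g, rfl⟩
    rw [← hσ]
    unfold Mkey
    have := Equiv.Perm.cycleType_conj (σ := σ) (τ := g⁻¹)
    simpa using this
  · intro hm
    have : IsConj σ m := Equiv.Perm.isConj_iff_cycleType_eq.2 (hσ.trans hm.symm)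
    obtain ⟨c, hc⟩ := isConj_iff.1 this
    refine ⟨c⁻¹, ?_⟩
    unfold Mkey
    simpa using hc

end

end Vale.Agent.P162
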