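import Vale.Agent.P162.LabelKey
import Vale.Agent.P162.L1Concrete
import Vale.Agent.P162.MatchCount

/-!
# P162: (L1) on the clean model   (task E5, bridge)

See `notes/P162_proof.md`, section 4, Bridge.
-/

namespace Vale.Agent.P162

open Finset Vale.Agent.P335

open scoped Classical

noncomputable section

set_option linter.unusedSectionVars false

variable {X : Type*} [Fintype X] [DecidableEq X] {β : Type*}

section bridge

variable {γ : X → Bool} {ι0 : X → X} {ℓ : X → β}

theorem perm_inv_apply_self (g : Equiv.Perm X) (x : X) : g⁻¹ (g x) = x := by simp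

theorem perm_apply_inv_self (g : Equiv.Perm X) (x : X) : g (g⁻¹ x) = x := by simp

theorem PairStr.isMatch_perm (h : PairStr γ ι0 ℓ) : IsMatch univ h.perm :=
  ⟨fun v => h.invol v, fun v _ => h.ne v, fun v hv => absurd (mem_univ v) hv⟩

/-- Pair flips commute with the involution. -/
theorem PairStr.lstab_comm (h : PairStr γ ι0 ℓ) {c : Equiv.Perm X} (hc : c ∈ lstab ℓ) (p : X) :
    c (ι0 p) = ι0 (c p) := by
  by_cases hp : c p = p
  · rw [hp]
    by_contra hne
    exact ((h.lstab_move_iff hc p).1 hne) hp
  · have h1 : c p = ι0 p := ((h.mem_lstab.1 hc) p).resolve_left hp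
    have h2 : c (ι0 p) ≠ ι0 p := (h.lstab_move_iff hc p).2 hp
    have h3 : c (ι0 p) = ι0 (ι0 p) := ((h.mem_lstab.1 hc) (ι0 p)).resolve_left h2
    rw [h3, h1]

/-- The matching is a function of the pair labels. -/
theorem PairStr.Mkey_of_lkey (h : PairStr γ ι0 ℓ) (g g' : Equiv.Perm X)
    (hg : lkey ℓ g = lkey ℓ g') : Mkey h.perm g = Mkey h.perm g' := by
  have hc : g * g'⁻¹ ∈ lstab ℓ := (lkey_eq_iff ℓ g' g).1 hg
  ext c
  rw [Mkey_apply, Mkey_apply, Equiv.Perm.inv_eq_iff_eq, h.perm_apply, h.perm_apply]
  have h1 := h.lstab_comm hc (g' c)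
  rw [Equiv.Perm.mul_apply, Equiv.Perm.mul_apply, perm_inv_apply_self] at h1
  exact h1.symm

theorem card_filter_false_eq (t : X → Bool) :
    (univ.filter (fun x => t x = false)).card
      = Fintype.card X - (univ.filter (fun x => t x = true)).card := by
  have h1 := card_filter_add_card_filter_not (s := (univ : Finset X)) (fun x => t x = true)
  have h2 : (univ.filter (fun x => ¬ t x = true)) = univ.filter (fun x => t x = false) := by
    ext x
    simp
  rw [h2, card_univ] at h1
  omega

theorem PairStr.mem_rng_gamma_iff (h : PairStr γ ι0 ℓ) (t : X → Bool) :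
    t ∈ rng (lkey γ : Equiv.Perm X → X → Bool) ↔
      (univ.filter (fun x => t x = true)).card = kap γ := by
  rw [mem_rng, exists_perm_lkey_iff]
  constructor
  · intro ht
    have := ht true
    unfold kap
    convert this
  · intro ht b
    cases b
    · have e1 := card_filter_false_eq t
      have e2 := card_filter_false_eq γ
      have e3 : (univ.filter (fun x => γ x = true)).card = kap γ := rfl
      rw [ht] at e1
      rw [e3] at e2
      have := e1.trans e2.symm
      convert this
    · unfold kap at ht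
      convert ht

/-- The number of balanced labellings. -/
theorem PairStr.card_rng_gamma (h : PairStr γ ι0 ℓ) :
    (rng (lkey γ : Equiv.Perm X → X → Bool)).card = (2 * kap γ).choose (kap γ) := by
  rw [← h.card_X, ← card_univ, ← card_powersetCard]
  refine card_bij' (fun t _ => univ.filter (fun x => t x = true))
    (fun A _ => fun x => decide (x ∈ A)) ?_ ?_ ?_ ?_
  · intro t ht
    rw [h.mem_rng_gamma_iff] at ht
    rw [mem_powersetCard]
    exact ⟨subset_univ _, ht⟩
  · intro A hA
    rw [mem_powersetCard] at hA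
    rw [h.mem_rng_gamma_iff, ← hA.2]
    congr 1
    ext x
    simp
  · intro t _
    funext x
    simp
  · intro A _
    ext x
    simp

/-- In the class of `g` for the pair labels there is exactly one element with `γ ∘ g' = y` if `y`
is a transversal of the matching of `g`, and none otherwise. -/
theorem PairStr.count_cls_trans (h : PairStr γ ι0 ℓ) (g : Equiv.Perm X) (y : X → Bool) :
    ((cls (lkey ℓ) g).filter (fun g' => lkey γ g' = y)).card
      = if IsTrans univ (Mkey h.perm g) y then 1 else 0 := by
  split_ifs with ht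
  · rw [card_eq_one]
    obtain ⟨ht1, -⟩ := ht
    -- the flip
    have hinv : Function.Involutive (fun p => if γ p = y (g⁻¹ p) then p else ι0 p) := by
      intro p
      have hy : y (g⁻¹ (ι0 p)) = !y (g⁻¹ p) := by
        have := ht1 (g⁻¹ p) (mem_univ _)
        rw [Mkey_apply] at this
        simpa using this
      by_cases hp : γ p = y (g⁻¹ p)
      · show (if γ (if γ p = y (g⁻¹ p) then p else ι0 p) =
          y (g⁻¹ (if γ p = y (g⁻¹ p) then p else ι0 p)) then (if γ p = y (g⁻¹ p) then p else ι0 p)
            else ι0 (if γ p = y (g⁻¹ p) then p else ι0 p)) = p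
        rw [if_pos hp, if_pos hp]
      · show (if γ (if γ p = y (g⁻¹ p) then p else ι0 p) =
          y (g⁻¹ (if γ p = y (g⁻¹ p) then p else ι0 p)) then (if γ p = y (g⁻¹ p) then p else ι0 p)
            else ι0 (if γ p = y (g⁻¹ p) then p else ι0 p)) = p
        have hp' : ¬ γ (ι0 p) = y (g⁻¹ (ι0 p)) := by
          rw [h.flip, hy]
          intro hh
          exact hp (Bool.not_inj hh)
        rw [if_neg hp, if_neg hp', h.invol]
    set c : Equiv.Perm X := hinv.toPerm with hcdef
    have hcapp : ∀ p, c p = if γ p = y (g⁻¹ p) then p else ι0 p := fun p => rfl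
    refine ⟨c * g, ?_⟩
    ext g'
    rw [mem_filter, mem_cls, mem_singleton]
    constructor
    · rintro ⟨h1, h2⟩
      ext x
      have e1 : ℓ (g' x) = ℓ (g x) := congrFun h1 x
      have e2 : γ (g' x) = y x := congrFun h2 x
      rw [Equiv.Perm.mul_apply, hcapp, perm_inv_apply_self]
      rcases (h.lab (g x) (g' x)).1 e1.symm with h3 | h3
      · rw [if_pos (by rw [← h3, e2]), h3]
      · rw [if_neg, h3]
        intro h4
        rw [h3, h.flip, h4] at e2
        cases hyx : y x <;> simp [hyx] at e2
    · rintro rfl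
      constructor
      · funext x
        show ℓ (c (g x)) = ℓ (g x)
        rw [hcapp]
        split_ifs
        · rfl
        · exact h.lab_iota _
      · funext x
        show γ (c (g x)) = y x
        rw [hcapp, perm_inv_apply_self]
        split_ifs with h5
        · exact h5
        · rw [h.flip]
          cases hyx : y x <;> cases hgx : γ (g x) <;> simp [hyx, hgx] at h5 ⊢
  · rw [card_eq_zero, filter_eq_empty_iff]
    intro g' hg' hy
    apply ht
    rw [mem_cls] at hg'
    rw [← h.Mkey_of_lkey g' g hg']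
    refine ⟨?_, fun v hv => absurd (mem_univ v) hv⟩
    intro v _
    rw [← hy, Mkey_apply]
    show γ (g' (g'⁻¹ (h.perm (g' v)))) = !γ (g' v)
    rw [perm_apply_inv_self, h.perm_apply, h.flip]

/-- The law of the fresh transversal is the push-forward under `γ ∘ g`. -/
theorem PairStr.nuLaw_eq_push (h : PairStr γ ι0 ℓ) (F : Equiv.Perm X → ℝ) (y : X → Bool) :
    nuLaw univ (kap γ) (push (Mkey h.perm) F) y = push (lkey γ) (avg (lkey ℓ) F) y := by
  have hN : (Fintype.card (Equiv.Perm X) : ℝ) ≠ 0 := by
    have : 0 < Fintype.card (Equiv.Perm X) := Fintype.card_pos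
    positivity
  -- left side
  have hL : nuLaw univ (kap γ) (push (Mkey h.perm) F) y
      = (∑ g, (if IsTrans univ (Mkey h.perm g) y then (1 : ℝ) / 2 ^ kap γ else 0) * F g)
        / (Fintype.card (Equiv.Perm X) : ℝ) := by
    unfold nuLaw push
    rw [← sum_fiberwise (univ : Finset (Equiv.Perm X)) (Mkey h.perm)
      (fun g => (if IsTrans univ (Mkey h.perm g) y then (1 : ℝ) / 2 ^ kap γ else 0) * F g), sum_div]
    refine sum_congr rfl (fun m _ => ?_)
    have : ∑ g ∈ univ.filter (fun g => Mkey h.perm g = m),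
        (if IsTrans univ (Mkey h.perm g) y then (1 : ℝ) / 2 ^ kap γ else 0) * F g
        = (if IsTrans univ m y then (1 : ℝ) / 2 ^ kap γ else 0)
          * ∑ g ∈ univ.filter (fun g => Mkey h.perm g = m), F g := by
      rw [mul_sum]
      refine sum_congr rfl (fun g hg => ?_)
      rw [(mem_filter.1 hg).2]
    rw [this]
    split_ifs
    · rw [one_div, div_div, div_eq_mul_inv, div_eq_mul_inv, mul_inv]
      have : ∀ a b c : ℝ, a * (b * c) = c * a * b := fun a b c => by ring
      rw [this]
      congr!
    · simp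
  -- right side
  have hR : push (lkey γ) (avg (lkey ℓ) F) y
      = (∑ g, avg (lkey ℓ) (fun g => if lkey γ g = y then (1 : ℝ) else 0) g * F g)
        / (Fintype.card (Equiv.Perm X) : ℝ) := by
    unfold push
    rw [← sum_mul_avg, sum_filter]
    congr 1
    refine sum_congr rfl (fun g _ => ?_)
    split_ifs <;> simp
  rw [hL, hR]
  congr 1
  refine sum_congr rfl (fun g _ => ?_)
  congr 1
  unfold avg
  rw [card_cls_lkey, h.card_lstab, ← sum_filter, sum_const, nsmul_eq_mul, mul_one,
    h.count_cls_trans]
  split_ifs <;> simp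

theorem L1_clean_aux (h : PairStr γ ι0 ℓ) (F : Equiv.Perm X → ℝ) (hF : ∀ g, 0 < F g)
    (h1 : mean F = 1) :
    ent (avg (lkey γ) (avg (lkey ℓ) F)) ≤ 5 / 6 * ent (avg (lkey ℓ) F) := by
  have hX := h.card_X
  have hσ := h.isMatch_perm
  have hrng := rng_Mkey hX hσ
  have hN : (0 : ℝ) < (Fintype.card (Equiv.Perm X) : ℝ) := by
    have : 0 < Fintype.card (Equiv.Perm X) := Fintype.card_pos
    positivity
  have hmain := L1_concrete (kap γ) (univ : Finset X) (by rw [card_univ, hX])
    (push (Mkey h.perm) F)
    (by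
      intro m hm
      have hm' : m ∈ rng (Mkey h.perm) := by
        rw [hrng, mem_filter]
        exact ⟨mem_univ _, hm⟩
      obtain ⟨g, hg⟩ := mem_rng.1 hm'
      unfold push
      apply div_pos _ hN
      apply sum_pos (fun g _ => hF g)
      exact ⟨g, by simpa using hg⟩)
    (by
      intro m hm
      apply push_eq_zero
      rw [hrng, mem_filter]
      exact fun hh => hm hh.2)
    (by rw [sum_push, h1])
  have e1 : ent (avg (Mkey h.perm) F) = ∑ m, push (Mkey h.perm) F m *
      Real.log (push (Mkey h.perm) F m * (Nat.doubleFactorial (2 * kap γ - 1) : ℝ)) := by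
    rw [ent_avg_eq_push (fun g => card_cls_Mkey h.perm g) h1, hrng, card_isMatch_univ hX]
  have e2 : ent (avg (lkey γ) (avg (lkey ℓ) F)) = ∑ y, nuLaw univ (kap γ) (push (Mkey h.perm) F) y *
      Real.log (nuLaw univ (kap γ) (push (Mkey h.perm) F) y *
        ((2 * kap γ).choose (kap γ) : ℝ)) := by
    rw [ent_avg_eq_push (fun g => card_cls_lkey γ g) (by rw [mean_avg, h1]), h.card_rng_gamma]
    refine sum_congr rfl (fun y _ => ?_)
    rw [h.nuLaw_eq_push]
  have e3 : ent (avg (Mkey h.perm) F) ≤ ent (avg (lkey ℓ) F) :=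
    ent_avg_le_of_finer (fun x y hxy => h.Mkey_of_lkey x y hxy) hF
  rw [e2]
  rw [← e1] at hmain
  linarith

end bridge

/-- CLEAN L1. -/
theorem L1_clean (γ : X → Bool) (ι0 : X → X) (ℓ : X → β) (h : PairStr γ ι0 ℓ)
    (F : Equiv.Perm X → ℝ) (hF : ∀ g, 0 < F g) :
    ent (avg (lkey γ) (avg (lkey ℓ) F)) ≤ 5 / 6 * ent (avg (lkey ℓ) F) := by
  have hm : 0 < mean F := mean_pos hF
  set F1 : Equiv.Perm X → ℝ := fun g => (mean F)⁻¹ * F g with hF1
  have hF1pos : ∀ g, 0 < F1 g := fun g => mul_pos (inv_pos.2 hm) (hF g)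
  have hF1mean : mean F1 = 1 := by
    rw [hF1, mean_const_mul, inv_mul_cancel₀ hm.ne']
  have haux := L1_clean_aux h F1 hF1pos hF1mean
  have hFeq : F = (mean F) • F1 := by
    funext g
    simp only [hF1, Pi.smul_apply, smul_eq_mul]
    field_simp
  have e1 : avg (lkey ℓ) F = fun g => mean F * avg (lkey ℓ) F1 g := by
    conv_lhs => rw [hFeq, avg_smul]
    rfl
  have e2 : avg (lkey γ) (avg (lkey ℓ) F) = fun g => mean F * avg (lkey γ) (avg (lkey ℓ) F1) g := by
    conv_lhs => rw [hFeq, avg_smul, avg_smul]
    rfl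
  rw [e2, e1, ent_const_mul hm (avg_pos _ (avg_pos _ hF1pos)), ent_const_mul hm (avg_pos _ hF1pos)]
  nlinarith [haux, hm]

end

end Vale.Agent.P162
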