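import Mathlib
import Vale.Agent.P162.BinBounds
import Vale.Agent.P162.RealIneq

namespace Vale.Agent.P162

open Finset

section core

variable {Ω : Type*} [Fintype Ω] [DecidableEq Ω]

theorem core_upper (bt : Ω → ℝ) (C : Finset Ω) (θ pc : ℝ)
    (h0 : ∀ x, 0 ≤ bt x) (hsum : ∑ x, bt x = (Fintype.card Ω : ℝ))
    (hcore : ∀ x ∈ C, ∀ y ∈ C, bt x ≤ bt y * Real.exp θ)
    (hpc : ((Cᶜ).card : ℝ) ≤ (Fintype.card Ω : ℝ) * pc) (hpc1 : pc < 1)
    (hN : 0 < Fintype.card Ω) (x : Ω) (hx : x ∈ C) :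
    bt x ≤ Real.exp θ / (1 - pc) := by
  have hN' : (0 : ℝ) < (Fintype.card Ω : ℝ) := by exact_mod_cast hN
  have hcard : (C.card : ℝ) + ((Cᶜ).card : ℝ) = (Fintype.card Ω : ℝ) := by
    exact_mod_cast Finset.card_add_card_compl C
  have h1 : (C.card : ℝ) * bt x ≤ (∑ y ∈ C, bt y) * Real.exp θ := by
    rw [Finset.sum_mul, ← nsmul_eq_mul]
    exact Finset.card_nsmul_le_sum C _ _ (fun y hy => hcore x hx y hy)
  have h2 : ∑ y ∈ C, bt y ≤ ∑ y, bt y :=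
    Finset.sum_le_sum_of_subset_of_nonneg (Finset.subset_univ C) (fun y _ _ => h0 y)
  have h3 : (C.card : ℝ) * bt x ≤ (Fintype.card Ω : ℝ) * Real.exp θ := by
    rw [← hsum]
    exact h1.trans (mul_le_mul_of_nonneg_right h2 (Real.exp_pos θ).le)
  have h4 : (Fintype.card Ω : ℝ) * (1 - pc) ≤ (C.card : ℝ) := by linarith
  have h5 : (Fintype.card Ω : ℝ) * (1 - pc) * bt x ≤ (Fintype.card Ω : ℝ) * Real.exp θ :=
    (mul_le_mul_of_nonneg_right h4 (h0 x)).trans h3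
  rw [le_div_iff₀ (by linarith)]
  have h6 : (Fintype.card Ω : ℝ) * (bt x * (1 - pc)) ≤ (Fintype.card Ω : ℝ) * Real.exp θ := by
    linarith
  exact le_of_mul_le_mul_left h6 hN'

theorem core_lower (bt : Ω → ℝ) (C : Finset Ω) (Gam θ pc : ℝ)
    (h0 : ∀ x, 0 ≤ bt x) (hG : ∀ x, bt x ≤ Gam) (hG0 : 0 ≤ Gam)
    (hsum : ∑ x, bt x = (Fintype.card Ω : ℝ))
    (hcore : ∀ x ∈ C, ∀ y ∈ C, bt x ≤ bt y * Real.exp θ)
    (hpc : ((Cᶜ).card : ℝ) ≤ (Fintype.card Ω : ℝ) * pc)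
    (hN : 0 < Fintype.card Ω) (x : Ω) (hx : x ∈ C) :
    1 - Gam * pc ≤ bt x * Real.exp θ := by
  have hN' : (0 : ℝ) < (Fintype.card Ω : ℝ) := by exact_mod_cast hN
  have hcard : (C.card : ℝ) + ((Cᶜ).card : ℝ) = (Fintype.card Ω : ℝ) := by
    exact_mod_cast Finset.card_add_card_compl C
  have hc0 : (0 : ℝ) ≤ ((Cᶜ).card : ℝ) := by positivity
  have h1 : ∑ y ∈ C, bt y ≤ (C.card : ℝ) * (bt x * Real.exp θ) := by
    rw [← nsmul_eq_mul]
    exact Finset.sum_le_card_nsmul C _ _ (fun y hy => hcore y hy x hx)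
  have h2 : ∑ y ∈ Cᶜ, bt y ≤ ((Cᶜ).card : ℝ) * Gam := by
    rw [← nsmul_eq_mul]
    exact Finset.sum_le_card_nsmul _ _ _ (fun y _ => hG y)
  have h3 : ∑ y ∈ C, bt y + ∑ y ∈ Cᶜ, bt y = ∑ y, bt y := Finset.sum_add_sum_compl C bt
  have hb : 0 ≤ bt x * Real.exp θ := mul_nonneg (h0 x) (Real.exp_pos θ).le
  have h4 : (C.card : ℝ) * (bt x * Real.exp θ) ≤ (Fintype.card Ω : ℝ) * (bt x * Real.exp θ) :=
    mul_le_mul_of_nonneg_right (by linarith) hb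
  have h5 : ((Cᶜ).card : ℝ) * Gam ≤ (Fintype.card Ω : ℝ) * pc * Gam :=
    mul_le_mul_of_nonneg_right hpc hG0
  have h6 : (Fintype.card Ω : ℝ) * (1 - Gam * pc)
      ≤ (Fintype.card Ω : ℝ) * (bt x * Real.exp θ) := by
    nlinarith
  exact le_of_mul_le_mul_left h6 hN'

theorem sq_mul_exp_le (t ζ τ b : ℝ) (ht : |t| ≤ τ) (hb : |ζ| ≤ b) :
    (t * ζ) ^ 2 * Real.exp |t * ζ| ≤ t ^ 2 * (b ^ 2 * Real.exp (τ * b)) := by
  have hb0 : 0 ≤ b := (abs_nonneg ζ).trans hb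
  have h1 : |t * ζ| ≤ τ * b := by
    rw [abs_mul]
    exact mul_le_mul ht hb (abs_nonneg _) ((abs_nonneg t).trans ht)
  have h2 : ζ ^ 2 ≤ b ^ 2 := sq_le_sq' (by linarith [neg_abs_le ζ]) ((le_abs_self ζ).trans hb)
  have h3 : Real.exp |t * ζ| ≤ Real.exp (τ * b) := Real.exp_le_exp.mpr h1
  calc (t * ζ) ^ 2 * Real.exp |t * ζ| = t ^ 2 * (ζ ^ 2 * Real.exp |t * ζ|) := by ring
    _ ≤ t ^ 2 * (b ^ 2 * Real.exp (τ * b)) := by
        apply mul_le_mul_of_nonneg_left _ (by positivity)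
        exact mul_le_mul h2 h3 (Real.exp_pos _).le (by positivity)

/-- Abstract moment generating function bound: `bt` has mean one, is within `z` of one on the core
`C`, within `Gam` of one everywhere, and the complement of the core has proportion at most `pc`. -/
theorem mgf_core_sum (bt : Ω → ℝ) (C : Finset Ω) (Gam z pc τ : ℝ)
    (hsum : ∑ x, bt x = (Fintype.card Ω : ℝ))
    (hz : ∀ x ∈ C, |bt x - 1| ≤ z) (hG : ∀ x, |bt x - 1| ≤ Gam)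
    (hpc : ((Cᶜ).card : ℝ) ≤ (Fintype.card Ω : ℝ) * pc)
    (t : ℝ) (ht : |t| ≤ τ) :
    ∑ x, Real.exp (t * (bt x - 1)) ≤ (Fintype.card Ω : ℝ) *
      Real.exp (t ^ 2 * (z ^ 2 * Real.exp (τ * z) + Gam ^ 2 * Real.exp (τ * Gam) * pc) / 2) := by
  have hcard : (C.card : ℝ) + ((Cᶜ).card : ℝ) = (Fintype.card Ω : ℝ) := by
    exact_mod_cast Finset.card_add_card_compl C
  have hc0 : (0 : ℝ) ≤ ((Cᶜ).card : ℝ) := by positivity
  set A : ℝ := z ^ 2 * Real.exp (τ * z) with hA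
  set B : ℝ := Gam ^ 2 * Real.exp (τ * Gam) with hB
  have hA0 : 0 ≤ A := by positivity
  have hB0 : 0 ≤ B := by positivity
  have hpt : ∀ x, Real.exp (t * (bt x - 1))
      ≤ 1 + t * (bt x - 1) + (t * (bt x - 1)) ^ 2 * Real.exp |t * (bt x - 1)| / 2 :=
    fun x => exp_le_quad _
  have h1 : ∑ x, Real.exp (t * (bt x - 1))
      ≤ ∑ x, (1 + t * (bt x - 1) + (t * (bt x - 1)) ^ 2 * Real.exp |t * (bt x - 1)| / 2) :=
    Finset.sum_le_sum (fun x _ => hpt x)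
  have h2 : ∑ x, (1 + t * (bt x - 1) + (t * (bt x - 1)) ^ 2 * Real.exp |t * (bt x - 1)| / 2)
      = (Fintype.card Ω : ℝ)
        + (∑ x, (t * (bt x - 1)) ^ 2 * Real.exp |t * (bt x - 1)|) / 2 := by
    rw [Finset.sum_add_distrib, Finset.sum_add_distrib, ← Finset.mul_sum,
      Finset.sum_sub_distrib, hsum, ← Finset.sum_div]
    simp
  have h3 : ∑ x ∈ C, (t * (bt x - 1)) ^ 2 * Real.exp |t * (bt x - 1)|
      ≤ (C.card : ℝ) * (t ^ 2 * A) := by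
    rw [← nsmul_eq_mul]
    exact Finset.sum_le_card_nsmul C _ _ (fun x hx => sq_mul_exp_le t _ τ z ht (hz x hx))
  have h4 : ∑ x ∈ Cᶜ, (t * (bt x - 1)) ^ 2 * Real.exp |t * (bt x - 1)|
      ≤ ((Cᶜ).card : ℝ) * (t ^ 2 * B) := by
    rw [← nsmul_eq_mul]
    exact Finset.sum_le_card_nsmul _ _ _ (fun x _ => sq_mul_exp_le t _ τ Gam ht (hG x))
  have h5 := Finset.sum_add_sum_compl C
    (fun x => (t * (bt x - 1)) ^ 2 * Real.exp |t * (bt x - 1)|)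
  have h6 : (C.card : ℝ) * (t ^ 2 * A) ≤ (Fintype.card Ω : ℝ) * (t ^ 2 * A) :=
    mul_le_mul_of_nonneg_right (by linarith) (by positivity)
  have h7 : ((Cᶜ).card : ℝ) * (t ^ 2 * B) ≤ (Fintype.card Ω : ℝ) * pc * (t ^ 2 * B) :=
    mul_le_mul_of_nonneg_right hpc (by positivity)
  have h8 : t ^ 2 * (A + B * pc) / 2 + 1 ≤ Real.exp (t ^ 2 * (A + B * pc) / 2) :=
    Real.add_one_le_exp _
  have h9 : (Fintype.card Ω : ℝ) * (t ^ 2 * (A + B * pc) / 2 + 1)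
      ≤ (Fintype.card Ω : ℝ) * Real.exp (t ^ 2 * (A + B * pc) / 2) :=
    mul_le_mul_of_nonneg_left h8 (by positivity)
  refine le_trans ?_ h9
  rw [h2] at h1
  refine h1.trans ?_
  nlinarith

end core

/-! ### Numerical lemmas -/

theorem num_upper (θ pc b : ℝ) (hθ0 : 0 ≤ θ) (hθ : θ ≤ 1 / 8) (hpc0 : 0 ≤ pc) (hpc : pc ≤ θ / 2)
    (hb : b ≤ Real.exp θ / (1 - pc)) : b - 1 ≤ 4 * θ := by
  have h1 : 1 - θ ≤ Real.exp (-θ) := by
    have := Real.add_one_le_exp (-θ); linarith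
  have h2 : Real.exp θ * (1 - θ) ≤ 1 := by
    have := mul_le_mul_of_nonneg_left h1 (Real.exp_pos θ).le
    rwa [← Real.exp_add, add_neg_cancel, Real.exp_zero] at this
  have hp : 0 < 1 - pc := by linarith
  have ht : 0 < 1 - θ := by linarith
  have h3 : Real.exp θ ≤ 1 / (1 - θ) := by
    rw [le_div_iff₀ ht]; exact h2
  have h4 : Real.exp θ / (1 - pc) ≤ 1 + 4 * θ := by
    rw [div_le_iff₀ hp]
    refine h3.trans ?_
    rw [div_le_iff₀ ht]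
    nlinarith [mul_nonneg hθ0 hpc0, mul_nonneg hθ0 hθ0, mul_nonneg (mul_nonneg hθ0 hθ0) hpc0]
  linarith

theorem num_lower (θ e b : ℝ) (hθ0 : 0 ≤ θ) (hθ : θ ≤ 1 / 8) (he0 : 0 ≤ e) (he : e ≤ 3 * θ)
    (hb : 1 - e ≤ b * Real.exp θ) : -(4 * θ) ≤ b - 1 := by
  have h1 : 1 - θ ≤ Real.exp (-θ) := by
    have := Real.add_one_le_exp (-θ); linarith
  have h2 : (1 - e) * Real.exp (-θ) ≤ b := by
    have := mul_le_mul_of_nonneg_right hb (Real.exp_pos (-θ)).le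
    rwa [mul_assoc, ← Real.exp_add, add_neg_cancel, Real.exp_zero, mul_one] at this
  have h3 : (1 - e) * (1 - θ) ≤ (1 - e) * Real.exp (-θ) :=
    mul_le_mul_of_nonneg_left h1 (by linarith)
  nlinarith [mul_nonneg he0 hθ0]

theorem core_ratio (k w : ℝ) (j j' : ℕ) (hk : 0 < k) (hw0 : 0 ≤ w) (hw : w ≤ k / 4)
    (h1 : |2 * (j : ℝ) - k / 2| < w) (h2 : |2 * (j' : ℝ) - k / 2| < w) :
    cb j ≤ cb j' * Real.exp (4 * w / k) := by
  rw [abs_lt] at h1 h2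
  rcases le_total j j' with h | h
  · refine (cb_ratio' j j' h).trans ?_
    apply mul_le_mul_of_nonneg_left _ (cb_pos j').le
    apply Real.exp_le_exp.mpr
    have e : 4 * w / k = w / (k / 4) := by field_simp
    rw [e]
    apply div_le_div₀ hw0 (by linarith [h1.1, h2.2]) (by positivity) (by linarith [h1.1])
  · have h3 : cb j ≤ cb j' := cb_antitone h
    have h4 : 1 ≤ Real.exp (4 * w / k) := Real.one_le_exp (by positivity)
    calc cb j ≤ cb j' * 1 := by rw [mul_one]; exact h3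
      _ ≤ _ := mul_le_mul_of_nonneg_left h4 (cb_pos j').le

theorem core_ratio_le (k w : ℝ) (j j' : ℕ) (hk : 0 < k) (hw0 : 0 ≤ w) (hw : w ≤ k / 4)
    (h1 : |2 * (j : ℝ) - k / 2| ≤ w) (h2 : |2 * (j' : ℝ) - k / 2| ≤ w) :
    cb j ≤ cb j' * Real.exp (4 * w / k) := by
  rw [abs_le] at h1 h2
  rcases le_total j j' with h | h
  · refine (cb_ratio' j j' h).trans ?_
    apply mul_le_mul_of_nonneg_left _ (cb_pos j').le
    apply Real.exp_le_exp.mpr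
    have e : 4 * w / k = w / (k / 4) := by field_simp
    rw [e]
    apply div_le_div₀ hw0 (by linarith [h1.1, h2.2]) (by positivity) (by linarith [h1.1])
  · have h3 : cb j ≤ cb j' := cb_antitone h
    have h4 : 1 ≤ Real.exp (4 * w / k) := Real.one_le_exp (by positivity)
    calc cb j ≤ cb j' * 1 := by rw [mul_one]; exact h3
      _ ≤ _ := mul_le_mul_of_nonneg_left h4 (cb_pos j').le

theorem pow_growth (r : ℕ) (hr : 200 ≤ r) : 2 ^ 18 * r ^ 16 ≤ 2 ^ (r + 1) := by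
  induction r, hr using Nat.le_induction with
  | base => norm_num
  | succ r hr ih =>
    have h1 : 200 * (r + 1) ≤ 201 * r := by omega
    have h2 : (200 * (r + 1)) ^ 16 ≤ (201 * r) ^ 16 := Nat.pow_le_pow_left h1 16
    rw [mul_pow, mul_pow] at h2
    have h3 : (201 : ℕ) ^ 16 ≤ 2 * 200 ^ 16 := by norm_num
    have h4 : 200 ^ 16 * (r + 1) ^ 16 ≤ 200 ^ 16 * (2 * r ^ 16) := by
      calc 200 ^ 16 * (r + 1) ^ 16 ≤ 201 ^ 16 * r ^ 16 := h2
        _ ≤ (2 * 200 ^ 16) * r ^ 16 := Nat.mul_le_mul_right _ h3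
        _ = 200 ^ 16 * (2 * r ^ 16) := by ring
    have h5 : (r + 1) ^ 16 ≤ 2 * r ^ 16 := Nat.le_of_mul_le_mul_left h4 (by positivity)
    calc 2 ^ 18 * (r + 1) ^ 16 ≤ 2 ^ 18 * (2 * r ^ 16) := Nat.mul_le_mul_left _ h5
      _ = 2 * (2 ^ 18 * r ^ 16) := by ring
      _ ≤ 2 * 2 ^ (r + 1) := Nat.mul_le_mul_left _ ih
      _ = 2 ^ (r + 1 + 1) := by ring

/-- `q = sqrt (2 * 2^r)` dominates `512 r^8`. -/
theorem sqrt_growth (r : ℕ) (hr : 200 ≤ r) :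
    512 * (r : ℝ) ^ 8 ≤ Real.sqrt (2 * 2 ^ r) := by
  apply Real.le_sqrt_of_sq_le
  have h := pow_growth r hr
  have h' : (2 : ℝ) ^ 18 * (r : ℝ) ^ 16 ≤ 2 ^ (r + 1) := by exact_mod_cast h
  calc (512 * (r : ℝ) ^ 8) ^ 2 = 2 ^ 18 * (r : ℝ) ^ 16 := by ring
    _ ≤ 2 ^ (r + 1) := h'
    _ = 2 * 2 ^ r := by ring

/-- The master numerical inequality: the contribution of the complement of the core is tiny. -/
theorem master_num (r : ℕ) (hr : 200 ≤ r) (G : ℝ) (hG0 : 0 ≤ G)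
    (hG : G ≤ Real.sqrt (2 * 2 ^ r)) :
    G ^ 2 * Real.exp ((r : ℝ) ^ 2 * G)
      * (2 * 2 ^ r * (2 * Real.exp (-(2 ^ r / (128 * (r : ℝ) ^ 6))))) ≤ 1 / (r : ℝ) ^ 6 := by
  set q : ℝ := Real.sqrt (2 * 2 ^ r) with hq
  set R : ℝ := (r : ℝ) with hR
  have hR200 : (200 : ℝ) ≤ R := by rw [hR]; exact_mod_cast hr
  have hR0 : 0 < R := by linarith
  have hq2 : q ^ 2 = 2 * 2 ^ r := Real.sq_sqrt (by positivity)
  have hqg : 512 * R ^ 8 ≤ q := sqrt_growth r hr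
  have hq0 : 0 < q := lt_of_lt_of_le (by positivity) hqg
  have hk : (2 : ℝ) ^ r = q ^ 2 / 2 := by rw [hq2]; ring
  rw [hk]
  have h1 : G ^ 2 ≤ q ^ 2 := pow_le_pow_left₀ hG0 hG 2
  have h2 : Real.exp (R ^ 2 * G) ≤ Real.exp (R ^ 2 * q) :=
    Real.exp_le_exp.mpr (mul_le_mul_of_nonneg_left hG (by positivity))
  have h3 : 2 * (R ^ 2 * q) ≤ q ^ 2 / 2 / (128 * R ^ 6) := by
    rw [le_div_iff₀ (by positivity)]
    have : 512 * R ^ 8 * q ≤ q * q := mul_le_mul_of_nonneg_right hqg hq0.le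
    nlinarith
  have h4 : Real.exp (-(q ^ 2 / 2 / (128 * R ^ 6))) ≤ Real.exp (-(2 * (R ^ 2 * q))) :=
    Real.exp_le_exp.mpr (by linarith)
  have h5 : (R ^ 2 * q) ^ 5 / (Nat.factorial 5 : ℝ) ≤ Real.exp (R ^ 2 * q) :=
    Real.pow_div_factorial_le_exp _ (by positivity) 5
  have h6 : 2 * q ^ 4 * R ^ 6 ≤ Real.exp (R ^ 2 * q) := by
    refine le_trans ?_ h5
    rw [le_div_iff₀ (by positivity)]
    have hf : ((Nat.factorial 5 : ℕ) : ℝ) = 120 := by norm_num [Nat.factorial]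
    rw [hf]
    have h7 : 240 ≤ R ^ 4 * q := by
      have a1 : (1 : ℝ) ≤ R ^ 4 := one_le_pow₀ (by linarith)
      have a2 : (1 : ℝ) ≤ R ^ 8 := one_le_pow₀ (by linarith)
      nlinarith
    have : (R ^ 2 * q) ^ 5 = (q ^ 4 * R ^ 6) * (R ^ 4 * q) := by ring
    rw [this]
    have h8 : 0 ≤ q ^ 4 * R ^ 6 := by positivity
    nlinarith
  set E : ℝ := Real.exp (R ^ 2 * q) with hE
  have hE0 : 0 < E := Real.exp_pos _
  have h9 : Real.exp (-(2 * (R ^ 2 * q))) = 1 / (E * E) := by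
    rw [hE, ← Real.exp_add, Real.exp_neg, one_div]; congr 2; ring
  calc G ^ 2 * Real.exp (R ^ 2 * G)
        * (2 * (q ^ 2 / 2) * (2 * Real.exp (-(q ^ 2 / 2 / (128 * R ^ 6)))))
      ≤ q ^ 2 * E * (2 * (q ^ 2 / 2) * (2 * (1 / (E * E)))) := by
        rw [← h9]
        apply mul_le_mul (mul_le_mul h1 h2 (Real.exp_pos _).le (by positivity)) _
          (by positivity) (by positivity)
        apply mul_le_mul_of_nonneg_left _ (by positivity)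
        exact mul_le_mul_of_nonneg_left h4 (by norm_num)
    _ = 2 * q ^ 4 / E := by field_simp
    _ ≤ 1 / R ^ 6 := by
        rw [div_le_div_iff₀ hE0 (by positivity)]
        linarith

/-! ### The packaged bound -/

theorem v_bound (R X : ℝ) (hR : 200 ≤ R) (hX : X ≤ 1 / R ^ 6) :
    (1 / R ^ 3) ^ 2 * Real.exp (R ^ 2 * (1 / R ^ 3)) + X ≤ 2 / R ^ 5 := by
  have hR0 : 0 < R := by linarith
  have e1 : R ^ 2 * (1 / R ^ 3) = 1 / R := by field_simp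
  have e2 : Real.exp (1 / R) ≤ 3 := by
    have : Real.exp (1 / R) ≤ Real.exp 1 := by
      apply Real.exp_le_exp.mpr
      rw [div_le_one hR0]; linarith
    have h3 := Real.exp_one_lt_d9
    linarith
  rw [e1]
  have e3 : (1 / R ^ 3) ^ 2 = 1 / R ^ 6 := by rw [div_pow, one_pow]; ring_nf
  rw [e3]
  have e4 : 1 / R ^ 6 * Real.exp (1 / R) ≤ 1 / R ^ 6 * 3 :=
    mul_le_mul_of_nonneg_left e2 (by positivity)
  have e5 : 4 / R ^ 6 ≤ 2 / R ^ 5 := by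
    rw [div_le_div_iff₀ (by positivity) (by positivity)]
    have : R ^ 6 = R ^ 5 * R := by ring
    rw [this]
    have : 0 < R ^ 5 := by positivity
    nlinarith
  have e6 : 1 / R ^ 6 * 3 + 1 / R ^ 6 = 4 / R ^ 6 := by ring
  linarith

theorem small_of_master (R Gam pc : ℝ) (hR : 200 ≤ R) (hG1 : 1 ≤ Gam) (hpc0 : 0 ≤ pc)
    (hmaster : Gam ^ 2 * Real.exp (R ^ 2 * Gam) * pc ≤ 1 / R ^ 6) :
    pc ≤ 1 / (4 * R ^ 3) / 2 ∧ Gam * pc ≤ 3 * (1 / (4 * R ^ 3)) := by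
  have hR0 : 0 < R := by linarith
  have hE1 : 1 ≤ Real.exp (R ^ 2 * Gam) := Real.one_le_exp (by positivity)
  have hG2 : Gam ≤ Gam ^ 2 := by nlinarith
  have hGE' : Gam ≤ Gam ^ 2 * Real.exp (R ^ 2 * Gam) := by
    nlinarith [mul_nonneg (sq_nonneg Gam) (sub_nonneg.mpr hE1)]
  have hGE : 1 ≤ Gam ^ 2 * Real.exp (R ^ 2 * Gam) := hG1.trans hGE'
  have h8 : (8 : ℝ) ≤ R ^ 3 := by
    have : (200 : ℝ) ^ 3 ≤ R ^ 3 := pow_le_pow_left₀ (by norm_num) hR 3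
    linarith
  have hR6 : 1 / R ^ 6 ≤ 1 / (4 * R ^ 3) / 2 := by
    rw [div_div, div_le_div_iff₀ (by positivity) (by positivity)]
    have : R ^ 6 = R ^ 3 * R ^ 3 := by ring
    nlinarith
  have hθ0 : 0 ≤ 1 / (4 * R ^ 3) := by positivity
  constructor
  · have : 1 * pc ≤ Gam ^ 2 * Real.exp (R ^ 2 * Gam) * pc := mul_le_mul_of_nonneg_right hGE hpc0
    linarith
  · have : Gam * pc ≤ Gam ^ 2 * Real.exp (R ^ 2 * Gam) * pc := mul_le_mul_of_nonneg_right hGE' hpc0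
    linarith

theorem mgf_aux {Ω : Type*} [Fintype Ω] [DecidableEq Ω] (R k Gam pc : ℝ) (j : Ω → ℕ)
    (hR : 200 ≤ R) (hk0 : 0 < k) (hN : 0 < Fintype.card Ω) (hG1 : 1 ≤ Gam)
    (hsum : ∑ x, Gam * cb (j x) = (Fintype.card Ω : ℝ)) (hpc0 : 0 ≤ pc)
    (htail : (((univ.filter
      (fun x : Ω => k / (16 * R ^ 3) ≤ |2 * (j x : ℝ) - k / 2|)).card : ℕ) : ℝ)
        ≤ (Fintype.card Ω : ℝ) * pc)
    (hmaster : Gam ^ 2 * Real.exp (R ^ 2 * Gam) * pc ≤ 1 / R ^ 6)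
    (t : ℝ) (ht : |t| ≤ R ^ 2) :
    ∑ x, Real.exp (t * (Gam * cb (j x) - 1))
      ≤ (Fintype.card Ω : ℝ) * Real.exp (t ^ 2 * (2 / R ^ 5) / 2) := by
  have hR0 : 0 < R := by linarith
  have hGam0 : 0 ≤ Gam := by linarith
  have hw0 : 0 ≤ k / (16 * R ^ 3) := by positivity
  have h8 : (8 : ℝ) ≤ R ^ 3 := by
    have : (200 : ℝ) ^ 3 ≤ R ^ 3 := pow_le_pow_left₀ (by norm_num) hR 3
    linarith
  have hwk : k / (16 * R ^ 3) ≤ k / 4 :=
    div_le_div_of_nonneg_left hk0.le (by norm_num) (by linarith)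
  have hθw : 4 * (k / (16 * R ^ 3)) / k = 1 / (4 * R ^ 3) := by
    field_simp; ring
  have hθ0 : 0 ≤ 1 / (4 * R ^ 3) := by positivity
  have hθ8 : 1 / (4 * R ^ 3) ≤ 1 / 8 :=
    div_le_div_of_nonneg_left (by norm_num) (by norm_num) (by linarith)
  obtain ⟨hpc_small, hGpc_small⟩ := small_of_master R Gam pc hR hG1 hpc0 hmaster
  have hpc1 : pc < 1 := by linarith
  have hCc : (univ.filter (fun x : Ω => |2 * (j x : ℝ) - k / 2| < k / (16 * R ^ 3)))ᶜ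
      = univ.filter (fun x : Ω => k / (16 * R ^ 3) ≤ |2 * (j x : ℝ) - k / 2|) := by
    ext x
    simp [not_lt]
  have hpcC : ((((univ.filter
      (fun x : Ω => |2 * (j x : ℝ) - k / 2| < k / (16 * R ^ 3)))ᶜ).card : ℕ) : ℝ)
      ≤ (Fintype.card Ω : ℝ) * pc := by
    rw [hCc]; exact htail
  have hb0 : ∀ x, 0 ≤ Gam * cb (j x) := fun x => mul_nonneg hGam0 (cb_pos _).le
  have hbG : ∀ x, Gam * cb (j x) ≤ Gam := fun x => by
    have := mul_le_mul_of_nonneg_left (cb_le_one (j x)) hGam0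
    linarith
  have hcore : ∀ x ∈ univ.filter (fun x : Ω => |2 * (j x : ℝ) - k / 2| < k / (16 * R ^ 3)),
      ∀ y ∈ univ.filter (fun x : Ω => |2 * (j x : ℝ) - k / 2| < k / (16 * R ^ 3)),
      Gam * cb (j x) ≤ Gam * cb (j y) * Real.exp (1 / (4 * R ^ 3)) := by
    intro x hx y hy
    have hx' := (Finset.mem_filter.mp hx).2
    have hy' := (Finset.mem_filter.mp hy).2
    have := core_ratio k _ (j x) (j y) hk0 hw0 hwk hx' hy'
    rw [hθw] at this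
    have h2 := mul_le_mul_of_nonneg_left this hGam0
    linarith
  have hz : ∀ x ∈ univ.filter (fun x : Ω => |2 * (j x : ℝ) - k / 2| < k / (16 * R ^ 3)),
      |Gam * cb (j x) - 1| ≤ 1 / R ^ 3 := by
    intro x hx
    have hu := core_upper (fun x => Gam * cb (j x)) _ _ pc hb0 hsum hcore hpcC hpc1 hN x hx
    have hl := core_lower (fun x => Gam * cb (j x)) _ Gam _ pc hb0 hbG hGam0 hsum hcore hpcC hN x hx
    have h1 := num_upper _ pc _ hθ0 hθ8 hpc0 hpc_small hu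
    have h2 := num_lower _ (Gam * pc) _ hθ0 hθ8 (by positivity) hGpc_small hl
    have e : 4 * (1 / (4 * R ^ 3)) = 1 / R ^ 3 := by field_simp
    rw [e] at h1 h2
    exact abs_le.mpr ⟨h2, h1⟩
  have hGall : ∀ x, |Gam * cb (j x) - 1| ≤ Gam := by
    intro x
    rw [abs_le]
    constructor
    · linarith [hb0 x]
    · linarith [hbG x]
  have hfin := mgf_core_sum (fun x => Gam * cb (j x)) _ Gam (1 / R ^ 3) pc (R ^ 2) hsum hz hGall hpcC t ht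
  refine hfin.trans ?_
  apply mul_le_mul_of_nonneg_left _ (by positivity)
  apply Real.exp_le_exp.mpr
  have hv := v_bound R _ hR hmaster
  have ht2 : 0 ≤ t ^ 2 := sq_nonneg t
  have := mul_le_mul_of_nonneg_left hv ht2
  linarith

theorem two_sqrt_half (r : ℕ) (hr : 1 ≤ r) :
    2 * Real.sqrt ((2 ^ (r - 1) : ℕ) : ℝ) = Real.sqrt (2 * 2 ^ r) := by
  obtain ⟨m, rfl⟩ : ∃ m, r = m + 1 := ⟨r - 1, by omega⟩
  have e1 : (2 : ℝ) = Real.sqrt 4 := by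
    rw [show (4 : ℝ) = 2 ^ 2 by norm_num, Real.sqrt_sq (by norm_num)]
  have e2 : (4 : ℝ) * ((2 ^ (m + 1 - 1) : ℕ) : ℝ) = 2 * 2 ^ (m + 1) := by
    simp only [Nat.add_sub_cancel]
    push_cast
    ring
  calc 2 * Real.sqrt ((2 ^ (m + 1 - 1) : ℕ) : ℝ)
      = Real.sqrt 4 * Real.sqrt ((2 ^ (m + 1 - 1) : ℕ) : ℝ) := by rw [← e1]
    _ = Real.sqrt (4 * ((2 ^ (m + 1 - 1) : ℕ) : ℝ)) := (Real.sqrt_mul (by norm_num) _).symm
    _ = _ := by rw [e2]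

/-- The normalising constant satisfies `1 ≤ Gam ≤ sqrt (2 k)`. -/
theorem gam_bounds {Ω : Type*} [Fintype Ω] (r : ℕ) (hr : 1 ≤ r) (Gam : ℝ) (j : Ω → ℕ)
    (hN : 0 < Fintype.card Ω) (hj : ∀ x, 2 * j x ≤ 2 ^ r)
    (hsum : ∑ x, Gam * cb (j x) = (Fintype.card Ω : ℝ)) :
    1 ≤ Gam ∧ Gam ≤ Real.sqrt (2 * 2 ^ r) := by
  have hN' : (0 : ℝ) < (Fintype.card Ω : ℝ) := by exact_mod_cast hN
  have hq0 : 0 < Real.sqrt (2 * 2 ^ r) := Real.sqrt_pos.mpr (by positivity)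
  have hGS : Gam * ∑ x, cb (j x) = (Fintype.card Ω : ℝ) := by rw [Finset.mul_sum]; exact hsum
  have hS_le : ∑ x, cb (j x) ≤ (Fintype.card Ω : ℝ) := by
    have : ∑ x, cb (j x) ≤ ∑ _x : Ω, (1 : ℝ) := Finset.sum_le_sum (fun x _ => cb_le_one _)
    simpa using this
  have hhalf : 2 * 2 ^ (r - 1) = 2 ^ r := by
    obtain ⟨m, rfl⟩ : ∃ m, r = m + 1 := ⟨r - 1, by omega⟩
    simp [pow_succ]; ring
  have hcbmin : ∀ x, 1 / Real.sqrt (2 * 2 ^ r) ≤ cb (j x) := by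
    intro x
    have h1 : j x ≤ 2 ^ (r - 1) := by have := hj x; omega
    have h2 : cb (2 ^ (r - 1)) ≤ cb (j x) := cb_antitone h1
    have h3 := cb_lower (2 ^ (r - 1)) (Nat.one_le_two_pow)
    rw [two_sqrt_half r hr] at h3
    exact h3.trans h2
  have hS_ge : (Fintype.card Ω : ℝ) / Real.sqrt (2 * 2 ^ r) ≤ ∑ x, cb (j x) := by
    have : ∑ _x : Ω, (1 / Real.sqrt (2 * 2 ^ r)) ≤ ∑ x, cb (j x) :=
      Finset.sum_le_sum (fun x _ => hcbmin x)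
    simp only [Finset.sum_const, Finset.card_univ, nsmul_eq_mul] at this
    rw [div_eq_mul_one_div]
    exact this
  have hS0 : 0 < ∑ x, cb (j x) := lt_of_lt_of_le (by positivity) hS_ge
  have hGam : Gam = (Fintype.card Ω : ℝ) / ∑ x, cb (j x) := by
    rw [eq_div_iff hS0.ne']; exact hGS
  constructor
  · rw [hGam, le_div_iff₀ hS0]; linarith
  · rw [hGam, div_le_iff₀ hS0]
    rw [div_le_iff₀ hq0] at hS_ge
    linarith

/-- MGF bound for `bt = Gam * cb (j x)` (`2 * j x` = number of split pairs, `k = 2^r` pairs),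
given the normalisation `mean bt = 1` and the binomial tail bound with the loss factor `2 k`. -/
theorem mgf_final {Ω : Type*} [Fintype Ω] (r : ℕ) (hr : 200 ≤ r) (Gam : ℝ) (j : Ω → ℕ)
    (hN : 0 < Fintype.card Ω)
    (hj : ∀ x, 2 * j x ≤ 2 ^ r)
    (hsum : ∑ x, Gam * cb (j x) = (Fintype.card Ω : ℝ))
    (htail : ∀ w : ℝ, 0 ≤ w →
      (((univ.filter (fun x : Ω => w ≤ |2 * (j x : ℝ) - (2 : ℝ) ^ r / 2|)).card : ℕ) : ℝ)
        ≤ (Fintype.card Ω : ℝ) * (2 * 2 ^ r * (2 * Real.exp (-2 * w ^ 2 / 2 ^ r))))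
    (t : ℝ) (ht : |t| ≤ (r : ℝ) ^ 2) :
    ∑ x, Real.exp (t * (Gam * cb (j x) - 1))
      ≤ (Fintype.card Ω : ℝ) * Real.exp (t ^ 2 * (2 / (r : ℝ) ^ 5) / 2) := by
  classical
  have hR200 : (200 : ℝ) ≤ (r : ℝ) := by exact_mod_cast hr
  have hR0 : (0 : ℝ) < (r : ℝ) := by linarith
  obtain ⟨hG1, hGq⟩ := gam_bounds r (by omega) Gam j hN hj hsum
  have hmaster := master_num r hr Gam (by linarith) hGq
  have hexp : -2 * ((2 : ℝ) ^ r / (16 * (r : ℝ) ^ 3)) ^ 2 / 2 ^ r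
      = -(2 ^ r / (128 * (r : ℝ) ^ 6)) := by
    field_simp; ring
  have ht' := htail ((2 : ℝ) ^ r / (16 * (r : ℝ) ^ 3)) (by positivity)
  rw [hexp] at ht'
  exact mgf_aux (r : ℝ) ((2 : ℝ) ^ r) Gam _ j hR200 (by positivity) hN hG1 hsum (by positivity)
    ht' hmaster t ht

end Vale.Agent.P162
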