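import Vale.Agent.P162.EntExtra
import Vale.Agent.P162.RealIneq
import Vale.Agent.P162.Mgf

/-!
# P162: abstract moment generating function bound   (task N2)

See `notes/P162_proof.md`, section 5, MGF.  On the core `exp (-θ) (1 - Γ pc) ≤ b ≤ exp θ / (1 - pc)`
by normalisation, so `|b - 1| ≤ z`; off the core `|b - 1| ≤ Γ`.
`exp_le_quad : exp y ≤ 1 + y + y ^ 2 * exp |y| / 2`, `mean (b - 1) = 0`, `1 + x ≤ exp x`.
-/

namespace Vale.Agent.P162

open Finset Vale.Agent.P335

open scoped Classical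

noncomputable section

variable {Ω : Type*} [Fintype Ω]

theorem mgf_core [Nonempty Ω] (b : Ω → ℝ) (hb0 : ∀ x, 0 ≤ b x) (hb1 : mean b = 1)
    (Γ θ pc τ z : ℝ) (hΓ : ∀ x, b x ≤ Γ) (core : Ω → Prop)
    (hcore : ∀ x y, core x → core y → b x ≤ Real.exp θ * b y)
    (hpc : mean (fun x => if core x then (0 : ℝ) else 1) ≤ pc) (hpc1 : pc < 1) (hθ : 0 ≤ θ)
    (hz1 : Real.exp θ / (1 - pc) - 1 ≤ z) (hz2 : 1 - Real.exp (-θ) * (1 - Γ * pc) ≤ z)
    (hτ : 0 ≤ τ) (t : ℝ) (ht : |t| ≤ τ) :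
    mean (fun x => Real.exp (t * (b x - 1)))
      ≤ Real.exp (t ^ 2 * (z ^ 2 * Real.exp (τ * z) + Γ ^ 2 * Real.exp (τ * Γ) * pc) / 2) := by
  have hN : 0 < Fintype.card Ω := Fintype.card_pos
  have hN' : (0 : ℝ) < (Fintype.card Ω : ℝ) := card_pos_real
  have hsum : ∑ x, b x = (Fintype.card Ω : ℝ) := by
    rw [sum_eq_card_mul_mean, hb1, mul_one]
  have hΓ1 : 1 ≤ Γ := by
    have h := mean_mono hΓ
    rwa [hb1, mean_const] at h
  have hΓ0 : 0 ≤ Γ := by linarith
  have hcc : (((univ.filter core)ᶜ).card : ℝ)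
      = ∑ x, (if core x then (0 : ℝ) else 1) := by
    have e : (univ.filter core)ᶜ = univ.filter (fun x => ¬ core x) := by
      ext x; simp
    rw [e, Finset.card_filter]
    push_cast
    apply Finset.sum_congr rfl
    intro x _
    by_cases h : core x <;> simp [h]
  have hpcC : (((univ.filter core)ᶜ).card : ℝ) ≤ (Fintype.card Ω : ℝ) * pc := by
    rw [hcc, sum_eq_card_mul_mean]
    exact mul_le_mul_of_nonneg_left hpc hN'.le
  have hcore' : ∀ x ∈ univ.filter core, ∀ y ∈ univ.filter core, b x ≤ b y * Real.exp θ := by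
    intro x hx y hy
    have := hcore x y (Finset.mem_filter.mp hx).2 (Finset.mem_filter.mp hy).2
    linarith
  have hz : ∀ x ∈ univ.filter core, |b x - 1| ≤ z := by
    intro x hx
    have hu := core_upper b _ θ pc hb0 hsum hcore' hpcC hpc1 hN x hx
    have hl := core_lower b _ Γ θ pc hb0 hΓ hΓ0 hsum hcore' hpcC hN x hx
    have hl2 : Real.exp (-θ) * (1 - Γ * pc) ≤ b x := by
      have := mul_le_mul_of_nonneg_left hl (Real.exp_pos (-θ)).le
      have e : Real.exp (-θ) * (b x * Real.exp θ) = b x := by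
        rw [mul_comm (b x), ← mul_assoc, ← Real.exp_add, neg_add_cancel, Real.exp_zero, one_mul]
      rwa [e] at this
    rw [abs_le]
    constructor <;> linarith
  have hG : ∀ x, |b x - 1| ≤ Γ := by
    intro x
    rw [abs_le]
    constructor
    · linarith [hb0 x]
    · linarith [hΓ x]
  have hfin := mgf_core_sum b _ Γ z pc τ hsum hz hG hpcC t ht
  unfold mean
  rw [div_le_iff₀ hN']
  linarith

end

end Vale.Agent.P162
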