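import Vale.Agent.P162.BinBounds
import Vale.Agent.P162.Mgf

/-!
# P162: the parameter inequalities   (task N3)

`r > 200`, `k = 2 ^ r`, `Γ ≤ sqrt (2 k)`, `w = k / (16 r^3)`, `θ = 4 w / k = 1 / (4 r^3)`,
`pc = 4 k exp (-2 w^2 / k) = 4 k exp (- k / (128 r^6))`, `z = 1 / r^3`, `τ = r^2`.
Use `sqrt k = 2 ^ (r/2) ≥ r ^ 10` (`pow_twenty_le`).
-/

namespace Vale.Agent.P162

open Finset

noncomputable section

theorem pow_twenty_le_nat (r : ℕ) (hr : 200 ≤ r) : r ^ 20 ≤ 2 ^ r := by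
  induction r, hr using Nat.le_induction with
  | base => norm_num
  | succ r hr ih =>
    have h1 : 200 * (r + 1) ≤ 201 * r := by omega
    have h2 : (200 * (r + 1)) ^ 20 ≤ (201 * r) ^ 20 := Nat.pow_le_pow_left h1 20
    rw [mul_pow, mul_pow] at h2
    have h3 : (201 : ℕ) ^ 20 ≤ 2 * 200 ^ 20 := by norm_num
    have h4 : 200 ^ 20 * (r + 1) ^ 20 ≤ 200 ^ 20 * (2 * r ^ 20) := by
      calc 200 ^ 20 * (r + 1) ^ 20 ≤ 201 ^ 20 * r ^ 20 := h2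
        _ ≤ (2 * 200 ^ 20) * r ^ 20 := Nat.mul_le_mul_right _ h3
        _ = 200 ^ 20 * (2 * r ^ 20) := by ring
    have h5 : (r + 1) ^ 20 ≤ 2 * r ^ 20 := Nat.le_of_mul_le_mul_left h4 (by positivity)
    calc (r + 1) ^ 20 ≤ 2 * r ^ 20 := h5
      _ ≤ 2 * 2 ^ r := Nat.mul_le_mul_left _ ih
      _ = 2 ^ (r + 1) := by ring

/-- growth: `r ^ 20 ≤ 2 ^ r` for `r ≥ 200`. -/
theorem pow_twenty_le {r : ℕ} (hr : 200 ≤ r) : (r : ℝ) ^ 20 ≤ 2 ^ r := by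
  exact_mod_cast pow_twenty_le_nat r hr

/-- the off-core probability bound. -/
def pcW (r : ℕ) : ℝ := 4 * 2 ^ r * Real.exp (-(2 : ℝ) ^ r / (128 * (r : ℝ) ^ 6))

theorem pcW_pos (r : ℕ) : 0 < pcW r := by
  unfold pcW; positivity

theorem pcW_eq (r : ℕ) :
    pcW r = 2 * 2 ^ r * (2 * Real.exp (-(2 ^ r / (128 * (r : ℝ) ^ 6)))) := by
  unfold pcW
  rw [neg_div]
  ring

theorem one_le_sqrt_two_pow (r : ℕ) : 1 ≤ Real.sqrt (2 * 2 ^ r) := by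
  apply Real.le_sqrt_of_sq_le
  have : (1 : ℝ) ≤ 2 ^ r := one_le_pow₀ (by norm_num)
  linarith

theorem master_pcW {r : ℕ} (hr : 200 ≤ r) {Γ : ℝ} (hΓ0 : 0 ≤ Γ)
    (hΓ : Γ ≤ Real.sqrt (2 * 2 ^ r)) :
    Γ ^ 2 * Real.exp ((r : ℝ) ^ 2 * Γ) * pcW r ≤ 1 / (r : ℝ) ^ 6 := by
  rw [pcW_eq]
  exact master_num r hr Γ hΓ0 hΓ

theorem pcW_small {r : ℕ} (hr : 200 ≤ r) :
    pcW r ≤ 1 / (4 * (r : ℝ) ^ 3) / 2
      ∧ Real.sqrt (2 * 2 ^ r) * pcW r ≤ 3 * (1 / (4 * (r : ℝ) ^ 3)) := by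
  have hR : (200 : ℝ) ≤ (r : ℝ) := by exact_mod_cast hr
  exact small_of_master (r : ℝ) _ (pcW r) hR (one_le_sqrt_two_pow r) (pcW_pos r).le
    (master_pcW hr (by positivity) le_rfl)

theorem theta_le {r : ℕ} (hr : 200 ≤ r) : 1 / (4 * (r : ℝ) ^ 3) ≤ 1 / 8 := by
  have hR : (200 : ℝ) ≤ (r : ℝ) := by exact_mod_cast hr
  have h8 : (8 : ℝ) ≤ (r : ℝ) ^ 3 := by
    have : (200 : ℝ) ^ 3 ≤ (r : ℝ) ^ 3 := pow_le_pow_left₀ (by norm_num) hR 3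
    linarith
  exact div_le_div_of_nonneg_left (by norm_num) (by norm_num) (by linarith)

theorem pcW_lt_one {r : ℕ} (hr : 200 < r) : pcW r < 1 := by
  have h1 := (pcW_small hr.le).1
  have h2 := theta_le hr.le
  linarith

theorem param_z1 {r : ℕ} (hr : 200 < r) :
    Real.exp (1 / (4 * (r : ℝ) ^ 3)) / (1 - pcW r) - 1 ≤ 1 / (r : ℝ) ^ 3 := by
  have hR : (200 : ℝ) ≤ (r : ℝ) := by exact_mod_cast hr.le
  have hR0 : (0 : ℝ) < (r : ℝ) := by linarith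
  have h := num_upper (1 / (4 * (r : ℝ) ^ 3)) (pcW r) _ (by positivity) (theta_le hr.le)
    (pcW_pos r).le (pcW_small hr.le).1 le_rfl
  have e : 4 * (1 / (4 * (r : ℝ) ^ 3)) = 1 / (r : ℝ) ^ 3 := by field_simp
  rwa [e] at h

theorem param_z2 {r : ℕ} (hr : 200 < r) {Γ : ℝ} (hΓ0 : 0 ≤ Γ)
    (hΓ : Γ ≤ Real.sqrt (2 * 2 ^ r)) :
    1 - Real.exp (-(1 / (4 * (r : ℝ) ^ 3))) * (1 - Γ * pcW r) ≤ 1 / (r : ℝ) ^ 3 := by
  have hR : (200 : ℝ) ≤ (r : ℝ) := by exact_mod_cast hr.le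
  have hR0 : (0 : ℝ) < (r : ℝ) := by linarith
  have hs : Γ * pcW r ≤ 3 * (1 / (4 * (r : ℝ) ^ 3)) :=
    (mul_le_mul_of_nonneg_right hΓ (pcW_pos r).le).trans (pcW_small hr.le).2
  have hb : 1 - Γ * pcW r
      ≤ (Real.exp (-(1 / (4 * (r : ℝ) ^ 3))) * (1 - Γ * pcW r))
        * Real.exp (1 / (4 * (r : ℝ) ^ 3)) := by
    have : Real.exp (-(1 / (4 * (r : ℝ) ^ 3))) * Real.exp (1 / (4 * (r : ℝ) ^ 3)) = 1 := by
      rw [← Real.exp_add, neg_add_cancel, Real.exp_zero]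
    calc 1 - Γ * pcW r = (Real.exp (-(1 / (4 * (r : ℝ) ^ 3))) * Real.exp (1 / (4 * (r : ℝ) ^ 3)))
          * (1 - Γ * pcW r) := by rw [this, one_mul]
      _ ≤ _ := le_of_eq (by ring)
  have h := num_lower (1 / (4 * (r : ℝ) ^ 3)) (Γ * pcW r) _ (by positivity) (theta_le hr.le)
    (mul_nonneg hΓ0 (pcW_pos r).le) hs hb
  have e : 4 * (1 / (4 * (r : ℝ) ^ 3)) = 1 / (r : ℝ) ^ 3 := by field_simp
  rw [e] at h
  linarith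

theorem param_v {r : ℕ} (hr : 200 < r) {Γ : ℝ} (hΓ0 : 0 ≤ Γ)
    (hΓ : Γ ≤ Real.sqrt (2 * 2 ^ r)) :
    (1 / (r : ℝ) ^ 3) ^ 2 * Real.exp ((r : ℝ) ^ 2 * (1 / (r : ℝ) ^ 3))
        + Γ ^ 2 * Real.exp ((r : ℝ) ^ 2 * Γ) * pcW r ≤ 2 / (r : ℝ) ^ 5 := by
  have hR : (200 : ℝ) ≤ (r : ℝ) := by exact_mod_cast hr.le
  exact v_bound (r : ℝ) _ hR (master_pcW hr.le hΓ0 hΓ)

end

end Vale.Agent.P162
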