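import Vale.Agent.P162.Tail
import Vale.Agent.P162.MgfCore
import Vale.Agent.P162.MgfParam

/-!
# P162: the MGF hypothesis on the clean model, and CLEAN SL+   (tasks K6, C2)

`b = btKer σ = Γ * betaU (splitU (g σ⁻¹))`, `betaU (2 j) = cb j`, `mean b = 1`, `b ≤ Γ`,
`Γ ≤ 1 / cb (k/2) ≤ sqrt (2 k)`; core = `|u - k/2| ≤ w`, `w = k / (16 r^3)`;
on the core `cb_ratio'` gives the factor `exp (w / (k/4)) = exp θ`; `split_tail` and `mean_mul_right` give `pc`.
Then `mgf_core`, `param_z1`, `param_z2`, `param_v`.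
-/

namespace Vale.Agent.P162

open Finset Vale.Agent.P335

open scoped Classical

noncomputable section

variable {X : Type*} [Fintype X] [DecidableEq X] {β : Type*}

theorem betaU_two_mul (j : ℕ) : betaU (2 * j) = cb j := by
  unfold betaU cb
  have h1 : 2 * j / 2 = j := by omega
  rw [h1, Nat.centralBinom_eq_two_mul_choose, pow_mul]
  norm_num

/-- comparison of two values of `cb` whose doubled arguments lie in the core window. -/
theorem cb_core_le {r : ℕ} (hr : 200 < r) (j j' : ℕ)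
    (hj : |((2 * j : ℕ) : ℝ) - 2 ^ r / 2| ≤ 2 ^ r / (16 * (r : ℝ) ^ 3))
    (hj' : |((2 * j' : ℕ) : ℝ) - 2 ^ r / 2| ≤ 2 ^ r / (16 * (r : ℝ) ^ 3)) :
    cb j ≤ Real.exp (1 / (4 * (r : ℝ) ^ 3)) * cb j' := by
  have hrR : (200 : ℝ) < (r : ℝ) := by exact_mod_cast hr
  have hr3 : (1 : ℝ) ≤ (r : ℝ) ^ 3 := one_le_pow₀ (by linarith)
  have hk : (0 : ℝ) < 2 ^ r := by positivity
  have hθ : (0 : ℝ) ≤ 1 / (4 * (r : ℝ) ^ 3) := by positivity
  rcases le_total j' j with hle | hle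
  · have h1 : cb j ≤ cb j' := cb_antitone hle
    have h2 : (1 : ℝ) ≤ Real.exp (1 / (4 * (r : ℝ) ^ 3)) := Real.one_le_exp hθ
    calc cb j ≤ cb j' := h1
      _ = 1 * cb j' := (one_mul _).symm
      _ ≤ _ := mul_le_mul_of_nonneg_right h2 (cb_pos j').le
  · have h := cb_ratio' j j' hle
    set w : ℝ := 2 ^ r / (16 * (r : ℝ) ^ 3) with hw
    have hw4 : w ≤ 2 ^ r / 4 := by
      rw [hw]
      apply div_le_div_of_nonneg_left hk.le (by norm_num) (by linarith)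
    have hw0 : 0 ≤ w := by rw [hw]; positivity
    rw [abs_le] at hj hj'
    push_cast at hj hj'
    have hnum : (j' : ℝ) - (j : ℝ) ≤ w := by linarith [hj.1, hj'.2]
    have hden : 2 ^ r / 4 ≤ 2 * (j : ℝ) + 1 := by linarith [hj.1]
    have hnum0 : 0 ≤ (j' : ℝ) - (j : ℝ) := by
      have : (j : ℝ) ≤ (j' : ℝ) := by exact_mod_cast hle
      linarith
    have hfrac : ((j' : ℝ) - (j : ℝ)) / (2 * (j : ℝ) + 1) ≤ 1 / (4 * (r : ℝ) ^ 3) := by
      calc ((j' : ℝ) - (j : ℝ)) / (2 * (j : ℝ) + 1) ≤ w / (2 ^ r / 4) := by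
            apply div_le_div₀ hw0 hnum (by positivity) hden
        _ = 1 / (4 * (r : ℝ) ^ 3) := by
            rw [hw]; field_simp; ring
    calc cb j ≤ cb j' * Real.exp (((j' : ℝ) - (j : ℝ)) / (2 * (j : ℝ) + 1)) := h
      _ ≤ cb j' * Real.exp (1 / (4 * (r : ℝ) ^ 3)) :=
          mul_le_mul_of_nonneg_left (Real.exp_le_exp.mpr hfrac) (cb_pos j').le
      _ = _ := mul_comm _ _

theorem MGF_clean {r : ℕ} (hr : 200 < r) {α γ : X → Bool} {ι0 : X → X} {ℓ : X → β}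
    (h : TopStr r α γ ι0 ℓ) (σ : Equiv.Perm X) (t : ℝ) (ht : |t| ≤ (r : ℝ) ^ 2) :
    mean (fun g => Real.exp (t * (btKer (lkey ℓ) (lkey γ) (lkey α) σ g - 1)))
      ≤ Real.exp (t ^ 2 * (2 / (r : ℝ) ^ 5) / 2) := by
  have hr1 : 1 ≤ r := by omega
  have hrR : (200 : ℝ) < (r : ℝ) := by exact_mod_cast hr
  have hk : (0 : ℝ) < 2 ^ r := by positivity
  obtain ⟨Γ, hΓ0, hker⟩ := kernel_formula hr1 h
  set b : Equiv.Perm X → ℝ := btKer (lkey ℓ) (lkey γ) (lkey α) σ with hb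
  set u : Equiv.Perm X → ℕ := fun g => splitU α γ ι0 (g * σ⁻¹) with hu
  have hbu : ∀ g, b g = Γ * betaU (u g) := fun g => hker σ g
  -- halves
  have hhalf : ∀ g, ∃ j, u g = 2 * j ∧ j ≤ 2 ^ (r - 1) := by
    intro g
    obtain ⟨j, hj⟩ := splitU_even hr1 h (g * σ⁻¹)
    refine ⟨j, by rw [hu]; simp only; omega, ?_⟩
    have hle := splitU_le hr1 h (g * σ⁻¹)
    have h2 : 2 ^ r = 2 * 2 ^ (r - 1) := by
      obtain ⟨m, rfl⟩ : ∃ m, r = m + 1 := ⟨r - 1, by omega⟩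
      simp [pow_succ, mul_comm]
    omega
  have hb1 : mean b = 1 := mean_btKer _ _ _ σ
  have hb0 : ∀ x, 0 ≤ b x := by
    intro x
    obtain ⟨j, hj, -⟩ := hhalf x
    rw [hbu, hj, betaU_two_mul]
    exact mul_nonneg hΓ0.le (cb_pos j).le
  have hbΓ : ∀ x, b x ≤ Γ := by
    intro x
    obtain ⟨j, hj, -⟩ := hhalf x
    rw [hbu, hj, betaU_two_mul]
    calc Γ * cb j ≤ Γ * 1 := mul_le_mul_of_nonneg_left (cb_le_one j) hΓ0.le
      _ = Γ := mul_one _
  -- upper bound for Γ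
  have hΓle : Γ ≤ Real.sqrt (2 * 2 ^ r) := by
    have hlow : ∀ x, Γ * cb (2 ^ (r - 1)) ≤ b x := by
      intro x
      obtain ⟨j, hj, hjle⟩ := hhalf x
      rw [hbu, hj, betaU_two_mul]
      exact mul_le_mul_of_nonneg_left (cb_antitone hjle) hΓ0.le
    have hm : Γ * cb (2 ^ (r - 1)) ≤ 1 := by
      have := mean_mono hlow
      rw [mean_const, hb1] at this
      exact this
    have hc := cb_pos (2 ^ (r - 1))
    have h1 : Γ ≤ 1 / cb (2 ^ (r - 1)) := by
      rw [le_div_iff₀ hc]; exact hm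
    have h2 := inv_cb_le (2 ^ (r - 1)) (Nat.one_le_two_pow)
    have h3 : 2 * Real.sqrt ((2 ^ (r - 1) : ℕ) : ℝ) = Real.sqrt (2 * 2 ^ r) := by
      have e : (2 : ℝ) * 2 ^ r = 2 ^ 2 * ((2 ^ (r - 1) : ℕ) : ℝ) := by
        obtain ⟨m, rfl⟩ : ∃ m, r = m + 1 := ⟨r - 1, by omega⟩
        push_cast
        simp [pow_succ]
        ring
      rw [e, Real.sqrt_mul (by positivity), Real.sqrt_sq (by norm_num)]
    linarith
  set w : ℝ := 2 ^ r / (16 * (r : ℝ) ^ 3) with hw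
  have hw0 : 0 ≤ w := by rw [hw]; positivity
  set core : Equiv.Perm X → Prop := fun g => ¬ (w < |((u g : ℕ) : ℝ) - 2 ^ r / 2|) with hcoredef
  have hcore : ∀ x y, core x → core y →
      b x ≤ Real.exp (1 / (4 * (r : ℝ) ^ 3)) * b y := by
    intro x y hx hy
    obtain ⟨j, hj, -⟩ := hhalf x
    obtain ⟨j', hj', -⟩ := hhalf y
    simp only [hcoredef, not_lt] at hx hy
    rw [hj] at hx
    rw [hj'] at hy
    rw [hbu, hbu, hj, hj', betaU_two_mul, betaU_two_mul]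
    have := cb_core_le hr j j' hx hy
    calc Γ * cb j ≤ Γ * (Real.exp (1 / (4 * (r : ℝ) ^ 3)) * cb j') :=
          mul_le_mul_of_nonneg_left this hΓ0.le
      _ = _ := by ring
  have hpc : mean (fun x => if core x then (0 : ℝ) else 1) ≤ pcW r := by
    have htail := split_tail hr1 h w hw0
    have htr := mean_mul_right (fun τ : Equiv.Perm X =>
        if w < |(splitU α γ ι0 τ : ℝ) - 2 ^ r / 2| then (1 : ℝ) else 0) σ⁻¹
    have he : (fun x => if core x then (0 : ℝ) else 1) = (fun g : Equiv.Perm X =>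
        (fun τ : Equiv.Perm X =>
          if w < |(splitU α γ ι0 τ : ℝ) - 2 ^ r / 2| then (1 : ℝ) else 0) (g * σ⁻¹)) := by
      funext x
      simp only [hcoredef, hu]
      by_cases hx : w < |(splitU α γ ι0 (x * σ⁻¹) : ℝ) - 2 ^ r / 2|
      · simp [hx]
      · simp [hx]
    rw [he, htr]
    refine htail.trans (le_of_eq ?_)
    unfold pcW
    congr 2
    rw [hw]
    field_simp
    ring
  have hmain := mgf_core b hb0 hb1 Γ (1 / (4 * (r : ℝ) ^ 3)) (pcW r) ((r : ℝ) ^ 2)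
    (1 / (r : ℝ) ^ 3) hbΓ core hcore (by convert hpc) (pcW_lt_one hr) (by positivity)
    (param_z1 hr) (param_z2 hr hΓ0.le hΓle) (by positivity) t ht
  refine hmain.trans (Real.exp_le_exp.mpr ?_)
  have hv := param_v hr hΓ0.le hΓle
  have ht2 : 0 ≤ t ^ 2 := sq_nonneg t
  have := mul_le_mul_of_nonneg_left hv ht2
  linarith

/-- CLEAN SL+. -/
theorem SL_clean {r : ℕ} (hr : 200 < r) {α γ : X → Bool} {ι0 : X → X} {ℓ : X → β}
    (h : TopStr r α γ ι0 ℓ) (F : Equiv.Perm X → ℝ) (hF : ∀ g, 0 < F g) :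
    ent (avg (lkey γ) (avg (lkey ℓ) F))
      ≤ ent (avg (lkey (fun x => (α x, γ x))) (avg (lkey ℓ) F)) - ent (avg (lkey α) F)
        + 2 / (r : ℝ) ^ 2 * ent (avg (lkey α) F) + 1 / (r : ℝ) ^ 3 * ent (avg (lkey ℓ) F) := by
  have hrR : (200 : ℝ) < (r : ℝ) := by exact_mod_cast hr
  have hr0 : (0 : ℝ) < (r : ℝ) := by linarith
  have hA1 : ∀ x y : Equiv.Perm X, lkey ℓ x = lkey ℓ y → lkey α x = lkey α y := by
    intro x y hxy
    funext c
    have hc : ℓ (x c) = ℓ (y c) := congrFun hxy c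
    rcases (h.lab (x c) (y c)).1 hc with h1 | h1
    · simp [lkey, h1]
    · simp [lkey, h1, h.top]
  have hA0A : ∀ x y : Equiv.Perm X, lkey (fun x => (α x, γ x)) x = lkey (fun x => (α x, γ x)) y →
      lkey α x = lkey α y := by
    intro x y hxy
    funext c
    exact congrArg Prod.fst (congrFun hxy c)
  have h00A : ∀ x y : Equiv.Perm X, lkey (fun x => (α x, γ x)) x = lkey (fun x => (α x, γ x)) y →
      lkey γ x = lkey γ y := by
    intro x y hxy
    funext c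
    exact congrArg Prod.snd (congrFun hxy c)
  have hmain := sl_abstract (lkey ℓ) (lkey γ) (lkey α) (lkey (fun x => (α x, γ x))) hA1 hA0A h00A
    (2 / (r : ℝ) ^ 5) ((r : ℝ) ^ 2) ((r : ℝ) ^ 3) (by positivity) (by positivity) (by positivity)
    (fun σ t ht => MGF_clean hr h σ t ht) hF
  have e1 : (r : ℝ) ^ 3 * (2 / (r : ℝ) ^ 5) = 2 / (r : ℝ) ^ 2 := by
    field_simp
  rw [e1, max_self] at hmain
  exact hmain

end

end Vale.Agent.P162
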