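import Vale.Agent.P162.CubeTransfer
import Vale.Agent.P162.CubeCell
import Vale.Agent.P162.L1Clean
import Vale.Agent.P162.MgfClean

/-!
# P162: L1 and SL+ for one cell of the cube   (tasks D5, D6)

`T = cell (US d j (r+1)) p0`, `X = T`, `γ p = p j`, `α p = p (j+r)`, `ι0` = flip of coordinate `j`,
`ℓ p = mask (US d j 1) p`.  On `T`: `mask (VS d j r)` induces the same partition as `γ`,
`mask (US d j r)` the same as `α`, `mask (VS d j (r-1))` the same as `(α, γ)` (use `avg_congr_of_iff`).
Apply `ent_sub_ent_avg` with `S0 = US d j (r+1)` to each operator word `W F`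
(`avg (key T S0) (W F) = avg (key T S0) F` by the tower property), `res_avg`, then the clean theorem for
`res T F g0` and `mean_mono`.
-/

namespace Vale.Agent.P162

open Finset Vale.Agent.P335

open scoped Classical

noncomputable section

variable {d : ℕ}

/-- the entropy difference of a word as a mean of entropies on the cosets -/
theorem cell_delta (S0 : Set (Fin d)) (p0 : Cube d) (F W : Equiv.Perm (Cube d) → ℝ)
    (hW : ∀ g, 0 < W g) (ht : avg (key (cell S0 p0) S0) W = avg (key (cell S0 p0) S0) F) :
    ent W - ent (avg (key (cell S0 p0) S0) F) = mean (fun g0 => ent (res (cell S0 p0) W g0)) := by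
  have hc : ∀ p ∈ cell S0 p0, ∀ q ∈ cell S0 p0, mask S0 p = mask S0 q :=
    fun p hp q hq => Eq.trans hp (Eq.symm hq)
  have e := ent_sub_ent_avg (cell S0 p0) S0 hc W hW
  rw [ht] at e
  exact e

theorem L1_cube (j r : ℕ) (hr : 1 ≤ r) (hjr : j + r < d) (p0 : Cube d)
    (F : Equiv.Perm (Cube d) → ℝ) (hF : ∀ g, 0 < F g) :
    ent (avg (key (cell (US d j (r + 1)) p0) (VS d j r))
          (avg (key (cell (US d j (r + 1)) p0) (US d j 1)) F))
        - ent (avg (key (cell (US d j (r + 1)) p0) (US d j (r + 1))) F)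
      ≤ 5 / 6 * (ent (avg (key (cell (US d j (r + 1)) p0) (US d j 1)) F)
        - ent (avg (key (cell (US d j (r + 1)) p0) (US d j (r + 1))) F)) := by
  set T := cell (US d j (r + 1)) p0 with hT
  have hF1 : ∀ g, 0 < avg (key T (US d j 1)) F g := avg_pos _ hF
  have hW1 : ∀ g, 0 < avg (key T (VS d j r)) (avg (key T (US d j 1)) F) g := avg_pos _ hF1
  have t1 : avg (key T (US d j (r + 1))) (avg (key T (US d j 1)) F) =
      avg (key T (US d j (r + 1))) F :=
    avg_avg_of_finer (key_finer (US_subset_of_le d j (by omega)) T) F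
  have t2 : avg (key T (US d j (r + 1))) (avg (key T (VS d j r)) (avg (key T (US d j 1)) F)) =
      avg (key T (US d j (r + 1))) F := by
    rw [avg_avg_of_finer (key_finer (US_subset_VS d j r) T), t1]
  rw [cell_delta _ p0 F _ hW1 t2, cell_delta _ p0 F _ hF1 t1, ← mean_const_mul]
  apply mean_mono
  intro g0
  rw [res_avg, res_avg]
  have h := L1_clean (cGam j r hjr p0) (cIota j r hjr p0) (cEll j r p0) (cell_pairStr j r hjr p0)
    (res T F g0) (fun x => hF _)
  rw [avg_congr_of_iff (lkey_iff_of_iff (cell_mask_VS_iff j r hjr p0))]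
  exact h

theorem SL_cube (j r : ℕ) (hr : 200 < r) (hjr : j + r < d) (p0 : Cube d)
    (F : Equiv.Perm (Cube d) → ℝ) (hF : ∀ g, 0 < F g) :
    ent (avg (key (cell (US d j (r + 1)) p0) (VS d j r))
          (avg (key (cell (US d j (r + 1)) p0) (US d j 1)) F))
        - ent (avg (key (cell (US d j (r + 1)) p0) (US d j (r + 1))) F)
      ≤ (ent (avg (key (cell (US d j (r + 1)) p0) (VS d j (r - 1)))
            (avg (key (cell (US d j (r + 1)) p0) (US d j 1)) F))
          - ent (avg (key (cell (US d j (r + 1)) p0) (US d j r)) F))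
        + 2 / (r : ℝ) ^ 2 * (ent (avg (key (cell (US d j (r + 1)) p0) (US d j r)) F)
          - ent (avg (key (cell (US d j (r + 1)) p0) (US d j (r + 1))) F))
        + 1 / (r : ℝ) ^ 3 * (ent (avg (key (cell (US d j (r + 1)) p0) (US d j 1)) F)
          - ent (avg (key (cell (US d j (r + 1)) p0) (US d j (r + 1))) F)) := by
  have hr1 : 1 ≤ r := by omega
  set T := cell (US d j (r + 1)) p0 with hT
  have hF1 : ∀ g, 0 < avg (key T (US d j 1)) F g := avg_pos _ hF
  have hW1 : ∀ g, 0 < avg (key T (VS d j r)) (avg (key T (US d j 1)) F) g := avg_pos _ hF1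
  have hW2 : ∀ g, 0 < avg (key T (VS d j (r - 1))) (avg (key T (US d j 1)) F) g := avg_pos _ hF1
  have hW3 : ∀ g, 0 < avg (key T (US d j r)) F g := avg_pos _ hF
  have t1 : avg (key T (US d j (r + 1))) (avg (key T (US d j 1)) F) =
      avg (key T (US d j (r + 1))) F :=
    avg_avg_of_finer (key_finer (US_subset_of_le d j (by omega)) T) F
  have t2 : avg (key T (US d j (r + 1))) (avg (key T (VS d j r)) (avg (key T (US d j 1)) F)) =
      avg (key T (US d j (r + 1))) F := by
    rw [avg_avg_of_finer (key_finer (US_subset_VS d j r) T), t1]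
  have t3 : avg (key T (US d j (r + 1))) (avg (key T (VS d j (r - 1))) (avg (key T (US d j 1)) F)) =
      avg (key T (US d j (r + 1))) F := by
    rw [avg_avg_of_finer (key_finer
      ((US_succ_subset d j r).trans (US_subset_VS_pred d j r hr1)) T), t1]
  have t4 : avg (key T (US d j (r + 1))) (avg (key T (US d j r)) F) =
      avg (key T (US d j (r + 1))) F :=
    avg_avg_of_finer (key_finer (US_succ_subset d j r) T) F
  have e1 := cell_delta _ p0 F _ hW1 t2
  have e2 := cell_delta _ p0 F _ hW2 t3
  have e3 := cell_delta _ p0 F _ hW3 t4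
  have e4 := cell_delta _ p0 F _ hF1 t1
  have hsplit : ent (avg (key T (VS d j (r - 1))) (avg (key T (US d j 1)) F))
        - ent (avg (key T (US d j r)) F) =
      (ent (avg (key T (VS d j (r - 1))) (avg (key T (US d j 1)) F))
        - ent (avg (key T (US d j (r + 1))) F))
      - (ent (avg (key T (US d j r)) F) - ent (avg (key T (US d j (r + 1))) F)) := by ring
  rw [hsplit, e1, e2, e3, e4, ← mean_const_mul, ← mean_const_mul, ← mean_sub, ← mean_add,
    ← mean_add]
  apply mean_mono
  intro g0
  rw [res_avg, res_avg, res_avg, res_avg, res_avg]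
  have h := SL_clean hr (cell_topStr j r hr1 hjr p0) (res T F g0) (fun x => hF _)
  rw [avg_congr_of_iff (lkey_iff_of_iff (cell_mask_VS_iff j r hjr p0)),
    avg_congr_of_iff (lkey_iff_of_iff (cell_mask_VS_pred_iff j r hr1 hjr p0)),
    avg_congr_of_iff (lkey_iff_of_iff (cell_mask_US_iff j r hjr p0))]
  exact h

end

end Vale.Agent.P162
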