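import Vale.Agent.P162.Cube

/-!
# P162: elementary facts on `mask`, `lab`, `key`, `US`, `VS`, `Saturated`, `cell`   (task D1)
-/

namespace Vale.Agent.P162

open Finset Vale.Agent.P335

open scoped Classical

noncomputable section

variable {d : ℕ}

theorem mask_mask_of_subset {S S' : Set (Fin d)} (h : S' ⊆ S) {p q : Cube d}
    (hpq : mask S p = mask S q) : mask S' p = mask S' q := by
  funext i
  by_cases hi : i ∈ S'
  · have h1 := congrFun hpq i
    simp only [mask, if_pos (h hi)] at h1
    simp only [mask, if_pos hi, h1]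
  · simp only [mask, if_neg hi]

theorem mask_univ (p : Cube d) : mask Set.univ p = p := by
  funext i
  simp [mask]

theorem lab_finer {S S' : Set (Fin d)} (h : S' ⊆ S) (T : Set (Cube d)) {p q : Cube d}
    (hpq : lab T S p = lab T S q) : lab T S' p = lab T S' q := by
  by_cases hp : p ∈ T <;> by_cases hq : q ∈ T
  · simp only [lab, if_pos hp, if_pos hq, Prod.mk.injEq, true_and] at hpq ⊢
    exact mask_mask_of_subset h hpq
  · simp [lab, hp, hq] at hpq
  · simp [lab, hp, hq] at hpq
  · simp only [lab, if_neg hp, if_neg hq] at hpq ⊢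
    exact hpq

/-- More remembered coordinates = finer key. -/
theorem key_finer {S S' : Set (Fin d)} (h : S' ⊆ S) (T : Set (Cube d))
    (g g' : Equiv.Perm (Cube d)) (hg : key T S g = key T S g') : key T S' g = key T S' g' := by
  funext c
  exact lab_finer h T (congrFun hg c)

theorem US_succ_subset (d j s : ℕ) : US d j (s + 1) ⊆ US d j s := by
  intro i hi
  simp only [US, Set.mem_ofPred_eq] at hi ⊢
  omega

theorem US_subset_of_le (d j : ℕ) {s s' : ℕ} (h : s ≤ s') : US d j s' ⊆ US d j s := by
  intro i hi
  simp only [US, Set.mem_ofPred_eq] at hi ⊢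
  omega

theorem US_zero (d j : ℕ) : US d j 0 = Set.univ := by
  ext i
  simp only [US, Set.mem_ofPred_eq, Set.mem_univ, iff_true]
  omega

theorem US_subset_VS (d j r : ℕ) : US d j (r + 1) ⊆ VS d j r := by
  intro i hi
  simp only [US, VS, Set.mem_ofPred_eq] at hi ⊢
  omega

/-- `VS d j r = US d (j+1) r`. -/
theorem VS_eq_US (d j r : ℕ) : VS d j r = US d (j + 1) r := by
  ext i
  simp only [US, VS, Set.mem_ofPred_eq]
  omega

theorem VS_pred_subset (d j r : ℕ) (hr : 1 ≤ r) : VS d j r ⊆ VS d j (r - 1) := by
  intro i hi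
  simp only [VS, Set.mem_ofPred_eq] at hi ⊢
  omega

theorem US_subset_VS_pred (d j r : ℕ) (hr : 1 ≤ r) : US d j r ⊆ VS d j (r - 1) := by
  intro i hi
  simp only [US, VS, Set.mem_ofPred_eq] at hi ⊢
  omega

theorem US_zero_d (d : ℕ) : US d 0 d = ∅ := by
  ext i
  have := i.isLt
  simp only [US, Set.mem_ofPred_eq, Set.mem_empty_iff_false, iff_false]
  omega

theorem lab_univ_injective (T : Set (Cube d)) : Function.Injective (lab T (Set.univ)) := by
  intro p q hpq
  by_cases hp : p ∈ T <;> by_cases hq : q ∈ T
  · simpa [lab, hp, hq, mask_univ] using hpq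
  · simp [lab, hp, hq] at hpq
  · simp [lab, hp, hq] at hpq
  · simpa [lab, hp, hq] using hpq

theorem key_univ_injective (T : Set (Cube d)) : Function.Injective (key T (Set.univ)) := by
  intro g g' h
  ext1 c
  exact lab_univ_injective T (congrFun h c)

theorem key_empty_injective (S : Set (Fin d)) :
    Function.Injective (key (∅ : Set (Cube d)) S) := by
  intro g g' h
  ext1 c
  have := congrFun h c
  simpa [key, lab] using this

theorem key_univ_empty_const (g g' : Equiv.Perm (Cube d)) :
    key (Set.univ) (∅ : Set (Fin d)) g = key Set.univ ∅ g' := by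
  funext c
  simp only [key, lab, Set.mem_univ, if_true, Prod.mk.injEq, true_and]
  funext i
  simp [mask]

theorem Saturated.mono {S S' : Set (Fin d)} (h : S' ⊆ S) {T : Set (Cube d)}
    (hT : Saturated S' T) : Saturated S T :=
  fun p q hpq => hT p q (mask_mask_of_subset h hpq)

theorem saturated_cell (S : Set (Fin d)) (p0 : Cube d) : Saturated S (cell S p0) := by
  intro p q hpq
  simp only [cell, Set.mem_ofPred_eq]
  rw [hpq]

theorem saturated_univ (S : Set (Fin d)) : Saturated S (Set.univ : Set (Cube d)) :=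
  fun _ _ _ => Iff.rfl

theorem Saturated.diff {S : Set (Fin d)} {T T' : Set (Cube d)} (hT : Saturated S T)
    (hT' : Saturated S T') : Saturated S (T \ T') := by
  intro p q hpq
  simp only [Set.mem_sdiff]
  rw [hT p q hpq, hT' p q hpq]

theorem cell_subset_of_mem {S : Set (Fin d)} {T : Set (Cube d)} (hT : Saturated S T)
    {p0 : Cube d} (h : p0 ∈ T) : cell S p0 ⊆ T := by
  intro p hp
  exact (hT p p0 hp).2 h

theorem mem_cell_self (S : Set (Fin d)) (p0 : Cube d) : p0 ∈ cell S p0 := rfl

end

end Vale.Agent.P162
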