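import Vale.Agent.P162.CubeProd

/-!
# P162: (L3) on the cube: SC(r) implies MC(r)   (task D3)

`MLcube_union` = `MLkey.tensor` with `avg_key_comm`, `avg_key_union`, `key_finer`, `Saturated.mono`.
`MLcube_of_cells`: induction on the number of points of `T` (remove the cell of a point of `T`).
-/

namespace Vale.Agent.P162

open Finset Vale.Agent.P335

open scoped Classical

noncomputable section

variable {d : ℕ}

/-- (L3) for two disjoint saturated blocks. -/
theorem MLcube_union (j r : ℕ) (ε : ℕ → ℝ) (hε0 : ∀ s, 1 ≤ s → s ≤ r → 0 ≤ ε s)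
    (hεa : ∀ s, 1 ≤ s → s + 1 ≤ r → ε (s + 1) ≤ ε s) {T1 T2 : Set (Cube d)}
    (hT : Disjoint T1 T2) (h1 : Saturated (US d j (r + 1)) T1)
    (h2 : Saturated (US d j (r + 1)) T2)
    (M1 : MLcube d T1 j r ε) (M2 : MLcube d T2 j r ε) : MLcube d (T1 ∪ T2) j r ε := by
  unfold MLcube at *
  refine MLkey.tensor r ε hε0 hεa (fun s => key T1 (US d j s)) (fun s => key T2 (US d j s))
    (fun s => key (T1 ∪ T2) (US d j s)) (key T1 (VS d j r)) (key T2 (VS d j r))
    (key (T1 ∪ T2) (VS d j r)) ?_ ?_ ?_ ?_ ?_ ?_ ?_ ?_ ?_ M1 M2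
  · intro s _ _ x y hxy
    exact key_finer (US_succ_subset d j s) T1 x y hxy
  · intro s _ _ x y hxy
    exact key_finer (US_succ_subset d j s) T2 x y hxy
  · intro x y hxy
    exact key_finer (US_subset_VS d j r) T1 x y hxy
  · intro x y hxy
    exact key_finer (US_subset_VS d j r) T2 x y hxy
  · intro s s' _ _ _ _ F
    exact avg_key_comm hT _ _ F
  · intro s _ _ F
    exact avg_key_comm hT _ _ F
  · intro s _ _ F
    exact avg_key_comm hT _ _ F
  · intro s _ hs F
    exact avg_key_union hT (US d j s) (Saturated.mono (US_subset_of_le d j hs) h1)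
      (Saturated.mono (US_subset_of_le d j hs) h2) F
  · intro F
    exact avg_key_union hT (VS d j r) (Saturated.mono (US_subset_VS d j r) h1)
      (Saturated.mono (US_subset_VS d j r) h2) F

/-- the empty block. -/
theorem MLcube_empty (j r : ℕ) (ε : ℕ → ℝ) : MLcube d (∅ : Set (Cube d)) j r ε := by
  intro F _
  have h : ∀ (S : Set (Fin d)) (G : Equiv.Perm (Cube d) → ℝ),
      avg (key (∅ : Set (Cube d)) S) G = G := fun S G =>
    avg_of_injective (key_empty_injective S) G
  simp only [h, sub_self, mul_zero, Finset.sum_const_zero, le_refl]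

/-- SC(r) implies MC(r). -/
theorem MLcube_of_cells (j r : ℕ) (ε : ℕ → ℝ) (hε0 : ∀ s, 1 ≤ s → s ≤ r → 0 ≤ ε s)
    (hεa : ∀ s, 1 ≤ s → s + 1 ≤ r → ε (s + 1) ≤ ε s)
    (hc : ∀ p0 : Cube d, MLcube d (cell (US d j (r + 1)) p0) j r ε)
    (T : Set (Cube d)) (hT : Saturated (US d j (r + 1)) T) : MLcube d T j r ε := by
  have key : ∀ n : ℕ, ∀ T : Set (Cube d), T.ncard = n → Saturated (US d j (r + 1)) T →
      MLcube d T j r ε := by
    intro n
    induction n using Nat.strong_induction_on with
    | _ n ih =>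
      intro T hn hT
      rcases Set.eq_empty_or_nonempty T with rfl | ⟨p0, hp0⟩
      · exact MLcube_empty j r ε
      · set C := cell (US d j (r + 1)) p0 with hC
        have hCT : C ⊆ T := cell_subset_of_mem hT hp0
        have hsat : Saturated (US d j (r + 1)) (T \ C) := hT.diff (saturated_cell _ p0)
        have hlt : (T \ C).ncard < n := by
          rw [← hn]
          apply Set.ncard_lt_ncard _ (Set.toFinite T)
          refine ⟨Set.sdiff_subset, fun hsub => ?_⟩
          exact (hsub hp0).2 (mem_cell_self _ p0)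
        have hM := ih _ hlt (T \ C) rfl hsat
        have hU : C ∪ (T \ C) = T := Set.union_sdiff_cancel hCT
        rw [← hU]
        exact MLcube_union j r ε hε0 hεa Set.disjoint_sdiff_right (saturated_cell _ p0) hsat
          (hc p0) hM
  exact key _ T rfl hT

end

end Vale.Agent.P162
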