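import Vale.Agent.P162.CubeKeys

/-!
# P162: group description of the classes of `key`, commutation, product   (task D2)

The class of `g` for `key T S` is `{h * g : h ∈ stab T S}`.  Elements of `stab T S` fix every
position outside `T`; so for disjoint `T1`, `T2` they commute, and if `T1`, `T2` are
`S`-saturated every element of `stab (T1 ∪ T2) S` is uniquely `h1 * h2`.
-/

namespace Vale.Agent.P162

open Finset Vale.Agent.P335

open scoped Classical

noncomputable section

variable {d : ℕ}

/-- Permutations of the positions which preserve the label. -/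
def stab (T : Set (Cube d)) (S : Set (Fin d)) : Finset (Equiv.Perm (Cube d)) :=
  univ.filter (fun h => ∀ p, lab T S (h p) = lab T S p)

theorem mem_stab {T : Set (Cube d)} {S : Set (Fin d)} {h : Equiv.Perm (Cube d)} :
    h ∈ stab T S ↔ ∀ p, lab T S (h p) = lab T S p := by
  simp [stab]

theorem key_eq_iff (T : Set (Cube d)) (S : Set (Fin d)) (g g' : Equiv.Perm (Cube d)) :
    key T S g' = key T S g ↔ g' * g⁻¹ ∈ stab T S := by
  rw [mem_stab]
  constructor
  · intro h p
    have := congrFun h (g⁻¹ p)
    simpa [key] using this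
  · intro h
    funext c
    have := h (g c)
    simpa [key] using this

/-- group form of `avg (key T S)`. -/
theorem avg_key_eq (T : Set (Cube d)) (S : Set (Fin d)) (F : Equiv.Perm (Cube d) → ℝ)
    (g : Equiv.Perm (Cube d)) :
    avg (key T S) F g = (∑ h ∈ stab T S, F (h * g)) / ((stab T S).card : ℝ) := by
  have hb : ∀ G : Equiv.Perm (Cube d) → ℝ,
      ∑ y ∈ cls (key T S) g, G y = ∑ h ∈ stab T S, G (h * g) := by
    intro G
    refine sum_bij (fun y _ => y * g⁻¹) ?_ ?_ ?_ ?_
    · intro y hy
      exact (key_eq_iff T S g y).1 (mem_cls.1 hy)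
    · intro y _ y' _ h
      exact mul_right_cancel h
    · intro h hh
      refine ⟨h * g, mem_cls.2 ((key_eq_iff T S g (h * g)).2 (by simpa using hh)), by simp⟩
    · intro y _
      simp
  have hc : ((cls (key T S) g).card : ℝ) = ((stab T S).card : ℝ) := by
    have := hb (fun _ => 1)
    simpa using this
  unfold avg
  rw [hb F, hc]

theorem stab_fix {T : Set (Cube d)} {S : Set (Fin d)} {h : Equiv.Perm (Cube d)}
    (hh : h ∈ stab T S) {p : Cube d} (hp : p ∉ T) : h p = p := by
  have := mem_stab.1 hh p
  unfold lab at this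
  rw [if_neg hp] at this
  by_cases h1 : h p ∈ T
  · rw [if_pos h1] at this
    simp at this
  · rw [if_neg h1] at this
    exact (Prod.ext_iff.1 this).2

theorem stab_mem {T : Set (Cube d)} {S : Set (Fin d)} {h : Equiv.Perm (Cube d)}
    (hh : h ∈ stab T S) {p : Cube d} (hp : p ∈ T) : h p ∈ T ∧ mask S (h p) = mask S p := by
  have := mem_stab.1 hh p
  unfold lab at this
  rw [if_pos hp] at this
  by_cases h1 : h p ∈ T
  · rw [if_pos h1] at this
    exact ⟨h1, (Prod.ext_iff.1 this).2⟩
  · rw [if_neg h1] at this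
    simp at this

theorem stab_commute {T1 T2 : Set (Cube d)} (hT : Disjoint T1 T2) {S1 S2 : Set (Fin d)}
    {h1 h2 : Equiv.Perm (Cube d)} (hh1 : h1 ∈ stab T1 S1) (hh2 : h2 ∈ stab T2 S2) :
    h1 * h2 = h2 * h1 := by
  have : Equiv.Perm.Disjoint h1 h2 := by
    intro x
    by_cases hx : x ∈ T1
    · right
      exact stab_fix hh2 (fun hx2 => (Set.disjoint_left.1 hT) hx hx2)
    · left
      exact stab_fix hh1 hx
  exact this.commute

/-- commutation for disjoint blocks. -/
theorem avg_key_comm {T1 T2 : Set (Cube d)} (hT : Disjoint T1 T2) (S1 S2 : Set (Fin d))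
    (F : Equiv.Perm (Cube d) → ℝ) :
    avg (key T1 S1) (avg (key T2 S2) F) = avg (key T2 S2) (avg (key T1 S1) F) := by
  funext g
  rw [avg_key_eq, avg_key_eq]
  simp_rw [avg_key_eq]
  simp_rw [← sum_div]
  rw [sum_comm, div_div, div_div, mul_comm ((stab T2 S2).card : ℝ)]
  congr 1
  refine sum_congr rfl (fun h2 hh2 => sum_congr rfl (fun h1 hh1 => ?_))
  rw [← mul_assoc, ← mul_assoc, stab_commute hT hh1 hh2]

theorem lab_union_of_left {T1 : Set (Cube d)} (T2 : Set (Cube d)) {S : Set (Fin d)} {p q : Cube d}
    (h : lab T1 S p = lab T1 S q) : lab (T1 ∪ T2) S p = lab (T1 ∪ T2) S q := by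
  unfold lab at h ⊢
  by_cases hp : p ∈ T1
  · rw [if_pos hp] at h
    by_cases hq : q ∈ T1
    · rw [if_pos hq] at h
      rw [if_pos (Set.mem_union_left T2 hp), if_pos (Set.mem_union_left T2 hq)]
      exact h
    · rw [if_neg hq] at h
      simp at h
  · rw [if_neg hp] at h
    by_cases hq : q ∈ T1
    · rw [if_pos hq] at h
      simp at h
    · rw [if_neg hq] at h
      have : p = q := (Prod.ext_iff.1 h).2
      rw [this]

/-- product for disjoint saturated blocks. -/
theorem avg_key_union {T1 T2 : Set (Cube d)} (hT : Disjoint T1 T2) (S : Set (Fin d))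
    (h1 : Saturated S T1) (h2 : Saturated S T2) (F : Equiv.Perm (Cube d) → ℝ) :
    avg (key (T1 ∪ T2) S) F = avg (key T1 S) (avg (key T2 S) F) := by
  -- both keys are finer than the key of the union
  have f1 : ∀ x y, key T1 S x = key T1 S y → key (T1 ∪ T2) S x = key (T1 ∪ T2) S y := by
    intro x y h
    funext c
    exact lab_union_of_left T2 (congrFun h c)
  have f2 : ∀ x y, key T2 S x = key T2 S y → key (T1 ∪ T2) S x = key (T1 ∪ T2) S y := by
    intro x y h
    funext c
    have := lab_union_of_left T1 (congrFun h c)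
    rw [Set.union_comm] at this
    exact this
  set G := avg (key T1 S) (avg (key T2 S) F) with hG
  have hG2 : G = avg (key T2 S) (avg (key T1 S) F) := avg_key_comm hT S S F
  have e1 : avg (key (T1 ∪ T2) S) G = avg (key (T1 ∪ T2) S) F := by
    rw [hG, avg_avg_of_finer f1, avg_avg_of_finer f2]
  have inv1 : ∀ x y, key T1 S x = key T1 S y → G x = G y := fun x y h => avg_congr_key _ h
  have inv2 : ∀ x y, key T2 S x = key T2 S y → G x = G y := by
    intro x y h
    rw [hG2]
    exact avg_congr_key _ h
  have e2 : avg (key (T1 ∪ T2) S) G = G := by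
    refine avg_of_invariant ?_
    intro x y hxy
    -- h = x * y⁻¹ preserves the union label
    have hh : x * y⁻¹ ∈ stab (T1 ∪ T2) S := (key_eq_iff _ _ y x).1 hxy
    set h := x * y⁻¹ with hdef
    have hpres : ∀ p, h p ∈ T2 ↔ p ∈ T2 := by
      intro p
      by_cases hp : p ∈ T1 ∪ T2
      · exact h2 _ _ (stab_mem hh hp).2
      · rw [stab_fix hh hp]
    let k : Equiv.Perm (Cube d) := Equiv.Perm.ofSubtype (h.subtypePerm hpres)
    have k_in : ∀ p, p ∈ T2 → k p = h p := by
      intro p hp
      show Equiv.Perm.ofSubtype (h.subtypePerm hpres) p = h p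
      rw [Equiv.Perm.ofSubtype_apply_of_mem _ hp]
      rfl
    have k_out : ∀ p, p ∉ T2 → k p = p := by
      intro p hp
      exact Equiv.Perm.ofSubtype_apply_of_not_mem _ hp
    -- intermediate point z = k * y
    have hz2 : key T2 S (k * y) = key T2 S y := by
      funext c
      show lab T2 S (k (y c)) = lab T2 S (y c)
      by_cases hp : y c ∈ T2
      · rw [k_in _ hp]
        unfold lab
        rw [if_pos hp, if_pos ((hpres _).2 hp), (stab_mem hh (Or.inr hp)).2]
      · rw [k_out _ hp]
    have hz1 : key T1 S x = key T1 S (k * y) := by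
      funext c
      show lab T1 S (x c) = lab T1 S (k (y c))
      have hxc : x c = h (y c) := by simp [hdef]
      rw [hxc]
      by_cases hp : y c ∈ T2
      · rw [k_in _ hp]
      · rw [k_out _ hp]
        by_cases hp1 : y c ∈ T1
        · have := stab_mem hh (Or.inl hp1)
          unfold lab
          rw [if_pos hp1, if_pos ((h1 _ _ this.2).2 hp1), this.2]
        · rw [stab_fix hh (fun hu => hu.elim hp1 hp)]
    rw [inv1 _ _ hz1, inv2 _ _ hz2]
  rw [← e1, e2]

end

end Vale.Agent.P162
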