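import Vale.Agent.P162.Clean

/-!
# P162: general facts on label keys `lkey lam g = lam ∘ g` on `Perm X`   (task H1)

The class of `g` is the coset `lstab lam * g`; `lam ∘ g` takes exactly the values `t` with the same
fibre cardinalities as `lam`, each the same number of times.
-/

namespace Vale.Agent.P162

open Finset Vale.Agent.P335

open scoped Classical

noncomputable section

variable {X : Type*} [Fintype X] [DecidableEq X] {B : Type*}

/-- Permutations of the positions which preserve the label. -/
def lstab (lam : X → B) : Finset (Equiv.Perm X) := univ.filter (fun h => ∀ p, lam (h p) = lam p)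

theorem mem_lstab {lam : X → B} {h : Equiv.Perm X} : h ∈ lstab lam ↔ ∀ p, lam (h p) = lam p := by
  simp [lstab]

theorem lkey_eq_iff (lam : X → B) (g g' : Equiv.Perm X) :
    lkey lam g' = lkey lam g ↔ g' * g⁻¹ ∈ lstab lam := by
  rw [mem_lstab]
  constructor
  · intro h p
    have := congrFun h (g⁻¹ p)
    simpa [lkey] using this
  · intro h
    funext c
    have := h (g c)
    simpa [lkey] using this

theorem one_mem_lstab (lam : X → B) : (1 : Equiv.Perm X) ∈ lstab lam := by
  simp [mem_lstab]

/-- The class of `g` is the image of `lstab lam` under right multiplication by `g`. -/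
theorem sum_cls_lkey (lam : X → B) (F : Equiv.Perm X → ℝ) (g : Equiv.Perm X) :
    ∑ x ∈ cls (lkey lam) g, F x = ∑ h ∈ lstab lam, F (h * g) := by
  symm
  refine sum_bij' (fun h _ => h * g) (fun x _ => x * g⁻¹) ?_ ?_ ?_ ?_ ?_
  · intro h hh
    rw [mem_cls, lkey_eq_iff]
    simpa using hh
  · intro x hx
    rw [mem_cls, lkey_eq_iff] at hx
    exact hx
  · intro h _
    simp
  · intro x _
    simp
  · intro h _
    rfl

theorem card_cls_lkey (lam : X → B) (g : Equiv.Perm X) :
    (cls (lkey lam) g).card = (lstab lam).card := by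
  have h := sum_cls_lkey lam (fun _ => (1 : ℝ)) g
  simp only [sum_const, nsmul_eq_mul, mul_one] at h
  exact_mod_cast h

/-- group form of `avg (lkey lam)`. -/
theorem avg_lkey_eq (lam : X → B) (F : Equiv.Perm X → ℝ) (g : Equiv.Perm X) :
    avg (lkey lam) F g = (∑ h ∈ lstab lam, F (h * g)) / ((lstab lam).card : ℝ) := by
  unfold avg
  rw [sum_cls_lkey, card_cls_lkey]

/-- Two labellings with the same fibre cardinalities differ by a permutation. -/
theorem exists_perm_lkey_iff (lam t : X → B) :
    (∃ g : Equiv.Perm X, lkey lam g = t) ↔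
      ∀ b, (univ.filter (fun x => t x = b)).card = (univ.filter (fun x => lam x = b)).card := by
  constructor
  · rintro ⟨g, rfl⟩ b
    refine card_bij (fun x _ => g x) ?_ ?_ ?_
    · intro x hx
      rw [mem_filter] at hx ⊢
      exact ⟨mem_univ _, hx.2⟩
    · intro x _ y _ hxy
      exact g.injective hxy
    · intro y hy
      rw [mem_filter] at hy
      refine ⟨g⁻¹ y, ?_, by simp⟩
      rw [mem_filter]
      refine ⟨mem_univ _, ?_⟩
      show lam (g (g⁻¹ y)) = b
      simpa using hy.2
  · intro h
    have e : ∀ b : B, {x // t x = b} ≃ {x // lam x = b} := fun b =>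
      Fintype.equivOfCardEq (by
        rw [Fintype.card_subtype, Fintype.card_subtype]
        exact h b)
    let g : Equiv.Perm X :=
      (Equiv.sigmaFiberEquiv t).symm.trans
        ((Equiv.sigmaCongrRight e).trans (Equiv.sigmaFiberEquiv lam))
    refine ⟨g, ?_⟩
    funext x
    have : g x = ((e (t x)) ⟨x, rfl⟩ : X) := rfl
    show lam (g x) = t x
    rw [this]
    exact ((e (t x)) ⟨x, rfl⟩).2

theorem card_lkey_fiber (lam t : X → B) :
    (univ.filter (fun g : Equiv.Perm X => lkey lam g = t)).card =
      if (∃ g : Equiv.Perm X, lkey lam g = t) then (lstab lam).card else 0 := by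
  split_ifs with h
  · obtain ⟨g, rfl⟩ := h
    have := card_cls_lkey lam g
    unfold cls at this
    convert this
  · rw [card_eq_zero, filter_eq_empty_iff]
    intro g _ hg
    exact h ⟨g, hg⟩

theorem mean_mul_right (F : Equiv.Perm X → ℝ) (σ : Equiv.Perm X) :
    mean (fun g => F (g * σ)) = mean F := by
  unfold mean
  congr 1
  exact Equiv.sum_comp (Equiv.mulRight σ) F

theorem mean_mul_left' (F : Equiv.Perm X → ℝ) (σ : Equiv.Perm X) :
    mean (fun g => F (σ * g)) = mean F := by
  unfold mean
  congr 1
  exact Equiv.sum_comp (Equiv.mulLeft σ) F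

/-- `lam ∘ g` is equidistributed on its range. -/
theorem mean_lkey [Fintype B] (lam : X → B) (Ψ : (X → B) → ℝ) :
    mean (fun g : Equiv.Perm X => Ψ (lkey lam g)) =
      (∑ t ∈ univ.filter (fun t : X → B => ∃ g : Equiv.Perm X, lkey lam g = t), Ψ t) /
        ((univ.filter (fun t : X → B => ∃ g : Equiv.Perm X, lkey lam g = t)).card : ℝ) := by
  set R := univ.filter (fun t : X → B => ∃ g : Equiv.Perm X, lkey lam g = t) with hR
  have hmaps : ∀ g ∈ (univ : Finset (Equiv.Perm X)), lkey lam g ∈ R := by
    intro g _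
    rw [hR, mem_filter]
    exact ⟨mem_univ _, g, rfl⟩
  have hfib : ∀ (Φ : (X → B) → ℝ), ∑ g : Equiv.Perm X, Φ (lkey lam g)
      = ((lstab lam).card : ℝ) * ∑ t ∈ R, Φ t := by
    intro Φ
    rw [← sum_fiberwise_of_maps_to hmaps, mul_sum]
    refine sum_congr rfl (fun t ht => ?_)
    have h1 : ∑ g ∈ univ.filter (fun g : Equiv.Perm X => lkey lam g = t), Φ (lkey lam g)
        = ∑ _g ∈ univ.filter (fun g : Equiv.Perm X => lkey lam g = t), Φ t :=
      sum_congr rfl (fun g hg => by rw [(mem_filter.1 hg).2])
    rw [h1, sum_const, nsmul_eq_mul, card_lkey_fiber, if_pos (mem_filter.1 ht).2]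
  have hcard : (Fintype.card (Equiv.Perm X) : ℝ) = ((lstab lam).card : ℝ) * (R.card : ℝ) := by
    have := hfib (fun _ => 1)
    simpa using this
  have hpos : ((lstab lam).card : ℝ) ≠ 0 := by
    have : 0 < (lstab lam).card := card_pos.mpr ⟨1, one_mem_lstab lam⟩
    positivity
  unfold mean
  rw [hfib, hcard, mul_div_mul_left _ _ hpos]

/-- right translation commutes with `avg (lkey lam)`. -/
theorem avg_lkey_mul_right (lam : X → B) (F : Equiv.Perm X → ℝ) (σ g : Equiv.Perm X) :
    avg (lkey lam) (fun x => F (x * σ)) g = avg (lkey lam) F (g * σ) := by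
  rw [avg_lkey_eq, avg_lkey_eq]
  simp only [mul_assoc]

end

end Vale.Agent.P162
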