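import Vale.Agent.P162.CubeML
import Vale.Agent.P162.Clean
import Vale.Agent.P162.LabelKey

/-!
# P162: transfer between a block `T` of `Perm (Cube d)` and `Perm T`   (task D4)

See `notes/P162_proof.md`, section 3, Transfer.
`res T F g0 x = F (ofSubtype x * g0)`.  The class of `ofSubtype x * g0` for `key T S` is
`{ofSubtype x' * g0 : mask S ∘ x' = mask S ∘ x}` (elements of `stab T S` fix the complement of `T`,
hence are `ofSubtype` of a permutation of `T`).
-/

namespace Vale.Agent.P162

open Finset Vale.Agent.P335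

open scoped Classical

noncomputable section

variable {d : ℕ}

/-- Restriction of `F` to the coset `ofSubtype (Perm T) * g0`. -/
def res (T : Set (Cube d)) (F : Equiv.Perm (Cube d) → ℝ) (g0 : Equiv.Perm (Cube d)) :
    Equiv.Perm T → ℝ := fun x => F (Equiv.Perm.ofSubtype x * g0)

theorem ofSubtype_mem_stab (T : Set (Cube d)) (S : Set (Fin d)) (h0 : Equiv.Perm T)
    (hh : h0 ∈ lstab (fun p : T => mask S p.1)) : Equiv.Perm.ofSubtype h0 ∈ stab T S := by
  rw [mem_stab]
  intro p
  by_cases hp : p ∈ T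
  · have e : Equiv.Perm.ofSubtype h0 p = (h0 ⟨p, hp⟩ : Cube d) :=
      Equiv.Perm.ofSubtype_apply_of_mem h0 hp
    have hm := mem_lstab.1 hh ⟨p, hp⟩
    rw [e]
    unfold lab
    rw [if_pos (h0 ⟨p, hp⟩).2, if_pos hp]
    exact congrArg (Prod.mk true) hm
  · rw [Equiv.Perm.ofSubtype_apply_of_not_mem h0 hp]

theorem exists_ofSubtype_of_mem_stab (T : Set (Cube d)) (S : Set (Fin d))
    (h : Equiv.Perm (Cube d)) (hh : h ∈ stab T S) :
    ∃ h0 ∈ lstab (fun p : T => mask S p.1), Equiv.Perm.ofSubtype h0 = h := by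
  have h1 : ∀ x, h x ∈ T ↔ x ∈ T := by
    intro x
    constructor
    · intro hx
      by_contra hn
      rw [stab_fix hh hn] at hx
      exact hn hx
    · intro hx
      exact (stab_mem hh hx).1
  have h2 : ∀ x, h x ≠ x → x ∈ T := by
    intro x hx
    by_contra hn
    exact hx (stab_fix hh hn)
  refine ⟨Equiv.Perm.subtypePerm h h1, ?_, Equiv.Perm.ofSubtype_subtypePerm h1 h2⟩
  rw [mem_lstab]
  intro p
  exact (stab_mem hh p.2).2

/-- Sums over `stab T S` are sums over the label stabiliser in `Perm T`. -/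
theorem sum_stab_eq (T : Set (Cube d)) (S : Set (Fin d)) (G : Equiv.Perm (Cube d) → ℝ) :
    ∑ h ∈ stab T S, G h
      = ∑ h0 ∈ lstab (fun p : T => mask S p.1), G (Equiv.Perm.ofSubtype h0) := by
  symm
  refine sum_bij (fun h0 _ => Equiv.Perm.ofSubtype h0) ?_ ?_ ?_ ?_
  · intro h0 hh
    exact ofSubtype_mem_stab T S h0 hh
  · intro a _ b _ hab
    exact Equiv.Perm.ofSubtype_injective hab
  · intro h hh
    obtain ⟨h0, hh0, e⟩ := exists_ofSubtype_of_mem_stab T S h hh
    exact ⟨h0, hh0, e⟩
  · intro h0 _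
    rfl

theorem card_stab_eq (T : Set (Cube d)) (S : Set (Fin d)) :
    ((stab T S).card : ℝ) = ((lstab (fun p : T => mask S p.1)).card : ℝ) := by
  have := sum_stab_eq T S (fun _ => 1)
  simpa using this

/-- (T1) -/
theorem res_avg (T : Set (Cube d)) (S : Set (Fin d)) (F : Equiv.Perm (Cube d) → ℝ)
    (g0 : Equiv.Perm (Cube d)) :
    res T (avg (key T S) F) g0 = avg (lkey (fun p : T => mask S p.1)) (res T F g0) := by
  funext x
  rw [avg_lkey_eq]
  show avg (key T S) F (Equiv.Perm.ofSubtype x * g0) = _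
  rw [avg_key_eq, card_stab_eq, sum_stab_eq]
  congr 1
  refine sum_congr rfl (fun h0 _ => ?_)
  show _ = F (Equiv.Perm.ofSubtype (h0 * x) * g0)
  rw [map_mul, mul_assoc]

/-- averaging over the coset and then over the base point is the global mean. -/
theorem mean_mean_res (T : Set (Cube d)) (Φ : Equiv.Perm (Cube d) → ℝ) :
    mean (fun g0 => mean (res T Φ g0)) = mean Φ := by
  have h1 : ∀ x : Equiv.Perm T, ∑ g0, Φ (Equiv.Perm.ofSubtype x * g0) = ∑ g, Φ g := fun x =>
    Equiv.sum_comp (Equiv.mulLeft (Equiv.Perm.ofSubtype x)) Φ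
  have hc : (0 : ℝ) < (Fintype.card (Equiv.Perm T) : ℝ) := card_pos_real
  unfold mean res
  rw [← sum_div, sum_comm]
  simp_rw [h1]
  rw [sum_const, card_univ, nsmul_eq_mul]
  field_simp

/-- for a block on which `mask S0` is constant, `avg (key T S0)` is the mean over the coset. -/
theorem avg_key_eq_mean_res (T : Set (Cube d)) (S0 : Set (Fin d))
    (hc : ∀ p ∈ T, ∀ q ∈ T, mask S0 p = mask S0 q)
    (F : Equiv.Perm (Cube d) → ℝ) (g0 : Equiv.Perm (Cube d)) :
    avg (key T S0) F g0 = mean (res T F g0) := by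
  have h := congrFun (res_avg T S0 F g0) 1
  have hk : ∀ x y : Equiv.Perm T,
      lkey (fun p : T => mask S0 p.1) x = lkey (fun p : T => mask S0 p.1) y := by
    intro x y
    funext c
    exact hc _ (x c).2 _ (y c).2
  rw [avg_of_const_key hk] at h
  have e : res T (avg (key T S0) F) g0 1 = avg (key T S0) F g0 := by
    show avg (key T S0) F (Equiv.Perm.ofSubtype 1 * g0) = _
    rw [map_one, one_mul]
  rw [← e, h]

/-- (T2) -/
theorem ent_sub_ent_avg (T : Set (Cube d)) (S0 : Set (Fin d))
    (hc : ∀ p ∈ T, ∀ q ∈ T, mask S0 p = mask S0 q)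
    (F : Equiv.Perm (Cube d) → ℝ) (hF : ∀ g, 0 < F g) :
    ent F - ent (avg (key T S0) F) = mean (fun g0 => ent (res T F g0)) := by
  have h1 : mean (fun g0 => ent (res T F g0))
      = mean (fun g0 => mean (res T (fun g => F g * Real.log (F g)) g0))
        - mean (fun g0 => avg (key T S0) F g0 * Real.log (avg (key T S0) F g0)) := by
    rw [← mean_sub]
    refine mean_congr (fun g0 => ?_)
    rw [avg_key_eq_mean_res T S0 hc F g0]
    rfl
  rw [h1, mean_mean_res]
  unfold ent
  rw [mean_avg]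
  ring

end

end Vale.Agent.P162
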