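import Mathlib

namespace Vale.Agent.P162

open Finset

/-- New position (0-indexed) of the card in position `x` of a deck of `2 * m` cards after one Thorp
shuffle with coins `c`: the cards in positions `i` and `m + i` go to positions `2 i` and `2 i + 1`,
the coin `c i` deciding the order. -/
def thorpFun (m : ℕ) (c : Fin m → Bool) (x : Fin (2 * m)) : Fin (2 * m) :=
  if h : x.val < m then
    ⟨2 * x.val + (if c ⟨x.val, h⟩ then 1 else 0), by split_ifs <;> omega⟩
  else
    ⟨2 * (x.val - m) + (if c ⟨x.val - m, by omega⟩ then 0 else 1), by split_ifs <;> omega⟩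

theorem thorpFun_injective (m : ℕ) (c : Fin m → Bool) : Function.Injective (thorpFun m c) := by
  intro x y hxy
  unfold thorpFun at hxy
  apply Fin.ext
  by_cases hx : x.val < m <;> by_cases hy : y.val < m
  · simp only [hx, hy, dif_pos, Fin.mk.injEq] at hxy
    split_ifs at hxy <;> omega
  · simp only [hx, hy, dif_pos, dif_neg, not_false_eq_true, Fin.mk.injEq] at hxy
    have hxy' : x.val = y.val - m := by split_ifs at hxy <;> omega
    have e : (⟨x.val, hx⟩ : Fin m) = ⟨y.val - m, by omega⟩ := Fin.ext hxy'
    rw [e] at hxy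
    split_ifs at hxy <;> omega
  · simp only [hx, hy, dif_pos, dif_neg, not_false_eq_true, Fin.mk.injEq] at hxy
    have hxy' : y.val = x.val - m := by split_ifs at hxy <;> omega
    have e : (⟨y.val, hy⟩ : Fin m) = ⟨x.val - m, by omega⟩ := Fin.ext hxy'
    rw [e] at hxy
    split_ifs at hxy <;> omega
  · simp only [hx, hy, dif_neg, not_false_eq_true, Fin.mk.injEq] at hxy
    split_ifs at hxy <;> omega

/-- The permutation of positions effected by one Thorp shuffle with coins `c`. -/
noncomputable def thorpPerm (m : ℕ) (c : Fin m → Bool) : Equiv.Perm (Fin (2 * m)) :=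
  Equiv.ofBijective (thorpFun m c) (Finite.injective_iff_bijective.mp (thorpFun_injective m c))

/-- The law `q_n` (`n = 2 m`) of one Thorp shuffle: all `m` coins fair and independent. -/
noncomputable def thorpLaw (m : ℕ) (g : Equiv.Perm (Fin (2 * m))) : ℝ :=
  ((univ.filter fun c : Fin m → Bool => thorpPerm m c = g).card : ℝ) / 2 ^ m

/-- Convolution of two real functions on a finite group. -/
noncomputable def conv {G : Type*} [Group G] [Fintype G] (μ ν : G → ℝ) (g : G) : ℝ :=
  ∑ h, μ h * ν (h⁻¹ * g)

/-- `t`-fold convolution power (the point mass at the identity for `t = 0`). -/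
noncomputable def convPow {G : Type*} [Group G] [Fintype G] [DecidableEq G] (μ : G → ℝ) :
    ℕ → G → ℝ
  | 0 => fun g => if g = 1 then 1 else 0
  | t + 1 => conv (convPow μ t) μ

/-- The uniform law on a finite group. -/
noncomputable def unifLaw (G : Type*) [Fintype G] (_ : G) : ℝ := 1 / (Fintype.card G : ℝ)

/-- Total variation distance. -/
noncomputable def tvDist {G : Type*} [Fintype G] (μ ν : G → ℝ) : ℝ :=
  (1 / 2) * ∑ g, |μ g - ν g|

/-- Distance from uniformity of a deck of `2 * m` cards after `t` Thorp shuffles. -/
noncomputable def thorpDist (m t : ℕ) : ℝ :=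
  tvDist (convPow (thorpLaw m) t) (unifLaw (Equiv.Perm (Fin (2 * m))))

end Vale.Agent.P162
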