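import Mathlib
import Vale.Agent.P335.Avg

/-!
# P162: finite entropy library (uniform measure on a finite type)

`mean F`, `ent F = mean (F log F) - mean F * log (mean F)` and the facts (E1)-(E8) of
notes/P162_proof.md.  Conditional expectations are `Vale.Agent.P335.avg`.
-/

namespace Vale.Agent.P162

open Finset Real Vale.Agent.P335

open scoped Classical

noncomputable section

variable {Ω : Type*} [Fintype Ω] {K K' : Type*}

/-- mean for the uniform measure. -/
def mean (F : Ω → ℝ) : ℝ := (∑ x, F x) / (Fintype.card Ω : ℝ)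

/-- entropy functional. -/
def ent (F : Ω → ℝ) : ℝ := mean (fun x => F x * log (F x)) - mean F * log (mean F)

theorem mean_add (F G : Ω → ℝ) : mean (fun x => F x + G x) = mean F + mean G := by
  simp [mean, sum_add_distrib, add_div]

theorem mean_sub (F G : Ω → ℝ) : mean (fun x => F x - G x) = mean F - mean G := by
  simp [mean, sum_sub_distrib, sub_div]

theorem mean_const_mul (c : ℝ) (F : Ω → ℝ) : mean (fun x => c * F x) = c * mean F := by
  simp [mean, ← mul_sum, mul_div_assoc]

theorem mean_mul_const (c : ℝ) (F : Ω → ℝ) : mean (fun x => F x * c) = mean F * c := by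
  simp [mean, ← sum_mul, div_mul_eq_mul_div]

theorem mean_neg (F : Ω → ℝ) : mean (fun x => - F x) = - mean F := by
  simp [mean, neg_div]

theorem mean_sum {ι : Type*} (s : Finset ι) (F : ι → Ω → ℝ) :
    mean (fun x => ∑ i ∈ s, F i x) = ∑ i ∈ s, mean (F i) := by
  unfold mean
  rw [sum_comm, sum_div]

theorem mean_mono {F G : Ω → ℝ} (h : ∀ x, F x ≤ G x) : mean F ≤ mean G := by
  unfold mean
  exact div_le_div_of_nonneg_right (sum_le_sum fun x _ => h x) (Nat.cast_nonneg _)

theorem mean_nonneg {F : Ω → ℝ} (h : ∀ x, 0 ≤ F x) : 0 ≤ mean F := by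
  unfold mean
  exact div_nonneg (sum_nonneg fun x _ => h x) (Nat.cast_nonneg _)

theorem mean_congr {F G : Ω → ℝ} (h : ∀ x, F x = G x) : mean F = mean G := by
  have : F = G := funext h
  rw [this]

theorem card_pos_real [Nonempty Ω] : (0 : ℝ) < (Fintype.card Ω : ℝ) := by
  exact_mod_cast Fintype.card_pos

theorem mean_const [Nonempty Ω] (c : ℝ) : mean (fun _ : Ω => c) = c := by
  have := card_pos_real (Ω := Ω)
  simp only [mean, sum_const, card_univ, nsmul_eq_mul]
  field_simp

theorem mean_pos [Nonempty Ω] {F : Ω → ℝ} (h : ∀ x, 0 < F x) : 0 < mean F := by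
  unfold mean
  exact div_pos (sum_pos (fun x _ => h x) univ_nonempty) card_pos_real

theorem sum_eq_card_mul_mean [Nonempty Ω] (F : Ω → ℝ) :
    ∑ x, F x = (Fintype.card Ω : ℝ) * mean F := by
  have := card_pos_real (Ω := Ω)
  unfold mean
  field_simp

/-! ### conditional expectations -/

theorem mean_avg (k : Ω → K) (F : Ω → ℝ) : mean (avg k F) = mean F := by
  unfold mean
  rw [sum_avg]

/-- self-adjointness. -/
theorem mean_mul_avg (k : Ω → K) (F G : Ω → ℝ) :
    mean (fun x => G x * avg k F x) = mean (fun x => avg k G x * F x) := by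
  unfold mean
  rw [sum_mul_avg]

theorem avg_pos (k : Ω → K) {F : Ω → ℝ} (h : ∀ x, 0 < F x) (x : Ω) : 0 < avg k F x := by
  unfold avg
  have hc : (0 : ℝ) < ((cls k x).card : ℝ) := by exact_mod_cast cls_card_pos k x
  exact div_pos (sum_pos (fun y _ => h y) ⟨x, self_mem_cls k x⟩) hc

theorem avg_mono (k : Ω → K) {F G : Ω → ℝ} (h : ∀ x, F x ≤ G x) (x : Ω) :
    avg k F x ≤ avg k G x := by
  unfold avg
  exact div_le_div_of_nonneg_right (sum_le_sum fun y _ => h y) (Nat.cast_nonneg _)

/-- `avg` as a convex combination. -/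
theorem avg_eq_weighted (k : Ω → K) (F : Ω → ℝ) (x : Ω) :
    avg k F x = ∑ y ∈ cls k x, (1 / ((cls k x).card : ℝ)) • F y := by
  unfold avg
  rw [sum_div]
  apply sum_congr rfl
  intro y _
  rw [smul_eq_mul]
  ring

theorem weights_sum_one (k : Ω → K) (x : Ω) :
    ∑ _y ∈ cls k x, (1 / ((cls k x).card : ℝ)) = 1 := by
  have hc : (0 : ℝ) < ((cls k x).card : ℝ) := by exact_mod_cast cls_card_pos k x
  rw [sum_const, nsmul_eq_mul]
  field_simp

/-- (E1a) Jensen for `x log x`. -/
theorem avg_mul_log_le (k : Ω → K) {F : Ω → ℝ} (h : ∀ x, 0 < F x) (x : Ω) :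
    avg k F x * log (avg k F x) ≤ avg k (fun y => F y * log (F y)) x := by
  have hc : (0 : ℝ) < ((cls k x).card : ℝ) := by exact_mod_cast cls_card_pos k x
  have := Real.convexOn_mul_log.map_sum_le (t := cls k x)
    (w := fun _ => 1 / ((cls k x).card : ℝ)) (p := F)
    (fun _ _ => by positivity) (weights_sum_one k x) (fun y _ => (h y).le)
  rw [avg_eq_weighted k F x, avg_eq_weighted k _ x]
  exact this

/-- (E1b) Jensen for `log`. -/
theorem avg_log_le (k : Ω → K) {F : Ω → ℝ} (h : ∀ x, 0 < F x) (x : Ω) :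
    avg k (fun y => log (F y)) x ≤ log (avg k F x) := by
  have hc : (0 : ℝ) < ((cls k x).card : ℝ) := by exact_mod_cast cls_card_pos k x
  have := strictConcaveOn_log_Ioi.concaveOn.le_map_sum (t := cls k x)
    (w := fun _ => 1 / ((cls k x).card : ℝ)) (p := F)
    (fun _ _ => by positivity) (weights_sum_one k x) (fun y _ => h y)
  rw [avg_eq_weighted k F x, avg_eq_weighted k _ x]
  exact this

/-- (E2b) conditional expectation decreases the entropy. -/
theorem ent_avg_le (k : Ω → K) {F : Ω → ℝ} (h : ∀ x, 0 < F x) : ent (avg k F) ≤ ent F := by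
  unfold ent
  rw [mean_avg]
  have h1 : mean (fun x => avg k F x * log (avg k F x)) ≤ mean (fun x => F x * log (F x)) := by
    calc mean (fun x => avg k F x * log (avg k F x))
        ≤ mean (avg k (fun y => F y * log (F y))) := mean_mono (fun x => avg_mul_log_le k h x)
      _ = mean (fun x => F x * log (F x)) := mean_avg k _
  linarith

/-- (E2c) a coarser key gives a smaller entropy. -/
theorem ent_avg_le_of_finer {k : Ω → K} {k' : Ω → K'} (hk : ∀ x y, k x = k y → k' x = k' y)
    {F : Ω → ℝ} (h : ∀ x, 0 < F x) : ent (avg k' F) ≤ ent (avg k F) := by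
  rw [← avg_avg_of_finer hk F]
  exact ent_avg_le k' (avg_pos k h)

theorem avg_trivial_key [Nonempty Ω] (F : Ω → ℝ) : avg (fun _ : Ω => ()) F = fun _ => mean F := by
  funext x
  have : cls (fun _ : Ω => ()) x = univ := by
    ext y
    simp [mem_cls]
  unfold avg mean
  rw [this, card_univ]

theorem ent_const [Nonempty Ω] (c : ℝ) : ent (fun _ : Ω => c) = 0 := by
  unfold ent
  rw [mean_const, mean_const]
  ring

/-- (E2a) nonnegativity. -/
theorem ent_nonneg {F : Ω → ℝ} (h : ∀ x, 0 < F x) : 0 ≤ ent F := by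
  rcases isEmpty_or_nonempty Ω with he | hne
  · simp [ent, mean]
  · have := ent_avg_le (fun _ : Ω => ()) h
    rw [avg_trivial_key, ent_const] at this
    exact this

/-- (E3) Gibbs inequality. -/
theorem gibbs {F Ψ : Ω → ℝ} (hF : ∀ x, 0 < F x) (hΨ : ∀ x, 0 < Ψ x) (h : mean Ψ ≤ mean F) :
    0 ≤ mean (fun x => F x * log (F x / Ψ x)) := by
  have h1 : ∀ x, F x - Ψ x ≤ F x * log (F x / Ψ x) := by
    intro x
    have h2 := log_le_sub_one_of_pos (div_pos (hΨ x) (hF x))
    have h3 : log (Ψ x / F x) = - log (F x / Ψ x) := by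
      rw [← log_inv, inv_div]
    rw [h3] at h2
    have h4 : F x * (- log (F x / Ψ x)) ≤ F x * (Ψ x / F x - 1) :=
      mul_le_mul_of_nonneg_left h2 (hF x).le
    have h5 : F x * (Ψ x / F x - 1) = Ψ x - F x := by
      have := (hF x).ne'
      field_simp
    linarith
  have h6 := mean_mono h1
  rw [mean_sub] at h6
  linarith

/-- (E6) homogeneity. -/
theorem ent_const_mul [Nonempty Ω] {c : ℝ} (hc : 0 < c) {F : Ω → ℝ} (hF : ∀ x, 0 < F x) :
    ent (fun x => c * F x) = c * ent F := by
  unfold ent
  have hm := mean_pos hF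
  rw [mean_const_mul, log_mul hc.ne' hm.ne']
  have : mean (fun x => c * F x * log (c * F x))
      = c * log c * mean F + c * mean (fun x => F x * log (F x)) := by
    rw [← mean_const_mul, ← mean_const_mul, ← mean_add]
    apply mean_congr
    intro x
    rw [log_mul hc.ne' (hF x).ne']
    ring
  rw [this]
  ring

/-- entropy of a density. -/
theorem ent_of_mean_one {F : Ω → ℝ} (h1 : mean F = 1) : ent F = mean (fun x => F x * log (F x)) := by
  unfold ent
  rw [h1]
  simp

/-- (E4) Donsker-Varadhan. -/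
theorem donsker_varadhan [Nonempty Ω] {F : Ω → ℝ} (hF : ∀ x, 0 < F x) (h1 : mean F = 1)
    (ψ : Ω → ℝ) :
    mean (fun x => F x * ψ x) ≤ ent F + log (mean (fun x => exp (ψ x))) := by
  set Z := mean (fun x => exp (ψ x)) with hZ
  have hZpos : 0 < Z := mean_pos (fun x => exp_pos _)
  have hg := gibbs (Ψ := fun x => exp (ψ x) / Z) hF (fun x => div_pos (exp_pos _) hZpos) (by
    rw [h1]
    have : mean (fun x => exp (ψ x) / Z) = Z * (1 / Z) := by
      rw [hZ, ← mean_mul_const]
      apply mean_congr
      intro x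
      ring
    rw [this]
    field_simp
    exact le_refl _)
  have h2 : mean (fun x => F x * log (F x / (exp (ψ x) / Z)))
      = mean (fun x => F x * log (F x)) - mean (fun x => F x * ψ x) + log Z * mean F := by
    rw [← mean_sub, ← mean_const_mul, ← mean_add]
    apply mean_congr
    intro x
    rw [log_div (hF x).ne' (div_pos (exp_pos _) hZpos).ne', log_div (exp_pos _).ne' hZpos.ne',
      log_exp]
    ring
  rw [h2, h1] at hg
  rw [ent_of_mean_one h1]
  linarith

/-- (E8) the entropy of a density is at most `log card`. -/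
theorem ent_le_log_card [Nonempty Ω] {F : Ω → ℝ} (hF : ∀ x, 0 < F x) (h1 : mean F = 1) :
    ent F ≤ log (Fintype.card Ω : ℝ) := by
  rw [ent_of_mean_one h1]
  have hsum : ∑ x, F x = (Fintype.card Ω : ℝ) := by
    rw [sum_eq_card_mul_mean, h1, mul_one]
  have hle : ∀ x, F x ≤ (Fintype.card Ω : ℝ) := by
    intro x
    rw [← hsum]
    exact single_le_sum (f := F) (fun y _ => (hF y).le) (mem_univ x)
  calc mean (fun x => F x * log (F x))
      ≤ mean (fun x => F x * log (Fintype.card Ω : ℝ)) := by
        apply mean_mono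
        intro x
        exact mul_le_mul_of_nonneg_left (log_le_log (hF x) (hle x)) (hF x).le
    _ = log (Fintype.card Ω : ℝ) := by
        rw [mean_mul_const, h1, one_mul]

end

end Vale.Agent.P162
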