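import Mathlib
import Vale.Agent.P162.Ent

/-!
# P162: finite entropy library, part 2: supermodularity (E7) and Pinsker (E5)
-/

namespace Vale.Agent.P162

open Finset Real Vale.Agent.P335

open scoped Classical

noncomputable section

variable {Ω : Type*} [Fintype Ω] {K K' : Type*}

/-- pulling a conditional expectation onto the other factor when one factor is invariant. -/
theorem mean_mul_of_invariant (k : Ω → K) (F : Ω → ℝ) {g : Ω → ℝ}
    (hg : ∀ x y, k x = k y → g x = g y) :
    mean (fun x => F x * g x) = mean (fun x => avg k F x * g x) := by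
  have h1 : avg k g = g := avg_of_invariant hg
  calc mean (fun x => F x * g x) = mean (fun x => F x * avg k g x) := by rw [h1]
    _ = mean (fun x => avg k F x * g x) := mean_mul_avg k g F

theorem avg_invariant (k : Ω → K) (F : Ω → ℝ) : ∀ x y, k x = k y → avg k F x = avg k F y :=
  fun _ _ h => avg_congr_key F h

/-- (E7) supermodularity of the entropy for commuting conditional expectations. -/
theorem ent_supermodular (k1 : Ω → K) (k2 : Ω → K')
    (hcomm : ∀ G : Ω → ℝ, avg k1 (avg k2 G) = avg k2 (avg k1 G))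
    {Φ : Ω → ℝ} (hΦ : ∀ x, 0 < Φ x) :
    ent (avg k1 Φ) + ent (avg k2 Φ) ≤ ent Φ + ent (avg k1 (avg k2 Φ)) := by
  set U := avg k2 Φ with hU
  set W := avg k1 Φ with hW
  set T := avg k1 U with hT
  have hUpos : ∀ x, 0 < U x := avg_pos k2 hΦ
  have hWpos : ∀ x, 0 < W x := avg_pos k1 hΦ
  have hTpos : ∀ x, 0 < T x := avg_pos k1 hUpos
  have hT2 : T = avg k2 W := hcomm Φ
  have hTinv1 : ∀ x y, k1 x = k1 y → T x = T y := avg_invariant k1 U
  have hTinv2 : ∀ x y, k2 x = k2 y → T x = T y := by
    rw [hT2]
    exact avg_invariant k2 W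
  have hWinv : ∀ x y, k1 x = k1 y → W x = W y := avg_invariant k1 Φ
  have hUinv : ∀ x y, k2 x = k2 y → U x = U y := avg_invariant k2 Φ
  have hmU : mean U = mean Φ := mean_avg k2 Φ
  have hmW : mean W = mean Φ := mean_avg k1 Φ
  have hmT : mean T = mean Φ := by rw [hT, mean_avg, hmU]
  -- the test function
  have hΨ : mean (fun x => U x * W x / T x) = mean Φ := by
    have h1 : mean (fun x => U x * (W x / T x)) = mean (fun x => avg k1 U x * (W x / T x)) :=
      mean_mul_of_invariant k1 U (fun x y h => by rw [hWinv x y h, hTinv1 x y h])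
    have h2 : mean (fun x => avg k1 U x * (W x / T x)) = mean W := by
      apply mean_congr
      intro x
      have := (hTpos x).ne'
      show T x * (W x / T x) = W x
      field_simp
    calc mean (fun x => U x * W x / T x) = mean (fun x => U x * (W x / T x)) := by
          apply mean_congr
          intro x
          ring
      _ = mean Φ := by rw [h1, h2, hmW]
  have hg := gibbs (Ψ := fun x => U x * W x / T x) hΦ
    (fun x => div_pos (mul_pos (hUpos x) (hWpos x)) (hTpos x)) hΨ.le
  have hsplit : mean (fun x => Φ x * log (Φ x / (U x * W x / T x)))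
      = mean (fun x => Φ x * log (Φ x)) + mean (fun x => Φ x * log (T x))
        - mean (fun x => Φ x * log (U x)) - mean (fun x => Φ x * log (W x)) := by
    rw [← mean_add, ← mean_sub, ← mean_sub]
    apply mean_congr
    intro x
    rw [log_div (hΦ x).ne' (div_pos (mul_pos (hUpos x) (hWpos x)) (hTpos x)).ne',
      log_div (mul_pos (hUpos x) (hWpos x)).ne' (hTpos x).ne',
      log_mul (hUpos x).ne' (hWpos x).ne']
    ring
  have hlU : mean (fun x => Φ x * log (U x)) = mean (fun x => U x * log (U x)) :=
    mean_mul_of_invariant k2 Φ (fun x y h => by rw [hUinv x y h])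
  have hlW : mean (fun x => Φ x * log (W x)) = mean (fun x => W x * log (W x)) :=
    mean_mul_of_invariant k1 Φ (fun x y h => by rw [hWinv x y h])
  have hlT : mean (fun x => Φ x * log (T x)) = mean (fun x => T x * log (T x)) := by
    have h1 : mean (fun x => Φ x * log (T x)) = mean (fun x => W x * log (T x)) :=
      mean_mul_of_invariant k1 Φ (fun x y h => by rw [hTinv1 x y h])
    have h2 : mean (fun x => W x * log (T x)) = mean (fun x => avg k2 W x * log (T x)) :=
      mean_mul_of_invariant k2 W (fun x y h => by rw [hTinv2 x y h])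
    rw [h1, h2, ← hT2]
  rw [hsplit, hlU, hlW, hlT] at hg
  unfold ent
  rw [hmU, hmW, hmT]
  linarith

/-! ### Pinsker -/

/-- auxiliary function for the scalar inequality. -/
def pinskerAux (x : ℝ) : ℝ := log x - (x - 1) * (5 * x + 1) / (2 * x * (x + 2))

theorem hasDerivAt_pinskerAux {x : ℝ} (hx : 0 < x) :
    HasDerivAt pinskerAux ((x - 1) ^ 3 / (x ^ 2 * (x + 2) ^ 2)) x := by
  have hne : 2 * x * (x + 2) ≠ 0 := by positivity
  have h1 : HasDerivAt (fun y : ℝ => (y - 1) * (5 * y + 1)) (1 * (5 * x + 1) + (x - 1) * (5 * 1)) x :=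
    ((hasDerivAt_id x).sub_const 1).mul (((hasDerivAt_id x).const_mul 5).add_const 1)
  have h2 : HasDerivAt (fun y : ℝ => 2 * y * (y + 2)) (2 * 1 * (x + 2) + 2 * x * 1) x :=
    ((hasDerivAt_id x).const_mul 2).mul ((hasDerivAt_id x).add_const 2)
  have h3 := (hasDerivAt_log hx.ne').sub (h1.div h2 hne)
  have heq : (x - 1) ^ 3 / (x ^ 2 * (x + 2) ^ 2) = x⁻¹ - ((1 * (5 * x + 1) + (x - 1) * (5 * 1)) * (2 * x * (x + 2))
      - (x - 1) * (5 * x + 1) * (2 * 1 * (x + 2) + 2 * x * 1)) / (2 * x * (x + 2)) ^ 2 := by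
    field_simp
    ring
  rw [heq]
  exact h3

theorem pinskerAux_one : pinskerAux 1 = 0 := by
  simp [pinskerAux]

theorem pinskerAux_nonneg {x : ℝ} (hx : 0 < x) : 0 ≤ pinskerAux x := by
  rcases le_total 1 x with h1 | h1
  · have hmono : MonotoneOn pinskerAux (Set.Ici 1) := by
      apply monotoneOn_of_deriv_nonneg (convex_Ici 1)
      · intro y hy
        have hy0 : (0 : ℝ) < y := lt_of_lt_of_le one_pos hy
        exact (hasDerivAt_pinskerAux hy0).continuousAt.continuousWithinAt
      · intro y hy
        rw [interior_Ici] at hy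
        have hy0 : (0 : ℝ) < y := lt_trans one_pos hy
        exact (hasDerivAt_pinskerAux hy0).differentiableAt.differentiableWithinAt
      · intro y hy
        rw [interior_Ici] at hy
        have hy0 : (0 : ℝ) < y := lt_trans one_pos hy
        rw [(hasDerivAt_pinskerAux hy0).deriv]
        have : 0 ≤ y - 1 := by
          have : (1 : ℝ) < y := hy
          linarith
        positivity
    have := hmono (Set.mem_Ici.2 le_rfl) (Set.mem_Ici.2 h1) h1
    rwa [pinskerAux_one] at this
  · have hanti : AntitoneOn pinskerAux (Set.Ioc 0 1) := by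
      apply antitoneOn_of_deriv_nonpos (convex_Ioc 0 1)
      · intro y hy
        exact (hasDerivAt_pinskerAux hy.1).continuousAt.continuousWithinAt
      · intro y hy
        rw [interior_Ioc] at hy
        exact (hasDerivAt_pinskerAux hy.1).differentiableAt.differentiableWithinAt
      · intro y hy
        rw [interior_Ioc] at hy
        rw [(hasDerivAt_pinskerAux hy.1).deriv]
        have h2 : (y - 1) ^ 3 ≤ 0 := by
          have h3 : y - 1 ≤ 0 := by linarith [hy.2]
          have h4 : (y - 1) ^ 3 = (y - 1) * (y - 1) ^ 2 := by ring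
          rw [h4]
          exact mul_nonpos_of_nonpos_of_nonneg h3 (sq_nonneg _)
        have hy0 := hy.1
        exact div_nonpos_of_nonpos_of_nonneg h2 (by positivity)
    have := hanti (Set.mem_Ioc.2 ⟨hx, h1⟩) (Set.mem_Ioc.2 ⟨one_pos, le_rfl⟩) h1
    rwa [pinskerAux_one] at this

/-- the scalar inequality behind Pinsker. -/
theorem three_mul_sq_le {x : ℝ} (hx : 0 < x) :
    3 * (x - 1) ^ 2 ≤ (2 * x + 4) * (x * log x - x + 1) := by
  have h := pinskerAux_nonneg hx
  unfold pinskerAux at h
  have h1 : (x - 1) * (5 * x + 1) / (2 * x * (x + 2)) ≤ log x := by linarith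
  rw [div_le_iff₀ (by positivity)] at h1
  nlinarith

/-- (E5) Pinsker. -/
theorem pinsker [Nonempty Ω] {F : Ω → ℝ} (hF : ∀ x, 0 < F x) (h1 : mean F = 1) :
    mean (fun x => |F x - 1|) ≤ sqrt (2 * ent F) := by
  have hN := card_pos_real (Ω := Ω)
  set N : ℝ := (Fintype.card Ω : ℝ) with hNdef
  have hsumF : ∑ x, F x = N := by rw [sum_eq_card_mul_mean, h1, mul_one]
  have hcs : (∑ x, |F x - 1|) ^ 2
      ≤ (∑ x, (F x - 1) ^ 2 / (2 * F x + 4)) * (∑ x, (2 * F x + 4)) := by
    apply sum_sq_le_sum_mul_sum_of_sq_le_mul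
    · intro x _
      have := hF x
      positivity
    · intro x _
      have := hF x
      positivity
    · intro x _
      have := hF x
      rw [sq_abs]
      apply le_of_eq
      field_simp
  have h2 : ∑ x, (2 * F x + 4) = 6 * N := by
    rw [sum_add_distrib, ← mul_sum, hsumF]
    simp only [sum_const, card_univ, nsmul_eq_mul]
    ring
  have h3 : ∑ x, (F x - 1) ^ 2 / (2 * F x + 4) ≤ ∑ x, (F x * log (F x) - F x + 1) / 3 := by
    apply sum_le_sum
    intro x _
    have hx := hF x
    rw [div_le_div_iff₀ (by positivity) (by norm_num)]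
    have := three_mul_sq_le hx
    linarith
  have h4 : ∑ x, (F x * log (F x) - F x + 1) / 3 = N * ent F / 3 := by
    rw [← sum_div, sum_add_distrib, sum_sub_distrib, hsumF, ent_of_mean_one h1,
      sum_eq_card_mul_mean (fun x => F x * log (F x))]
    simp only [sum_const, card_univ, nsmul_eq_mul, mul_one]
    ring
  have hent : 0 ≤ ent F := ent_nonneg hF
  have h5 : (∑ x, |F x - 1|) ^ 2 ≤ N ^ 2 * (2 * ent F) := by
    calc (∑ x, |F x - 1|) ^ 2
        ≤ (∑ x, (F x - 1) ^ 2 / (2 * F x + 4)) * (∑ x, (2 * F x + 4)) := hcs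
      _ ≤ (N * ent F / 3) * (6 * N) := by
          rw [h2]
          have : ∑ x, (F x - 1) ^ 2 / (2 * F x + 4) ≤ N * ent F / 3 := by rw [← h4]; exact h3
          exact mul_le_mul_of_nonneg_right this (by positivity)
      _ = N ^ 2 * (2 * ent F) := by ring
  apply le_sqrt_of_sq_le
  unfold mean
  rw [div_pow, div_le_iff₀ (by positivity)]
  linarith

end

end Vale.Agent.P162
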