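import Vale.Agent.P162.Defs

namespace Vale.Agent.P162

open Finset

set_option linter.unusedSectionVars false

section general

variable {G : Type*} [Group G] [Fintype G] [DecidableEq G]

theorem sum_conv (μ ν : G → ℝ) : ∑ g, conv μ ν g = (∑ g, μ g) * ∑ g, ν g := by
  unfold conv
  rw [Finset.sum_comm, Finset.sum_mul]
  refine Finset.sum_congr rfl fun h _ => ?_
  rw [← Finset.mul_sum]
  congr 1
  exact Equiv.sum_comp (Equiv.mulLeft h⁻¹) ν

theorem sum_convPow (μ : G → ℝ) (hμ : ∑ g, μ g = 1) (t : ℕ) : ∑ g, convPow μ t g = 1 := by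
  induction t with
  | zero => simp [convPow]
  | succ t ih => simp only [convPow]; rw [sum_conv, ih, hμ, one_mul]

/-- `Reach A t g`: `g` is a product of `t` elements of `A`. -/
def Reach (A : Set G) : ℕ → G → Prop
  | 0 => fun g => g = 1
  | t + 1 => fun g => ∃ h a, Reach A t h ∧ a ∈ A ∧ g = h * a

theorem reach_of_convPow_ne_zero (μ : G → ℝ) (t : ℕ) (g : G) (hg : convPow μ t g ≠ 0) :
    Reach {a | μ a ≠ 0} t g := by
  induction t generalizing g with
  | zero =>
    simp only [convPow] at hg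
    by_contra h
    exact hg (if_neg h)
  | succ t ih =>
    simp only [convPow, conv] at hg
    obtain ⟨h, _, hh⟩ := Finset.exists_ne_zero_of_sum_ne_zero hg
    refine ⟨h, h⁻¹ * g, ih h (left_ne_zero_of_mul hh), right_ne_zero_of_mul hh, by group⟩

theorem reach_add (A : Set G) (s t : ℕ) (g : G) (hg : Reach A (s + t) g) :
    ∃ g₁ g₂, Reach A s g₁ ∧ Reach A t g₂ ∧ g = g₁ * g₂ := by
  induction t generalizing g with
  | zero => exact ⟨g, 1, hg, rfl, by simp⟩
  | succ t ih =>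
    obtain ⟨h, a, hh, ha, rfl⟩ := hg
    obtain ⟨g₁, g₂, h1, h2, rfl⟩ := ih h hh
    exact ⟨g₁, g₂ * a, h1, ⟨g₂, a, h2, ha, rfl⟩, by group⟩

theorem conv_unif (ν : G → ℝ) (hν : ∑ g, ν g = 1) : conv (unifLaw G) ν = unifLaw G := by
  funext g
  unfold conv unifLaw
  rw [← Finset.mul_sum]
  have : ∑ h : G, ν (h⁻¹ * g) = ∑ h, ν h :=
    Equiv.sum_comp ((Equiv.inv G).trans (Equiv.mulRight g)) ν
  rw [this, hν, mul_one]

theorem tvDist_conv_le (μ ν : G → ℝ) (hν0 : ∀ g, 0 ≤ ν g) (hν : ∑ g, ν g = 1) :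
    tvDist (conv μ ν) (unifLaw G) ≤ tvDist μ (unifLaw G) := by
  unfold tvDist
  refine mul_le_mul_of_nonneg_left ?_ (by norm_num)
  have key : ∀ g, |conv μ ν g - unifLaw G g| ≤ ∑ h, |μ h - unifLaw G h| * ν (h⁻¹ * g) := by
    intro g
    have h1 : conv μ ν g - unifLaw G g = ∑ h, (μ h - unifLaw G h) * ν (h⁻¹ * g) := by
      conv_lhs => rw [← conv_unif ν hν]
      unfold conv
      rw [← Finset.sum_sub_distrib]
      exact Finset.sum_congr rfl fun h _ => by ring
    rw [h1]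
    refine (Finset.abs_sum_le_sum_abs _ _).trans (le_of_eq ?_)
    exact Finset.sum_congr rfl fun h _ => by rw [abs_mul, abs_of_nonneg (hν0 _)]
  calc ∑ g, |conv μ ν g - unifLaw G g|
      ≤ ∑ g, ∑ h, |μ h - unifLaw G h| * ν (h⁻¹ * g) := Finset.sum_le_sum fun g _ => key g
    _ = ∑ h, |μ h - unifLaw G h| * ∑ g, ν (h⁻¹ * g) := by
        rw [Finset.sum_comm]
        exact Finset.sum_congr rfl fun h _ => by rw [Finset.mul_sum]
    _ = ∑ h, |μ h - unifLaw G h| := by
        refine Finset.sum_congr rfl fun h _ => ?_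
        have : ∑ g, ν (h⁻¹ * g) = ∑ g, ν g := Equiv.sum_comp (Equiv.mulLeft h⁻¹) ν
        rw [this, hν, mul_one]

theorem tvDist_convPow_antitone (μ : G → ℝ) (hμ0 : ∀ g, 0 ≤ μ g) (hμ : ∑ g, μ g = 1)
    {s t : ℕ} (hst : s ≤ t) :
    tvDist (convPow μ t) (unifLaw G) ≤ tvDist (convPow μ s) (unifLaw G) := by
  induction t, hst using Nat.le_induction with
  | base => exact le_rfl
  | succ t _ ih => exact (tvDist_conv_le _ _ hμ0 hμ).trans ih

/-- A law of total mass one that vanishes outside `C` is far from uniform when `C` is small. -/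
theorem tvDist_ge_of_support (μ : G → ℝ) (hμ : ∑ g, μ g = 1) (C : Finset G)
    (hC : ∀ g, g ∉ C → μ g = 0) :
    1 - (C.card : ℝ) / (Fintype.card G : ℝ) ≤ tvDist μ (unifLaw G) := by
  have hN : (0 : ℝ) < (Fintype.card G : ℝ) := by exact_mod_cast Fintype.card_pos
  unfold tvDist
  have hsplit : ∑ g, |μ g - unifLaw G g|
      = ∑ g ∈ C, |μ g - unifLaw G g| + ∑ g ∈ Cᶜ, |μ g - unifLaw G g| := by
    rw [Finset.sum_add_sum_compl]
  have h1 : ∑ g ∈ Cᶜ, |μ g - unifLaw G g| = ((Cᶜ).card : ℝ) / (Fintype.card G : ℝ) := by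
    rw [Finset.sum_congr rfl (g := fun _ => 1 / (Fintype.card G : ℝ))]
    · rw [Finset.sum_const, nsmul_eq_mul]; ring
    · intro g hg
      rw [hC g (Finset.mem_compl.mp hg)]
      unfold unifLaw
      rw [zero_sub, abs_neg, abs_of_pos (by positivity)]
  have hμC : ∑ g ∈ C, μ g = 1 := by
    rw [← hμ, ← Finset.sum_add_sum_compl C μ]
    have : ∑ g ∈ Cᶜ, μ g = 0 := Finset.sum_eq_zero fun g hg => hC g (Finset.mem_compl.mp hg)
    rw [this, add_zero]
  have h2 : 1 - (C.card : ℝ) / (Fintype.card G : ℝ) ≤ ∑ g ∈ C, |μ g - unifLaw G g| := by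
    calc 1 - (C.card : ℝ) / (Fintype.card G : ℝ) = ∑ g ∈ C, (μ g - unifLaw G g) := by
          rw [Finset.sum_sub_distrib, hμC]
          unfold unifLaw
          rw [Finset.sum_const, nsmul_eq_mul]; ring
      _ ≤ ∑ g ∈ C, |μ g - unifLaw G g| := Finset.sum_le_sum fun g _ => le_abs_self _
  have h3 : ((Cᶜ).card : ℝ) / (Fintype.card G : ℝ) = 1 - (C.card : ℝ) / (Fintype.card G : ℝ) := by
    rw [Finset.card_compl, Nat.cast_sub (Finset.card_le_univ C)]
    field_simp
  rw [hsplit, h1, h3]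
  linarith

end general

end Vale.Agent.P162
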