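import Vale.Agent.P162.LabelKey

/-!
# P162: elementary counting facts on the clean model (helpers for `Kernel.lean`)

`card_X_aux`, `splitU_le_aux`, `splitU_even_aux` are the three small stubs of `Kernel.lean`, with
`splitU` unfolded.
-/

namespace Vale.Agent.P162

open Finset Vale.Agent.P335

open scoped Classical

noncomputable section

variable {X : Type*} [Fintype X] [DecidableEq X] {β : Type*}

theorem card_alpha_aux {r : ℕ} (hr : 1 ≤ r) {α γ : X → Bool} {ι0 : X → X} {ℓ : X → β}
    (h : TopStr r α γ ι0 ℓ) (b : Bool) : (univ.filter (fun x => α x = b)).card = 2 ^ r := by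
  have h1 : univ.filter (fun x => α x = b)
      = univ.filter (fun x => α x = b ∧ γ x = true) ∪ univ.filter (fun x => α x = b ∧ γ x = false) := by
    ext x
    simp only [mem_filter, mem_univ, true_and, mem_union]
    cases γ x <;> simp
  have h2 : Disjoint (univ.filter (fun x => α x = b ∧ γ x = true))
      (univ.filter (fun x => α x = b ∧ γ x = false)) := by
    rw [disjoint_left]
    intro x hx hx'
    simp only [mem_filter, mem_univ, true_and] at hx hx'
    rw [hx.2] at hx'
    exact absurd hx'.2 (by simp)
  rw [h1, card_union_of_disjoint h2, h.cells, h.cells]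
  obtain ⟨s, rfl⟩ : ∃ s, r = s + 1 := ⟨r - 1, by omega⟩
  simp [pow_succ]
  ring

theorem card_gamma_aux {r : ℕ} (hr : 1 ≤ r) {α γ : X → Bool} {ι0 : X → X} {ℓ : X → β}
    (h : TopStr r α γ ι0 ℓ) (c : Bool) : (univ.filter (fun x => γ x = c)).card = 2 ^ r := by
  have h1 : univ.filter (fun x => γ x = c)
      = univ.filter (fun x => α x = true ∧ γ x = c) ∪ univ.filter (fun x => α x = false ∧ γ x = c) := by
    ext x
    simp only [mem_filter, mem_univ, true_and, mem_union]
    cases α x <;> simp
  have h2 : Disjoint (univ.filter (fun x => α x = true ∧ γ x = c))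
      (univ.filter (fun x => α x = false ∧ γ x = c)) := by
    rw [disjoint_left]
    intro x hx hx'
    simp only [mem_filter, mem_univ, true_and] at hx hx'
    rw [hx.1] at hx'
    exact absurd hx'.1 (by simp)
  rw [h1, card_union_of_disjoint h2, h.cells, h.cells]
  obtain ⟨s, rfl⟩ : ∃ s, r = s + 1 := ⟨r - 1, by omega⟩
  simp [pow_succ]
  ring

theorem card_X_aux {r : ℕ} (hr : 1 ≤ r) {α γ : X → Bool} {ι0 : X → X} {ℓ : X → β}
    (h : TopStr r α γ ι0 ℓ) : Fintype.card X = 2 ^ (r + 1) := by
  have h1 : (univ : Finset X)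
      = univ.filter (fun x => α x = true) ∪ univ.filter (fun x => α x = false) := by
    ext x
    simp only [mem_filter, mem_univ, true_and, mem_union]
    cases α x <;> simp
  have h2 : Disjoint (univ.filter (fun x => α x = true)) (univ.filter (fun x => α x = false)) := by
    rw [disjoint_left]
    intro x hx hx'
    simp only [mem_filter, mem_univ, true_and] at hx hx'
    rw [hx] at hx'
    exact absurd hx' (by simp)
  rw [← card_univ, h1, card_union_of_disjoint h2, card_alpha_aux hr h, card_alpha_aux hr h,
    pow_succ]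
  ring

theorem splitU_le_aux {r : ℕ} (hr : 1 ≤ r) {α γ : X → Bool} {ι0 : X → X} {ℓ : X → β}
    (h : TopStr r α γ ι0 ℓ) (τ : Equiv.Perm X) :
    (univ.filter (fun p => γ p = true ∧ α (τ p) ≠ α (τ (ι0 p)))).card ≤ 2 ^ r := by
  rw [← card_gamma_aux hr h true]
  apply card_le_card
  intro p hp
  simp only [mem_filter, mem_univ, true_and] at hp ⊢
  exact hp.1

/-- summation over the points = summation over the pairs -/
theorem sum_pairs {γ : X → Bool} {ι0 : X → X} {ℓ : X → β} (h : PairStr γ ι0 ℓ) (f : X → ℕ) :
    ∑ x, f x = ∑ p ∈ univ.filter (fun p => γ p = true), (f p + f (ι0 p)) := by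
  rw [sum_add_distrib, ← sum_filter_add_sum_filter_not univ (fun p => γ p = true) f]
  congr 1
  apply sum_nbij' ι0 ι0
  · intro x hx
    simp only [mem_filter, mem_univ, true_and] at hx ⊢
    rw [h.flip]
    cases hγ : γ x <;> simp_all
  · intro x hx
    simp only [mem_filter, mem_univ, true_and] at hx ⊢
    rw [h.flip, hx]
    simp
  · intro x _
    exact h.invol x
  · intro x _
    exact h.invol x
  · intro x _
    rw [h.invol]

theorem splitU_even_aux {r : ℕ} (hr : 1 ≤ r) {α γ : X → Bool} {ι0 : X → X} {ℓ : X → β}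
    (h : TopStr r α γ ι0 ℓ) (τ : Equiv.Perm X) :
    Even (univ.filter (fun p => γ p = true ∧ α (τ p) ≠ α (τ (ι0 p)))).card := by
  -- the number of points with `α (τ x) = true`
  have h1 : (univ.filter (fun x => α (τ x) = true)).card = 2 ^ r := by
    rw [← card_alpha_aux hr h true]
    apply card_bij (fun x _ => τ x)
    · intro x hx
      simpa using hx
    · intro x _ y _ hxy
      exact τ.injective hxy
    · intro y hy
      refine ⟨τ.symm y, ?_, by simp⟩
      simpa using hy
  have h2 : (univ.filter (fun x => α (τ x) = true)).card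
      = ∑ p ∈ univ.filter (fun p => γ p = true),
          ((if α (τ p) = true then 1 else 0) + (if α (τ (ι0 p)) = true then 1 else 0)) := by
    rw [card_filter]
    exact sum_pairs h.toPairStr (fun x => if α (τ x) = true then 1 else 0)
  have h3 : (univ.filter (fun p => γ p = true ∧ α (τ p) ≠ α (τ (ι0 p)))).card
      = ∑ p ∈ univ.filter (fun p => γ p = true), (if α (τ p) ≠ α (τ (ι0 p)) then 1 else 0) := by
    rw [← filter_filter, card_filter]
  have h4 : ∀ s : Finset X, (∑ p ∈ s, (if α (τ p) ≠ α (τ (ι0 p)) then 1 else 0)) % 2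
      = (∑ p ∈ s, ((if α (τ p) = true then 1 else 0)
          + (if α (τ (ι0 p)) = true then 1 else 0))) % 2 := by
    intro s
    rw [sum_nat_mod, sum_nat_mod (f := fun p => ((if α (τ p) = true then 1 else 0)
          + (if α (τ (ι0 p)) = true then 1 else 0)))]
    congr 1
    apply sum_congr rfl
    intro p _
    cases α (τ p) <;> cases α (τ (ι0 p)) <;> simp
  rw [Nat.even_iff, h3, h4, ← h2, h1]
  obtain ⟨s, rfl⟩ : ∃ s, r = s + 1 := ⟨r - 1, by omega⟩
  rw [pow_succ]
  omega

end

end Vale.Agent.P162
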