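import Vale.Agent.P162.KernelGroup
import Vale.Agent.P162.BinBounds

/-!
# P162, kernel of section 5 in the clean model

`X` = positions = cards, `iota` the pairing of the positions, `gamma`, `alpha : X -> Bool` with
`gamma (iota x) = !gamma x`, `alpha (iota x) = alpha x`, the four cells `(alpha,gamma)` have `h` points,
`l x = l y <-> y = x or y = iota x`.  `G = Perm X`, keys `l o g`, `gamma o g`, `alpha o g`.

* `btKer_clean` : `btKer sigma g = GamK * cb (uNum sigma g / 2)`;
* `tail_clean`  : the proportion of `g` with `w <= |uNum sigma g - k/2|`, `k = 2 h`, is at most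
  `(4^k / C(2k,k)) * 2 exp(-2 w^2/k)`.
-/

namespace Vale.Agent.P162

open Finset Vale.Agent.P335

open scoped Classical

set_option linter.unusedSectionVars false
set_option linter.unusedVariables false

noncomputable section

variable {X : Type*} [Fintype X] [DecidableEq X] {L : Type*}
variable (ι : X → X) (γ α : X → Bool) (l : X → L) (h : ℕ)

/-- number of pairs of the matching of `sigma` split by `alpha o g` -/
def uNum (σ g : Equiv.Perm X) : ℕ := splitNum (matchOf ι σ) (γ ∘ σ) (α ∘ g)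

/-- the constant of the kernel -/
def GamK : ℝ :=
  (Fintype.card (Equiv.Perm X) : ℝ) /
    (((cls (fun g : Equiv.Perm X => l ∘ g) (1 : Equiv.Perm X)).card : ℝ)
      * ((cls (fun g : Equiv.Perm X => γ ∘ g) (1 : Equiv.Perm X)).card : ℝ)
      * ((cls (fun g : Equiv.Perm X => α ∘ g) (1 : Equiv.Perm X)).card : ℝ))
    * ((cls (fun g : Equiv.Perm X => (fun x => (α x, γ x)) ∘ g) (1 : Equiv.Perm X)).card : ℝ)
    * 2 ^ (2 * h)

theorem GamK_pos : 0 < GamK γ α l h := by
  unfold GamK
  have hG : (0 : ℝ) < (Fintype.card (Equiv.Perm X) : ℝ) := by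
    exact_mod_cast Fintype.card_pos
  have p1 : (0 : ℝ) < ((cls (fun g : Equiv.Perm X => l ∘ g) (1 : Equiv.Perm X)).card : ℝ) := by
    exact_mod_cast cls_card_pos _ _
  have p2 : (0 : ℝ) < ((cls (fun g : Equiv.Perm X => γ ∘ g) (1 : Equiv.Perm X)).card : ℝ) := by
    exact_mod_cast cls_card_pos _ _
  have p3 : (0 : ℝ) < ((cls (fun g : Equiv.Perm X => α ∘ g) (1 : Equiv.Perm X)).card : ℝ) := by
    exact_mod_cast cls_card_pos _ _
  have p4 : (0 : ℝ) < ((cls (fun g : Equiv.Perm X => (fun x => (α x, γ x)) ∘ g)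
      (1 : Equiv.Perm X)).card : ℝ) := by
    exact_mod_cast cls_card_pos _ _
  positivity

theorem pairNum_comp (hcell : ∀ b1 b2 : Bool, (univ.filter (fun x => α x = b1 ∧ γ x = b2)).card = h)
    (σ : Equiv.Perm X) : pairNum (γ ∘ σ) = 2 * h := by
  obtain ⟨_, _, hγ2⟩ := card_X_of_cells γ α h hcell
  unfold pairNum
  rw [← hγ2]
  exact card_filter_comp_perm (fun x => γ x = true) σ

theorem two_pow_mul_choose (k u : ℕ) (hu : Even u) (huk : u ≤ k) :
    ((2 ^ (k - u) * u.choose (u / 2) : ℕ) : ℝ) = 2 ^ k * cb (u / 2) := by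
  obtain ⟨j, rfl⟩ := hu
  have e : (j + j) / 2 = j := by omega
  rw [e]
  unfold cb
  rw [Nat.centralBinom_eq_two_mul_choose]
  have e2 : j + j = 2 * j := by ring
  rw [e2] at huk ⊢
  push_cast
  have e3 : (2 : ℝ) ^ k = 2 ^ (k - 2 * j) * 4 ^ j := by
    have : (4 : ℝ) ^ j = 2 ^ (2 * j) := by rw [pow_mul]; norm_num
    rw [this, ← pow_add]
    congr 1
    omega
  rw [e3]
  field_simp

theorem uNum_even (hι : ∀ x, ι (ι x) = x) (hγ : ∀ x, γ (ι x) = !γ x)
    (hcell : ∀ b1 b2 : Bool, (univ.filter (fun x => α x = b1 ∧ γ x = b2)).card = h)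
    (σ g : Equiv.Perm X) : Even (uNum ι γ α σ g) := by
  obtain ⟨_, hα2, _⟩ := card_X_of_cells γ α h hcell
  have ha : (univ.filter (fun c => (α ∘ g) c = true)).card = 2 * h := by
    rw [← hα2]; exact card_filter_comp_perm (fun x => α x = true) g
  exact (card_transversal (matchOf ι σ) (matchOf_invol ι hι σ) (γ ∘ σ) (gamma_matchOf ι γ hγ σ)
    (α ∘ g) h ha).1

theorem uNum_le (hcell : ∀ b1 b2 : Bool, (univ.filter (fun x => α x = b1 ∧ γ x = b2)).card = h)
    (σ g : Equiv.Perm X) : uNum ι γ α σ g ≤ 2 * h := by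
  rw [← pairNum_comp γ α h hcell σ]
  exact splitNum_le _ _ _

theorem card_both' (hcell : ∀ b1 b2 : Bool, (univ.filter (fun x => α x = b1 ∧ γ x = b2)).card = h)
    (g g' : Equiv.Perm X) {inst : DecidablePred (fun g'' : Equiv.Perm X => γ ∘ g'' = γ ∘ g')} :
    (@Finset.filter _ (fun g'' : Equiv.Perm X => γ ∘ g'' = γ ∘ g') inst
        (cls (fun g : Equiv.Perm X => α ∘ g) g)).card
      = if ttNum (α ∘ g) (γ ∘ g') = h then
          (cls (fun g : Equiv.Perm X => (fun x => (α x, γ x)) ∘ g) (1 : Equiv.Perm X)).card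
        else 0 := by
  rw [← card_both γ α h hcell g g']
  congr 1
  ext g''
  simp only [Finset.mem_filter]

/-- **(K1)** the kernel in the clean model -/
theorem btKer_clean (hι : ∀ x, ι (ι x) = x) (hγ : ∀ x, γ (ι x) = !γ x)
    (hl : ∀ x y, l x = l y ↔ (y = x ∨ y = ι x))
    (hcell : ∀ b1 b2 : Bool, (univ.filter (fun x => α x = b1 ∧ γ x = b2)).card = h)
    (σ g : Equiv.Perm X) :
    btKer (fun g : Equiv.Perm X => l ∘ g) (fun g : Equiv.Perm X => γ ∘ g)
        (fun g : Equiv.Perm X => α ∘ g) σ g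
      = GamK γ α l h * cb (uNum ι γ α σ g / 2) := by
  obtain ⟨_, hα2, _⟩ := card_X_of_cells γ α h hcell
  have ha : (univ.filter (fun c => (α ∘ g) c = true)).card = 2 * h := by
    rw [← hα2]; exact card_filter_comp_perm (fun x => α x = true) g
  rw [btKer_eq_count _ _ _ _ _ _ (card_cls_comp l) (card_cls_comp γ) (card_cls_comp α) σ g]
  simp only [card_both' γ α h hcell g]
  have e1 : ∑ g' ∈ cls (fun g : Equiv.Perm X => l ∘ g) σ,
      (((if ttNum (α ∘ g) (γ ∘ g') = h then
          (cls (fun g : Equiv.Perm X => (fun x => (α x, γ x)) ∘ g) (1 : Equiv.Perm X)).card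
        else 0 : ℕ)) : ℝ)
      = ((cls (fun g : Equiv.Perm X => (fun x => (α x, γ x)) ∘ g) (1 : Equiv.Perm X)).card : ℝ)
        * (((cls (fun g : Equiv.Perm X => l ∘ g) σ).filter
            (fun g' : Equiv.Perm X => ttNum (α ∘ g) (γ ∘ g') = h)).card : ℝ) := by
    rw [Finset.card_filter, Nat.cast_sum, Finset.mul_sum]
    apply Finset.sum_congr rfl
    intro g' _
    split_ifs <;> simp
  have e1' : ((cls (fun g : Equiv.Perm X => l ∘ g) σ).filter
            (fun g' : Equiv.Perm X => ttNum (α ∘ g) (γ ∘ g') = h)).card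
      = (univ.filter (fun y : X → Bool => (∀ c, y (matchOf ι σ c) = !y c)
          ∧ ttNum (α ∘ g) y = h)).card := by
    have hh := card_cls_l_filter ι γ l hι hγ hl σ (fun y => ttNum (α ∘ g) y = h)
    convert hh using 2
    · ext g''
      simp only [Finset.mem_filter]
    · ext y
      simp only [Finset.mem_filter]
  rw [e1, e1']
  have hct := card_transversal (matchOf ι σ) (matchOf_invol ι hι σ) (γ ∘ σ)
    (gamma_matchOf ι γ hγ σ) (α ∘ g) h ha
  have e2 : (univ.filter (fun y : X → Bool => (∀ c, y (matchOf ι σ c) = !y c)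
      ∧ ttNum (α ∘ g) y = h)).card
      = 2 ^ (2 * h - uNum ι γ α σ g) * (uNum ι γ α σ g).choose (uNum ι γ α σ g / 2) := by
    rw [← pairNum_comp γ α h hcell σ]
    unfold uNum
    rw [← hct.2]
    unfold ttNum
    congr 1
  rw [e2, two_pow_mul_choose _ _ (uNum_even ι γ α h hι hγ hcell σ g) (uNum_le ι γ α h hcell σ g)]
  unfold GamK
  ring

end

end Vale.Agent.P162
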