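import Vale.Agent.P162.LabelKey
import Vale.Agent.P162.KernelBasic
import Vale.Agent.P162.KernelClean

/-!
# P162: the kernel `btKer` on the clean model   (tasks K1..)

See `notes/P162_proof.md`, section 5, KERNEL.  With `τ = g * σ⁻¹`:
`btKer σ g = c * card {(g1, g2) : α ∘ g1 = α ∘ g, γ ∘ g2 = γ ∘ g1, ℓ ∘ g2 = ℓ ∘ σ}`
`= c' * card {g2 : ℓ ∘ g2 = ℓ ∘ σ, the four cells of (α ∘ g, γ ∘ g2) have 2 ^ (r-1) points}`.
`g2 = c * σ` where `c` flips an arbitrary set of pairs `{p, ι0 p}`; the number of cards in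
`{α ∘ g = true} ∩ {γ ∘ g2 = true}` is (number of pairs inside) + (number of split pairs whose
chosen endpoint is inside), and `2 * (pairs inside) + u = 2 ^ r`.
So the count is `2 ^ (k - u) * choose u (u / 2)`, `k = 2 ^ r`.

The proof is in `KernelCount.lean` (counting), `KernelGroup.lean` (group part), `KernelClean.lean`
(`btKer_clean`); here it is only restated in the vocabulary of the skeleton.
-/

namespace Vale.Agent.P162

open Finset Vale.Agent.P335

open scoped Classical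

noncomputable section

variable {X : Type*} [Fintype X] [DecidableEq X] {β : Type*}

/-- Number of pairs `{p, ι0 p}` that are split by `α ∘ τ`. -/
def splitU (α γ : X → Bool) (ι0 : X → X) (τ : Equiv.Perm X) : ℕ :=
  (univ.filter (fun p => γ p = true ∧ α (τ p) ≠ α (τ (ι0 p)))).card

/-- `choose u (u/2) / 2 ^ u`. -/
def betaU (u : ℕ) : ℝ := (u.choose (u / 2) : ℝ) / 2 ^ u

theorem card_X_of_topStr {r : ℕ} (hr : 1 ≤ r) {α γ : X → Bool} {ι0 : X → X} {ℓ : X → β}
    (h : TopStr r α γ ι0 ℓ) : Fintype.card X = 2 ^ (r + 1) :=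
  card_X_aux hr h

theorem splitU_le {r : ℕ} (hr : 1 ≤ r) {α γ : X → Bool} {ι0 : X → X} {ℓ : X → β}
    (h : TopStr r α γ ι0 ℓ) (τ : Equiv.Perm X) : splitU α γ ι0 τ ≤ 2 ^ r := by
  unfold splitU
  exact splitU_le_aux hr h τ

theorem splitU_even {r : ℕ} (hr : 1 ≤ r) {α γ : X → Bool} {ι0 : X → X} {ℓ : X → β}
    (h : TopStr r α γ ι0 ℓ) (τ : Equiv.Perm X) : Even (splitU α γ ι0 τ) := by
  unfold splitU
  exact splitU_even_aux hr h τ

/-- `uNum` of `KernelClean.lean` is `splitU` of `g * σ⁻¹`. -/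
theorem uNum_eq_splitU (α γ : X → Bool) (ι0 : X → X) (σ g : Equiv.Perm X) :
    uNum ι0 γ α σ g = splitU α γ ι0 (g * σ⁻¹) := by
  unfold uNum splitNum splitU
  refine Finset.card_bij' (fun c _ => σ c) (fun p _ => σ⁻¹ p) ?_ ?_ ?_ ?_
  · intro c hc
    have hc' := (Finset.mem_filter.1 hc).2
    refine Finset.mem_filter.2 ⟨mem_univ _, ?_⟩
    simpa [matchOf] using hc'
  · intro p hp
    have hp' := (Finset.mem_filter.1 hp).2
    refine Finset.mem_filter.2 ⟨mem_univ _, ?_⟩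
    simpa [matchOf] using hp'
  · intro c _; simp
  · intro p _; simp

theorem cb_half_eq_betaU (u : ℕ) (hu : Even u) : cb (u / 2) = betaU u := by
  obtain ⟨j, rfl⟩ := hu
  have e : (j + j) / 2 = j := by omega
  unfold betaU cb
  rw [e, Nat.centralBinom_eq_two_mul_choose]
  have e2 : j + j = 2 * j := by ring
  rw [e2, pow_mul]
  norm_num

/-- KERNEL formula. -/
theorem kernel_formula {r : ℕ} (hr : 1 ≤ r) {α γ : X → Bool} {ι0 : X → X} {ℓ : X → β}
    (h : TopStr r α γ ι0 ℓ) :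
    ∃ Γ : ℝ, 0 < Γ ∧ ∀ σ g : Equiv.Perm X,
      btKer (lkey ℓ) (lkey γ) (lkey α) σ g = Γ * betaU (splitU α γ ι0 (g * σ⁻¹)) := by
  refine ⟨GamK γ α ℓ (2 ^ (r - 1)), GamK_pos γ α ℓ (2 ^ (r - 1)), ?_⟩
  intro σ g
  have hk := btKer_clean ι0 γ α ℓ (2 ^ (r - 1)) h.invol h.flip h.lab h.cells σ g
  rw [uNum_eq_splitU, cb_half_eq_betaU _ (splitU_even hr h _)] at hk
  exact hk

end

end Vale.Agent.P162
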