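import Mathlib

/-!
# P162, kernel of section 5: pure counting lemmas (Mathlib only)

`X` = the cards, `m` = a fixed point free involution (a perfect matching of the cards), `y0` = a reference
transversal (`y0 (m c) = !y0 c`); the pairs are indexed by their representatives `{c | y0 c = true}`.
`pairNum y0` = number `k` of pairs, `splitNum m y0 a` = number `u` of pairs split by `a : X -> Bool`.

* `card_inter_card` : `#{S subset R : |S inter W| = i} = C(|W|,i) 2^(|R|-|W|)` for `W subset R`;
* `card_transversal` : if `a` has `2 j` ones, the number of transversals `y` with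
  `#{c : a c, y c} = j` is `2^(k-u) C(u,u/2)`, and `u` is even.
  (A transversal is coded by `S = {c rep : y (rho c)}`, `rho c` = the endpoint of the pair of `c` chosen
  inside `a` when the pair is split; pairs inside `a` contribute 1, pairs outside 0, a split
  pair contributes 1 iff it is in `S`; `2 #inside + u = 2 j`.)
-/

namespace Vale.Agent.P162

open Finset

set_option linter.unusedSectionVars false
set_option linter.unusedSimpArgs false
set_option linter.deprecated false

theorem card_inter_card {β : Type*} [DecidableEq β] (R W : Finset β) (hW : W ⊆ R) (i : ℕ) :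
    ((R.powerset).filter (fun S => (S ∩ W).card = i)).card
      = W.card.choose i * 2 ^ (R.card - W.card) := by
  rw [← Finset.card_sdiff_of_subset hW, ← Finset.card_powerset, ← Finset.card_powersetCard,
    ← Finset.card_product]
  refine Finset.card_nbij' (fun S => (S ∩ W, S \ W)) (fun p => p.1 ∪ p.2) ?_ ?_ ?_ ?_
  · intro S hS
    simp only [coe_filter, mem_powerset, Set.mem_setOf_eq] at hS
    simp only [coe_product, Set.mem_prod, mem_coe, mem_powersetCard, mem_powerset]
    exact ⟨⟨inter_subset_right, hS.2⟩, sdiff_subset_sdiff hS.1 (subset_refl _)⟩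
  · rintro ⟨A, B⟩ hp
    simp only [coe_product, Set.mem_prod, mem_coe, mem_powersetCard, mem_powerset] at hp
    obtain ⟨⟨hA, hAc⟩, hB⟩ := hp
    simp only [coe_filter, mem_powerset, Set.mem_setOf_eq]
    refine ⟨union_subset (hA.trans hW) (hB.trans sdiff_subset), ?_⟩
    have : (A ∪ B) ∩ W = A := by
      ext x
      simp only [mem_inter, mem_union]
      constructor
      · rintro ⟨h1 | h1, h2⟩
        · exact h1
        · exact absurd h2 (mem_sdiff.1 (hB h1)).2
      · intro h1
        exact ⟨Or.inl h1, hA h1⟩
    rw [this, hAc]
  · intro S _
    simp only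
    ext x
    simp only [mem_union, mem_inter, mem_sdiff]
    tauto
  · rintro ⟨A, B⟩ hp
    simp only [coe_product, Set.mem_prod, mem_coe, mem_powersetCard, mem_powerset] at hp
    obtain ⟨⟨hA, hAc⟩, hB⟩ := hp
    simp only [Prod.mk.injEq]
    constructor
    · ext x
      simp only [mem_inter, mem_union]
      constructor
      · rintro ⟨h1 | h1, h2⟩
        · exact h1
        · exact absurd h2 (mem_sdiff.1 (hB h1)).2
      · intro h1
        exact ⟨Or.inl h1, hA h1⟩
    · ext x
      simp only [mem_sdiff, mem_union]
      constructor
      · rintro ⟨h1 | h1, h2⟩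
        · exact absurd (hA h1) h2
        · exact h1
      · intro h1
        exact ⟨Or.inr h1, (mem_sdiff.1 (hB h1)).2⟩

variable {X : Type*} [Fintype X] [DecidableEq X]

/-- number of pairs -/
def pairNum (y0 : X → Bool) : ℕ := (univ.filter (fun c => y0 c = true)).card

/-- number of pairs split by `a` -/
def splitNum (m : X → X) (y0 a : X → Bool) : ℕ :=
  (univ.filter (fun c => y0 c = true ∧ a c ≠ a (m c))).card

theorem splitNum_le (m : X → X) (y0 a : X → Bool) : splitNum m y0 a ≤ pairNum y0 := by
  unfold splitNum pairNum
  apply card_le_card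
  intro c hc
  simp only [mem_filter, mem_univ, true_and] at hc ⊢
  exact hc.1

theorem sum_reps (m : X → X) (hm : ∀ c, m (m c) = c) (y0 : X → Bool)
    (hy0 : ∀ c, y0 (m c) = !y0 c) (f : X → ℕ) :
    ∑ x, f x = ∑ c ∈ univ.filter (fun c => y0 c = true), (f c + f (m c)) := by
  rw [sum_add_distrib, ← sum_filter_add_sum_filter_not univ (fun p => y0 p = true) f]
  congr 1
  apply sum_nbij' m m
  · intro x hx
    simp only [mem_filter, mem_univ, true_and] at hx ⊢
    rw [hy0]
    cases h : y0 x <;> simp_all
  · intro x hx
    simp only [mem_filter, mem_univ, true_and] at hx ⊢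
    rw [hy0, hx]
    simp
  · intro x _; exact hm x
  · intro x _; exact hm x
  · intro x _; rw [hm]

theorem card_transversal (m : X → X) (hm : ∀ c, m (m c) = c) (y0 : X → Bool)
    (hy0 : ∀ c, y0 (m c) = !y0 c) (a : X → Bool) (j : ℕ)
    (ha : (univ.filter (fun c => a c = true)).card = 2 * j) :
    Even (splitNum m y0 a) ∧
    (univ.filter (fun y : X → Bool => (∀ c, y (m c) = !y c) ∧
        (univ.filter (fun c => a c = true ∧ y c = true)).card = j)).card
      = 2 ^ (pairNum y0 - splitNum m y0 a) * (splitNum m y0 a).choose (splitNum m y0 a / 2) := by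
  set R := univ.filter (fun c => y0 c = true) with hR
  set W := R.filter (fun c => a c ≠ a (m c)) with hWdef
  set pin := (R.filter (fun c => a c = true ∧ a (m c) = true)).card with hpin
  have hu : splitNum m y0 a = W.card := by
    unfold splitNum
    rw [hWdef, hR, filter_filter]
  have hk : pairNum y0 = R.card := rfl
  have h1 : 2 * pin + W.card = 2 * j := by
    have e0 : (univ.filter (fun c => a c = true)).card
        = ∑ c ∈ R, ((if a c = true then 1 else 0) + (if a (m c) = true then 1 else 0)) := by
      rw [card_filter]
      exact sum_reps m hm y0 hy0 (fun c => if a c = true then 1 else 0)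
    rw [← ha, e0, hpin, hWdef, card_filter, card_filter, mul_sum, ← sum_add_distrib]
    apply sum_congr rfl
    intro c _
    cases a c <;> cases a (m c) <;> simp
  let ρ : X → X := fun c => if a c = true then c else m c
  have h2 : ∀ y : X → Bool, (∀ c, y (m c) = !y c) →
      (univ.filter (fun c => a c = true ∧ y c = true)).card
        = pin + ((R.filter (fun c => y (ρ c) = true)) ∩ W).card := by
    intro y hy
    rw [card_filter, sum_reps m hm y0 hy0, hpin, card_filter, hWdef, ← filter_and, card_filter,
      ← sum_add_distrib]
    apply sum_congr rfl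
    intro c _
    have := hy c
    cases hac : a c <;> cases hamc : a (m c) <;> cases hyc : y c <;>
      simp [ρ, hac, hamc, hyc, this]
  have h3 : (univ.filter (fun y : X → Bool => (∀ c, y (m c) = !y c) ∧
        (univ.filter (fun c => a c = true ∧ y c = true)).card = j)).card
      = ((R.powerset).filter (fun S => (S ∩ W).card = W.card / 2)).card := by
    refine card_bij (fun y _ => R.filter (fun c => y (ρ c) = true)) ?_ ?_ ?_
    · intro y hy
      obtain ⟨hy1, hy2⟩ := (mem_filter.1 hy).2
      refine mem_filter.2 ⟨mem_powerset.2 (filter_subset _ _), ?_⟩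
      have := h2 y hy1
      omega
    · intro y hy y' hy' he
      obtain ⟨hy1, _⟩ := (mem_filter.1 hy).2
      obtain ⟨hy1', _⟩ := (mem_filter.1 hy').2
      have key : ∀ z, y z = y' z → y (m z) = y' (m z) := by
        intro z hz
        rw [hy1, hy1', hz]
      have hc : ∀ c ∈ R, y (ρ c) = y' (ρ c) := by
        intro c hcR
        have e : c ∈ R.filter (fun c => y (ρ c) = true) ↔ c ∈ R.filter (fun c => y' (ρ c) = true) := by
          rw [he]
        simp only [mem_filter, hcR, true_and] at e
        exact Bool.eq_iff_iff.2 e
      have hc2 : ∀ c ∈ R, y c = y' c := by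
        intro c hcR
        have e := hc c hcR
        by_cases hac : a c = true
        · simpa [ρ, hac] using e
        · have e' : y (m c) = y' (m c) := by simpa [ρ, hac] using e
          have := key _ e'
          rwa [hm] at this
      funext x
      by_cases hx : y0 x = true
      · exact hc2 x (mem_filter.2 ⟨mem_univ _, hx⟩)
      · have hmx : m x ∈ R := by
          refine mem_filter.2 ⟨mem_univ _, ?_⟩
          rw [hy0]
          simpa using hx
        have := key _ (hc2 _ hmx)
        rwa [hm] at this
    · intro S hS
      obtain ⟨hS1, hS2⟩ := mem_filter.1 hS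
      have hSR := mem_powerset.1 hS1
      let y : X → Bool := fun x =>
        if y0 x = true then (decide (x ∈ S) == a x) else !(decide (m x ∈ S) == a (m x))
      have hy : ∀ c, y (m c) = !y c := by
        intro c
        simp only [y, hy0, hm]
        cases y0 c <;> simp
      have hSy : R.filter (fun c => y (ρ c) = true) = S := by
        ext c
        simp only [mem_filter]
        constructor
        · rintro ⟨hcR, hc⟩
          have hc0 : y0 c = true := (mem_filter.1 hcR).2
          by_cases hac : a c = true
          · simpa [ρ, y, hac, hc0] using hc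
          · simpa [ρ, y, hac, hc0, hy0, hm] using hc
        · intro hcS
          have hcR := hSR hcS
          have hc0 : y0 c = true := (mem_filter.1 hcR).2
          refine ⟨hcR, ?_⟩
          by_cases hac : a c = true
          · simp [ρ, y, hac, hc0, hcS]
          · simp [ρ, y, hac, hc0, hy0, hm, hcS]
      refine ⟨y, mem_filter.2 ⟨mem_univ _, hy, ?_⟩, hSy⟩
      rw [h2 y hy, hSy, hS2]
      omega
  refine ⟨⟨j - pin, by omega⟩, ?_⟩
  rw [h3, card_inter_card R W (filter_subset _ _), hu, hk, mul_comm]

end Vale.Agent.P162
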