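import Vale.Agent.P162.SLAbs
import Vale.Agent.P162.KernelCount

/-!
# P162, kernel of section 5: the group part

`G = Perm X` (`g : card -> position`), keys of the form `g |-> f o g`.
-/

namespace Vale.Agent.P162

open Finset Vale.Agent.P335

open scoped Classical

set_option linter.unusedSectionVars false
set_option linter.unusedSimpArgs false

noncomputable section

section general

variable {Ω : Type*} [Fintype Ω] {K : Type*}

theorem avg_pointMass (k : Ω → K) (σ g : Ω) :
    avg k (pointMass σ) g
      = if k σ = k g then (Fintype.card Ω : ℝ) / ((cls k g).card : ℝ) else 0 := by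
  unfold avg pointMass
  rw [Finset.sum_ite_eq' (cls k g) σ (fun _ => (Fintype.card Ω : ℝ))]
  by_cases h : k σ = k g
  · rw [if_pos (mem_cls.2 h), if_pos h]
  · rw [if_neg (fun hh => h (mem_cls.1 hh)), if_neg h, zero_div]

/-- average of a scaled indicator -/
theorem avg_indicator (k : Ω → K) (P : Ω → Prop) (c : ℝ) (g : Ω) :
    avg k (fun x => if P x then c else 0) g
      = c * (((cls k g).filter P).card : ℝ) / ((cls k g).card : ℝ) := by
  unfold avg
  rw [← Finset.sum_filter, Finset.sum_const, nsmul_eq_mul, mul_comm]

/-- the kernel as a count, when all classes of each key have the same size -/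
theorem btKer_eq_count {K1 K0 KA : Type*} (k1 : Ω → K1) (k0 : Ω → K0) (kA : Ω → KA)
    (N1 N0 NA : ℕ) (h1 : ∀ g, (cls k1 g).card = N1) (h0 : ∀ g, (cls k0 g).card = N0)
    (hA : ∀ g, (cls kA g).card = NA) (σ g : Ω) :
    btKer k1 k0 kA σ g = (Fintype.card Ω : ℝ) / ((N1 : ℝ) * N0 * NA) *
      ∑ g' ∈ cls k1 σ, (((cls kA g).filter (fun g'' => k0 g'' = k0 g')).card : ℝ) := by
  unfold btKer
  have e1 : avg k1 (pointMass σ)
      = fun g => if k1 σ = k1 g then (Fintype.card Ω : ℝ) / (N1 : ℝ) else 0 := by
    funext g
    rw [avg_pointMass, h1]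
  have e2 : avg k0 (avg k1 (pointMass σ)) = fun g'' => (Fintype.card Ω : ℝ) / (N1 : ℝ) *
      (((cls k1 σ).filter (fun g' => k0 g'' = k0 g')).card : ℝ) / (N0 : ℝ) := by
    funext g''
    rw [e1, avg_indicator, h0]
    have : (cls k0 g'').filter (fun g' => k1 σ = k1 g')
        = (cls k1 σ).filter (fun g' => k0 g'' = k0 g') := by
      ext g'
      simp only [mem_filter, mem_cls]
      constructor
      · rintro ⟨a, b⟩; exact ⟨b.symm, a.symm⟩
      · rintro ⟨a, b⟩; exact ⟨b.symm, a.symm⟩
    rw [this]
  rw [e2]
  unfold avg
  rw [hA]
  have e3 : ∑ g'' ∈ cls kA g, (((cls k1 σ).filter (fun g' => k0 g'' = k0 g')).card : ℝ)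
      = ∑ g' ∈ cls k1 σ, (((cls kA g).filter (fun g'' => k0 g'' = k0 g')).card : ℝ) := by
    simp only [Finset.card_filter, Nat.cast_sum]
    rw [Finset.sum_comm]
  rw [← e3, Finset.mul_sum, Finset.sum_div]
  apply Finset.sum_congr rfl
  intro g'' _
  by_cases hz : (N1 : ℝ) = 0
  · simp [hz]
  by_cases hz0 : (N0 : ℝ) = 0
  · simp [hz0]
  by_cases hzA : (NA : ℝ) = 0
  · simp [hzA]
  field_simp

end general

variable {X : Type*} [Fintype X] [DecidableEq X]

/-- all classes of a key `g |-> f o g` have the same size -/
theorem card_cls_comp {β : Type*} (f : X → β) (g : Equiv.Perm X) :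
    (cls (fun g : Equiv.Perm X => f ∘ g) g).card
      = (cls (fun g : Equiv.Perm X => f ∘ g) (1 : Equiv.Perm X)).card := by
  refine Finset.card_bij' (fun g' _ => g' * g⁻¹) (fun g' _ => g' * g) ?_ ?_ ?_ ?_
  · intro g' hg'
    have h := mem_cls.1 hg'
    apply mem_cls.2
    funext x
    have := congrFun h (g⁻¹ x)
    simpa using this
  · intro g' hg'
    have h := mem_cls.1 hg'
    apply mem_cls.2
    funext x
    have := congrFun h (g x)
    simpa using this
  · intro g' _; simp
  · intro g' _; simp

/-- two functions with the same fibre sizes differ by a permutation -/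
theorem exists_perm_comp_eq {β : Type*} [DecidableEq β] (f f' : X → β)
    (h : ∀ b, (univ.filter (fun x => f x = b)).card = (univ.filter (fun x => f' x = b)).card) :
    ∃ π : Equiv.Perm X, f ∘ π = f' := by
  have e : ∀ b, {x // f' x = b} ≃ {x // f x = b} := by
    intro b
    apply Fintype.equivOfCardEq
    rw [Fintype.card_subtype, Fintype.card_subtype, h b]
  let π : Equiv.Perm X :=
    ((Equiv.sigmaFiberEquiv f').symm.trans (Equiv.sigmaCongrRight e)).trans (Equiv.sigmaFiberEquiv f)
  refine ⟨π, ?_⟩
  funext x
  have : f (π x) = f' x := by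
    simp only [π, Equiv.trans_apply, Equiv.sigmaFiberEquiv, Equiv.coe_fn_symm_mk,
      Equiv.sigmaCongrRight_apply, Equiv.coe_fn_mk, Sigma.map]
    exact ((e (f' x)) ⟨x, rfl⟩).2
  exact this

theorem card_filter_comp_perm (p : X → Prop) [DecidablePred p] (g : Equiv.Perm X)
    [DecidablePred (fun c => p (g c))] :
    (univ.filter (fun c => p (g c))).card = (univ.filter p).card := by
  refine Finset.card_bij' (fun c _ => g c) (fun c _ => g⁻¹ c) ?_ ?_ ?_ ?_
  · intro c hc; simpa using hc
  · intro c hc; simpa using hc
  · intro c _; simp
  · intro c _; simp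

/-- number of cards with `a = y = true` -/
def ttNum (a y : X → Bool) : ℕ := (univ.filter (fun c => a c = true ∧ y c = true)).card

/-- if `a` and `y` have `2 h` ones each, `|X| = 4 h` and the cell `(true,true)` has `h` points, then
all four cells have `h` points -/
theorem cells_of_tt (a y : X → Bool) (h : ℕ) (hX : Fintype.card X = 4 * h)
    (ha : (univ.filter (fun c => a c = true)).card = 2 * h)
    (hy : (univ.filter (fun c => y c = true)).card = 2 * h) (ht : ttNum a y = h) (b1 b2 : Bool) :
    (univ.filter (fun c => a c = b1 ∧ y c = b2)).card = h := by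
  have s1 : (univ.filter (fun c => a c = true ∧ y c = true)).card
      + (univ.filter (fun c => a c = true ∧ y c = false)).card = 2 * h := by
    rw [← ha, ← Finset.card_filter_add_card_filter_not (s := univ.filter (fun c => a c = true))
      (fun c => y c = true), Finset.filter_filter, Finset.filter_filter]
    simp
  have s2 : (univ.filter (fun c => a c = true ∧ y c = true)).card
      + (univ.filter (fun c => a c = false ∧ y c = true)).card = 2 * h := by
    rw [← hy, ← Finset.card_filter_add_card_filter_not (s := univ.filter (fun c => y c = true))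
      (fun c => a c = true), Finset.filter_filter, Finset.filter_filter]
    simp [and_comm]
  have s3 : (univ.filter (fun c => a c = true)).card
      + (univ.filter (fun c => a c = false)).card = 4 * h := by
    rw [← hX, ← Finset.card_univ, ← Finset.card_filter_add_card_filter_not (s := univ)
      (fun c => a c = true)]
    simp
  have s4 : (univ.filter (fun c => a c = false ∧ y c = true)).card
      + (univ.filter (fun c => a c = false ∧ y c = false)).card
      = (univ.filter (fun c => a c = false)).card := by
    rw [← Finset.card_filter_add_card_filter_not (s := univ.filter (fun c => a c = false))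
      (fun c => y c = true), Finset.filter_filter, Finset.filter_filter]
    simp
  unfold ttNum at ht
  cases b1 <;> cases b2 <;> omega

section clean

variable {L : Type*} (ι : X → X) (γ α : X → Bool) (l : X → L) (h : ℕ)

theorem card_X_of_cells (hcell : ∀ b1 b2 : Bool, (univ.filter (fun x => α x = b1 ∧ γ x = b2)).card = h) :
    Fintype.card X = 4 * h ∧ (univ.filter (fun c => α c = true)).card = 2 * h ∧
      (univ.filter (fun c => γ c = true)).card = 2 * h := by
  have s1 : (univ.filter (fun c => α c = true ∧ γ c = true)).card
      + (univ.filter (fun c => α c = true ∧ γ c = false)).card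
      = (univ.filter (fun c => α c = true)).card := by
    rw [← Finset.card_filter_add_card_filter_not (s := univ.filter (fun c => α c = true))
      (fun c => γ c = true), Finset.filter_filter, Finset.filter_filter]
    simp
  have s2 : (univ.filter (fun c => α c = true ∧ γ c = true)).card
      + (univ.filter (fun c => α c = false ∧ γ c = true)).card
      = (univ.filter (fun c => γ c = true)).card := by
    rw [← Finset.card_filter_add_card_filter_not (s := univ.filter (fun c => γ c = true))
      (fun c => α c = true), Finset.filter_filter, Finset.filter_filter]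
    simp [and_comm]
  have s3 : (univ.filter (fun c => α c = true)).card
      + (univ.filter (fun c => α c = false)).card = Fintype.card X := by
    rw [← Finset.card_univ, ← Finset.card_filter_add_card_filter_not (s := univ)
      (fun c => α c = true)]
    simp
  have s4 : (univ.filter (fun c => α c = false ∧ γ c = true)).card
      + (univ.filter (fun c => α c = false ∧ γ c = false)).card
      = (univ.filter (fun c => α c = false)).card := by
    rw [← Finset.card_filter_add_card_filter_not (s := univ.filter (fun c => α c = false))
      (fun c => γ c = true), Finset.filter_filter, Finset.filter_filter]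
    simp
  have c1 := hcell true true
  have c2 := hcell true false
  have c3 := hcell false true
  have c4 := hcell false false
  omega

/-- the number of `g''` with prescribed `alpha o g''` and `gamma o g''` -/
theorem card_both (hcell : ∀ b1 b2 : Bool, (univ.filter (fun x => α x = b1 ∧ γ x = b2)).card = h)
    (g g' : Equiv.Perm X) :
    ((cls (fun g : Equiv.Perm X => α ∘ g) g).filter (fun g'' : Equiv.Perm X => γ ∘ g'' = γ ∘ g')).card
      = if ttNum (α ∘ g) (γ ∘ g') = h then
          (cls (fun g : Equiv.Perm X => (fun x => (α x, γ x)) ∘ g) (1 : Equiv.Perm X)).card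
        else 0 := by
  obtain ⟨hX, hα2, hγ2⟩ := card_X_of_cells γ α h hcell
  have hS : (cls (fun g : Equiv.Perm X => α ∘ g) g).filter (fun g'' : Equiv.Perm X => γ ∘ g'' = γ ∘ g')
      = univ.filter (fun g'' : Equiv.Perm X =>
          (fun x => (α x, γ x)) ∘ g'' = fun c => (α (g c), γ (g' c))) := by
    ext g''
    simp only [mem_filter, mem_cls, mem_univ, true_and]
    constructor
    · rintro ⟨h1, h2⟩
      funext c
      have e1 := congrFun h1 c
      have e2 := congrFun h2 c
      simp only [Function.comp] at e1 e2 ⊢
      rw [e1, e2]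
    · intro h1
      constructor
      · funext c
        have := congrFun h1 c
        simp only [Function.comp, Prod.mk.injEq] at this ⊢
        exact this.1
      · funext c
        have := congrFun h1 c
        simp only [Function.comp, Prod.mk.injEq] at this ⊢
        exact this.2
  rw [hS]
  by_cases ht : ttNum (α ∘ g) (γ ∘ g') = h
  · rw [if_pos ht]
    have ha : (univ.filter (fun c => (α ∘ g) c = true)).card = 2 * h := by
      rw [← hα2]; exact card_filter_comp_perm (fun x => α x = true) g
    have hy : (univ.filter (fun c => (γ ∘ g') c = true)).card = 2 * h := by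
      rw [← hγ2]; exact card_filter_comp_perm (fun x => γ x = true) g'
    have hc := cells_of_tt (α ∘ g) (γ ∘ g') h hX ha hy ht
    obtain ⟨π, hπ⟩ := exists_perm_comp_eq (fun x => (α x, γ x)) (fun c => (α (g c), γ (g' c))) (by
      rintro ⟨b1, b2⟩
      have e1 := hcell b1 b2
      have e2 := hc b1 b2
      simp only [Prod.mk.injEq]
      simp only [Function.comp] at e2
      rw [e1, e2])
    rw [← card_cls_comp (fun x => (α x, γ x)) π]
    congr 1
    ext g''
    simp only [mem_filter, mem_univ, true_and, mem_cls]
    rw [hπ]
  · rw [if_neg ht]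
    rw [Finset.card_eq_zero, Finset.filter_eq_empty_iff]
    intro g'' _ hg''
    apply ht
    unfold ttNum
    rw [← hcell true true, ← card_filter_comp_perm (fun x => α x = true ∧ γ x = true) g'']
    congr 1
    ext c
    have := congrFun hg'' c
    simp only [Function.comp, Prod.mk.injEq] at this
    simp only [mem_filter, mem_univ, true_and, Function.comp]
    rw [this.1, this.2]

/-- the perfect matching of the cards defined by `sigma` -/
def matchOf (σ : Equiv.Perm X) : X → X := fun c => σ⁻¹ (ι (σ c))

theorem matchOf_invol (hι : ∀ x, ι (ι x) = x) (σ : Equiv.Perm X) (c : X) :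
    matchOf ι σ (matchOf ι σ c) = c := by
  simp [matchOf, hι]

theorem apply_matchOf (σ : Equiv.Perm X) (c : X) : σ (matchOf ι σ c) = ι (σ c) := by
  simp [matchOf]

theorem gamma_matchOf (hγ : ∀ x, γ (ι x) = !γ x) (σ : Equiv.Perm X) (c : X) :
    (γ ∘ σ) (matchOf ι σ c) = !(γ ∘ σ) c := by
  simp [matchOf, hγ]

theorem iota_ne (hγ : ∀ x, γ (ι x) = !γ x) (x : X) : ι x ≠ x := by
  intro e
  have := hγ x
  rw [e] at this
  cases hx : γ x <;> simp [hx] at this

/-- the class of `sigma` for the key `l o g` is in bijection with the transversals -/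
theorem card_cls_l_filter (hι : ∀ x, ι (ι x) = x) (hγ : ∀ x, γ (ι x) = !γ x)
    (hl : ∀ x y, l x = l y ↔ (y = x ∨ y = ι x)) (σ : Equiv.Perm X) (Q : (X → Bool) → Prop) :
    ((cls (fun g : Equiv.Perm X => l ∘ g) σ).filter (fun g' : Equiv.Perm X => Q (γ ∘ g'))).card
      = (univ.filter (fun y : X → Bool => (∀ c, y (matchOf ι σ c) = !y c) ∧ Q y)).card := by
  have hlι : ∀ x, l (ι x) = l x := fun x => ((hl x (ι x)).2 (Or.inr rfl)).symm
  refine Finset.card_bij (fun g' _ => γ ∘ g') ?_ ?_ ?_
  · intro g' hg'
    obtain ⟨h1, h2⟩ := Finset.mem_filter.1 hg'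
    have h1' := mem_cls.1 h1
    refine Finset.mem_filter.2 ⟨mem_univ _, ?_, h2⟩
    intro c
    have e1 : l (g' (matchOf ι σ c)) = l (g' c) := by
      have a1 := congrFun h1' (matchOf ι σ c)
      have a2 := congrFun h1' c
      simp only [Function.comp] at a1 a2
      rw [a1, a2, apply_matchOf, hlι]
    have hne : matchOf ι σ c ≠ c := by
      intro e
      have := apply_matchOf ι σ c
      rw [e] at this
      exact iota_ne ι γ hγ (σ c) this.symm
    rcases (hl _ _).1 e1.symm with e | e
    · exact absurd (g'.injective e) hne
    · simp only [Function.comp]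
      rw [e, hγ]
  · intro g1 hg1 g2 hg2 he
    have h1 := mem_cls.1 (Finset.mem_filter.1 hg1).1
    have h2 := mem_cls.1 (Finset.mem_filter.1 hg2).1
    apply Equiv.ext
    intro c
    have a1 := congrFun h1 c
    have a2 := congrFun h2 c
    have a3 := congrFun he c
    simp only [Function.comp] at a1 a2 a3
    rcases (hl (g1 c) (g2 c)).1 (a1.trans a2.symm) with e | e
    · exact e.symm
    · exfalso
      rw [e, hγ] at a3
      cases hx : γ (g1 c) <;> simp [hx] at a3
  · intro y hy
    obtain ⟨_, hy1, hy2⟩ := Finset.mem_filter.1 hy
    let f : X → X := fun c => if y c = γ (σ c) then σ c else ι (σ c)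
    have hlf : ∀ c, l (f c) = l (σ c) := by
      intro c
      simp only [f]
      split_ifs
      · rfl
      · exact hlι _
    have hγf : ∀ c, γ (f c) = y c := by
      intro c
      simp only [f]
      split_ifs with hc
      · exact hc.symm
      · rw [hγ]
        cases h1 : y c <;> cases h2 : γ (σ c) <;> simp [h1, h2] at hc ⊢
    have hinj : Function.Injective f := by
      intro c c' hcc
      have e1 : l (σ c) = l (σ c') := by rw [← hlf, ← hlf, hcc]
      rcases (hl _ _).1 e1 with e | e
      · exact (σ.injective e).symm
      · exfalso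
        have e2 : c' = matchOf ι σ c := by
          apply σ.injective
          rw [e, apply_matchOf]
        have e3 : y c' = !y c := by rw [e2, hy1]
        have e4 : y c' = y c := by rw [← hγf, ← hγf, hcc]
        rw [e4] at e3
        cases hx : y c <;> simp [hx] at e3
    let g' : Equiv.Perm X := Equiv.ofBijective f (Finite.injective_iff_bijective.mp hinj)
    have hg' : ∀ c, g' c = f c := fun c => rfl
    have hγg : γ ∘ g' = y := by
      funext c
      simp only [Function.comp, hg', hγf]
    refine ⟨g', ?_, hγg⟩
    refine Finset.mem_filter.2 ⟨mem_cls.2 ?_, ?_⟩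
    · funext c
      simp only [Function.comp, hg', hlf]
    · rw [hγg]; exact hy2

end clean

end

end Vale.Agent.P162
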