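import Mathlib

/-!
# P162, section 4 : the concrete L1 model (definitions)

`V` is a finite set of cards, `S` a finset of cards.  A perfect matching of `S` is an involution
`m : Perm V` whose set of moved points is exactly `S`.  A transversal of `m` is a subset `T` of `S`
containing exactly one point of every pair `{v, m v}`.

For nonnegative weights `lam` on matchings (not normalised; total mass `mass S lam`),
`nu S kap lam T` is the weight of `T` when a uniformly random transversal of the matching is drawn
(`card S = 2 * kap`).  `DM` and `DY` are `mass` times the relative entropies with respect to the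
uniform law on matchings, respectively on balanced subsets (conventions `0 log 0 = 0`).
-/

namespace Vale.Agent.P162.L1

open Finset Equiv

open scoped Classical

noncomputable section

variable {V : Type*} [Fintype V]

/-- perfect matchings of the finset `S`. -/
def PM (S : Finset V) : Finset (Perm V) :=
  univ.filter fun m => (∀ v, m (m v) = v) ∧ (∀ v, v ∈ S ↔ m v ≠ v)

/-- `T` is a transversal of the matching `m` of `S`. -/
def Trans (S : Finset V) (m : Perm V) (T : Finset V) : Prop :=
  T ⊆ S ∧ ∀ v ∈ S, (v ∈ T ↔ m v ∉ T)

/-- number of perfect matchings of a set with `2 * kap` points. -/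
def aM : ℕ → ℕ
  | 0 => 1
  | kap + 1 => (2 * kap + 1) * aM kap

/-- total mass. -/
def mass (S : Finset V) (lam : Perm V → ℝ) : ℝ := ∑ m ∈ PM S, lam m

/-- weight of the transversal `T`. -/
def nu (S : Finset V) (kap : ℕ) (lam : Perm V → ℝ) (T : Finset V) : ℝ :=
  (∑ m ∈ PM S, if Trans S m T then lam m else 0) / 2 ^ kap

/-- `mass * D(lam | uniform matching)`. -/
def DM (S : Finset V) (kap : ℕ) (lam : Perm V → ℝ) : ℝ :=
  ∑ m ∈ PM S, lam m * Real.log (lam m) + mass S lam * Real.log (aM kap)
    - mass S lam * Real.log (mass S lam)

/-- `mass * D(nu | uniform balanced subset)`. -/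
def DY (S : Finset V) (kap : ℕ) (lam : Perm V → ℝ) : ℝ :=
  ∑ T ∈ S.powerset, nu S kap lam T * Real.log (nu S kap lam T)
    + mass S lam * Real.log (Nat.centralBinom kap)
    - mass S lam * Real.log (mass S lam)

end

end Vale.Agent.P162.L1
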