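import Vale.Agent.P162.L1Key

namespace Vale.Agent.P162.L1

open Finset Equiv

open scoped Classical

noncomputable section

variable {V : Type*} [Fintype V]

/-- CONCRETE L1 (unnormalised form, strictly positive weights). -/
theorem l1_concrete' (kap : ℕ) (S : Finset V) (hS : S.card = 2 * kap) (lam : Perm V → ℝ)
    (hlam : ∀ m ∈ PM S, 0 < lam m) : DY S kap lam ≤ 5 / 6 * DM S kap lam := by
  induction kap generalizing S lam with
  | zero =>
    have : S = ∅ := by
      rw [← card_eq_zero, hS]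
    subst this
    have e1 : DY (∅ : Finset V) 0 lam = 0 := by
      simp [DY, nu, mass, PM_empty, Trans]
    have e2 : DM (∅ : Finset V) 0 lam = 0 := by
      simp [DM, mass, PM_empty, aM]
    rw [e1, e2]
    norm_num
  | succ kap ih =>
    obtain ⟨ρ, hρ⟩ := exists_root hS
    have hkey := key_ineq hρ hS hlam
    set L := mass S lam with hLdef
    set Lj : V → ℝ := fun j => mass (rem S ρ j) (lamj lam ρ j) with hLjdef
    set W := (L ^ 2 + ∑ j ∈ S.erase ρ, Lj j ^ 2) / 2 with hWdef
    have hL : 0 < L := mass_pos hS hlam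
    have hLj : ∀ j ∈ S.erase ρ, 0 < Lj j := fun j hj =>
      mass_pos (card_rem hρ hj hS) (lamj_pos hρ hj hlam)
    have hLsum : L = ∑ j ∈ S.erase ρ, Lj j := mass_eq_sum hρ lam
    have hQ : 0 ≤ ∑ j ∈ S.erase ρ, Lj j ^ 2 := sum_nonneg fun j _ => sq_nonneg _
    have hW : 0 < W := by positivity
    have hcard : (S.erase ρ).card = 2 * kap + 1 := by
      rw [card_erase_of_mem hρ, hS]; omega
    -- induction hypothesis, summed
    have hih := sum_le_sum fun j hj =>
      ih (rem S ρ j) (card_rem hρ hj hS) (lamj lam ρ j) (lamj_pos hρ hj hlam)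
    simp only [DY, DM] at hih
    rw [← mul_sum] at hih
    simp only [sum_sub_distrib, sum_add_distrib, ← sum_mul] at hih
    rw [← hLsum] at hih
    -- scalar lemma
    have hsc := l1_scalar_fin (S.erase ρ) Lj hLj (by rw [hcard]; omega)
    rw [← hLsum, hcard] at hsc
    have hN : (0 : ℝ) < ((2 * kap + 1 : ℕ) : ℝ) := by positivity
    have hk : (0 : ℝ) < (kap : ℝ) + 1 := by positivity
    have earg : ((2 * kap + 1 : ℕ) : ℝ) / (((2 * kap + 1 : ℕ) : ℝ) + 1) *
        (1 + (∑ j ∈ S.erase ρ, Lj j ^ 2) / L ^ 2) =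
        ((2 * kap + 1 : ℕ) : ℝ) * W / (((kap : ℝ) + 1) * L ^ 2) := by
      rw [hWdef]
      push_cast
      field_simp
      ring
    have hL2 : (0 : ℝ) < L ^ 2 := by positivity
    have hlog : Real.log (((2 * kap + 1 : ℕ) : ℝ) * W / (((kap : ℝ) + 1) * L ^ 2)) =
        Real.log ((2 * kap + 1 : ℕ) : ℝ) + Real.log W
          - (Real.log ((kap : ℝ) + 1) + 2 * Real.log L) := by
      rw [Real.log_div (mul_pos hN hW).ne' (mul_pos hk hL2).ne', Real.log_mul hN.ne' hW.ne',
        Real.log_mul hk.ne' hL2.ne', Real.log_pow]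
      norm_num
    rw [earg, hlog] at hsc
    -- constants
    have ea : Real.log ((aM (kap + 1) : ℕ) : ℝ) =
        Real.log ((2 * kap + 1 : ℕ) : ℝ) + Real.log ((aM kap : ℕ) : ℝ) := by
      have : aM (kap + 1) = (2 * kap + 1) * aM kap := rfl
      rw [this, Nat.cast_mul, Real.log_mul hN.ne']
      have := aM_pos kap
      positivity
    have ec : Real.log ((Nat.centralBinom (kap + 1) : ℕ) : ℝ) =
        Real.log 2 + Real.log ((2 * kap + 1 : ℕ) : ℝ) + Real.log ((Nat.centralBinom kap : ℕ) : ℝ)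
          - Real.log ((kap : ℝ) + 1) := by
      have h1 := Nat.succ_mul_centralBinom_succ kap
      have h2 : ((kap : ℝ) + 1) * (Nat.centralBinom (kap + 1) : ℝ) =
          2 * ((2 * kap + 1 : ℕ) : ℝ) * (Nat.centralBinom kap : ℝ) := by
        exact_mod_cast h1
      have p1 : (0 : ℝ) < (Nat.centralBinom (kap + 1) : ℝ) := by
        exact_mod_cast Nat.centralBinom_pos _
      have p2 : (0 : ℝ) < (Nat.centralBinom kap : ℝ) := by
        exact_mod_cast Nat.centralBinom_pos _
      have h3 := congrArg Real.log h2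
      rw [Real.log_mul hk.ne' p1.ne', Real.log_mul (by positivity) p2.ne',
        Real.log_mul two_ne_zero hN.ne'] at h3
      linarith
    have eZ : ∑ m ∈ PM S, lam m * Real.log (lam m) =
        ∑ j ∈ S.erase ρ, ∑ m' ∈ PM (rem S ρ j), lamj lam ρ j m' * Real.log (lamj lam ρ j m') :=
      sum_PM hρ (fun m => lam m * Real.log (lam m))
    unfold DY DM
    rw [← hLdef, ea, ec, eZ]
    push_cast at hsc hih ⊢
    nlinarith [hkey, hih, hsc]

end

end Vale.Agent.P162.L1
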