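import Vale.Agent.P162.L1Step

namespace Vale.Agent.P162.L1

open Finset Equiv

open scoped Classical

noncomputable section

variable {V : Type*} [Fintype V]

/-- `∑ a log a` over the joint space. -/
theorem sum_aj_log {S : Finset V} {ρ j : V} (hρ : ρ ∈ S) (hj : j ∈ S.erase ρ) {kap : ℕ}
    (hS : S.card = 2 * (kap + 1)) (lam : Perm V → ℝ) :
    ∑ T ∈ S.powerset, aj S kap lam ρ j T * Real.log (aj S kap lam ρ j T) =
      ∑ T' ∈ (rem S ρ j).powerset, nu (rem S ρ j) kap (lamj lam ρ j) T' *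
          Real.log (nu (rem S ρ j) kap (lamj lam ρ j) T')
        - mass (rem S ρ j) (lamj lam ρ j) * Real.log 2 := by
  rw [sum_aj_mul hρ hj kap lam (fun T => Real.log (aj S kap lam ρ j T)),
    ← sum_nu kap _ (card_rem hρ hj hS), sum_mul, ← sum_sub_distrib]
  refine sum_congr rfl fun T' hT' => ?_
  have hT := mem_powerset.1 hT'
  simp only [aj_insert_root hρ hj kap lam hT, aj_insert_partner hρ hj kap lam hT]
  by_cases h0 : nu (rem S ρ j) kap (lamj lam ρ j) T' = 0
  · rw [h0]; simp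
  · rw [Real.log_div h0 two_ne_zero]
    ring

theorem key_ineq {S : Finset V} {ρ : V} (hρ : ρ ∈ S) {kap : ℕ} (hS : S.card = 2 * (kap + 1))
    {lam : Perm V → ℝ} (hlam : ∀ m ∈ PM S, 0 < lam m) :
    ∑ T ∈ S.powerset, nu S (kap + 1) lam T * Real.log (nu S (kap + 1) lam T) ≤
      ∑ j ∈ S.erase ρ, ∑ T' ∈ (rem S ρ j).powerset, nu (rem S ρ j) kap (lamj lam ρ j) T' *
          Real.log (nu (rem S ρ j) kap (lamj lam ρ j) T')
        - mass S lam * Real.log 2
        - ∑ j ∈ S.erase ρ, mass (rem S ρ j) (lamj lam ρ j) *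
            Real.log (mass (rem S ρ j) (lamj lam ρ j))
        - mass S lam * Real.log (mass S lam)
        + mass S lam * Real.log ((mass S lam ^ 2
            + ∑ j ∈ S.erase ρ, mass (rem S ρ j) (lamj lam ρ j) ^ 2) / 2) := by
  set L := mass S lam with hLdef
  set Lj : V → ℝ := fun j => mass (rem S ρ j) (lamj lam ρ j) with hLjdef
  set W := (L ^ 2 + ∑ j ∈ S.erase ρ, Lj j ^ 2) / 2 with hWdef
  set A : Finset V → V → ℝ := fun T j => aj S kap lam ρ j T with hAdef
  set n : Finset V → ℝ := fun T => nu S (kap + 1) lam T with hndef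
  have hL : 0 < L := mass_pos hS hlam
  have hLj : ∀ j ∈ S.erase ρ, 0 < Lj j := fun j hj =>
    mass_pos (card_rem hρ hj hS) (lamj_pos hρ hj hlam)
  have hLsum : L = ∑ j ∈ S.erase ρ, Lj j := mass_eq_sum hρ lam
  have hW : 0 < W := by
    have : 0 ≤ ∑ j ∈ S.erase ρ, Lj j ^ 2 := sum_nonneg fun j _ => sq_nonneg _
    positivity
  have hA0 : ∀ T, ∀ j ∈ S.erase ρ, 0 ≤ A T j := fun T j hj => aj_nonneg hρ hj kap hlam T
  have hnA : ∀ T, n T = ∑ j ∈ S.erase ρ, A T j := fun T => nu_eq_sum_aj hρ kap lam T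
  have hAn : ∀ T, ∀ j ∈ S.erase ρ, A T j ≤ n T := by
    intro T j hj
    rw [hnA]
    exact single_le_sum (fun i hi => hA0 T i hi) hj
  -- termwise Gibbs
  have hterm : ∀ T ∈ S.powerset, ∀ j ∈ S.erase ρ,
      A T j - n T * oppI ρ j T * (Lj j * L / W) ≤
        A T j * Real.log (A T j) - A T j * Real.log (n T) - A T j * Real.log (Lj j)
          - A T j * Real.log L + A T j * Real.log W := by
    intro T _ j hj
    by_cases hopp : (ρ ∈ T ↔ j ∉ T)
    · have e : oppI ρ j T = 1 := if_pos hopp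
      have := gibbs_term4 (A T j) (n T) (Lj j) L W (hA0 T j hj) (hAn T j hj) (hLj j hj) hL hW
      rw [e]
      calc A T j - n T * 1 * (Lj j * L / W) = A T j - n T * Lj j * L / W := by ring
        _ ≤ _ := this
        _ = _ := by ring
    · have e : oppI ρ j T = 0 := if_neg hopp
      have e2 : A T j = 0 := aj_eq_zero_of_not_opp hρ hj kap lam hopp
      rw [e, e2]
      simp
  have hsum := sum_le_sum fun T hT => sum_le_sum fun j hj => hterm T hT j hj
  simp only [sum_sub_distrib, sum_add_distrib] at hsum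
  -- the pieces
  have s1 : ∑ T ∈ S.powerset, ∑ j ∈ S.erase ρ, A T j = L := by
    rw [sum_comm, hLsum]
    exact sum_congr rfl fun j hj => sum_aj hρ hj hS lam
  have s2 : ∑ T ∈ S.powerset, ∑ j ∈ S.erase ρ, n T * oppI ρ j T * (Lj j * L / W) = L := by
    rw [sum_comm]
    have : ∀ j ∈ S.erase ρ, ∑ T ∈ S.powerset, n T * oppI ρ j T * (Lj j * L / W) =
        (L + Lj j) / 2 * (Lj j * L / W) := by
      intro j hj
      rw [← sum_mul, sum_nu_opp hρ hj hS lam]
    rw [sum_congr rfl this]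
    have e : ∀ j ∈ S.erase ρ, (L + Lj j) / 2 * (Lj j * L / W) =
        (L / (2 * W)) * (L * Lj j + Lj j ^ 2) := by
      intro j _
      field_simp
    rw [sum_congr rfl e, ← mul_sum, sum_add_distrib, ← mul_sum, ← hLsum]
    have : L * L + ∑ j ∈ S.erase ρ, Lj j ^ 2 = 2 * W := by
      rw [hWdef]; ring
    rw [this]
    field_simp
  have s3 : ∑ T ∈ S.powerset, ∑ j ∈ S.erase ρ, A T j * Real.log (A T j) =
      ∑ j ∈ S.erase ρ, ∑ T' ∈ (rem S ρ j).powerset, nu (rem S ρ j) kap (lamj lam ρ j) T' *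
          Real.log (nu (rem S ρ j) kap (lamj lam ρ j) T') - L * Real.log 2 := by
    rw [sum_comm, sum_congr rfl fun j hj => sum_aj_log hρ hj hS lam, sum_sub_distrib, ← sum_mul,
      ← hLsum]
  have s4 : ∑ T ∈ S.powerset, ∑ j ∈ S.erase ρ, A T j * Real.log (n T) =
      ∑ T ∈ S.powerset, n T * Real.log (n T) := by
    refine sum_congr rfl fun T _ => ?_
    rw [← sum_mul, ← hnA]
  have s5 : ∑ T ∈ S.powerset, ∑ j ∈ S.erase ρ, A T j * Real.log (Lj j) =
      ∑ j ∈ S.erase ρ, Lj j * Real.log (Lj j) := by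
    rw [sum_comm]
    refine sum_congr rfl fun j hj => ?_
    rw [← sum_mul, sum_aj hρ hj hS lam]
  have s6 : ∀ c : ℝ, ∑ T ∈ S.powerset, ∑ j ∈ S.erase ρ, A T j * c = L * c := by
    intro c
    simp only [← sum_mul]
    rw [s1]
  rw [s1, s2, s3, s4, s5, s6, s6] at hsum
  linarith

end

end Vale.Agent.P162.L1
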