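import Mathlib
import Vale.Agent.P162.RealIneq

/-!
# P162: (L1) the scalar lemma behind the root peeling   (task E2)
-/

namespace Vale.Agent.P162

open Finset

open scoped Classical

noncomputable section

theorem klFun_nonneg' (r : ℝ) (hr : 0 < r) : 0 ≤ r * Real.log r - r + 1 := by
  have h := Real.log_le_sub_one_of_pos (inv_pos.2 hr)
  rw [Real.log_inv] at h
  have h2 : r * (-Real.log r) ≤ r * (r⁻¹ - 1) := mul_le_mul_of_nonneg_left h hr.le
  have h3 : r * (r⁻¹ - 1) = 1 - r := by
    field_simp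
  linarith

/-- (E2) scalar lemma. `chi2 = (1/N) ∑ (N q - 1)^2`, `(N/(N+1)) (1 + ∑ q^2) = 1 + chi2/(N+1)`,
`log (1+x) ≤ x`, `(r-1)^2 ≤ (2 (r+2)/3) (r log r - r + 1)` and `r = N q ≤ N`. -/
theorem l1_scalar' {B : Type*} [Fintype B] (q : B → ℝ) (hq : ∀ b, 0 < q b) (hs : ∑ b, q b = 1)
    (hN : Fintype.card B = 1 ∨ 3 ≤ Fintype.card B) :
    Real.log (((Fintype.card B : ℝ) / ((Fintype.card B : ℝ) + 1)) * (1 + ∑ b, q b ^ 2))
      ≤ 5 / 6 * ∑ b, q b * Real.log ((Fintype.card B : ℝ) * q b) := by
  set N : ℝ := (Fintype.card B : ℝ) with hNdef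
  have hN1 : (1 : ℝ) ≤ N := by
    rw [hNdef]
    have : 1 ≤ Fintype.card B := by omega
    exact_mod_cast this
  have hNpos : 0 < N := by linarith
  have hqle : ∀ b, q b ≤ 1 := by
    intro b
    rw [← hs]
    exact Finset.single_le_sum (f := q) (fun i _ => (hq i).le) (Finset.mem_univ b)
  set D : ℝ := ∑ b, q b * Real.log (N * q b) with hD
  set Q : ℝ := ∑ b, q b ^ 2 with hQ
  -- the sum of the kl terms
  have hcard : ∑ _b : B, (1 : ℝ) = N := by simp [hNdef]
  have hkl : ∑ b, ((N * q b) * Real.log (N * q b) - N * q b + 1) = N * D := by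
    rw [Finset.sum_add_distrib, Finset.sum_sub_distrib, hcard, ← Finset.mul_sum, hs, hD,
      Finset.mul_sum]
    have : ∀ b, N * q b * Real.log (N * q b) = N * (q b * Real.log (N * q b)) :=
      fun b => by ring
    simp only [this]
    ring
  have hD0 : 0 ≤ D := by
    have h1 : 0 ≤ ∑ b, ((N * q b) * Real.log (N * q b) - N * q b + 1) :=
      Finset.sum_nonneg (fun b _ => klFun_nonneg' _ (mul_pos hNpos (hq b)))
    rw [hkl] at h1
    exact nonneg_of_mul_nonneg_right h1 hNpos
  have hsq : ∑ b, (N * q b - 1) ^ 2 = N ^ 2 * Q - N := by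
    have : ∀ b, (N * q b - 1) ^ 2 = N ^ 2 * q b ^ 2 - 2 * N * q b + 1 := fun b => by ring
    simp only [this]
    rw [Finset.sum_add_distrib, Finset.sum_sub_distrib, hcard, ← Finset.mul_sum,
      ← Finset.mul_sum, hs, hQ]
    ring
  have hchi : N ^ 2 * Q - N ≤ (2 * (N + 2) / 3) * (N * D) := by
    rw [← hsq, ← hkl, Finset.mul_sum]
    apply Finset.sum_le_sum
    intro b _
    have hr : 0 < N * q b := mul_pos hNpos (hq b)
    have h1 := sq_le_klFun (N * q b) hr.le
    have h2 := klFun_nonneg' (N * q b) hr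
    have h3 : N * q b ≤ N := by
      have := mul_le_mul_of_nonneg_left (hqle b) hNpos.le
      linarith
    have h4 : (2 * (N * q b + 2) / 3) * (N * q b * Real.log (N * q b) - N * q b + 1)
        ≤ (2 * (N + 2) / 3) * (N * q b * Real.log (N * q b) - N * q b + 1) := by
      apply mul_le_mul_of_nonneg_right _ h2
      linarith
    linarith
  have hchi' : N * Q - 1 ≤ (2 * (N + 2) / 3) * D := by
    have : N * (N * Q - 1) ≤ N * ((2 * (N + 2) / 3) * D) := by
      calc N * (N * Q - 1) = N ^ 2 * Q - N := by ring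
        _ ≤ (2 * (N + 2) / 3) * (N * D) := hchi
        _ = N * ((2 * (N + 2) / 3) * D) := by ring
    exact le_of_mul_le_mul_left this hNpos
  have hQpos : 0 ≤ Q := Finset.sum_nonneg (fun b _ => sq_nonneg _)
  have harg : (N / (N + 1)) * (1 + Q) = 1 + (N * Q - 1) / (N + 1) := by
    field_simp
    ring
  have hargpos : 0 < (N / (N + 1)) * (1 + Q) := by positivity
  have hlog : Real.log ((N / (N + 1)) * (1 + Q)) ≤ (N * Q - 1) / (N + 1) := by
    have := Real.log_le_sub_one_of_pos hargpos
    rw [harg] at this ⊢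
    linarith
  rcases hN with h1 | h3
  · -- a single point
    have hN' : N = 1 := by rw [hNdef, h1]; norm_num
    obtain ⟨b0, hb0⟩ := Fintype.card_eq_one_iff.1 h1
    have huniv : (Finset.univ : Finset B) = {b0} := by
      ext b
      simp [hb0 b]
    have hq0 : q b0 = 1 := by
      rw [huniv, Finset.sum_singleton] at hs
      exact hs
    have hQ1 : Q = 1 := by
      rw [hQ, huniv, Finset.sum_singleton, hq0]
      norm_num
    have hD1 : D = 0 := by
      rw [hD, huniv, Finset.sum_singleton, hq0, hN']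
      norm_num
    rw [hD1, hQ1, hN']
    norm_num
  · have hN3 : (3 : ℝ) ≤ N := by
      rw [hNdef]
      exact_mod_cast h3
    have h5 : (N * Q - 1) / (N + 1) ≤ 5 / 6 * D := by
      rw [div_le_iff₀ (by linarith)]
      have : (2 * (N + 2) / 3) * D ≤ 5 / 6 * D * (N + 1) := by
        have : (2 * (N + 2) / 3) ≤ 5 / 6 * (N + 1) := by linarith
        calc (2 * (N + 2) / 3) * D ≤ (5 / 6 * (N + 1)) * D :=
              mul_le_mul_of_nonneg_right this hD0
          _ = 5 / 6 * D * (N + 1) := by ring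
      linarith
    linarith

end

end Vale.Agent.P162
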