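import Mathlib
import Vale.Agent.P162.RealIneq
import Vale.Agent.P162.L1Scalar

/-!
# P162: (L1) the two analytic lemmas behind the root peeling   (tasks E1, E2)

`B` = candidates for the partner `b` of the root (`N = card B = 2 κ + 1`), `Y` = transversals,
`q` = law of `b`, `nub b` = law of the transversal given `b`, `R b y` = (`y b ≠ y ρ`),
`nR = κ + 1`, `cY = choose (2κ+2) (κ+1)`, `c1 = 2 * choose (2κ) κ`.

Proof of `l1_peel`: with `P b y = q b * nub b y`, `ν y = ∑ b, P b y`,
`Z y = (1/nR) ∑ b with R b y, N q b`: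
`LHS - first term of RHS = ∑ b y, P b y * log [(ν y * N q b / (nR * Z y)) / P b y] + ∑ y, ν y * log (Z y)`;
the first sum is `≤ 0` (log x ≤ x - 1; for fixed `y` the weights `ν y * N q b [R b y] / (nR Z y)` sum to `ν y`),
the second is `≤ log (∑ y, ν y * Z y)` (concavity of log, `∑ ν = 1`) and
`∑ y, ν y * Z y = (N/nR) ∑ b, q b (1 + q b)/2 = (N/(N+1)) (1 + ∑ q^2)`.
-/

namespace Vale.Agent.P162

open Finset

open scoped Classical

noncomputable section

/-- (E2) scalar lemma. `chi2 = (1/N) ∑ (N q - 1)^2`, `(N/(N+1)) (1 + ∑ q^2) = 1 + chi2/(N+1)`,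
`log (1+x) ≤ x`, `(r-1)^2 ≤ (2 (r+2)/3) (r log r - r + 1)` and `r = N q ≤ N`. -/
theorem l1_scalar {B : Type*} [Fintype B] (q : B → ℝ) (hq : ∀ b, 0 < q b) (hs : ∑ b, q b = 1)
    (hN : Fintype.card B = 1 ∨ 3 ≤ Fintype.card B) :
    Real.log (((Fintype.card B : ℝ) / ((Fintype.card B : ℝ) + 1)) * (1 + ∑ b, q b ^ 2))
      ≤ 5 / 6 * ∑ b, q b * Real.log ((Fintype.card B : ℝ) * q b) :=
  l1_scalar' q hq hs hN

/-- (E1) abstract peeling lemma. -/
theorem l1_peel {B Y : Type*} [Fintype B] [Fintype Y] (q : B → ℝ) (hq : ∀ b, 0 < q b)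
    (hs : ∑ b, q b = 1) (nub : B → Y → ℝ) (hn0 : ∀ b y, 0 ≤ nub b y)
    (hn1 : ∀ b, ∑ y, nub b y = 1) (R : B → Y → Prop) (hR : ∀ b y, ¬ R b y → nub b y = 0)
    (nR : ℕ) (hcount : ∀ y, (∃ b, 0 < nub b y) → (univ.filter (fun b => R b y)).card = nR)
    (h2 : 2 * nR = Fintype.card B + 1)
    (cY c1 : ℝ) (hcY : 0 < cY) (hc1 : 0 < c1) (hcc : cY * nR = (Fintype.card B : ℝ) * c1)
    (hkey : ∀ b, ∑ y, (∑ b', q b' * nub b' y) * (if R b y then (1 : ℝ) else 0) = (1 + q b) / 2) :
    ∑ y, (∑ b, q b * nub b y) * Real.log ((∑ b, q b * nub b y) * cY)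
      ≤ ∑ b, q b * ∑ y, nub b y * Real.log (nub b y * c1)
        + Real.log (((Fintype.card B : ℝ) / ((Fintype.card B : ℝ) + 1)) * (1 + ∑ b, q b ^ 2)) := by
  set N : ℝ := (Fintype.card B : ℝ) with hN
  set ν : Y → ℝ := fun y => ∑ b, q b * nub b y with hν
  set Z : Y → ℝ := fun y => (∑ b, if R b y then N * q b else 0) / nR with hZ
  set m : ℝ := (N / (N + 1)) * (1 + ∑ b, q b ^ 2) with hm
  have hBne : Nonempty B := by
    by_contra hne
    rw [not_nonempty_iff] at hne
    simp at hs
  have hNpos : 0 < N := by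
    rw [hN]; exact_mod_cast Fintype.card_pos
  have h2' : (2 : ℝ) * nR = N + 1 := by rw [hN]; exact_mod_cast h2
  have hnR : 0 < (nR : ℝ) := by linarith
  have hP0 : ∀ b y, 0 ≤ q b * nub b y := fun b y => mul_nonneg (hq b).le (hn0 b y)
  have hν0 : ∀ y, 0 ≤ ν y := fun y => sum_nonneg fun b _ => hP0 b y
  have hPsum : ∑ b, ∑ y, q b * nub b y = 1 := by
    simp_rw [← mul_sum, hn1, mul_one, hs]
  have hν1 : ∑ y, ν y = 1 := by
    rw [hν]; simp only; rw [sum_comm]; exact hPsum
  have hS0 : ∀ y, 0 ≤ ∑ b, (if R b y then N * q b else 0) := fun y =>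
    sum_nonneg fun b _ => by
      split_ifs
      · exact (mul_pos hNpos (hq b)).le
      · exact le_rfl
  have hZ0 : ∀ y, 0 ≤ Z y := fun y => div_nonneg (hS0 y) hnR.le
  have hmZ : ∑ y, ν y * Z y = m := by
    calc ∑ y, ν y * Z y
        = ∑ y, ∑ b, (N / nR) * (q b * (ν y * (if R b y then (1 : ℝ) else 0))) := by
          refine sum_congr rfl fun y _ => ?_
          rw [hZ]; simp only
          rw [sum_div, mul_sum]
          refine sum_congr rfl fun b _ => ?_
          split_ifs
          · ring
          · simp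
      _ = ∑ b, ∑ y, (N / nR) * (q b * (ν y * (if R b y then (1 : ℝ) else 0))) := sum_comm
      _ = ∑ b, (N / nR) * (q b * ((1 + q b) / 2)) := by
          refine sum_congr rfl fun b _ => ?_
          rw [← mul_sum, ← mul_sum, hkey b]
      _ = m := by
          rw [← mul_sum]
          have e1 : ∑ b, q b * ((1 + q b) / 2) = (1 + ∑ b, q b ^ 2) / 2 := by
            have : ∀ b, q b * ((1 + q b) / 2) = (q b + q b ^ 2) / 2 := fun b => by ring
            simp_rw [this]
            rw [← sum_div, sum_add_distrib, hs]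
          rw [e1, hm, ← h2']
          field_simp
  have hmpos : 0 < m := by
    rw [hm]
    have : 0 ≤ ∑ b, q b ^ 2 := sum_nonneg fun b _ => sq_nonneg _
    positivity
  have key : ∀ b y, q b * nub b y * (Real.log (ν y * cY) - Real.log (nub b y * c1)) ≤
      ((if R b y then ν y * (N * q b) / (nR * Z y) else 0) - q b * nub b y)
        + q b * nub b y * (Real.log m + Z y / m - 1) := by
    intro b y
    rcases (hn0 b y).eq_or_lt with h0 | hpos
    · rw [← h0]
      simp only [mul_zero, zero_mul, sub_zero, add_zero]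
      split_ifs
      · exact div_nonneg (mul_nonneg (hν0 y) (mul_pos hNpos (hq b)).le)
          (mul_nonneg hnR.le (hZ0 y))
      · exact le_rfl
    · have hRb : R b y := by
        by_contra hc
        exact hpos.ne' (hR b y hc)
      have hPpos : 0 < q b * nub b y := mul_pos (hq b) hpos
      have hνpos : 0 < ν y :=
        lt_of_lt_of_le hPpos (single_le_sum (f := fun b => q b * nub b y)
          (fun b _ => hP0 b y) (mem_univ b))
      have hZpos : 0 < Z y := by
        refine div_pos (lt_of_lt_of_le (mul_pos hNpos (hq b)) ?_) hnR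
        have := single_le_sum (f := fun b => if R b y then N * q b else 0)
          (fun b _ => by
            split_ifs
            · exact (mul_pos hNpos (hq b)).le
            · exact le_rfl) (mem_univ b)
        simpa [hRb] using this
      rw [if_pos hRb]
      set W : ℝ := ν y * (N * q b) / (nR * Z y) with hW
      have hWpos : 0 < W := by rw [hW]; have := hq b; positivity
      have e : ν y * cY / (nub b y * c1) = (W / (q b * nub b y)) * Z y := by
        rw [hW]
        have := hq b
        field_simp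
        linear_combination hcc
      have l1 : Real.log (ν y * cY) - Real.log (nub b y * c1)
          = Real.log (W / (q b * nub b y)) + Real.log (Z y) := by
        rw [← Real.log_div (by positivity) (by positivity), e,
          Real.log_mul (by positivity) (by positivity)]
      have l2 : Real.log (W / (q b * nub b y)) ≤ W / (q b * nub b y) - 1 :=
        Real.log_le_sub_one_of_pos (by positivity)
      have l3 : Real.log (Z y) ≤ Real.log m + Z y / m - 1 := by
        have := Real.log_le_sub_one_of_pos (div_pos hZpos hmpos)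
        rw [Real.log_div hZpos.ne' hmpos.ne'] at this
        linarith
      rw [l1]
      calc q b * nub b y * (Real.log (W / (q b * nub b y)) + Real.log (Z y))
          ≤ q b * nub b y * ((W / (q b * nub b y) - 1) + (Real.log m + Z y / m - 1)) :=
            mul_le_mul_of_nonneg_left (add_le_add l2 l3) hPpos.le
        _ = W - q b * nub b y + q b * nub b y * (Real.log m + Z y / m - 1) := by
            have hPW : q b * nub b y * (W / (q b * nub b y)) = W := mul_div_cancel₀ W hPpos.ne'
            linear_combination hPW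
  have hsum := sum_le_sum fun b (_ : b ∈ univ) => sum_le_sum fun y (_ : y ∈ univ) => key b y
  have hL : ∑ b, ∑ y, q b * nub b y * (Real.log (ν y * cY) - Real.log (nub b y * c1))
      = ∑ y, ν y * Real.log (ν y * cY) - ∑ b, q b * ∑ y, nub b y * Real.log (nub b y * c1) := by
    simp_rw [mul_sub, sum_sub_distrib]
    congr 1
    · rw [sum_comm]
      refine sum_congr rfl fun y _ => ?_
      rw [← sum_mul]
    · refine sum_congr rfl fun b _ => ?_
      rw [mul_sum]
      refine sum_congr rfl fun y _ => ?_
      ring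
  have hW1 : ∑ b, ∑ y, (if R b y then ν y * (N * q b) / (nR * Z y) else 0) ≤ 1 := by
    rw [sum_comm, ← hν1]
    refine sum_le_sum fun y _ => ?_
    have : ∑ b, (if R b y then ν y * (N * q b) / (nR * Z y) else 0) = ν y * (Z y / Z y) := by
      have e2 : ∀ b, (if R b y then ν y * (N * q b) / (nR * Z y) else 0)
          = ν y * ((if R b y then N * q b else 0) / nR / Z y) := by
        intro b
        split_ifs
        · rw [div_div, mul_div_assoc]
        · simp
      simp_rw [e2]
      rw [← mul_sum, ← sum_div, ← sum_div]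
    rw [this]
    exact mul_le_of_le_one_right (hν0 y) (div_self_le_one _)
  have hR3 : ∑ b, ∑ y, q b * nub b y * (Real.log m + Z y / m - 1) = Real.log m := by
    rw [sum_comm]
    have : ∀ y, ∑ b, q b * nub b y * (Real.log m + Z y / m - 1)
        = ν y * (Real.log m - 1) + ν y * Z y / m := by
      intro y
      rw [← sum_mul]
      ring
    simp_rw [this]
    rw [sum_add_distrib, ← sum_mul, ← sum_div, hν1, hmZ, div_self hmpos.ne']
    ring
  simp_rw [sum_add_distrib, sum_sub_distrib] at hsum
  rw [hL, hPsum, hR3] at hsum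
  linarith

end

end Vale.Agent.P162
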