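import Vale.Agent.P162.L1Defs
import Vale.Agent.P162.RealIneq

namespace Vale.Agent.P162.L1

open Finset Equiv

open scoped Classical

noncomputable section

variable {V : Type*} [Fintype V]

theorem mem_PM {S : Finset V} {m : Perm V} :
    m ∈ PM S ↔ (∀ v, m (m v) = v) ∧ (∀ v, v ∈ S ↔ m v ≠ v) := by
  simp [PM]

theorem PM_empty : PM (∅ : Finset V) = {1} := by
  ext m
  rw [mem_PM, mem_singleton]
  constructor
  · rintro ⟨-, h⟩
    ext v
    have := h v
    simp only [notMem_empty, false_iff, ne_eq, not_not] at this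
    simpa using this
  · rintro rfl
    simp

/-- the finset with the root pair removed -/
abbrev rem (S : Finset V) (ρ j : V) : Finset V := (S.erase ρ).erase j

theorem PM_apply_mem {S : Finset V} {m : Perm V} (hm : m ∈ PM S) {ρ : V} (hρ : ρ ∈ S) :
    m ρ ∈ S.erase ρ := by
  obtain ⟨h1, h2⟩ := mem_PM.1 hm
  rw [mem_erase]
  refine ⟨(h2 ρ).1 hρ, (h2 (m ρ)).2 ?_⟩
  rw [h1]
  exact ((h2 ρ).1 hρ).symm

theorem swap_mul_mem_rem {S : Finset V} {m : Perm V} (hm : m ∈ PM S) {ρ j : V} (hρ : ρ ∈ S)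
    (hj : m ρ = j) : swap ρ j * m ∈ PM (rem S ρ j) := by
  obtain ⟨h1, h2⟩ := mem_PM.1 hm
  have hjρ : m j = ρ := by rw [← hj, h1]
  have hne : j ≠ ρ := by rw [← hj]; exact (h2 ρ).1 hρ
  have key : ∀ v, v ≠ ρ → v ≠ j → (swap ρ j * m) v = m v ∧ m v ≠ ρ ∧ m v ≠ j := by
    intro v hv1 hv2
    have a1 : m v ≠ ρ := by
      intro h
      apply hv2
      rw [← hj, ← h, h1]
    have a2 : m v ≠ j := by
      intro h
      apply hv1
      have := m.injective (h.trans hj.symm)
      exact this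
    exact ⟨by rw [Perm.mul_apply, swap_apply_of_ne_of_ne a1 a2], a1, a2⟩
  have kρ : (swap ρ j * m) ρ = ρ := by rw [Perm.mul_apply, hj, swap_apply_right]
  have kj : (swap ρ j * m) j = j := by rw [Perm.mul_apply, hjρ, swap_apply_left]
  rw [mem_PM]
  constructor
  · intro v
    by_cases hv1 : v = ρ
    · subst hv1; rw [kρ, kρ]
    by_cases hv2 : v = j
    · subst hv2; rw [kj, kj]
    obtain ⟨e, a1, a2⟩ := key v hv1 hv2
    rw [e, (key (m v) a1 a2).1, h1]
  · intro v
    by_cases hv1 : v = ρ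
    · subst hv1; simp [kρ]
    by_cases hv2 : v = j
    · subst hv2; simp [kj]
    obtain ⟨e, -, -⟩ := key v hv1 hv2
    rw [e, mem_erase, mem_erase]
    constructor
    · rintro ⟨-, -, h⟩; exact (h2 v).1 h
    · intro h; exact ⟨hv2, hv1, (h2 v).2 h⟩

theorem swap_mul_mem_PM {S : Finset V} {ρ j : V} (hj : j ∈ S.erase ρ) (hρ : ρ ∈ S) {m' : Perm V}
    (hm : m' ∈ PM (rem S ρ j)) : swap ρ j * m' ∈ PM S ∧ (swap ρ j * m') ρ = j := by
  obtain ⟨h1, h2⟩ := mem_PM.1 hm
  have hne : j ≠ ρ := (mem_erase.1 hj).1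
  have hjS : j ∈ S := (mem_erase.1 hj).2
  have fρ : m' ρ = ρ := by
    by_contra h
    have := (h2 ρ).2 h
    simp at this
  have fj : m' j = j := by
    by_contra h
    have := (h2 j).2 h
    simp at this
  have key : ∀ v, v ≠ ρ → v ≠ j → (swap ρ j * m') v = m' v ∧ m' v ≠ ρ ∧ m' v ≠ j := by
    intro v hv1 hv2
    have a1 : m' v ≠ ρ := by
      intro h
      apply hv1
      exact m'.injective (h.trans fρ.symm)
    have a2 : m' v ≠ j := by
      intro h
      apply hv2
      exact m'.injective (h.trans fj.symm)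
    exact ⟨by rw [Perm.mul_apply, swap_apply_of_ne_of_ne a1 a2], a1, a2⟩
  have kρ : (swap ρ j * m') ρ = j := by rw [Perm.mul_apply, fρ, swap_apply_left]
  have kj : (swap ρ j * m') j = ρ := by rw [Perm.mul_apply, fj, swap_apply_right]
  refine ⟨?_, kρ⟩
  rw [mem_PM]
  constructor
  · intro v
    by_cases hv1 : v = ρ
    · subst hv1; rw [kρ, kj]
    by_cases hv2 : v = j
    · subst hv2; rw [kj, kρ]
    obtain ⟨e, a1, a2⟩ := key v hv1 hv2
    rw [e, (key (m' v) a1 a2).1, h1]
  · intro v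
    by_cases hv1 : v = ρ
    · subst hv1; rw [kρ]; exact ⟨fun _ => hne, fun _ => hρ⟩
    by_cases hv2 : v = j
    · subst hv2; rw [kj]; exact ⟨fun _ => hne.symm, fun _ => hjS⟩
    obtain ⟨e, -, -⟩ := key v hv1 hv2
    rw [e, ← h2 v, mem_erase, mem_erase]
    constructor
    · intro h; exact ⟨hv2, hv1, h⟩
    · rintro ⟨-, -, h⟩; exact h

/-- (D1) root decomposition of a sum over perfect matchings. -/
theorem sum_PM {S : Finset V} {ρ : V} (hρ : ρ ∈ S) (f : Perm V → ℝ) :
    ∑ m ∈ PM S, f m = ∑ j ∈ S.erase ρ, ∑ m' ∈ PM (rem S ρ j), f (swap ρ j * m') := by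
  rw [← sum_fiberwise_of_maps_to (g := fun m => m ρ) (fun m hm => PM_apply_mem hm hρ)]
  refine sum_congr rfl fun j hj => ?_
  refine sum_nbij' (fun m => swap ρ j * m) (fun m => swap ρ j * m) ?_ ?_ ?_ ?_ ?_
  · intro m hm
    rw [mem_filter] at hm
    exact swap_mul_mem_rem hm.1 hρ hm.2
  · intro m' hm'
    rw [mem_filter]
    exact swap_mul_mem_PM hj hρ hm'
  · intro m _
    rw [← mul_assoc, swap_mul_self, one_mul]
  · intro m _
    rw [← mul_assoc, swap_mul_self, one_mul]
  · intro m _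
    rw [← mul_assoc, swap_mul_self, one_mul]

/-- pointwise description of `swap ρ j * m'`. -/
theorem swapmul_facts {S : Finset V} {ρ j : V} (hj : j ∈ S.erase ρ) {m' : Perm V}
    (hm : m' ∈ PM (rem S ρ j)) :
    (swap ρ j * m') ρ = j ∧ (swap ρ j * m') j = ρ ∧
      ∀ v ∈ rem S ρ j, (swap ρ j * m') v = m' v ∧ m' v ≠ ρ ∧ m' v ≠ j := by
  obtain ⟨h1, h2⟩ := mem_PM.1 hm
  have fρ : m' ρ = ρ := by
    by_contra h
    have := (h2 ρ).2 h
    simp at this
  have fj : m' j = j := by
    by_contra h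
    have := (h2 j).2 h
    simp at this
  refine ⟨by rw [Perm.mul_apply, fρ, swap_apply_left], by rw [Perm.mul_apply, fj, swap_apply_right],
    ?_⟩
  intro v hv
  rw [mem_erase, mem_erase] at hv
  have a1 : m' v ≠ ρ := by
    intro h
    exact hv.2.1 (m'.injective (h.trans fρ.symm))
  have a2 : m' v ≠ j := by
    intro h
    exact hv.1 (m'.injective (h.trans fj.symm))
  exact ⟨by rw [Perm.mul_apply, swap_apply_of_ne_of_ne a1 a2], a1, a2⟩

theorem mem_rem {S : Finset V} {ρ j v : V} : v ∈ rem S ρ j ↔ v ≠ j ∧ v ≠ ρ ∧ v ∈ S := by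
  rw [mem_erase, mem_erase]

section trans

variable {S : Finset V} {ρ j : V} (hρ : ρ ∈ S) (hj : j ∈ S.erase ρ) {m' : Perm V}
  (hm : m' ∈ PM (rem S ρ j)) {T' : Finset V} (hT : T' ⊆ rem S ρ j)

include hρ hj hm hT

theorem trans_insert_root : Trans S (swap ρ j * m') (insert ρ T') ↔ Trans (rem S ρ j) m' T' := by
  obtain ⟨e1, e2, e3⟩ := swapmul_facts hj hm
  have hne : j ≠ ρ := (mem_erase.1 hj).1
  have hjS : j ∈ S := (mem_erase.1 hj).2
  have hρT : ρ ∉ T' := fun h => (mem_rem.1 (hT h)).2.1 rfl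
  have hjT : j ∉ T' := fun h => (mem_rem.1 (hT h)).1 rfl
  constructor
  · rintro ⟨-, h⟩
    refine ⟨hT, fun v hv => ?_⟩
    obtain ⟨a, b, c⟩ := e3 v hv
    have hv' := mem_rem.1 hv
    have := h v hv'.2.2
    rw [a, mem_insert, mem_insert] at this
    simpa [hv'.2.1, b] using this
  · rintro ⟨-, h⟩
    refine ⟨?_, fun v hv => ?_⟩
    · intro v hv
      rcases mem_insert.1 hv with rfl | hv
      · exact hρ
      · exact (mem_rem.1 (hT hv)).2.2
    · by_cases hv1 : v = ρ
      · subst hv1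
        rw [e1]
        simp [hne, hjT]
      by_cases hv2 : v = j
      · subst hv2
        rw [e2]
        simp [hne, hjT]
      have hv' : v ∈ rem S ρ j := mem_rem.2 ⟨hv2, hv1, hv⟩
      obtain ⟨a, b, c⟩ := e3 v hv'
      rw [a, mem_insert, mem_insert]
      simpa [hv1, b] using h v hv'

theorem trans_insert_partner :
    Trans S (swap ρ j * m') (insert j T') ↔ Trans (rem S ρ j) m' T' := by
  obtain ⟨e1, e2, e3⟩ := swapmul_facts hj hm
  have hne : j ≠ ρ := (mem_erase.1 hj).1
  have hjS : j ∈ S := (mem_erase.1 hj).2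
  have hρT : ρ ∉ T' := fun h => (mem_rem.1 (hT h)).2.1 rfl
  have hjT : j ∉ T' := fun h => (mem_rem.1 (hT h)).1 rfl
  constructor
  · rintro ⟨-, h⟩
    refine ⟨hT, fun v hv => ?_⟩
    obtain ⟨a, b, c⟩ := e3 v hv
    have hv' := mem_rem.1 hv
    have := h v hv'.2.2
    rw [a, mem_insert, mem_insert] at this
    simpa [hv'.1, c] using this
  · rintro ⟨-, h⟩
    refine ⟨?_, fun v hv => ?_⟩
    · intro v hv
      rcases mem_insert.1 hv with rfl | hv
      · exact hjS
      · exact (mem_rem.1 (hT hv)).2.2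
    · by_cases hv1 : v = ρ
      · subst hv1
        rw [e1]
        simp [hne.symm, hρT]
      by_cases hv2 : v = j
      · subst hv2
        rw [e2]
        simp [hne.symm, hρT]
      have hv' : v ∈ rem S ρ j := mem_rem.2 ⟨hv2, hv1, hv⟩
      obtain ⟨a, b, c⟩ := e3 v hv'
      rw [a, mem_insert, mem_insert]
      simpa [hv2, c] using h v hv'

theorem not_trans_none : ¬ Trans S (swap ρ j * m') T' := by
  obtain ⟨e1, e2, e3⟩ := swapmul_facts hj hm
  have hρT : ρ ∉ T' := fun h => (mem_rem.1 (hT h)).2.1 rfl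
  have hjT : j ∉ T' := fun h => (mem_rem.1 (hT h)).1 rfl
  rintro ⟨-, h⟩
  have := h ρ hρ
  rw [e1] at this
  exact hρT (this.2 hjT)

theorem not_trans_both : ¬ Trans S (swap ρ j * m') (insert ρ (insert j T')) := by
  obtain ⟨e1, e2, e3⟩ := swapmul_facts hj hm
  rintro ⟨-, h⟩
  have := h ρ hρ
  rw [e1] at this
  exact this.1 (mem_insert_self _ _) (mem_insert_of_mem (mem_insert_self _ _))

end trans

/-- weights conditioned on the partner of the root. -/
def lamj (lam : Perm V → ℝ) (ρ j : V) : Perm V → ℝ := fun m' => lam (swap ρ j * m')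

/-- joint weight of (transversal `T`, partner `j`). -/
def aj (S : Finset V) (kap : ℕ) (lam : Perm V → ℝ) (ρ j : V) (T : Finset V) : ℝ :=
  (∑ m' ∈ PM (rem S ρ j), if Trans S (swap ρ j * m') T then lam (swap ρ j * m') else 0)
    / 2 ^ (kap + 1)

theorem nu_eq_sum_aj {S : Finset V} {ρ : V} (hρ : ρ ∈ S) (kap : ℕ) (lam : Perm V → ℝ)
    (T : Finset V) : nu S (kap + 1) lam T = ∑ j ∈ S.erase ρ, aj S kap lam ρ j T := by
  unfold nu aj
  rw [sum_PM hρ, sum_div]

section ajs

variable {S : Finset V} {ρ j : V} (hρ : ρ ∈ S) (hj : j ∈ S.erase ρ) (kap : ℕ) (lam : Perm V → ℝ)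
  {T' : Finset V} (hT : T' ⊆ rem S ρ j)

include hρ hj hT

theorem aj_insert_root :
    aj S kap lam ρ j (insert ρ T') = nu (rem S ρ j) kap (lamj lam ρ j) T' / 2 := by
  unfold aj nu lamj
  rw [div_div, ← pow_succ]
  congr 1
  refine sum_congr rfl fun m' hm => ?_
  simp only [trans_insert_root hρ hj hm hT]

theorem aj_insert_partner :
    aj S kap lam ρ j (insert j T') = nu (rem S ρ j) kap (lamj lam ρ j) T' / 2 := by
  unfold aj nu lamj
  rw [div_div, ← pow_succ]
  congr 1
  refine sum_congr rfl fun m' hm => ?_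
  simp only [trans_insert_partner hρ hj hm hT]

theorem aj_none : aj S kap lam ρ j T' = 0 := by
  unfold aj
  rw [sum_eq_zero, zero_div]
  intro m' hm
  rw [if_neg (not_trans_none hρ hj hm hT)]

theorem aj_both : aj S kap lam ρ j (insert ρ (insert j T')) = 0 := by
  unfold aj
  rw [sum_eq_zero, zero_div]
  intro m' hm
  rw [if_neg (not_trans_both hρ hj hm hT)]

end ajs

theorem eq_insert_insert_rem {S : Finset V} {ρ j : V} (hρ : ρ ∈ S) (hj : j ∈ S.erase ρ) :
    S = insert ρ (insert j (rem S ρ j)) := by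
  rw [insert_erase hj, insert_erase hρ]

/-- (D3) decomposition of a sum over subsets. -/
theorem sum_powerset_root {S : Finset V} {ρ j : V} (hρ : ρ ∈ S) (hj : j ∈ S.erase ρ)
    (G : Finset V → ℝ) :
    ∑ T ∈ S.powerset, G T = ∑ T' ∈ (rem S ρ j).powerset,
      (G T' + G (insert j T') + G (insert ρ T') + G (insert ρ (insert j T'))) := by
  have h1 : j ∉ rem S ρ j := notMem_erase _ _
  have h2 : ρ ∉ insert j (rem S ρ j) := by
    rw [insert_erase hj]
    exact notMem_erase _ _
  conv_lhs => rw [eq_insert_insert_rem hρ hj]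
  rw [sum_powerset_insert h2, sum_powerset_insert h1, sum_powerset_insert h1]
  simp only [sum_add_distrib]
  ring

/-- sums against the joint weights. -/
theorem sum_aj_mul {S : Finset V} {ρ j : V} (hρ : ρ ∈ S) (hj : j ∈ S.erase ρ) (kap : ℕ)
    (lam : Perm V → ℝ) (ψ : Finset V → ℝ) :
    ∑ T ∈ S.powerset, aj S kap lam ρ j T * ψ T = ∑ T' ∈ (rem S ρ j).powerset,
      nu (rem S ρ j) kap (lamj lam ρ j) T' / 2 * (ψ (insert ρ T') + ψ (insert j T')) := by
  rw [sum_powerset_root hρ hj]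
  refine sum_congr rfl fun T' hT' => ?_
  have hT := mem_powerset.1 hT'
  rw [aj_none hρ hj kap lam hT, aj_both hρ hj kap lam hT, aj_insert_root hρ hj kap lam hT,
    aj_insert_partner hρ hj kap lam hT]
  ring

theorem card_rem {S : Finset V} {ρ j : V} (hρ : ρ ∈ S) (hj : j ∈ S.erase ρ) {kap : ℕ}
    (hS : S.card = 2 * (kap + 1)) : (rem S ρ j).card = 2 * kap := by
  rw [card_erase_of_mem hj, card_erase_of_mem hρ, hS]
  omega

theorem mass_eq_sum {S : Finset V} {ρ : V} (hρ : ρ ∈ S) (lam : Perm V → ℝ) :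
    mass S lam = ∑ j ∈ S.erase ρ, mass (rem S ρ j) (lamj lam ρ j) := by
  unfold mass lamj
  exact sum_PM hρ lam

theorem exists_root {S : Finset V} {kap : ℕ} (hS : S.card = 2 * (kap + 1)) : ∃ ρ, ρ ∈ S := by
  have : S.Nonempty := by
    rw [← card_pos, hS]
    omega
  exact this

/-- number of perfect matchings. -/
theorem card_PM (kap : ℕ) (S : Finset V) (hS : S.card = 2 * kap) : (PM S).card = aM kap := by
  induction kap generalizing S with
  | zero =>
    have : S = ∅ := by
      rw [← card_eq_zero, hS]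
    subst this
    rw [PM_empty]
    rfl
  | succ kap ih =>
    obtain ⟨ρ, hρ⟩ := exists_root hS
    have h := sum_PM hρ (fun _ => (1 : ℝ))
    have h2 : ∀ j ∈ S.erase ρ, ∑ m' ∈ PM (rem S ρ j), (1 : ℝ) = aM kap := by
      intro j hj
      rw [sum_const, ih _ (card_rem hρ hj hS)]
      simp
    rw [sum_congr rfl h2, sum_const, sum_const, card_erase_of_mem hρ, hS] at h
    simp only [nsmul_eq_mul, mul_one] at h
    have h3 : ((PM S).card : ℝ) = ((2 * kap + 1) * aM kap : ℕ) := by
      rw [h]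
      push_cast
      have : 2 * (kap + 1) - 1 = 2 * kap + 1 := by omega
      rw [this]
      push_cast
      ring
    exact_mod_cast h3

/-- mass preservation. -/
theorem sum_nu (kap : ℕ) (S : Finset V) (hS : S.card = 2 * kap) (lam : Perm V → ℝ) :
    ∑ T ∈ S.powerset, nu S kap lam T = mass S lam := by
  induction kap generalizing S lam with
  | zero =>
    have : S = ∅ := by
      rw [← card_eq_zero, hS]
    subst this
    simp [nu, mass, PM_empty, Trans]
  | succ kap ih =>
    obtain ⟨ρ, hρ⟩ := exists_root hS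
    rw [mass_eq_sum hρ]
    simp only [nu_eq_sum_aj hρ]
    rw [sum_comm]
    refine sum_congr rfl fun j hj => ?_
    have := sum_aj_mul hρ hj kap lam (fun _ => 1)
    simp only [mul_one] at this
    rw [this, ← ih _ (card_rem hρ hj hS)]
    refine sum_congr rfl fun T' _ => ?_
    ring


end

end Vale.Agent.P162.L1
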