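import Mathlib
import Vale.Agent.P162.RealIneq

/-!
# P162 (L1): scalar lemma, unnormalised finset form (row E2b)

`x j > 0` are the masses `Lam_j`, `L = ∑ x j`, `N = card J` (`N = 1` or `N ≥ 3`).
PROOF. Put `r j = N * x j / L`, so `0 < r j ≤ N`, `∑ r j = N`,
`∑ r j * log (r j) = (N / L) * (L * log N - L * log L + ∑ x j * log (x j))` and
`N / (N+1) * (1 + (∑ x j ^ 2) / L ^ 2) = 1 + (∑ (r j - 1) ^ 2) / (N * (N+1))`.
`log (1 + u) ≤ u`; `sq_le_klFun : (r-1)^2 ≤ (2 (r+2)/3) (r log r - r + 1)`, `r ≤ N`,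
`r log r - r + 1 ≥ 0`, `∑ (r j log (r j) - r j + 1) = ∑ r j log (r j)`; finally
`2 (N+2) / (3 (N+1)) ≤ 5/6` for `N ≥ 3`.  For `N = 1` both sides are `0`.
-/

namespace Vale.Agent.P162.L1

open Finset

lemma klFun_nonneg_aux (r : ℝ) (hr : 0 < r) : 0 ≤ r * Real.log r - r + 1 := by
  have h := Real.log_le_sub_one_of_pos (inv_pos.mpr hr)
  rw [Real.log_inv] at h
  have h2 : r * (-Real.log r) ≤ r * (r⁻¹ - 1) := mul_le_mul_of_nonneg_left h hr.le
  have h3 : r * (r⁻¹ - 1) = 1 - r := by field_simp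
  linarith

theorem l1_scalar_fin {ι : Type*} (J : Finset ι) (x : ι → ℝ) (hx : ∀ j ∈ J, 0 < x j)
    (hN : J.card = 1 ∨ 3 ≤ J.card) :
    (∑ j ∈ J, x j) * Real.log (((J.card : ℝ) / ((J.card : ℝ) + 1)) *
        (1 + (∑ j ∈ J, x j ^ 2) / (∑ j ∈ J, x j) ^ 2))
      ≤ 5 / 6 * ((∑ j ∈ J, x j) * Real.log (J.card : ℝ)
          - (∑ j ∈ J, x j) * Real.log (∑ j ∈ J, x j) + ∑ j ∈ J, x j * Real.log (x j)) := by
  rcases hN with h1 | h3
  · obtain ⟨a, rfl⟩ := Finset.card_eq_one.mp h1
    have ha : 0 < x a := hx a (by simp)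
    have e : x a ^ 2 / x a ^ 2 = 1 := div_self (by positivity)
    simp only [sum_singleton, card_singleton, Nat.cast_one, Real.log_one, e]
    norm_num
  · set N : ℝ := (J.card : ℝ) with hNdef
    have hN3 : (3 : ℝ) ≤ N := by rw [hNdef]; exact_mod_cast h3
    have hN0 : 0 < N := by linarith
    have hJ : J.Nonempty := Finset.card_pos.mp (by omega)
    set L : ℝ := ∑ j ∈ J, x j with hL
    have hL0 : 0 < L := Finset.sum_pos hx hJ
    set S : ℝ := ∑ j ∈ J, x j ^ 2 with hS
    set E : ℝ := L * Real.log N - L * Real.log L + ∑ j ∈ J, x j * Real.log (x j) with hE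
    let r : ι → ℝ := fun j => N * x j / L
    have hr0 : ∀ j ∈ J, 0 < r j := fun j hj => by
      have := hx j hj
      positivity
    have hrN : ∀ j ∈ J, r j ≤ N := fun j hj => by
      have h1 : x j ≤ L := Finset.single_le_sum (fun i hi => (hx i hi).le) hj
      show N * x j / L ≤ N
      rw [div_le_iff₀ hL0]
      exact mul_le_mul_of_nonneg_left h1 hN0.le
    have hsum_r : ∑ j ∈ J, r j = N := by
      show ∑ j ∈ J, N * x j / L = N
      rw [← Finset.sum_div, ← Finset.mul_sum, ← hL]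
      field_simp
    have hsum_r2 : ∑ j ∈ J, (r j) ^ 2 = N ^ 2 * S / L ^ 2 := by
      show ∑ j ∈ J, (N * x j / L) ^ 2 = N ^ 2 * S / L ^ 2
      rw [hS, Finset.mul_sum, Finset.sum_div]
      apply Finset.sum_congr rfl
      intro j _
      ring
    have hsum_sq : ∑ j ∈ J, (r j - 1) ^ 2 = N ^ 2 * S / L ^ 2 - N := by
      have : ∀ j ∈ J, (r j - 1) ^ 2 = (r j) ^ 2 - 2 * r j + 1 := fun j _ => by ring
      rw [Finset.sum_congr rfl this, Finset.sum_add_distrib, Finset.sum_sub_distrib,
        ← Finset.mul_sum, hsum_r, hsum_r2]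
      simp only [sum_const, nsmul_eq_mul, mul_one]
      rw [← hNdef]; ring
    have hsum_kl : ∑ j ∈ J, (r j * Real.log (r j) - r j + 1) = (N / L) * E := by
      have h1 : ∀ j ∈ J, r j * Real.log (r j) - r j + 1 =
          (N / L) * (x j * Real.log N - x j * Real.log L + x j * Real.log (x j)) - r j + 1 := by
        intro j hj
        have hxj := hx j hj
        have : Real.log (r j) = Real.log N + Real.log (x j) - Real.log L := by
          show Real.log (N * x j / L) = _
          rw [Real.log_div (by positivity) hL0.ne', Real.log_mul hN0.ne' hxj.ne']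
        rw [this]
        show N * x j / L * _ - _ + 1 = _
        ring
      rw [Finset.sum_congr rfl h1, Finset.sum_add_distrib, Finset.sum_sub_distrib, hsum_r,
        ← Finset.mul_sum, Finset.sum_add_distrib, Finset.sum_sub_distrib, ← Finset.sum_mul,
        ← Finset.sum_mul]
      simp only [sum_const, nsmul_eq_mul, mul_one]
      rw [← hNdef, ← hL, hE]; ring
    have hkl0 : ∀ j ∈ J, 0 ≤ r j * Real.log (r j) - r j + 1 :=
      fun j hj => klFun_nonneg_aux _ (hr0 j hj)
    have hsq_le : ∑ j ∈ J, (r j - 1) ^ 2 ≤ (2 * (N + 2) / 3) * ((N / L) * E) := by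
      rw [← hsum_kl, Finset.mul_sum]
      apply Finset.sum_le_sum
      intro j hj
      have h1 := Vale.Agent.P162.sq_le_klFun (r j) (hr0 j hj).le
      have h2 : 2 * (r j + 2) / 3 ≤ 2 * (N + 2) / 3 := by
        have := hrN j hj
        linarith
      exact h1.trans (mul_le_mul_of_nonneg_right h2 (hkl0 j hj))
    have hE0 : 0 ≤ E := by
      have h1 : 0 ≤ (N / L) * E := by
        rw [← hsum_kl]; exact Finset.sum_nonneg hkl0
      have h2 : 0 < N / L := by positivity
      exact nonneg_of_mul_nonneg_right h1 h2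
    set u : ℝ := (∑ j ∈ J, (r j - 1) ^ 2) / (N * (N + 1)) with hu
    have hu0 : 0 ≤ u := by
      apply div_nonneg (Finset.sum_nonneg (fun j _ => sq_nonneg _)) (by positivity)
    have harg : (N / (N + 1)) * (1 + S / L ^ 2) = 1 + u := by
      rw [hu, hsum_sq]
      field_simp
      ring
    rw [harg]
    have hlog : Real.log (1 + u) ≤ u := by
      have := Real.log_le_sub_one_of_pos (show 0 < 1 + u by linarith)
      linarith
    have hu_le : u ≤ (2 * (N + 2) / 3) * ((N / L) * E) / (N * (N + 1)) :=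
      div_le_div_of_nonneg_right hsq_le (by positivity)
    have hfin : L * ((2 * (N + 2) / 3) * ((N / L) * E) / (N * (N + 1))) =
        (2 * (N + 2) / (3 * (N + 1))) * E := by
      field_simp
    have hc : 2 * (N + 2) / (3 * (N + 1)) ≤ 5 / 6 := by
      rw [div_le_div_iff₀ (by positivity) (by norm_num)]
      linarith
    calc L * Real.log (1 + u) ≤ L * u := mul_le_mul_of_nonneg_left hlog hL0.le
      _ ≤ L * ((2 * (N + 2) / 3) * ((N / L) * E) / (N * (N + 1))) :=
          mul_le_mul_of_nonneg_left hu_le hL0.le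
      _ = (2 * (N + 2) / (3 * (N + 1))) * E := hfin
      _ ≤ 5 / 6 * E := mul_le_mul_of_nonneg_right hc hE0

end Vale.Agent.P162.L1
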