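import Vale.Agent.P162.L1Root
import Vale.Agent.P162.L1ScalarFin

namespace Vale.Agent.P162.L1

open Finset Equiv

open scoped Classical

noncomputable section

variable {V : Type*} [Fintype V]

theorem aM_pos (kap : ℕ) : 0 < aM kap := by
  induction kap with
  | zero => exact Nat.one_pos
  | succ k ih => exact Nat.mul_pos (by omega) ih

theorem mass_pos {kap : ℕ} {S : Finset V} (hS : S.card = 2 * kap) {lam : Perm V → ℝ}
    (hlam : ∀ m ∈ PM S, 0 < lam m) : 0 < mass S lam := by
  unfold mass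
  apply sum_pos hlam
  rw [← card_pos, card_PM kap S hS]
  exact aM_pos kap

theorem lamj_pos {S : Finset V} {ρ j : V} (hρ : ρ ∈ S) (hj : j ∈ S.erase ρ) {lam : Perm V → ℝ}
    (hlam : ∀ m ∈ PM S, 0 < lam m) : ∀ m' ∈ PM (rem S ρ j), 0 < lamj lam ρ j m' := by
  intro m' hm'
  exact hlam _ (swap_mul_mem_PM hj hρ hm').1

theorem aj_nonneg {S : Finset V} {ρ j : V} (hρ : ρ ∈ S) (hj : j ∈ S.erase ρ) (kap : ℕ)
    {lam : Perm V → ℝ} (hlam : ∀ m ∈ PM S, 0 < lam m) (T : Finset V) :
    0 ≤ aj S kap lam ρ j T := by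
  unfold aj
  apply div_nonneg _ (by positivity)
  apply sum_nonneg
  intro m' hm'
  split_ifs
  · exact (hlam _ (swap_mul_mem_PM hj hρ hm').1).le
  · exact le_rfl

/-- indicator of `ρ` and `i` lying on opposite sides of `T`. -/
def oppI (ρ i : V) (T : Finset V) : ℝ := if (ρ ∈ T ↔ i ∉ T) then 1 else 0

theorem aj_eq_zero_of_not_opp {S : Finset V} {ρ j : V} (hρ : ρ ∈ S) (hj : j ∈ S.erase ρ) (kap : ℕ)
    (lam : Perm V → ℝ) {T : Finset V} (h : ¬ (ρ ∈ T ↔ j ∉ T)) : aj S kap lam ρ j T = 0 := by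
  unfold aj
  rw [sum_eq_zero, zero_div]
  intro m' hm
  rw [if_neg]
  rintro ⟨-, h2⟩
  have := h2 ρ hρ
  rw [(swapmul_facts hj hm).1] at this
  exact h this

theorem sum_aj {S : Finset V} {ρ j : V} (hρ : ρ ∈ S) (hj : j ∈ S.erase ρ) {kap : ℕ}
    (hS : S.card = 2 * (kap + 1)) (lam : Perm V → ℝ) :
    ∑ T ∈ S.powerset, aj S kap lam ρ j T = mass (rem S ρ j) (lamj lam ρ j) := by
  have := sum_aj_mul hρ hj kap lam (fun _ => 1)
  simp only [mul_one] at this
  rw [this, ← sum_nu kap _ (card_rem hρ hj hS)]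
  refine sum_congr rfl fun T' _ => ?_
  ring

theorem sum_aj_opp {S : Finset V} {ρ j i : V} (hρ : ρ ∈ S) (hj : j ∈ S.erase ρ)
    (hi : i ∈ S.erase ρ) {kap : ℕ} (hS : S.card = 2 * (kap + 1)) (lam : Perm V → ℝ) :
    ∑ T ∈ S.powerset, aj S kap lam ρ j T * oppI ρ i T =
      mass (rem S ρ j) (lamj lam ρ j) / 2 + if j = i then mass (rem S ρ j) (lamj lam ρ j) / 2 else 0 := by
  rw [sum_aj_mul hρ hj kap lam (oppI ρ i), ← sum_nu kap _ (card_rem hρ hj hS)]
  have hne : j ≠ ρ := (mem_erase.1 hj).1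
  have hie : i ≠ ρ := (mem_erase.1 hi).1
  by_cases hji : j = i
  · subst hji
    rw [if_pos rfl, ← add_div, ← two_mul, mul_div_cancel_left₀ _ (two_ne_zero)]
    refine sum_congr rfl fun T' hT' => ?_
    have hT := mem_powerset.1 hT'
    have hρT : ρ ∉ T' := fun h => (mem_rem.1 (hT h)).2.1 rfl
    have hjT : j ∉ T' := fun h => (mem_rem.1 (hT h)).1 rfl
    have e1 : oppI ρ j (insert ρ T') = 1 := by
      unfold oppI
      rw [if_pos]
      simp [hne, hjT]
    have e2 : oppI ρ j (insert j T') = 1 := by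
      unfold oppI
      rw [if_pos]
      simp [hne.symm, hρT]
    rw [e1, e2]
    ring
  · rw [if_neg hji, add_zero, sum_div]
    refine sum_congr rfl fun T' hT' => ?_
    have hT := mem_powerset.1 hT'
    have hρT : ρ ∉ T' := fun h => (mem_rem.1 (hT h)).2.1 rfl
    have e : oppI ρ i (insert ρ T') + oppI ρ i (insert j T') = 1 := by
      unfold oppI
      by_cases hiT : i ∈ T'
      · rw [if_neg, if_pos]
        · ring
        · simp [hne.symm, hρT, hiT]
        · simp [hiT]
      · rw [if_pos, if_neg]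
        · ring
        · simp [hne.symm, hρT, hiT, Ne.symm hji]
        · simp [hiT, hie]
    rw [e, mul_one]

theorem sum_nu_opp {S : Finset V} {ρ i : V} (hρ : ρ ∈ S) (hi : i ∈ S.erase ρ) {kap : ℕ}
    (hS : S.card = 2 * (kap + 1)) (lam : Perm V → ℝ) :
    ∑ T ∈ S.powerset, nu S (kap + 1) lam T * oppI ρ i T =
      (mass S lam + mass (rem S ρ i) (lamj lam ρ i)) / 2 := by
  simp only [nu_eq_sum_aj hρ, sum_mul]
  rw [sum_comm, sum_congr rfl fun j hj => sum_aj_opp hρ hj hi hS lam, sum_add_distrib,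
    sum_ite_eq' (S.erase ρ) i, if_pos hi, mass_eq_sum hρ lam, ← sum_div]
  ring

theorem gibbs_term (a b : ℝ) (ha : 0 ≤ a) (hb : 0 ≤ b) (h : 0 < a → 0 < b) :
    a - b ≤ a * (Real.log a - Real.log b) := by
  rcases ha.eq_or_lt with h0 | h0
  · subst h0
    simp only [zero_mul]
    linarith
  · have hb' := h h0
    have h1 := Real.log_le_sub_one_of_pos (div_pos hb' h0)
    rw [Real.log_div hb'.ne' h0.ne'] at h1
    have h2 : a * (Real.log b - Real.log a) ≤ a * (b / a - 1) := mul_le_mul_of_nonneg_left h1 h0.le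
    have h3 : a * (b / a - 1) = b - a := by
      field_simp
    linarith

theorem gibbs_term4 (a n Lj L W : ℝ) (ha : 0 ≤ a) (hn : a ≤ n) (hLj : 0 < Lj) (hL : 0 < L)
    (hW : 0 < W) :
    a - n * Lj * L / W ≤
      a * (Real.log a - Real.log n - Real.log Lj - Real.log L + Real.log W) := by
  rcases ha.eq_or_lt with h0 | h0
  · subst h0
    simp only [zero_mul, zero_sub]
    have : 0 ≤ n * Lj * L / W := by positivity
    linarith
  · have hn' : 0 < n := lt_of_lt_of_le h0 hn
    have hb : 0 < n * Lj * L / W := by positivity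
    have := gibbs_term a _ ha hb.le (fun _ => hb)
    rw [Real.log_div (by positivity) hW.ne', Real.log_mul (by positivity) hL.ne',
      Real.log_mul hn'.ne' hLj.ne'] at this
    have e : Real.log a - Real.log n - Real.log Lj - Real.log L + Real.log W =
        Real.log a - (Real.log n + Real.log Lj + Real.log L - Real.log W) := by ring
    rw [e]
    exact this

end

end Vale.Agent.P162.L1
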