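import Mathlib
import Vale.Agent.P162.Ent2

/-!
# P162: the abstract top level inequality (SL+), section 5 of notes/P162_proof.md
-/

namespace Vale.Agent.P162

open Finset Real Vale.Agent.P335

open scoped Classical

noncomputable section

variable {Ω : Type*} [Fintype Ω] {K1 K0 KA K0A : Type*}

theorem avg_const_mul {K : Type*} (k : Ω → K) (c : ℝ) (E : Ω → ℝ) :
    avg k (fun x => c * E x) = fun x => c * avg k E x := by
  funext x
  simp [avg, ← mul_sum, mul_div_assoc]

/-- the normalised point mass at `σ`. -/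
def pointMass (σ : Ω) : Ω → ℝ := fun y => if y = σ then (Fintype.card Ω : ℝ) else 0

theorem mean_pointMass_mul [Nonempty Ω] (σ : Ω) (G : Ω → ℝ) :
    mean (fun x => pointMass σ x * G x) = G σ := by
  have hN := card_pos_real (Ω := Ω)
  unfold mean pointMass
  simp only [ite_mul, zero_mul, sum_ite_eq', mem_univ, if_true]
  field_simp

theorem mean_pointMass [Nonempty Ω] (σ : Ω) : mean (pointMass σ) = 1 := by
  have := mean_pointMass_mul σ (fun _ => (1 : ℝ))
  simpa using this

/-- the kernel `bt σ = EA E0 E1 (card * delta σ)`. -/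
def btKer (k1 : Ω → K1) (k0 : Ω → K0) (kA : Ω → KA) (σ : Ω) : Ω → ℝ :=
  avg kA (avg k0 (avg k1 (pointMass σ)))

theorem mean_btKer [Nonempty Ω] (k1 : Ω → K1) (k0 : Ω → K0) (kA : Ω → KA) (σ : Ω) :
    mean (btKer k1 k0 kA σ) = 1 := by
  unfold btKer
  rw [mean_avg, mean_avg, mean_avg, mean_pointMass]

/-- evaluation of `E1 E0 EA G` at `σ` through the kernel. -/
theorem eval_eq_mean_btKer [Nonempty Ω] (k1 : Ω → K1) (k0 : Ω → K0) (kA : Ω → KA) (σ : Ω)
    (G : Ω → ℝ) :
    avg k1 (avg k0 (avg kA G)) σ = mean (fun x => btKer k1 k0 kA σ x * G x) := by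
  rw [← mean_pointMass_mul σ (avg k1 (avg k0 (avg kA G))), mean_mul_avg, mean_mul_avg, mean_mul_avg]
  rfl

/-- Step 1 of (SL+). -/
theorem sl_step1 [Nonempty Ω] (k0 : Ω → K0) (kA : Ω → KA) (k0A : Ω → K0A)
    (hA0A : ∀ x y, k0A x = k0A y → kA x = kA y) (h00A : ∀ x y, k0A x = k0A y → k0 x = k0 y)
    {F1 : Ω → ℝ} (hF1 : ∀ x, 0 < F1 x) :
    mean (fun x => avg k0 F1 x * log (avg k0 F1 x))
      - mean (fun x => avg k0A F1 x * log (avg k0A F1 x))
      + mean (fun x => avg kA F1 x * log (avg kA F1 x))
      ≤ mean (fun x => avg k0 F1 x * log (avg k0 (avg kA F1) x)) := by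
  set gY := avg k0 F1 with hgY
  set gYA := avg k0A F1 with hgYA
  set f := avg kA F1 with hf
  set e := avg k0 f with he
  have hgYpos : ∀ x, 0 < gY x := avg_pos k0 hF1
  have hgYApos : ∀ x, 0 < gYA x := avg_pos k0A hF1
  have hfpos : ∀ x, 0 < f x := avg_pos kA hF1
  have hepos : ∀ x, 0 < e x := avg_pos k0 hfpos
  have h0 : avg k0 gYA = gY := avg_avg_of_finer h00A F1
  have hA : avg kA gYA = f := avg_avg_of_finer hA0A F1
  have hgYinv : ∀ x y, k0 x = k0 y → gY x = gY y := avg_invariant k0 F1
  have heinv : ∀ x y, k0 x = k0 y → e x = e y := avg_invariant k0 f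
  have hfinv : ∀ x y, kA x = kA y → f x = f y := avg_invariant kA F1
  have e1 : mean (fun x => gYA x * log (gY x)) = mean (fun x => gY x * log (gY x)) := by
    rw [mean_mul_of_invariant k0 gYA (fun x y h => by rw [hgYinv x y h]), h0]
  have e2 : mean (fun x => gYA x * log (f x)) = mean (fun x => f x * log (f x)) := by
    rw [mean_mul_of_invariant kA gYA (fun x y h => by rw [hfinv x y h]), hA]
  have e3 : mean (fun x => gYA x * log (e x)) = mean (fun x => gY x * log (e x)) := by
    rw [mean_mul_of_invariant k0 gYA (fun x y h => by rw [heinv x y h]), h0]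
  -- Gibbs with the test function gY f / e
  have hΨ : mean (fun x => gY x * f x / e x) = mean gYA := by
    have h1 : mean (fun x => f x * (gY x / e x)) = mean (fun x => avg k0 f x * (gY x / e x)) :=
      mean_mul_of_invariant k0 f (fun x y h => by rw [hgYinv x y h, heinv x y h])
    have h2 : mean (fun x => avg k0 f x * (gY x / e x)) = mean gY := by
      apply mean_congr
      intro x
      have := (hepos x).ne'
      show e x * (gY x / e x) = gY x
      field_simp
    calc mean (fun x => gY x * f x / e x) = mean (fun x => f x * (gY x / e x)) := by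
          apply mean_congr
          intro x
          ring
      _ = mean gYA := by rw [h1, h2, hgY, hgYA, mean_avg, mean_avg]
  have hg := gibbs (Ψ := fun x => gY x * f x / e x) hgYApos
    (fun x => div_pos (mul_pos (hgYpos x) (hfpos x)) (hepos x)) hΨ.le
  have hsplit : mean (fun x => gYA x * log (gYA x / (gY x * f x / e x)))
      = mean (fun x => gYA x * log (gYA x)) + mean (fun x => gYA x * log (e x))
        - mean (fun x => gYA x * log (gY x)) - mean (fun x => gYA x * log (f x)) := by
    rw [← mean_add, ← mean_sub, ← mean_sub]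
    apply mean_congr
    intro x
    rw [log_div (hgYApos x).ne' (div_pos (mul_pos (hgYpos x) (hfpos x)) (hepos x)).ne',
      log_div (mul_pos (hgYpos x) (hfpos x)).ne' (hepos x).ne',
      log_mul (hgYpos x).ne' (hfpos x).ne']
    ring
  rw [hsplit, e1, e2, e3] at hg
  linarith

/-- Steps 2 and 3 of (SL+): the error term is controlled by `h = E1 E0 f - 1`. -/
theorem sl_step23 [Nonempty Ω] (k1 : Ω → K1) (k0 : Ω → K0)
    {F1 f : Ω → ℝ} (hF1 : ∀ x, 0 < F1 x) (hinv : ∀ x y, k1 x = k1 y → F1 x = F1 y)
    (hf : ∀ x, 0 < f x) :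
    mean (fun x => avg k0 F1 x * log (avg k0 f x))
      ≤ mean (fun x => F1 x * (avg k1 (avg k0 f) x - 1)) := by
  set e := avg k0 f with he
  have hepos : ∀ x, 0 < e x := avg_pos k0 hf
  have heinv : ∀ x y, k0 x = k0 y → e x = e y := avg_invariant k0 f
  have h1 : mean (fun x => avg k0 F1 x * log (e x)) = mean (fun x => F1 x * log (e x)) :=
    (mean_mul_of_invariant k0 F1 (fun x y h => by rw [heinv x y h])).symm
  have h2 : mean (fun x => F1 x * log (e x)) = mean (fun x => F1 x * avg k1 (fun y => log (e y)) x) := by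
    have := mean_mul_of_invariant k1 (fun y => log (e y)) hinv
    calc mean (fun x => F1 x * log (e x)) = mean (fun x => log (e x) * F1 x) := by
          apply mean_congr
          intro x
          ring
      _ = mean (fun x => avg k1 (fun y => log (e y)) x * F1 x) := this
      _ = mean (fun x => F1 x * avg k1 (fun y => log (e y)) x) := by
          apply mean_congr
          intro x
          ring
  rw [h1, h2]
  apply mean_mono
  intro x
  apply mul_le_mul_of_nonneg_left _ (hF1 x).le
  calc avg k1 (fun y => log (e y)) x ≤ log (avg k1 e x) := avg_log_le k1 hepos x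
    _ ≤ avg k1 e x - 1 := log_le_sub_one_of_pos (avg_pos k1 hepos x)

/-- Step 4 of (SL+): pointwise bound of `h` by Donsker-Varadhan. -/
theorem sl_step4 [Nonempty Ω] (k1 : Ω → K1) (k0 : Ω → K0) (kA : Ω → KA)
    (v τ : ℝ)
    (hmgf : ∀ σ : Ω, ∀ t : ℝ, |t| ≤ τ →
      mean (fun x => exp (t * (btKer k1 k0 kA σ x - 1))) ≤ exp (t ^ 2 * v / 2))
    {f : Ω → ℝ} (hf : ∀ x, 0 < f x) (hf1 : mean f = 1) (hfinv : ∀ x y, kA x = kA y → f x = f y)
    (σ : Ω) (t : ℝ) (ht0 : 0 < t) (ht : t ≤ τ) :
    |avg k1 (avg k0 f) σ - 1| ≤ ent f / t + t * v / 2 := by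
  have hfA : avg kA f = f := avg_of_invariant hfinv
  have hval : avg k1 (avg k0 f) σ - 1 = mean (fun x => f x * (btKer k1 k0 kA σ x - 1)) := by
    have h1 := eval_eq_mean_btKer k1 k0 kA σ f
    rw [hfA] at h1
    rw [h1]
    have : mean (fun x => f x * (btKer k1 k0 kA σ x - 1))
        = mean (fun x => btKer k1 k0 kA σ x * f x) - mean f := by
      rw [← mean_sub]
      apply mean_congr
      intro x
      ring
    rw [this, hf1]
  have hside : ∀ u : ℝ, |u| ≤ τ → u * (avg k1 (avg k0 f) σ - 1) ≤ ent f + u ^ 2 * v / 2 := by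
    intro u hu
    have hdv := donsker_varadhan hf hf1 (fun x => u * (btKer k1 k0 kA σ x - 1))
    have h2 : mean (fun x => f x * (u * (btKer k1 k0 kA σ x - 1)))
        = u * (avg k1 (avg k0 f) σ - 1) := by
      rw [hval, ← mean_const_mul]
      apply mean_congr
      intro x
      ring
    rw [h2] at hdv
    have h3 : log (mean (fun x => exp (u * (btKer k1 k0 kA σ x - 1)))) ≤ u ^ 2 * v / 2 := by
      have hpos : 0 < mean (fun x => exp (u * (btKer k1 k0 kA σ x - 1))) :=
        mean_pos (fun x => exp_pos _)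
      calc log (mean (fun x => exp (u * (btKer k1 k0 kA σ x - 1))))
          ≤ log (exp (u ^ 2 * v / 2)) := log_le_log hpos (hmgf σ u hu)
        _ = u ^ 2 * v / 2 := log_exp _
    linarith
  have hp := hside t (by rw [abs_of_pos ht0]; exact ht)
  have hn := hside (-t) (by rw [abs_neg, abs_of_pos ht0]; exact ht)
  have key : ∀ z : ℝ, t * z ≤ ent f + t ^ 2 * v / 2 → z ≤ ent f / t + t * v / 2 := by
    intro z hz
    have : ent f / t + t * v / 2 = (ent f + t ^ 2 * v / 2) / t := by
      field_simp
    rw [this, le_div_iff₀ ht0]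
    linarith
  rw [abs_le]
  constructor
  · have := key (-(avg k1 (avg k0 f) σ - 1)) (by
      have h4 : (-t) ^ 2 = t ^ 2 := by ring
      rw [h4] at hn
      linarith)
    linarith
  · exact key _ hp

/-- (SL+) for densities. -/
theorem sl_abstract_of_mean_one [Nonempty Ω] (k1 : Ω → K1) (k0 : Ω → K0) (kA : Ω → KA)
    (k0A : Ω → K0A)
    (hA1 : ∀ x y, k1 x = k1 y → kA x = kA y) (hA0A : ∀ x y, k0A x = k0A y → kA x = kA y)
    (h00A : ∀ x y, k0A x = k0A y → k0 x = k0 y)
    (v τ s : ℝ) (hv : 0 < v) (hτ : 0 < τ) (hs : 0 < s)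
    (hmgf : ∀ σ : Ω, ∀ t : ℝ, |t| ≤ τ →
      mean (fun x => exp (t * (btKer k1 k0 kA σ x - 1))) ≤ exp (t ^ 2 * v / 2))
    {F : Ω → ℝ} (hF : ∀ x, 0 < F x) (hF1 : mean F = 1) :
    ent (avg k0 (avg k1 F)) ≤ ent (avg k0A (avg k1 F)) - ent (avg kA F)
      + max (s * v) (2 / τ) * ent (avg kA F) + (1 / s) * ent (avg k1 F) := by
  set F1 := avg k1 F with hF1def
  have hF1pos : ∀ x, 0 < F1 x := avg_pos k1 hF
  have hF1inv : ∀ x y, k1 x = k1 y → F1 x = F1 y := avg_invariant k1 F
  have hmF1 : mean F1 = 1 := by rw [hF1def, mean_avg, hF1]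
  have hfeq : avg kA F = avg kA F1 := (avg_avg_of_finer hA1 F).symm
  rw [hfeq]
  set f := avg kA F1 with hfdef
  have hfpos : ∀ x, 0 < f x := avg_pos kA hF1pos
  have hfinv : ∀ x y, kA x = kA y → f x = f y := avg_invariant kA F1
  have hmf : mean f = 1 := by rw [hfdef, mean_avg, hmF1]
  have hmY : mean (avg k0 F1) = 1 := by rw [mean_avg, hmF1]
  have hmYA : mean (avg k0A F1) = 1 := by rw [mean_avg, hmF1]
  rw [ent_of_mean_one hmY, ent_of_mean_one hmYA]
  have hentf : ent f = mean (fun x => f x * log (f x)) := ent_of_mean_one hmf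
  have s1 := sl_step1 k0 kA k0A hA0A h00A hF1pos
  have s23 := sl_step23 k1 k0 hF1pos hF1inv hfpos
  set hh : Ω → ℝ := fun x => avg k1 (avg k0 f) x - 1 with hhdef
  set J := mean (fun x => F1 x * hh x) with hJ
  have hef : 0 ≤ ent f := ent_nonneg hfpos
  have heF1 : 0 ≤ ent F1 := ent_nonneg hF1pos
  have hmh : mean hh = 0 := by
    rw [hhdef, mean_sub, mean_avg, mean_avg, hmf, mean_const]
    ring
  -- two bounds for J in terms of a uniform bound H of |hh|
  have hJ1 : ∀ H : ℝ, (∀ x, |hh x| ≤ H) → J ≤ H := by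
    intro H hH
    calc J ≤ mean (fun x => F1 x * H) := by
          apply mean_mono
          intro x
          exact mul_le_mul_of_nonneg_left ((le_abs_self _).trans (hH x)) (hF1pos x).le
      _ = H := by rw [mean_mul_const, hmF1, one_mul]
  have hJ2 : ∀ H : ℝ, (∀ x, |hh x| ≤ H) → J ≤ H * sqrt (2 * ent F1) := by
    intro H hH
    have hH0 : 0 ≤ H := (abs_nonneg _).trans (hH (Classical.arbitrary Ω))
    have h1 : J = mean (fun x => (F1 x - 1) * hh x) := by
      have : mean (fun x => (F1 x - 1) * hh x) = J - mean hh := by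
        rw [hJ, ← mean_sub]
        apply mean_congr
        intro x
        ring
      rw [this, hmh, sub_zero]
    rw [h1]
    calc mean (fun x => (F1 x - 1) * hh x) ≤ mean (fun x => |F1 x - 1| * H) := by
          apply mean_mono
          intro x
          calc (F1 x - 1) * hh x ≤ |(F1 x - 1) * hh x| := le_abs_self _
            _ = |F1 x - 1| * |hh x| := abs_mul _ _
            _ ≤ |F1 x - 1| * H := mul_le_mul_of_nonneg_left (hH x) (abs_nonneg _)
      _ = mean (fun x => |F1 x - 1|) * H := mean_mul_const _ _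
      _ ≤ sqrt (2 * ent F1) * H := mul_le_mul_of_nonneg_right (pinsker hF1pos hmF1) hH0
      _ = H * sqrt (2 * ent F1) := mul_comm _ _
  have hbound : ∀ t : ℝ, 0 < t → t ≤ τ → ∀ x, |hh x| ≤ ent f / t + t * v / 2 := by
    intro t ht0 ht x
    exact sl_step4 k1 k0 kA v τ hmgf hfpos hmf hfinv x t ht0 ht
  have hJfinal : J ≤ max (s * v) (2 / τ) * ent f + (1 / s) * ent F1 := by
    have hterm : 0 ≤ (1 / s) * ent F1 := by positivity
    by_cases hcase : v * τ ^ 2 / 2 ≤ ent f
    · have h1 := hJ1 _ (hbound τ hτ le_rfl)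
      have h2 : τ * v / 2 ≤ ent f / τ := by
        rw [le_div_iff₀ hτ]
        nlinarith
      have h3 : ent f / τ + τ * v / 2 ≤ (2 / τ) * ent f := by
        have : (2 / τ) * ent f = ent f / τ + ent f / τ := by ring
        linarith
      have h4 : (2 / τ) * ent f ≤ max (s * v) (2 / τ) * ent f :=
        mul_le_mul_of_nonneg_right (le_max_right _ _) hef
      linarith
    · have hcase' : ent f < v * τ ^ 2 / 2 := not_le.1 hcase
      have hgoal : J ≤ s * v * ent f + (1 / s) * ent F1 := by
        rcases hef.eq_or_lt with h0 | hpos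
        · -- ent f = 0: then hh = 0
          have hzero : ∀ x, |hh x| ≤ 0 := by
            intro x
            apply le_of_forall_pos_le_add
            intro δ hδ
            set t := min τ (2 * δ / v) with ht
            have ht0 : 0 < t := lt_min hτ (by positivity)
            have h1 := hbound t ht0 (min_le_left _ _) x
            rw [← h0, zero_div, zero_add] at h1
            have h2 : t * v / 2 ≤ δ := by
              have : t ≤ 2 * δ / v := min_le_right _ _
              rw [le_div_iff₀ hv] at this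
              linarith
            linarith
          have h1 := hJ1 0 hzero
          rw [← h0]
          linarith
        · set t := sqrt (2 * ent f / v) with ht
          have harg : 0 < 2 * ent f / v := by positivity
          have ht0 : 0 < t := sqrt_pos.2 harg
          have htsq : t ^ 2 = 2 * ent f / v := sq_sqrt harg.le
          have htτ : t ≤ τ := by
            rw [ht]
            apply sqrt_le_iff.2
            refine ⟨hτ.le, ?_⟩
            rw [div_le_iff₀ hv]
            nlinarith
          set H := ent f / t + t * v / 2 with hH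
          have hHt : H = t * v := by
            have h5 : ent f = t ^ 2 * v / 2 := by
              rw [htsq]
              field_simp
            rw [hH, h5]
            field_simp
            ring
          have hHsq : H ^ 2 = 2 * v * ent f := by
            rw [hHt, mul_pow, htsq]
            field_simp
          have h1 := hJ2 H (hbound t ht0 htτ)
          set r := sqrt (2 * ent F1) with hr
          have hrsq : r ^ 2 = 2 * ent F1 := sq_sqrt (by positivity)
          have hamgm : H * r ≤ (s / 2) * H ^ 2 + r ^ 2 / (2 * s) := by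
            have h6 : 0 ≤ (s * H - r) ^ 2 := sq_nonneg _
            have h7 : (s / 2) * H ^ 2 + r ^ 2 / (2 * s) - H * r = (s * H - r) ^ 2 / (2 * s) := by
              field_simp
              ring
            have h8 : 0 ≤ (s * H - r) ^ 2 / (2 * s) := by positivity
            linarith
          rw [hHsq, hrsq] at hamgm
          have h9 : (s / 2) * (2 * v * ent f) + 2 * ent F1 / (2 * s)
              = s * v * ent f + (1 / s) * ent F1 := by
            field_simp
          linarith
      have h4 : s * v * ent f ≤ max (s * v) (2 / τ) * ent f :=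
        mul_le_mul_of_nonneg_right (le_max_left _ _) hef
      linarith
  rw [hentf] at hJfinal ⊢
  linarith

/-- (SL+), abstract form, for all positive functions. -/
theorem sl_abstract [Nonempty Ω] (k1 : Ω → K1) (k0 : Ω → K0) (kA : Ω → KA) (k0A : Ω → K0A)
    (hA1 : ∀ x y, k1 x = k1 y → kA x = kA y) (hA0A : ∀ x y, k0A x = k0A y → kA x = kA y)
    (h00A : ∀ x y, k0A x = k0A y → k0 x = k0 y)
    (v τ s : ℝ) (hv : 0 < v) (hτ : 0 < τ) (hs : 0 < s)
    (hmgf : ∀ σ : Ω, ∀ t : ℝ, |t| ≤ τ →
      mean (fun x => exp (t * (btKer k1 k0 kA σ x - 1))) ≤ exp (t ^ 2 * v / 2))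
    {F : Ω → ℝ} (hF : ∀ x, 0 < F x) :
    ent (avg k0 (avg k1 F)) ≤ ent (avg k0A (avg k1 F)) - ent (avg kA F)
      + max (s * v) (2 / τ) * ent (avg kA F) + (1 / s) * ent (avg k1 F) := by
  have hm : 0 < mean F := mean_pos hF
  set c := (mean F)⁻¹ with hc
  have hcpos : 0 < c := inv_pos.2 hm
  set G : Ω → ℝ := fun x => c * F x with hG
  have hGpos : ∀ x, 0 < G x := fun x => mul_pos hcpos (hF x)
  have hG1 : mean G = 1 := by
    rw [hG, mean_const_mul, hc]
    field_simp
  have hmain := sl_abstract_of_mean_one k1 k0 kA k0A hA1 hA0A h00A v τ s hv hτ hs hmgf hGpos hG1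
  rw [hG, avg_const_mul k1 c F, avg_const_mul k0 c (avg k1 F), avg_const_mul k0A c (avg k1 F),
    avg_const_mul kA c F,
    ent_const_mul hcpos (avg_pos k0 (avg_pos k1 hF)), ent_const_mul hcpos (avg_pos k0A (avg_pos k1 hF)),
    ent_const_mul hcpos (avg_pos kA hF), ent_const_mul hcpos (avg_pos k1 hF)] at hmain
  have : c * ent (avg k0 (avg k1 F)) ≤ c * (ent (avg k0A (avg k1 F)) - ent (avg kA F)
      + max (s * v) (2 / τ) * ent (avg kA F) + (1 / s) * ent (avg k1 F)) := by
    calc c * ent (avg k0 (avg k1 F)) ≤ _ := hmain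
      _ = _ := by ring
  exact le_of_mul_le_mul_left this hcpos

end

end Vale.Agent.P162
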