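import Vale.Agent.P162.General
import Vale.Agent.P162.Bits
import Vale.Agent.P162.CubeProd
import Vale.Agent.P162.SLAbs
import Vale.Agent.P162.EntExtra
import Vale.Agent.P162.BridgeA

/-!
# P162: link between the Thorp shuffle and `pass`: definitions   (tasks F*)

See `notes/P162_proof.md`, section 1.  Deck of `2 * 2 ^ e` cards, `d = e + 1`;
coordinate `i` of the cube = binary digit `e - i` of the position.
-/

namespace Vale.Agent.P162

open Finset Vale.Agent.P335

open scoped Classical Fin.NatCast Fin.CommRing

noncomputable section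

/-- Coordinate `i` of a position is its binary digit `e - i` (coordinate `0` is the top digit). -/
def cubeFun (e : ℕ) (x : Fin (2 * 2 ^ e)) : Cube (e + 1) := fun i => x.val.testBit (e - i.val)

theorem cubeFun_injective (e : ℕ) : Function.Injective (cubeFun e) := by
  intro x y h
  apply Fin.ext
  apply Nat.eq_of_testBit_eq
  intro k
  by_cases hk : k ≤ e
  · have := congrFun h ⟨e - k, by omega⟩
    simp only [cubeFun] at this
    rwa [show e - (e - k) = k by omega] at this
  · have hpow : 2 * 2 ^ e ≤ 2 ^ k := by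
      rw [← pow_succ']
      exact Nat.pow_le_pow_right (by norm_num) (by omega)
    rw [Nat.testBit_lt_two_pow (lt_of_lt_of_le x.isLt hpow),
      Nat.testBit_lt_two_pow (lt_of_lt_of_le y.isLt hpow)]

theorem cubeFun_bijective (e : ℕ) : Function.Bijective (cubeFun e) :=
  (Fintype.bijective_iff_injective_and_card _).2 ⟨cubeFun_injective e, by simp [pow_succ']⟩

/-- `cubeFun` as an equivalence. -/
def cubeEquiv (e : ℕ) : Fin (2 * 2 ^ e) ≃ Cube (e + 1) :=
  Equiv.ofBijective (cubeFun e) (cubeFun_bijective e)

theorem cubeEquiv_apply (e : ℕ) (x : Fin (2 * 2 ^ e)) (i : Fin (e + 1)) :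
    cubeEquiv e x i = x.val.testBit (e - i.val) := rfl

/-- Rotation of the coordinates. -/
def rot (e : ℕ) : Equiv.Perm (Cube (e + 1)) where
  toFun p := fun i => p (i + 1)
  invFun p := fun i => p (i - 1)
  left_inv p := by funext i; simp
  right_inv p := by funext i; simp

theorem rot_apply (e : ℕ) (p : Cube (e + 1)) (i : Fin (e + 1)) : rot e p i = p (i + 1) := rfl

theorem rot_inv_apply (e : ℕ) (p : Cube (e + 1)) (i : Fin (e + 1)) :
    (rot e)⁻¹ p i = p (i - 1) := rfl

theorem rot_pow_apply (e t : ℕ) (p : Cube (e + 1)) (i : Fin (e + 1)) :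
    ((rot e) ^ t) p i = p (i + (t : Fin (e + 1))) := by
  induction t generalizing p i with
  | zero => simp
  | succ t ih =>
    rw [pow_succ, Equiv.Perm.mul_apply, ih, rot_apply]
    congr 1
    push_cast
    ring

theorem rot_pow_card (e : ℕ) : (rot e) ^ (e + 1) = 1 := by
  ext p i
  rw [rot_pow_apply]
  simp

/-- A permutation of the positions which shifts the binary digits up is a Thorp shuffle. -/
theorem exists_thorpPerm_eq (e : ℕ) (τ : Equiv.Perm (Fin (2 * 2 ^ e)))
    (hτ : ∀ x : Fin (2 * 2 ^ e), ∀ k, k < e → (τ x).val.testBit (k + 1) = x.val.testBit k) :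
    ∃ c : Fin (2 ^ e) → Bool, thorpPerm (2 ^ e) c = τ := by
  have hm : 0 < 2 ^ e := by positivity
  have hdiv : ∀ x : Fin (2 * 2 ^ e), (τ x).val / 2 = x.val % 2 ^ e := by
    intro x
    apply Nat.eq_of_testBit_eq
    intro k
    rw [Nat.testBit_div_two, Nat.testBit_mod_two_pow]
    by_cases hk : k < e
    · simp [hk, hτ x k hk]
    · have hpow : 2 * 2 ^ e ≤ 2 ^ (k + 1) := by
        rw [← pow_succ']
        exact Nat.pow_le_pow_right (by norm_num) (by omega)
      rw [Nat.testBit_lt_two_pow (lt_of_lt_of_le (τ x).isLt hpow)]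
      simp [hk]
  refine ⟨fun y => decide ((τ ⟨y.val, by have := y.isLt; omega⟩).val % 2 = 1), ?_⟩
  ext x
  show (thorpFun (2 ^ e) _ x).val = (τ x).val
  have hx := x.isLt
  have h1 := hdiv x
  unfold thorpFun
  by_cases h : x.val < 2 ^ e
  · simp only [h, dif_pos, Fin.eta]
    rw [Nat.mod_eq_of_lt h] at h1
    by_cases hp : (τ x).val % 2 = 1
    · simp only [hp, decide_true, if_true]; omega
    · simp only [hp, decide_false]; simp; omega
  · simp only [h, dif_neg, not_false_eq_true]
    have hmod : x.val % 2 ^ e = x.val - 2 ^ e := by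
      rw [Nat.mod_eq_sub_mod (by omega), Nat.mod_eq_of_lt (by omega)]
    rw [hmod] at h1
    have h2 := hdiv ⟨x.val - 2 ^ e, by omega⟩
    simp only [] at h2
    rw [Nat.mod_eq_of_lt (by omega)] at h2
    have hne : (τ x).val ≠ (τ ⟨x.val - 2 ^ e, by omega⟩).val := by
      intro heq
      have : x = ⟨x.val - 2 ^ e, by omega⟩ := τ.injective (Fin.ext heq)
      have := congrArg Fin.val this
      simp only [] at this
      omega
    by_cases hp : (τ ⟨x.val - 2 ^ e, by omega⟩).val % 2 = 1
    · simp only [hp, decide_true, if_true]; omega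
    · simp only [hp, decide_false]; simp; omega

theorem thorpPerm_injective (m : ℕ) : Function.Injective (thorpPerm m) := by
  intro c c' h
  funext y
  have hy := y.isLt
  have h1 : (thorpFun m c ⟨y.val, by omega⟩).val = (thorpFun m c' ⟨y.val, by omega⟩).val := by
    have := congrArg (fun s : Equiv.Perm (Fin (2 * m)) => (s ⟨y.val, by omega⟩).val) h
    exact this
  unfold thorpFun at h1
  simp only [hy, dif_pos] at h1
  have hyy : (⟨y.val, hy⟩ : Fin m) = y := Fin.ext rfl
  rw [hyy] at h1
  cases hc : c y <;> cases hc' : c' y <;> simp [hc, hc'] at h1 ⊢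

/-- density (with respect to the uniform law) of the deck after `t` shuffles, in cube coordinates. -/
def dens (e t : ℕ) : Equiv.Perm (Cube (e + 1)) → ℝ := fun g =>
  (Fintype.card (Equiv.Perm (Cube (e + 1))) : ℝ) *
    convPow (thorpLaw (2 ^ e)) t ((cubeEquiv e).permCongrHom.symm g)

/-- Two arrangements have the same key `all columns but j` iff they agree off column `j`. -/
theorem key_not_eq_iff (d j : ℕ) (g g' : Equiv.Perm (Cube d)) :
    key Set.univ (US d j 1) g = key Set.univ (US d j 1) g' ↔ ∀ c i, i.val ≠ j → g c i = g' c i := by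
  have hmem : ∀ i : Fin d, i ∈ US d j 1 ↔ i.val ≠ j := by
    intro i
    simp only [US, Set.mem_ofPred_eq]
    omega
  constructor
  · intro h c i hi
    have h1 := congrFun h c
    simp only [key, lab, Set.mem_univ, if_true, Prod.mk.injEq, true_and] at h1
    have h2 := congrFun h1 i
    simpa [mask, (hmem i).2 hi] using h2
  · intro h
    funext c
    simp only [key, lab, Set.mem_univ, if_true, Prod.mk.injEq, true_and]
    funext i
    by_cases hi : i.val = j
    · have : i ∉ US d j 1 := fun hh => (hmem i).1 hh hi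
      simp [mask, this]
    · simp [mask, (hmem i).2 hi, h c i hi]

end

end Vale.Agent.P162
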