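import Vale.Agent.P162.LinkStep

/-!
# P162: `d` shuffles = one pass; total variation   (tasks F3, F4)
-/

namespace Vale.Agent.P162

open Finset Vale.Agent.P335

open scoped Classical Fin.NatCast Fin.CommRing

noncomputable section

theorem kernel_rot (e t : ℕ) (ht : t < e + 1) (z z' : Equiv.Perm (Cube (e + 1))) :
    key Set.univ (US (e + 1) 0 1) ((rot e) ^ t * z) = key Set.univ (US (e + 1) 0 1) ((rot e) ^ t * z')
      ↔ key Set.univ (US (e + 1) t 1) z = key Set.univ (US (e + 1) t 1) z' := by
  rw [key_not_eq_iff, key_not_eq_iff]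
  have hval : ((t : Fin (e + 1))).val = t := by
    rw [Fin.val_natCast, Nat.mod_eq_of_lt ht]
  constructor
  · intro h c i hi
    have hne : (i - (t : Fin (e + 1))).val ≠ 0 := by
      intro h0
      have h1 : i - (t : Fin (e + 1)) = 0 := Fin.ext h0
      have h2 : i = (t : Fin (e + 1)) := sub_eq_zero.mp h1
      exact hi (by rw [h2, hval])
    have := h c (i - (t : Fin (e + 1))) hne
    rw [Equiv.Perm.mul_apply, Equiv.Perm.mul_apply, rot_pow_apply, rot_pow_apply] at this
    simpa using this
  · intro h c i hi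
    rw [Equiv.Perm.mul_apply, Equiv.Perm.mul_apply, rot_pow_apply, rot_pow_apply]
    apply h
    intro h0
    apply hi
    have h1 : i + (t : Fin (e + 1)) = (t : Fin (e + 1)) := Fin.ext (by rw [h0, hval])
    have h2 : i = 0 := by simpa using h1
    rw [h2]; rfl

theorem iterate_stepOp (e t : ℕ) (ht : t ≤ e + 1) (Φ : Equiv.Perm (Cube (e + 1)) → ℝ) :
    (stepOp e)^[t] Φ = fun g => passSeq Φ t (((rot e) ^ t)⁻¹ * g) := by
  induction t with
  | zero => funext g; simp [passSeq]
  | succ t ih =>
    rw [Function.iterate_succ_apply', ih (by omega)]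
    funext g
    unfold stepOp
    have hkey : key Set.univ (US (e + 1) 0 1) = fun y : Equiv.Perm (Cube (e + 1)) =>
        (fun z => key Set.univ (US (e + 1) 0 1) ((rot e) ^ t * z)) (Equiv.mulLeft (((rot e) ^ t)⁻¹) y) := by
      funext y
      simp
    rw [hkey]
    have h1 := avg_comp_equiv (Equiv.mulLeft (((rot e) ^ t)⁻¹))
      (fun z => key Set.univ (US (e + 1) 0 1) ((rot e) ^ t * z)) (passSeq Φ t) ((rot e)⁻¹ * g)
    simp only [Equiv.coe_mulLeft] at h1 ⊢
    rw [h1]
    have h2 : avg (fun z => key Set.univ (US (e + 1) 0 1) ((rot e) ^ t * z)) = avg (key Set.univ (US (e + 1) t 1)) :=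
      avg_eq_of_kernel (fun z z' => kernel_rot e t (by omega) z z')
    rw [h2]
    show avg (key Set.univ (US (e + 1) t 1)) (passSeq Φ t) _ = avg (key Set.univ (US (e + 1) t 1)) (passSeq Φ t) _
    congr 1
    rw [pow_succ']
    group

theorem iterate_stepOp_card (e : ℕ) (Φ : Equiv.Perm (Cube (e + 1)) → ℝ) :
    (stepOp e)^[e + 1] Φ = pass Φ := by
  rw [iterate_stepOp e (e + 1) le_rfl, rot_pow_card]
  funext g
  simp [pass]

theorem dens_eq_iterate (e t : ℕ) : dens e t = (stepOp e)^[t] (dens e 0) := by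
  induction t with
  | zero => rfl
  | succ t ih => rw [dens_succ, Function.iterate_succ_apply', ih]

theorem dens_mul_aux (e k : ℕ) : dens e ((e + 1) * k) = pass^[k] (dens e 0) := by
  rw [dens_eq_iterate, Function.iterate_mul]
  congr 1
  funext Φ
  exact iterate_stepOp_card e Φ

theorem card_perm_cube_eq (e : ℕ) :
    Fintype.card (Equiv.Perm (Fin (2 * 2 ^ e))) = Fintype.card (Equiv.Perm (Cube (e + 1))) :=
  Fintype.card_congr (cubeEquiv e).permCongrHom.toEquiv

/-- Total variation distance after `t` shuffles in terms of the density. -/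
theorem thorpDist_eq (e t : ℕ) :
    thorpDist (2 ^ e) t = 1 / 2 * mean (fun g => |dens e t g - 1|) := by
  unfold thorpDist tvDist mean
  congr 1
  have hM : (0 : ℝ) < (Fintype.card (Equiv.Perm (Cube (e + 1))) : ℝ) := by
    exact_mod_cast Fintype.card_pos
  rw [← Equiv.sum_comp (cubeEquiv e).permCongrHom.symm.toEquiv, Finset.sum_div]
  refine Finset.sum_congr rfl fun g _ => ?_
  unfold unifLaw dens
  rw [card_perm_cube_eq]
  set M : ℝ := (Fintype.card (Equiv.Perm (Cube (e + 1))) : ℝ) with hMdef
  have h1 : ∀ a : ℝ, M * a - 1 = M * (a - 1 / M) := by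
    intro a; field_simp
  rw [h1, abs_mul, abs_of_pos hM]
  simp only [MulEquiv.toEquiv_eq_coe, EquivLike.coe_coe]
  field_simp

theorem dens_zero_apply (e : ℕ) (g : Equiv.Perm (Cube (e + 1))) :
    dens e 0 g = if g = 1 then (Fintype.card (Equiv.Perm (Cube (e + 1))) : ℝ) else 0 := by
  unfold dens
  simp only [convPow]
  by_cases h : g = 1
  · subst h
    rw [map_one, if_pos rfl, if_pos rfl, mul_one]
  · have : (cubeEquiv e).permCongrHom.symm g ≠ 1 := by
      intro h1
      apply h
      have := congrArg (cubeEquiv e).permCongrHom h1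
      rwa [MulEquiv.apply_symm_apply, map_one] at this
    rw [if_neg this, if_neg h, mul_zero]

theorem dens_zero (e : ℕ) : dens e 0 = pointMass 1 := by
  funext g
  rw [dens_zero_apply]
  unfold pointMass
  by_cases h : g = 1 <;> simp [h]

theorem dens_add_pass (e s : ℕ) : dens e (s + (e + 1)) = pass (dens e s) := by
  rw [dens_eq_iterate, Nat.add_comm s (e + 1), Function.iterate_add_apply, ← dens_eq_iterate,
    iterate_stepOp_card]

theorem dens_mul (e t : ℕ) : dens e ((e + 1) * t) = pass^[t] (pointMass 1) := by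
  rw [dens_mul_aux, dens_zero]

end

end Vale.Agent.P162
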