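import Vale.Agent.P162.LinkDefs

/-!
# P162: one shuffle in cube coordinates   (tasks F1, F2)

`convPow μ (t+1) = conv μ (convPow μ t)` (associativity, in BridgeA), so
`dens (t+1) g = 2 ^ (-m) * ∑ c, dens t ((π_c)⁻¹ * g)`, `π_c` = `thorpPerm` in cube coordinates, and
`c ↦ (π_c)⁻¹ * g` is a bijection from the coin vectors onto the class of `rot⁻¹ * g`.
-/

namespace Vale.Agent.P162

open Finset Vale.Agent.P335

open scoped Classical Fin.NatCast Fin.CommRing

noncomputable section

/-- One Thorp shuffle in cube coordinates. -/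
def sig (e : ℕ) (c : Fin (2 ^ e) → Bool) : Equiv.Perm (Cube (e + 1)) :=
  (cubeEquiv e).permCongrHom (thorpPerm (2 ^ e) c)

theorem sig_apply (e : ℕ) (c : Fin (2 ^ e) → Bool) (p : Cube (e + 1)) :
    sig e c p = cubeEquiv e (thorpPerm (2 ^ e) c ((cubeEquiv e).symm p)) := rfl

theorem sig_shift (e : ℕ) (c : Fin (2 ^ e) → Bool) (p : Cube (e + 1)) (i : Fin (e + 1))
    (hi : i ≠ 0) : sig e c p (i - 1) = p i := by
  rw [sig_apply, cubeEquiv_apply]
  have hv : (i - 1).val = i.val - 1 := Fin.val_sub_one_of_ne_zero hi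
  have hi0 : i.val ≠ 0 := fun h => hi (Fin.ext h)
  have hil := i.isLt
  rw [hv, show e - (i.val - 1) = (e - i.val) + 1 by omega,
    thorpPerm_testBit e c _ (e - i.val) (by omega), ← cubeEquiv_apply]
  simp

theorem one_step (e : ℕ) (Φ : Equiv.Perm (Cube (e + 1)) → ℝ) (g : Equiv.Perm (Cube (e + 1))) :
    (∑ c : Fin (2 ^ e) → Bool, Φ ((sig e c)⁻¹ * g)) / 2 ^ (2 ^ e)
      = avg (key Set.univ (US (e + 1) 0 1)) Φ ((rot e)⁻¹ * g) := by
  rw [avg_eq_of_param (key Set.univ (US (e + 1) 0 1)) ((rot e)⁻¹ * g) (fun c => (sig e c)⁻¹ * g) ?_ ?_ ?_ Φ]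
  · simp
  · intro c c' h
    have h1 : sig e c = sig e c' := by
      have := mul_right_cancel h
      exact inv_injective this
    exact thorpPerm_injective _ ((cubeEquiv e).permCongrHom.injective h1)
  · intro c
    rw [key_not_eq_iff]
    intro x i hi
    have hi' : i ≠ 0 := fun h => hi (by rw [h]; rfl)
    rw [Equiv.Perm.mul_apply, Equiv.Perm.mul_apply, rot_inv_apply]
    have := sig_shift e c ((sig e c)⁻¹ (g x)) i hi'
    rw [← this]
    simp
  · intro y hy
    rw [key_not_eq_iff] at hy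
    obtain ⟨c, hc⟩ := exists_thorpPerm_eq e ((cubeEquiv e).permCongrHom.symm (g * y⁻¹)) (by
      intro x k hk
      have h1 := hy (y⁻¹ (cubeEquiv e x)) ⟨e - k, by omega⟩ (by simp; omega)
      rw [Equiv.Perm.mul_apply, rot_inv_apply] at h1
      have hne : (⟨e - k, by omega⟩ : Fin (e + 1)) ≠ 0 := by
        intro h
        have := congrArg Fin.val h
        simp at this
        omega
      have hv : ((⟨e - k, by omega⟩ : Fin (e + 1)) - 1).val = e - k - 1 :=
        Fin.val_sub_one_of_ne_zero hne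
      have h2 : (((cubeEquiv e).permCongrHom.symm (g * y⁻¹)) x)
          = (cubeEquiv e).symm (g (y⁻¹ (cubeEquiv e x))) := rfl
      rw [h2]
      have h3 : (y (y⁻¹ (cubeEquiv e x))) = cubeEquiv e x := by simp
      rw [h3, cubeEquiv_apply] at h1
      simp only [] at h1
      rw [show e - (e - k) = k by omega] at h1
      rw [h1]
      have h4 := cubeEquiv_apply e ((cubeEquiv e).symm (g (y⁻¹ (cubeEquiv e x)))) ((⟨e - k, by omega⟩ : Fin (e + 1)) - 1)
      rw [Equiv.apply_symm_apply, hv, show e - (e - k - 1) = k + 1 by omega] at h4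
      exact h4.symm)
    refine ⟨c, ?_⟩
    show (sig e c)⁻¹ * g = y
    unfold sig
    rw [hc, MulEquiv.apply_symm_apply]
    group

/-- The action of one shuffle on densities, in cube coordinates. -/
def stepOp (e : ℕ) (Φ : Equiv.Perm (Cube (e + 1)) → ℝ) : Equiv.Perm (Cube (e + 1)) → ℝ :=
  fun g => avg (key Set.univ (US (e + 1) 0 1)) Φ ((rot e)⁻¹ * g)

theorem dens_succ (e t : ℕ) : dens e (t + 1) = stepOp e (dens e t) := by
  funext g
  unfold stepOp
  rw [← one_step]
  unfold dens
  rw [convPow_succ', conv_thorpLaw, mul_div_assoc', Finset.mul_sum]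
  congr 1
  refine Finset.sum_congr rfl fun c _ => ?_
  congr 2
  unfold sig
  rw [map_mul, map_inv, MulEquiv.symm_apply_apply]


end

end Vale.Agent.P162
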