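import Mathlib

/-!
# P162: the potential argument (L4 of the blueprint), abstract form, and the weights of section 6

* `abel_nonpos`, `abel_nonneg` : Abel summation against nonnegative nonincreasing weights;
* `wts eps` : `w_0 = 1`, `w_s = w_{s-1} (1 - eps_s)`;
* `potential` : from (i) `a (j+1) 0 = a j 1`, (ii) monotonicity, `a 0 d = 0` and the multi level
  inequality (iii) one gets `a d 0 <= (1 - w_{d-1}) a 0 0`;
* `epsW`, `tW` : the weights `eps_s`, `t_r` of section 6, their elementary properties, the uniform lower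
  bound `wts_epsW_ge` for the products and the arithmetic of the induction step `step_weights`.
-/

namespace Vale.Agent.P162

open Finset

/-- Abel summation: nonnegative nonincreasing weights, all initial sums of `x` are `<= 0`. -/
theorem abel_nonpos (m : ℕ) (w x : ℕ → ℝ) (hw0 : ∀ s, 0 ≤ w s) (hw : ∀ s, w (s + 1) ≤ w s)
    (hX : ∀ S, S ≤ m → ∑ s ∈ range S, x s ≤ 0) : ∑ s ∈ range m, w s * x s ≤ 0 := by
  have key : ∀ M, M ≤ m → ∑ s ∈ range M, w s * x s ≤ w M * ∑ s ∈ range M, x s := by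
    intro M
    induction M with
    | zero => intro _; simp
    | succ M ih =>
      intro hM
      have h1 := ih (by omega)
      have h2 := hX (M + 1) hM
      rw [sum_range_succ, sum_range_succ]
      rw [sum_range_succ] at h2
      have h3 : w M * (∑ s ∈ range M, x s + x M) ≤ w (M + 1) * (∑ s ∈ range M, x s + x M) := by
        have := hw M
        nlinarith
      nlinarith
  have h1 := key m le_rfl
  have h2 := hX m le_rfl
  have h3 := hw0 m
  nlinarith

/-- Abel summation: nonnegative nonincreasing weights, all initial sums of `x` are `>= 0`. -/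
theorem abel_nonneg (m : ℕ) (w x : ℕ → ℝ) (hw0 : ∀ s, 0 ≤ w s) (hw : ∀ s, w (s + 1) ≤ w s)
    (hX : ∀ S, S ≤ m → 0 ≤ ∑ s ∈ range S, x s) : 0 ≤ ∑ s ∈ range m, w s * x s := by
  have := abel_nonpos m w (fun s => - x s) hw0 hw (by
    intro S hS
    have := hX S hS
    simp only [sum_neg_distrib]
    linarith)
  simp only [mul_neg, sum_neg_distrib] at this
  linarith

/-- `w_0 = 1`, `w_s = w_{s-1} (1 - eps_s)` -/
noncomputable def wts (eps : ℕ → ℝ) : ℕ → ℝ
  | 0 => 1
  | s + 1 => wts eps s * (1 - eps (s + 1))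

theorem wts_nonneg {eps : ℕ → ℝ} (h1 : ∀ s, eps s ≤ 1) (s : ℕ) : 0 ≤ wts eps s := by
  induction s with
  | zero => simp [wts]
  | succ s ih =>
    have := h1 (s + 1)
    simp only [wts]
    exact mul_nonneg ih (by linarith)

theorem wts_succ_le {eps : ℕ → ℝ} (h0 : ∀ s, 0 ≤ eps s) (h1 : ∀ s, eps s ≤ 1) (s : ℕ) :
    wts eps (s + 1) ≤ wts eps s := by
  have := wts_nonneg h1 s
  have := h0 (s + 1)
  simp only [wts]
  nlinarith

theorem wts_antitone {eps : ℕ → ℝ} (h0 : ∀ s, 0 ≤ eps s) (h1 : ∀ s, eps s ≤ 1) :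
    Antitone (wts eps) :=
  antitone_nat_of_succ_le (wts_succ_le h0 h1)

/-- the potential `Phi_j` -/
noncomputable def potPhi (d : ℕ) (a : ℕ → ℕ → ℝ) (eps : ℕ → ℝ) (j : ℕ) : ℝ :=
  ∑ s ∈ range (d - j), wts eps s * (a j s - a j (s + 1))

theorem potPhi_step (d : ℕ) (a : ℕ → ℕ → ℝ) (eps : ℕ → ℝ) (h0 : ∀ s, 0 ≤ eps s)
    (h1 : ∀ s, eps s ≤ 1) (hi : ∀ j, j < d → a (j + 1) 0 = a j 1)
    (hiii : ∀ j r, 1 ≤ r → j + r < d →
      a (j + 1) r - a j (r + 1) ≤ ∑ s ∈ Icc 1 r, eps s * (a j s - a j (s + 1)))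
    (j : ℕ) (hj : j < d) :
    potPhi d a eps j - (a j 0 - a j 1) ≤ potPhi d a eps (j + 1) := by
  obtain ⟨m, hm⟩ : ∃ m, d = j + 1 + m := ⟨d - (j + 1), by omega⟩
  have e1 : d - j = m + 1 := by omega
  have e2 : d - (j + 1) = m := by omega
  unfold potPhi
  rw [e1, e2, sum_range_succ']
  set x : ℕ → ℝ := fun s => (a j (s + 1) - a j (s + 2)) - (a (j + 1) s - a (j + 1) (s + 1))
    - eps (s + 1) * (a j (s + 1) - a j (s + 2)) with hx
  have hsum : ∑ s ∈ range m, wts eps (s + 1) * (a j (s + 1) - a j (s + 1 + 1))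
      - ∑ s ∈ range m, wts eps s * (a (j + 1) s - a (j + 1) (s + 1))
      = ∑ s ∈ range m, wts eps s * x s := by
    rw [← sum_sub_distrib]
    apply sum_congr rfl
    intro s _
    simp only [hx, wts]
    ring
  have hX : ∀ S, S ≤ m → ∑ s ∈ range S, x s ≤ 0 := by
    intro S hS
    rcases Nat.eq_zero_or_pos S with rfl | hpos
    · simp
    have h3 := hiii j S hpos (by omega)
    have t1 : ∑ s ∈ range S, (a j (s + 1) - a j (s + 2)) = a j 1 - a j (S + 1) := by
      have := Finset.sum_range_sub' (fun s => a j (s + 1)) S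
      simpa using this
    have t2 : ∑ s ∈ range S, (a (j + 1) s - a (j + 1) (s + 1)) = a (j + 1) 0 - a (j + 1) S :=
      Finset.sum_range_sub' (fun s => a (j + 1) s) S
    have t3 : ∑ s ∈ range S, eps (s + 1) * (a j (s + 1) - a j (s + 2))
        = ∑ s ∈ Icc 1 S, eps s * (a j s - a j (s + 1)) := by
      rw [Finset.range_eq_Ico, Finset.sum_Ico_add' (fun s => eps s * (a j s - a j (s + 1))) 0 S 1]
      congr 1
    have t4 : ∑ s ∈ range S, x s = ∑ s ∈ range S, (a j (s + 1) - a j (s + 2))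
        - ∑ s ∈ range S, (a (j + 1) s - a (j + 1) (s + 1))
        - ∑ s ∈ range S, eps (s + 1) * (a j (s + 1) - a j (s + 2)) := by
      rw [← sum_sub_distrib, ← sum_sub_distrib]
    rw [t4, t1, t2, t3, hi j hj]
    linarith
  have habel := abel_nonpos m (wts eps) x (wts_nonneg h1) (wts_succ_le h0 h1) hX
  have w0 : wts eps 0 = 1 := rfl
  rw [w0]
  simp only [zero_add, one_mul]
  linarith

/-- **(L4)** the potential argument. -/
theorem potential (d : ℕ) (hd : 1 ≤ d) (a : ℕ → ℕ → ℝ) (eps : ℕ → ℝ) (h0 : ∀ s, 0 ≤ eps s)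
    (h1 : ∀ s, eps s ≤ 1) (hi : ∀ j, j < d → a (j + 1) 0 = a j 1)
    (hii : ∀ s, s < d → a 0 (s + 1) ≤ a 0 s) (hz : a 0 d = 0)
    (hiii : ∀ j r, 1 ≤ r → j + r < d →
      a (j + 1) r - a j (r + 1) ≤ ∑ s ∈ Icc 1 r, eps s * (a j s - a j (s + 1))) :
    a d 0 ≤ (1 - wts eps (d - 1)) * a 0 0 := by
  have hstep := potPhi_step d a eps h0 h1 hi hiii
  have hind : ∀ j, j ≤ d → potPhi d a eps 0 - (a 0 0 - a j 0) ≤ potPhi d a eps j := by
    intro j
    induction j with
    | zero => intro _; simp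
    | succ j ih =>
      intro hj
      have h2 := ih (by omega)
      have h3 := hstep j (by omega)
      rw [hi j (by omega)]
      linarith
  have hd0 : potPhi d a eps d = 0 := by simp [potPhi]
  have hP0 : wts eps (d - 1) * a 0 0 ≤ potPhi d a eps 0 := by
    unfold potPhi
    have t : ∑ s ∈ range d, (a 0 s - a 0 (s + 1)) = a 0 0 - a 0 d :=
      Finset.sum_range_sub' (fun s => a 0 s) d
    have : wts eps (d - 1) * a 0 0 = ∑ s ∈ range d, wts eps (d - 1) * (a 0 s - a 0 (s + 1)) := by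
      rw [← mul_sum, t, hz, sub_zero]
    rw [this, Nat.sub_zero]
    apply sum_le_sum
    intro s hs
    have hs' : s < d := mem_range.mp hs
    apply mul_le_mul_of_nonneg_right
    · exact wts_antitone h0 h1 (by omega)
    · have := hii s hs'; linarith
  have := hind d le_rfl
  rw [hd0] at this
  linarith

/-! ### the weights of section 6 (`sigma0 = 200`) -/

/-- `eps_s = 5/6 + 1/200^2` for `s <= 200`, `4/s^2` for `s > 200` -/
noncomputable def epsW (s : ℕ) : ℝ := if s ≤ 200 then 5 / 6 + 1 / 200 ^ 2 else 4 / (s : ℝ) ^ 2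

/-- `t_r = 1 / max(r,200)^2` -/
noncomputable def tW (r : ℕ) : ℝ := 1 / ((max r 200 : ℕ) : ℝ) ^ 2

theorem epsW_of_le {s : ℕ} (h : s ≤ 200) : epsW s = 5 / 6 + 1 / 200 ^ 2 := by
  unfold epsW; rw [if_pos h]

theorem epsW_of_gt {s : ℕ} (h : 200 < s) : epsW s = 4 / (s : ℝ) ^ 2 := by
  unfold epsW; rw [if_neg (by omega)]

theorem tW_of_le {r : ℕ} (h : r ≤ 200) : tW r = 1 / 200 ^ 2 := by
  unfold tW; rw [max_eq_right h]; norm_num

theorem tW_of_ge {r : ℕ} (h : 200 ≤ r) : tW r = 1 / (r : ℝ) ^ 2 := by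
  unfold tW; rw [max_eq_left h]

theorem epsW_nonneg (s : ℕ) : 0 ≤ epsW s := by
  unfold epsW; split_ifs <;> positivity

theorem four_div_sq_le {s : ℕ} (h : 200 < s) : 4 / (s : ℝ) ^ 2 ≤ 1 / 10000 := by
  have hs : (200 : ℝ) < s := by exact_mod_cast h
  rw [div_le_div_iff₀ (by positivity) (by norm_num)]
  nlinarith

theorem epsW_le (s : ℕ) : epsW s ≤ 5 / 6 + 1 / 200 ^ 2 := by
  by_cases h : s ≤ 200
  · rw [epsW_of_le h]
  · rw [epsW_of_gt (by omega)]
    have := four_div_sq_le (s := s) (by omega)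
    norm_num at this ⊢
    linarith

theorem epsW_le_one (s : ℕ) : epsW s ≤ 1 := (epsW_le s).trans (by norm_num)

theorem epsW_succ_le (s : ℕ) : epsW (s + 1) ≤ epsW s := by
  by_cases h : s + 1 ≤ 200
  · rw [epsW_of_le h, epsW_of_le (by omega)]
  · by_cases h' : s ≤ 200
    · rw [epsW_of_le h']; exact epsW_le _
    · rw [epsW_of_gt (by omega), epsW_of_gt (by omega)]
      have hs : (0 : ℝ) < s := by
        have : 0 < s := by omega
        exact_mod_cast this
      push_cast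
      apply div_le_div_of_nonneg_left (by norm_num) (by positivity)
      exact pow_le_pow_left₀ hs.le (by linarith) 2

theorem epsW_antitone : Antitone epsW := antitone_nat_of_succ_le epsW_succ_le

/-- the weights `eps_s - t_r`, `s <= r`, are nonnegative -/
theorem tW_le_epsW {s r : ℕ} (h : s ≤ r) : tW r ≤ epsW s := by
  by_cases hr : r ≤ 200
  · rw [tW_of_le hr, epsW_of_le (by omega)]; norm_num
  · rw [tW_of_ge (by omega)]
    have hr' : (200 : ℝ) < r := by
      have : 200 < r := by omega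
      exact_mod_cast this
    by_cases hs : s ≤ 200
    · rw [epsW_of_le hs]
      have : 1 / (r : ℝ) ^ 2 ≤ 1 := by
        rw [div_le_one (by positivity)]; nlinarith
      have h2 : 1 / (r : ℝ) ^ 2 ≤ 1 / 200 ^ 2 := by
        apply div_le_div_of_nonneg_left (by norm_num) (by norm_num)
        nlinarith
      linarith [show (0:ℝ) ≤ 5 / 6 by norm_num]
    · rw [epsW_of_gt (by omega)]
      have hs' : (0 : ℝ) < s := by
        have : 0 < s := by omega
        exact_mod_cast this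
      have hsr : (s : ℝ) ≤ r := by exact_mod_cast h
      rw [div_le_div_iff₀ (by positivity) (by positivity)]
      nlinarith

/-- for `r <= 200` all the weights are `5/6` -/
theorem epsW_sub_tW_of_le {s r : ℕ} (h : s ≤ r) (hr : r ≤ 200) : epsW s - tW r = 5 / 6 := by
  rw [epsW_of_le (by omega), tW_of_le hr]; ring

theorem real_pred_sub (x : ℝ) (hx : 0 < x) :
    1 / (x + 1) ^ 3 ≤ 1 / x ^ 2 - 1 / (x + 1) ^ 2 := by
  rw [div_sub_div _ _ (by positivity) (by positivity), div_le_div_iff₀ (by positivity) (by positivity)]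
  have h2 : 0 < x * x := mul_pos hx hx
  have h3 : 0 < x * x * x := mul_pos h2 hx
  have h4 : 0 < x * x * x * x := mul_pos h3 hx
  nlinarith

theorem tW_pred_sub {r : ℕ} (hr : 200 < r) : 1 / (r : ℝ) ^ 3 ≤ tW (r - 1) - tW r := by
  obtain ⟨q, rfl⟩ : ∃ q, r = q + 1 := ⟨r - 1, by omega⟩
  rw [Nat.add_sub_cancel, tW_of_ge (by omega), tW_of_ge (by omega)]
  have hq : (0 : ℝ) < q := by
    have : 0 < q := by omega
    exact_mod_cast this
  push_cast
  exact real_pred_sub q hq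

theorem top_weight {r : ℕ} (hr : 200 < r) :
    2 / (r : ℝ) ^ 2 + 1 / (r : ℝ) ^ 3 ≤ epsW r - tW r := by
  rw [epsW_of_gt hr, tW_of_ge (by omega)]
  have hr' : (200 : ℝ) < r := by exact_mod_cast hr
  have hr0 : (0 : ℝ) < r := by linarith
  have : 1 / (r : ℝ) ^ 3 ≤ 1 / (r : ℝ) ^ 2 := by
    apply div_le_div_of_nonneg_left (by norm_num) (by positivity)
    nlinarith [mul_pos hr0 hr0]
  have e : 4 / (r : ℝ) ^ 2 - 1 / (r : ℝ) ^ 2 = 2 / (r : ℝ) ^ 2 + 1 / (r : ℝ) ^ 2 := by ring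
  rw [e]; linarith

/-- arithmetic of the induction step of section 6 -/
theorem step_weights {r : ℕ} (hr : 200 < r) (D : ℕ → ℝ) (hD : ∀ s, 0 ≤ D s) (lhs br : ℝ)
    (h1 : lhs ≤ br + 2 / (r : ℝ) ^ 2 * D r + 1 / (r : ℝ) ^ 3 * ∑ s ∈ Icc 1 r, D s)
    (h2 : br ≤ ∑ s ∈ Icc 1 (r - 1), (epsW s - tW (r - 1)) * D s) :
    lhs ≤ ∑ s ∈ Icc 1 r, (epsW s - tW r) * D s := by
  obtain ⟨q, rfl⟩ : ∃ q, r = q + 1 := ⟨r - 1, by omega⟩
  rw [Nat.add_sub_cancel] at h2
  have hsplit : ∀ f : ℕ → ℝ, ∑ s ∈ Icc 1 (q + 1), f s = ∑ s ∈ Icc 1 q, f s + f (q + 1) := by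
    intro f
    rw [← Finset.sum_Icc_succ_top (by omega)]
  rw [hsplit] at h1 ⊢
  have ht := tW_pred_sub hr
  rw [Nat.add_sub_cancel] at ht
  have htop := top_weight hr
  clear hr
  have hlow : ∑ s ∈ Icc 1 q, (epsW s - tW q) * D s
      + 1 / ((q + 1 : ℕ) : ℝ) ^ 3 * ∑ s ∈ Icc 1 q, D s
      ≤ ∑ s ∈ Icc 1 q, (epsW s - tW (q + 1)) * D s := by
    rw [mul_sum, ← sum_add_distrib]
    apply sum_le_sum
    intro s _
    have := mul_nonneg (sub_nonneg.2 ht) (hD s)
    linarith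
  have hq := mul_nonneg (sub_nonneg.2 htop) (hD (q + 1))
  rw [mul_add] at h1
  linarith

theorem wts_epsW_small (D : ℕ) (hD : D ≤ 200) : (1 / 12 : ℝ) ^ D ≤ wts epsW D := by
  induction D with
  | zero => simp [wts]
  | succ D ih =>
    have h1 := ih (by omega)
    simp only [wts]
    rw [epsW_of_le hD, pow_succ]
    have h2 : (0 : ℝ) ≤ (1 / 12 : ℝ) ^ D := by positivity
    nlinarith

theorem wts_epsW_large (D : ℕ) (hD : 200 ≤ D) :
    (1 / 12 : ℝ) ^ 200 * (1 - 4 / 200 + 4 / (D : ℝ)) ≤ wts epsW D := by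
  induction D, hD using Nat.le_induction with
  | base =>
    have := wts_epsW_small 200 le_rfl
    have e : (1 - 4 / 200 + 4 / ((200 : ℕ) : ℝ)) = 1 := by norm_num
    rw [e, mul_one]; exact this
  | succ D hD ih =>
    simp only [wts]
    rw [epsW_of_gt (by omega)]
    have hD' : (200 : ℝ) ≤ D := by exact_mod_cast hD
    have hD0 : (0 : ℝ) < D := by linarith
    set c : ℝ := (1 / 12 : ℝ) ^ 200 with hc
    have hc0 : 0 < c := by positivity
    push_cast
    have hy1 : 1 - 4 / 200 + 4 / (D : ℝ) ≤ 1 := by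
      have : 4 / (D : ℝ) ≤ 4 / 200 := by
        apply div_le_div_of_nonneg_left (by norm_num) (by norm_num) hD'
      linarith
    have hy0 : 0 ≤ 1 - 4 / 200 + 4 / (D : ℝ) := by
      have : 0 ≤ 4 / (D : ℝ) := by positivity
      linarith
    have hf0 : 0 ≤ 1 - 4 / ((D : ℝ) + 1) ^ 2 := by
      have : 4 / ((D : ℝ) + 1) ^ 2 ≤ 1 := by
        rw [div_le_one (by positivity)]; nlinarith
      linarith
    have hkey : 1 - 4 / 200 + 4 / ((D : ℝ) + 1)
        ≤ (1 - 4 / 200 + 4 / (D : ℝ)) * (1 - 4 / ((D : ℝ) + 1) ^ 2) := by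
      have h3 : 4 / ((D : ℝ) + 1) + 4 / ((D : ℝ) + 1) ^ 2 ≤ 4 / (D : ℝ) := by
        rw [div_add_div _ _ (by positivity) (by positivity),
          div_le_div_iff₀ (by positivity) (by positivity)]
        nlinarith [mul_pos hD0 hD0]
      have h4 : 0 ≤ 4 / ((D : ℝ) + 1) ^ 2 := by positivity
      nlinarith
    calc c * (1 - 4 / 200 + 4 / ((D : ℝ) + 1))
        ≤ c * ((1 - 4 / 200 + 4 / (D : ℝ)) * (1 - 4 / ((D : ℝ) + 1) ^ 2)) :=
          mul_le_mul_of_nonneg_left hkey hc0.le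
      _ = (c * (1 - 4 / 200 + 4 / (D : ℝ))) * (1 - 4 / ((D : ℝ) + 1) ^ 2) := by ring
      _ ≤ wts epsW D * (1 - 4 / ((D : ℝ) + 1) ^ 2) := mul_le_mul_of_nonneg_right ih hf0

/-- the constant `c` of the main theorem -/
noncomputable def cW : ℝ := (1 / 12 : ℝ) ^ 200 * (49 / 50)

theorem cW_pos : 0 < cW := by unfold cW; positivity

theorem cW_le_one : cW ≤ 1 := by
  unfold cW
  have : (1 / 12 : ℝ) ^ 200 ≤ 1 := pow_le_one₀ (by norm_num) (by norm_num)
  nlinarith

/-- uniform lower bound for the products `prod (1 - eps_s)` -/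
theorem wts_epsW_ge (D : ℕ) : cW ≤ wts epsW D := by
  unfold cW
  by_cases h : D ≤ 200
  · have h1 := wts_epsW_small D h
    have h2 : (1 / 12 : ℝ) ^ 200 ≤ (1 / 12 : ℝ) ^ D :=
      pow_le_pow_of_le_one (by norm_num) (by norm_num) h
    have h3 : (0 : ℝ) ≤ (1 / 12 : ℝ) ^ 200 := by positivity
    nlinarith
  · have h1 := wts_epsW_large D (by omega)
    have h3 : (0 : ℝ) ≤ (1 / 12 : ℝ) ^ 200 := by positivity
    have h4 : (0 : ℝ) ≤ 4 / (D : ℝ) := by positivity
    nlinarith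

/-- (L4) with the weights of section 6: one pass contracts by `1 - cW`. -/
theorem potential_epsW (d : ℕ) (hd : 1 ≤ d) (a : ℕ → ℕ → ℝ) (ha : 0 ≤ a 0 0)
    (hi : ∀ j, j < d → a (j + 1) 0 = a j 1)
    (hii : ∀ s, s < d → a 0 (s + 1) ≤ a 0 s) (hz : a 0 d = 0)
    (hiii : ∀ j r, 1 ≤ r → j + r < d →
      a (j + 1) r - a j (r + 1) ≤ ∑ s ∈ Icc 1 r, epsW s * (a j s - a j (s + 1))) :
    a d 0 ≤ (1 - cW) * a 0 0 := by
  have h := potential d hd a epsW epsW_nonneg epsW_le_one hi hii hz hiii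
  have h2 := wts_epsW_ge (d - 1)
  nlinarith

end Vale.Agent.P162
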