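import Vale.Agent.P162.CubeClean
import Vale.Agent.P162.Potential

/-!
# P162: the induction on the height `r`, and the one-pass contraction   (tasks G1, G2)

See `notes/P162_proof.md`, sections 6 and 2.
-/

namespace Vale.Agent.P162

open Finset Vale.Agent.P335

open scoped Classical

noncomputable section

variable {d : ℕ}

theorem sum_Icc_telescope (f : ℕ → ℝ) (r : ℕ) :
    ∑ s ∈ Icc 1 r, (f s - f (s + 1)) = f 1 - f (r + 1) := by
  induction r with
  | zero => simp
  | succ r ih => rw [Finset.sum_Icc_succ_top (by omega), ih]; ring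

theorem level_nonneg (T : Set (Cube d)) (j s : ℕ) (F : Equiv.Perm (Cube d) → ℝ)
    (hF : ∀ g, 0 < F g) :
    0 ≤ ent (avg (key T (US d j s)) F) - ent (avg (key T (US d j (s + 1))) F) := by
  have := ent_avg_le_of_finer (k := key T (US d j s)) (k' := key T (US d j (s + 1)))
    (fun x y h => key_finer (US_succ_subset d j s) T x y h) hF
  linarith

/-- SC(r) for `r ≤ 200`, from L1. -/
theorem SC_small (r : ℕ) (hr : 1 ≤ r) (hr2 : r ≤ 200) (d j : ℕ) (hjr : j + r < d) (p0 : Cube d) :
    MLcube d (cell (US d j (r + 1)) p0) j r (fun s => epsW s - tW r) := by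
  intro F hF
  have h := L1_cube j r hr hjr p0 F hF
  have e : ∑ s ∈ Icc 1 r, (fun s => epsW s - tW r) s *
      (ent (avg ((fun s => key (cell (US d j (r + 1)) p0) (US d j s)) s) F)
        - ent (avg ((fun s => key (cell (US d j (r + 1)) p0) (US d j s)) (s + 1)) F))
      = 5 / 6 * (ent (avg (key (cell (US d j (r + 1)) p0) (US d j 1)) F)
        - ent (avg (key (cell (US d j (r + 1)) p0) (US d j (r + 1))) F)) := by
    rw [← sum_Icc_telescope (fun s => ent (avg (key (cell (US d j (r + 1)) p0) (US d j s)) F)) r,
      Finset.mul_sum]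
    refine Finset.sum_congr rfl (fun s hs => ?_)
    have hs' := Finset.mem_Icc.mp hs
    simp only
    rw [epsW_sub_tW_of_le hs'.2 hr2]
  rw [e]
  exact h

/-- SC(r) for `r > 200`, from SL+ and MC(r-1). -/
theorem SC_large (r : ℕ) (hr : 200 < r) (d j : ℕ) (hjr : j + r < d) (p0 : Cube d)
    (ih : MLcube d (cell (US d j (r + 1)) p0) j (r - 1) (fun s => epsW s - tW (r - 1))) :
    MLcube d (cell (US d j (r + 1)) p0) j r (fun s => epsW s - tW r) := by
  intro F hF
  have h := SL_cube j r hr hjr p0 F hF
  have h2 := ih F hF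
  have e1 : r - 1 + 1 = r := by omega
  simp only [e1] at h2
  set T := cell (US d j (r + 1)) p0 with hT
  have htel := sum_Icc_telescope (fun s => ent (avg (key T (US d j s)) F)) r
  rw [← htel] at h
  exact step_weights hr
    (fun s => ent (avg (key T (US d j s)) F) - ent (avg (key T (US d j (s + 1))) F))
    (fun s => level_nonneg T j s F hF) _ _ h h2

/-- Claim(r): MC(r) with the weights `epsW s - tW r`. -/
theorem MC_all (r : ℕ) (hr : 1 ≤ r) : ∀ (d j : ℕ), j + r < d → ∀ T : Set (Cube d),
    Saturated (US d j (r + 1)) T → MLcube d T j r (fun s => epsW s - tW r) := by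
  induction r, hr using Nat.le_induction with
  | base =>
    intro d j hjr T hT
    refine MLcube_of_cells j 1 _ (fun s _ hs => ?_) (fun s _ _ => ?_)
      (fun p0 => SC_small 1 le_rfl (by norm_num) d j hjr p0) T hT
    · have := tW_le_epsW hs; linarith
    · have := epsW_succ_le s; linarith
  | succ r hr ih =>
    intro d j hjr T hT
    refine MLcube_of_cells j (r + 1) _ (fun s _ hs => ?_) (fun s _ _ => ?_) (fun p0 => ?_) T hT
    · have := tW_le_epsW hs; linarith
    · have := epsW_succ_le s; linarith
    · by_cases h200 : r + 1 ≤ 200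
      · exact SC_small (r + 1) (by omega) h200 d j hjr p0
      · refine SC_large (r + 1) (by omega) d j hjr p0 ?_
        rw [Nat.add_sub_cancel]
        exact ih d j (by omega) _
          ((saturated_cell (US d j (r + 1 + 1)) p0).mono (US_succ_subset d j (r + 1)))

/-- The ML-SDPI used by the potential argument. -/
theorem ML_univ (d j r : ℕ) (hr : 1 ≤ r) (hjr : j + r < d) :
    MLcube d (Set.univ : Set (Cube d)) j r epsW := by
  refine MLkey.mono (fun s _ _ x y h => key_finer (US_succ_subset d j s) _ x y h)
    (MC_all r hr d j hjr Set.univ (saturated_univ _)) (fun s _ _ => ?_)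
  have : 0 ≤ tW r := by unfold tW; positivity
  linarith

theorem passSeq_pos (F : Equiv.Perm (Cube d) → ℝ) (hF : ∀ g, 0 < F g) (j : ℕ) :
    ∀ g, 0 < passSeq F j g := by
  induction j with
  | zero => exact hF
  | succ j ih => exact fun g => avg_pos _ ih g

/-- MAIN THEOREM: one pass contracts the entropy. -/
theorem pass_contraction (hd : 1 ≤ d) (F : Equiv.Perm (Cube d) → ℝ) (hF : ∀ g, 0 < F g) :
    ent (pass F) ≤ (1 - cW) * ent F := by
  have hid : ∀ (j : ℕ) (Φ : Equiv.Perm (Cube d) → ℝ),
      avg (key Set.univ (US d j 0)) Φ = Φ := by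
    intro j Φ
    rw [US_zero]
    exact avg_of_injective (key_univ_injective _) Φ
  have h := potential_epsW d hd
    (fun j s => ent (avg (key Set.univ (US d j s)) (passSeq F j))) ?_ ?_ ?_ ?_ ?_
  · simp only [hid] at h
    exact h
  · simp only [hid]
    exact ent_nonneg hF
  · intro j _
    simp only [hid]
    rfl
  · intro s _
    exact ent_avg_le_of_finer
      (fun x y h => key_finer (US_succ_subset d 0 s) _ x y h) (passSeq_pos F hF 0)
  · rw [US_zero_d, avg_of_const_key (fun x y => key_univ_empty_const x y)]
    exact ent_const _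
  · intro j r hr hjr
    have := ML_univ d j r hr hjr (passSeq F j) (passSeq_pos F hF j)
    simp only at this ⊢
    rw [← VS_eq_US]
    exact this

end

end Vale.Agent.P162
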