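import Vale.Agent.P162.Bits

namespace Vale.Agent.P162

open Finset

/-- positions whose binary digit number `i` is zero -/
def bitZero (N i : ℕ) : Finset (Fin N) := univ.filter fun x => x.val.testBit i = false

theorem card_bitZero (e i : ℕ) (hi : i < e + 1) : (bitZero (2 * 2 ^ e) i).card = 2 ^ e := by
  have h := two_mul_card_testBit (2 * 2 ^ e) (e + 1) i (by ring) hi (fun _ => True) (fun _ => Iff.rfl)
  simp only [true_and, Finset.filter_true, Finset.card_univ, Fintype.card_fin] at h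
  unfold bitZero
  omega

theorem card_bitZero_compl (e i : ℕ) (hi : i < e + 1) :
    ((bitZero (2 * 2 ^ e) i)ᶜ).card = 2 ^ e := by
  rw [Finset.card_compl, card_bitZero e i hi, Fintype.card_fin]
  omega

theorem card_two_bits (e : ℕ) (he : 1 ≤ e) :
    ((univ : Finset (Fin (2 * 2 ^ e))).filter
      fun x => x.val.testBit e = false ∧ x.val.testBit 0 = false).card = 2 ^ (e - 1) := by
  have h := two_mul_card_testBit (2 * 2 ^ e) (e + 1) 0 (by ring) (by omega)
    (fun x => x.testBit e = false) (by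
      intro x
      rw [Nat.testBit_xor, Nat.testBit_two_pow]
      have : ¬ (0 = e) := by omega
      simp [this])
  have h2 := card_bitZero e e (by omega)
  unfold bitZero at h2
  rw [h2] at h
  have h3 : 2 ^ e = 2 * 2 ^ (e - 1) := by
    rw [← pow_succ']
    congr 1
    omega
  omega

theorem reach_balance (e : ℕ) (he : 1 ≤ e) (g : Equiv.Perm (Fin (2 * 2 ^ e)))
    (hg : Reach {a | thorpLaw (2 ^ e) a ≠ 0} (2 * e) g) :
    ((bitZero (2 * 2 ^ e) 0).filter fun x => g x ∈ bitZero (2 * 2 ^ e) e).card = 2 ^ (e - 1) := by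
  have hg' : Reach {a | thorpLaw (2 ^ e) a ≠ 0} (e + e) g := by
    have h2e : e + e = 2 * e := by ring
    rw [h2e]
    exact hg
  obtain ⟨g₁, g₂, h1, h2, rfl⟩ := reach_add _ e e g hg'
  rw [← card_two_bits e he]
  refine Finset.card_equiv g₂ fun x => ?_
  have a1 := reach_testBit e e g₁ h1 (g₂ x) 0 (by omega)
  have a2 := reach_testBit e e g₂ h2 x 0 (by omega)
  simp only [zero_add] at a1 a2
  simp only [bitZero, Finset.mem_filter, Finset.mem_univ, true_and, Equiv.Perm.mul_apply]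
  rw [a1, a2]

/-- The exact form of the bound at every time `t ≤ 2 e` for a deck of `2 ^ (e + 1)` cards. -/
theorem thorpDist_ge (e : ℕ) (he : 1 ≤ e) (t : ℕ) (ht : t ≤ 2 * e) :
    1 - (((2 ^ e).choose (2 ^ (e - 1)) : ℕ) : ℝ) ^ 2 / (((2 * 2 ^ e).choose (2 ^ e) : ℕ) : ℝ)
      ≤ thorpDist (2 ^ e) t := by
  unfold thorpDist
  refine le_trans ?_ (tvDist_convPow_antitone (thorpLaw (2 ^ e)) (thorpLaw_nonneg _)
    (sum_thorpLaw _) ht)
  set E := bitZero (2 * 2 ^ e) 0 with hE
  set T := bitZero (2 * 2 ^ e) e with hT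
  set C := (univ.filter fun g : Equiv.Perm (Fin (2 * 2 ^ e)) =>
    (E.filter fun x => g x ∈ T).card = 2 ^ (e - 1)) with hC
  have hsupp : ∀ g, g ∉ C → convPow (thorpLaw (2 ^ e)) (2 * e) g = 0 := by
    intro g hg
    by_contra hne
    apply hg
    rw [hC, Finset.mem_filter]
    exact ⟨Finset.mem_univ _, reach_balance e he g (reach_of_convPow_ne_zero _ _ _ hne)⟩
  refine le_trans (le_of_eq ?_) (tvDist_ge_of_support _ (sum_convPow _ (sum_thorpLaw _) _) C hsupp)
  have hEc : E.card = 2 ^ e := card_bitZero e 0 (by omega)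
  have hTc : T.card = 2 ^ e := card_bitZero e e (by omega)
  have hTcc : (Tᶜ).card = 2 ^ e := card_bitZero_compl e e (by omega)
  have hle : 2 ^ (e - 1) ≤ 2 ^ e := Nat.pow_le_pow_right (by norm_num) (by omega)
  have hcount := card_perm_inter E T (2 ^ (e - 1)) (by rw [hEc]; exact hle)
  rw [hEc, hTc, hTcc, Fintype.card_fin] at hcount
  have hsub : 2 ^ e - 2 ^ (e - 1) = 2 ^ (e - 1) := by
    have h3 : 2 ^ e = 2 * 2 ^ (e - 1) := by
      rw [← pow_succ']
      congr 1
      omega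
    omega
  rw [hsub] at hcount
  have hcard : Fintype.card (Equiv.Perm (Fin (2 * 2 ^ e))) = (2 * 2 ^ e).factorial := by
    rw [Fintype.card_perm, Fintype.card_fin]
  rw [hcard]
  have hch : (0 : ℝ) < (((2 * 2 ^ e).choose (2 ^ e) : ℕ) : ℝ) := by
    exact_mod_cast Nat.choose_pos (by omega)
  have hf : (0 : ℝ) < (((2 * 2 ^ e).factorial : ℕ) : ℝ) := by
    exact_mod_cast Nat.factorial_pos _
  have hcount' : (C.card : ℝ) * (((2 * 2 ^ e).choose (2 ^ e) : ℕ) : ℝ)
      = (((2 * 2 ^ e).factorial : ℕ) : ℝ) * ((((2 ^ e).choose (2 ^ (e - 1)) : ℕ) : ℝ) ^ 2) := by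
    rw [sq]
    exact_mod_cast hcount
  congr 1
  rw [div_eq_div_iff hch.ne' hf.ne']
  linarith

end Vale.Agent.P162
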