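import Vale.Agent.P162.LabelKey

/-!
# P162: basic facts on a pair structure

`ι0` as a permutation, the number of pairs, the group `lstab ℓ` of pair flips has `2 ^ κ` elements
(parametrised by the subsets of `{p | γ p = true}`).
-/

namespace Vale.Agent.P162

open Finset Vale.Agent.P335

open scoped Classical

noncomputable section

set_option linter.unusedSectionVars false

variable {X : Type*} [Fintype X] [DecidableEq X] {β : Type*}
variable {γ : X → Bool} {ι0 : X → X} {ℓ : X → β}

/-- The involution as a permutation. -/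
def PairStr.perm (h : PairStr γ ι0 ℓ) : Equiv.Perm X := ⟨ι0, ι0, h.invol, h.invol⟩

@[simp] theorem PairStr.perm_apply (h : PairStr γ ι0 ℓ) (x : X) : h.perm x = ι0 x := rfl

theorem PairStr.perm_inv (h : PairStr γ ι0 ℓ) : h.perm⁻¹ = h.perm := rfl

theorem PairStr.ne (h : PairStr γ ι0 ℓ) (x : X) : ι0 x ≠ x := by
  intro hx
  have := h.flip x
  rw [hx] at this
  cases hg : γ x <;> simp [hg] at this

theorem PairStr.lab_iota (h : PairStr γ ι0 ℓ) (x : X) : ℓ (ι0 x) = ℓ x :=
  ((h.lab x (ι0 x)).2 (Or.inr rfl)).symm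

/-- Number of pairs. -/
def kap (γ : X → Bool) : ℕ := (univ.filter (fun x => γ x = true)).card

theorem PairStr.card_false (h : PairStr γ ι0 ℓ) :
    (univ.filter (fun x => γ x = false)).card = kap γ := by
  unfold kap
  refine card_bij' (fun x _ => ι0 x) (fun x _ => ι0 x) ?_ ?_ ?_ ?_
  · intro x hx
    rw [mem_filter] at hx ⊢
    refine ⟨mem_univ _, ?_⟩
    rw [h.flip, hx.2]
    rfl
  · intro x hx
    rw [mem_filter] at hx ⊢
    refine ⟨mem_univ _, ?_⟩
    rw [h.flip, hx.2]
    rfl
  · intro x _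
    exact h.invol x
  · intro x _
    exact h.invol x

theorem PairStr.card_X (h : PairStr γ ι0 ℓ) : Fintype.card X = 2 * kap γ := by
  have h1 := card_filter_add_card_filter_not (s := (univ : Finset X))
    (fun x => γ x = true)
  have h2 : (univ.filter (fun x => ¬ γ x = true)) = univ.filter (fun x => γ x = false) := by
    ext x
    simp
  rw [h2, h.card_false, card_univ] at h1
  unfold kap at h1 ⊢
  omega

theorem PairStr.mem_lstab (h : PairStr γ ι0 ℓ) {c : Equiv.Perm X} :
    c ∈ lstab ℓ ↔ ∀ p, c p = p ∨ c p = ι0 p := by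
  rw [Vale.Agent.P162.mem_lstab]
  constructor
  · intro hc p
    exact (h.lab p (c p)).1 (hc p).symm
  · intro hc p
    exact ((h.lab p (c p)).2 (hc p)).symm

/-- The permutation which flips the pairs meeting `A`. -/
def PairStr.flipPerm (h : PairStr γ ι0 ℓ) (A : Finset X) : Equiv.Perm X :=
  Function.Involutive.toPerm (fun p => if p ∈ A ∨ ι0 p ∈ A then ι0 p else p) (by
    intro p
    by_cases hp : p ∈ A ∨ ι0 p ∈ A
    · have hp' : ι0 p ∈ A ∨ ι0 (ι0 p) ∈ A := by
        rw [h.invol]
        exact hp.symm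
      show (if (if p ∈ A ∨ ι0 p ∈ A then ι0 p else p) ∈ A ∨
        ι0 (if p ∈ A ∨ ι0 p ∈ A then ι0 p else p) ∈ A then
          ι0 (if p ∈ A ∨ ι0 p ∈ A then ι0 p else p) else (if p ∈ A ∨ ι0 p ∈ A then ι0 p else p)) = p
      rw [if_pos hp, if_pos hp', h.invol]
    · show (if (if p ∈ A ∨ ι0 p ∈ A then ι0 p else p) ∈ A ∨
        ι0 (if p ∈ A ∨ ι0 p ∈ A then ι0 p else p) ∈ A then
          ι0 (if p ∈ A ∨ ι0 p ∈ A then ι0 p else p) else (if p ∈ A ∨ ι0 p ∈ A then ι0 p else p)) = p
      rw [if_neg hp, if_neg hp])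

theorem PairStr.flipPerm_apply (h : PairStr γ ι0 ℓ) (A : Finset X) (p : X) :
    h.flipPerm A p = if p ∈ A ∨ ι0 p ∈ A then ι0 p else p := rfl

theorem PairStr.flipPerm_mem (h : PairStr γ ι0 ℓ) (A : Finset X) : h.flipPerm A ∈ lstab ℓ := by
  rw [h.mem_lstab]
  intro p
  rw [h.flipPerm_apply]
  split_ifs
  · exact Or.inr rfl
  · exact Or.inl rfl

/-- An element of `lstab ℓ` moves `p` iff it moves `ι0 p`. -/
theorem PairStr.lstab_move_iff (h : PairStr γ ι0 ℓ) {c : Equiv.Perm X} (hc : c ∈ lstab ℓ) (p : X) :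
    c (ι0 p) ≠ ι0 p ↔ c p ≠ p := by
  rw [h.mem_lstab] at hc
  constructor
  · intro h1 h2
    rcases hc (ι0 p) with h3 | h3
    · exact h1 h3
    · rw [h.invol] at h3
      have := c.injective (h3.trans h2.symm)
      exact h.ne p this
  · intro h1 h2
    rcases hc p with h3 | h3
    · exact h1 h3
    · have := c.injective (h3.trans h2.symm)
      exact h.ne p this.symm

/-- The set of (positive representatives of) pairs flipped by `c`. -/
def flipSet (γ : X → Bool) (c : Equiv.Perm X) : Finset X :=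
  univ.filter (fun p => γ p = true ∧ c p ≠ p)

theorem PairStr.flipPerm_flipSet (h : PairStr γ ι0 ℓ) {c : Equiv.Perm X} (hc : c ∈ lstab ℓ) :
    h.flipPerm (flipSet γ c) = c := by
  ext p
  rw [h.flipPerm_apply]
  have hiff : (p ∈ flipSet γ c ∨ ι0 p ∈ flipSet γ c) ↔ c p ≠ p := by
    unfold flipSet
    simp only [mem_filter, mem_univ, true_and]
    rw [h.lstab_move_iff hc, h.flip]
    cases hg : γ p <;> simp
  by_cases hp : c p = p
  · rw [if_neg (by rw [hiff]; exact not_not.2 hp), hp]
  · rw [if_pos (hiff.2 hp)]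
    rcases (h.mem_lstab.1 hc) p with h3 | h3
    · exact absurd h3 hp
    · exact h3.symm

theorem PairStr.flipSet_flipPerm (h : PairStr γ ι0 ℓ) {A : Finset X}
    (hA : A ⊆ univ.filter (fun x => γ x = true)) : flipSet γ (h.flipPerm A) = A := by
  ext p
  unfold flipSet
  simp only [mem_filter, mem_univ, true_and]
  rw [h.flipPerm_apply]
  constructor
  · rintro ⟨hg, hne⟩
    by_cases hp : p ∈ A ∨ ι0 p ∈ A
    · rcases hp with hp | hp
      · exact hp
      · have := (mem_filter.1 (hA hp)).2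
        rw [h.flip, hg] at this
        simp at this
    · rw [if_neg hp] at hne
      exact absurd rfl hne
  · intro hp
    refine ⟨(mem_filter.1 (hA hp)).2, ?_⟩
    rw [if_pos (Or.inl hp)]
    exact h.ne p

/-- The group of pair flips has `2 ^ κ` elements. -/
theorem PairStr.card_lstab (h : PairStr γ ι0 ℓ) : (lstab ℓ).card = 2 ^ kap γ := by
  unfold kap
  rw [← card_powerset]
  refine card_bij' (fun c _ => flipSet γ c) (fun A _ => h.flipPerm A) ?_ ?_ ?_ ?_
  · intro c _
    rw [mem_powerset]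
    intro p hp
    unfold flipSet at hp
    rw [mem_filter] at hp ⊢
    exact ⟨mem_univ _, hp.2.1⟩
  · intro A _
    exact h.flipPerm_mem A
  · intro c hc
    exact h.flipPerm_flipSet hc
  · intro A hA
    exact h.flipSet_flipPerm (mem_powerset.1 hA)

end

end Vale.Agent.P162
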