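import Vale.Agent.P162.Kernel
import Vale.Agent.P162.BinBounds

/-!
# P162: concentration of the number of split pairs   (task K5)

`a = α ∘ τ` is equidistributed on the balanced functions `X → Bool` (`mean_lkey`,
`exists_perm_lkey_iff`), there are `choose (2k) k ≥ 4 ^ k / (2 k)` of them
(`Nat.four_pow_le_two_mul_self_mul_centralBinom`).  Among ALL functions `a : X → Bool`, the number with exactly
`u` split pairs is `choose k u * 2 ^ k` (each pair: 2 split patterns, 2 unsplit ones).
Then `chernoff`.
-/

namespace Vale.Agent.P162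

open Finset Vale.Agent.P335

open scoped Classical

noncomputable section

variable {X : Type*} [Fintype X] [DecidableEq X] {β : Type*}

/-- representatives of the pairs -/
def reps (γ : X → Bool) : Finset X := univ.filter (fun p => γ p = true)

/-- the representatives of the pairs split by a colouring -/
def splitSet (γ : X → Bool) (ι0 : X → X) (a : X → Bool) : Finset X :=
  (reps γ).filter (fun p => a p ≠ a (ι0 p))

/-- the representatives coloured `true` -/
def trueSet (γ : X → Bool) (a : X → Bool) : Finset X :=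
  (reps γ).filter (fun p => a p = true)

theorem splitU_eq_card (α γ : X → Bool) (ι0 : X → X) (τ : Equiv.Perm X) :
    splitU α γ ι0 τ = (splitSet γ ι0 (lkey α τ)).card := by
  unfold splitU splitSet reps lkey
  rw [filter_filter]

theorem card_alpha {r : ℕ} (hr : 1 ≤ r) {α γ : X → Bool} {ι0 : X → X} {ℓ : X → β}
    (h : TopStr r α γ ι0 ℓ) (b : Bool) : (univ.filter (fun x => α x = b)).card = 2 ^ r := by
  have h1 : univ.filter (fun x => α x = b)
      = univ.filter (fun x => α x = b ∧ γ x = true) ∪ univ.filter (fun x => α x = b ∧ γ x = false) := by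
    ext x
    simp only [mem_filter, mem_univ, true_and, mem_union]
    cases γ x <;> simp
  have h2 : Disjoint (univ.filter (fun x => α x = b ∧ γ x = true))
      (univ.filter (fun x => α x = b ∧ γ x = false)) := by
    rw [disjoint_left]
    intro x hx hx'
    simp only [mem_filter, mem_univ, true_and] at hx hx'
    rw [hx.2] at hx'
    exact absurd hx'.2 (by simp)
  rw [h1, card_union_of_disjoint h2, h.cells, h.cells]
  obtain ⟨s, rfl⟩ : ∃ s, r = s + 1 := ⟨r - 1, by omega⟩
  simp [pow_succ]
  ring

theorem card_reps {r : ℕ} (hr : 1 ≤ r) {α γ : X → Bool} {ι0 : X → X} {ℓ : X → β}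
    (h : TopStr r α γ ι0 ℓ) : (reps γ).card = 2 ^ r := by
  have h1 : reps γ
      = univ.filter (fun x => α x = true ∧ γ x = true) ∪ univ.filter (fun x => α x = false ∧ γ x = true) := by
    ext x
    simp only [reps, mem_filter, mem_univ, true_and, mem_union]
    cases α x <;> simp
  have h2 : Disjoint (univ.filter (fun x => α x = true ∧ γ x = true))
      (univ.filter (fun x => α x = false ∧ γ x = true)) := by
    rw [disjoint_left]
    intro x hx hx'
    simp only [mem_filter, mem_univ, true_and] at hx hx'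
    rw [hx.1] at hx'
    exact absurd hx'.1 (by simp)
  rw [h1, card_union_of_disjoint h2, h.cells, h.cells]
  obtain ⟨s, rfl⟩ : ∃ s, r = s + 1 := ⟨r - 1, by omega⟩
  simp [pow_succ]
  ring

theorem colouring_inj {γ : X → Bool} {ι0 : X → X} {ℓ : X → β} (h : PairStr γ ι0 ℓ)
    {a a' : X → Bool} (h1 : splitSet γ ι0 a = splitSet γ ι0 a')
    (h2 : trueSet γ a = trueSet γ a') : a = a' := by
  have hrep : ∀ p, γ p = true → a p = a' p := by
    intro p hp
    have : p ∈ trueSet γ a ↔ p ∈ trueSet γ a' := by rw [h2]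
    simp only [trueSet, reps, mem_filter, mem_univ, true_and, hp] at this
    cases ha : a p <;> cases ha' : a' p <;> simp_all
  have hrep' : ∀ p, γ p = true → a (ι0 p) = a' (ι0 p) := by
    intro p hp
    have : p ∈ splitSet γ ι0 a ↔ p ∈ splitSet γ ι0 a' := by rw [h1]
    simp only [splitSet, reps, mem_filter, mem_univ, true_and, hp] at this
    have hpp := hrep p hp
    rw [← hpp] at this
    cases hb : a p <;> cases ha : a (ι0 p) <;> cases ha' : a' (ι0 p) <;> simp_all
  funext x
  cases hx : γ x
  · have h3 : γ (ι0 x) = true := by rw [h.flip, hx]; rfl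
    have := hrep' (ι0 x) h3
    rwa [h.invol] at this
  · exact hrep x hx

theorem card_bad_le {γ : X → Bool} {ι0 : X → X} {ℓ : X → β} (h : PairStr γ ι0 ℓ)
    (Bad : ℕ → Prop) :
    (univ.filter (fun a : X → Bool => Bad (splitSet γ ι0 a).card)).card
      ≤ (∑ u ∈ (range ((reps γ).card + 1)).filter Bad, (reps γ).card.choose u)
          * 2 ^ (reps γ).card := by
  have hinj : (univ.filter (fun a : X → Bool => Bad (splitSet γ ι0 a).card)).card
      ≤ (((reps γ).powerset.filter (fun D => Bad D.card)) ×ˢ (reps γ).powerset).card := by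
    apply card_le_card_of_injOn (fun a => (splitSet γ ι0 a, trueSet γ a))
    · intro a ha
      have ha' := (mem_filter.1 (mem_coe.1 ha)).2
      simp only [coe_product, Set.mem_prod, mem_coe, mem_filter, mem_powerset]
      exact ⟨⟨filter_subset _ _, ha'⟩, filter_subset _ _⟩
    · intro a _ a' _ heq
      simp only [Prod.mk.injEq] at heq
      exact colouring_inj h heq.1 heq.2
  have hcount : ((reps γ).powerset.filter (fun D => Bad D.card)).card
      = ∑ u ∈ (range ((reps γ).card + 1)).filter Bad, (reps γ).card.choose u := by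
    rw [card_filter, sum_powerset_apply_card (fun u => if Bad u then 1 else 0), sum_filter]
    apply sum_congr rfl
    intro u _
    split_ifs <;> simp
  rw [card_product, card_powerset, hcount] at hinj
  exact hinj

theorem card_bal_ge {r : ℕ} (hr : 1 ≤ r) {α γ : X → Bool} {ι0 : X → X} {ℓ : X → β}
    (h : TopStr r α γ ι0 ℓ) :
    Nat.centralBinom (2 ^ r)
      ≤ (univ.filter (fun t : X → Bool => ∃ g : Equiv.Perm X, lkey α g = t)).card := by
  have hX : Fintype.card X = 2 * 2 ^ r := by
    rw [card_X_of_topStr hr h, pow_succ]; ring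
  have hc : Nat.centralBinom (2 ^ r) = (powersetCard (2 ^ r) (univ : Finset X)).card := by
    rw [card_powersetCard, card_univ, hX, Nat.centralBinom]
  rw [hc]
  apply card_le_card_of_injOn (fun s => fun x => decide (x ∈ s))
  · intro s hs
    have hs' := (mem_powersetCard.1 (mem_coe.1 hs)).2
    have hmem : ∃ g : Equiv.Perm X, lkey α g = fun x => decide (x ∈ s) := by
      rw [exists_perm_lkey_iff]
      intro b
      have e2 := card_alpha hr h b
      have e1 : (univ.filter (fun x => decide (x ∈ s) = b)).card = 2 ^ r := by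
        cases b
        · have h1 : univ.filter (fun x => decide (x ∈ s) = false) = univ \ s := by
            ext x; simp
          rw [h1, card_sdiff_of_subset (subset_univ _), card_univ, hX, hs']
          omega
        · have h1 : univ.filter (fun x => decide (x ∈ s) = true) = s := by
            ext x; simp
          rw [h1, hs']
      convert e1.trans e2.symm
    exact mem_coe.2 (mem_filter.2 ⟨mem_univ _, hmem⟩)
  · intro s _ s' _ heq
    ext x
    have := congrFun heq x
    simpa using this

theorem split_tail {r : ℕ} (hr : 1 ≤ r) {α γ : X → Bool} {ι0 : X → X} {ℓ : X → β}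
    (h : TopStr r α γ ι0 ℓ) (w : ℝ) (hw : 0 ≤ w) :
    mean (fun τ : Equiv.Perm X =>
        if w < |(splitU α γ ι0 τ : ℝ) - 2 ^ r / 2| then (1 : ℝ) else 0)
      ≤ 4 * 2 ^ r * Real.exp (-2 * w ^ 2 / 2 ^ r) := by
  set k : ℕ := 2 ^ r with hk
  have hk0 : 0 < k := by positivity
  have hkr : ((k : ℕ) : ℝ) = 2 ^ r := by rw [hk]; push_cast; rfl
  set E : ℝ := Real.exp (-2 * w ^ 2 / 2 ^ r) with hE
  have hE0 : 0 < E := Real.exp_pos _
  let Bad : ℕ → Prop := fun u => w < |(u : ℝ) - 2 ^ r / 2|
  let Ψ : (X → Bool) → ℝ := fun a => if Bad (splitSet γ ι0 a).card then (1 : ℝ) else 0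
  have hΨ0 : ∀ a, 0 ≤ Ψ a := by
    intro a
    simp only [Ψ]
    split_ifs <;> norm_num
  set Bal := univ.filter (fun t : X → Bool => ∃ g : Equiv.Perm X, lkey α g = t) with hBal
  have hmean : mean (fun τ : Equiv.Perm X =>
        if w < |(splitU α γ ι0 τ : ℝ) - 2 ^ r / 2| then (1 : ℝ) else 0)
      = (∑ t ∈ Bal, Ψ t) / (Bal.card : ℝ) := by
    have hm := mean_lkey α Ψ
    have h0 : mean (fun τ : Equiv.Perm X =>
        if w < |(splitU α γ ι0 τ : ℝ) - 2 ^ r / 2| then (1 : ℝ) else 0)
        = mean (fun g : Equiv.Perm X => Ψ (lkey α g)) := by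
      apply mean_congr
      intro τ
      simp only [Ψ, Bad, splitU_eq_card]
    rw [h0, hm]
    congr!
  have hreps := card_reps hr h
  have hnum : ∑ t ∈ Bal, Ψ t ≤ 4 ^ k * (2 * E) := by
    calc ∑ t ∈ Bal, Ψ t ≤ ∑ t, Ψ t :=
          sum_le_sum_of_subset_of_nonneg (subset_univ _) (fun t _ _ => hΨ0 t)
      _ = ((univ.filter (fun a : X → Bool => Bad (splitSet γ ι0 a).card)).card : ℝ) := by
          simp only [Ψ]
          rw [← sum_filter, sum_const, nsmul_eq_mul, mul_one]
      _ ≤ (((∑ u ∈ (range (k + 1)).filter Bad, k.choose u) * 2 ^ k : ℕ) : ℝ) := by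
          have := card_bad_le h.toPairStr Bad
          rw [hreps] at this
          exact_mod_cast this
      _ = (∑ u ∈ (range (k + 1)).filter Bad, (k.choose u : ℝ)) * 2 ^ k := by
          push_cast; ring
      _ ≤ (∑ u ∈ (range (k + 1)).filter (fun u : ℕ => w ≤ |(u : ℝ) - (k : ℝ) / 2|),
            (k.choose u : ℝ)) * 2 ^ k := by
          apply mul_le_mul_of_nonneg_right _ (by positivity)
          apply sum_le_sum_of_subset_of_nonneg
          · intro u hu
            rw [mem_filter] at hu ⊢
            refine ⟨hu.1, ?_⟩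
            rw [hkr]
            exact hu.2.le
          · intro u _ _
            positivity
      _ ≤ (2 ^ k * (2 * Real.exp (-2 * w ^ 2 / (k : ℝ)))) * 2 ^ k :=
          mul_le_mul_of_nonneg_right (chernoff k hk0 w hw) (by positivity)
      _ = 4 ^ k * (2 * E) := by
          rw [hkr, ← hE]
          have : (4 : ℝ) ^ k = 2 ^ k * 2 ^ k := by
            rw [← mul_pow]; norm_num
          rw [this]; ring
  have hbal : (4 : ℝ) ^ k ≤ 2 * (k : ℝ) * (Bal.card : ℝ) := by
    have h1 := four_pow_le k hk0
    have h2 : (Nat.centralBinom k : ℝ) ≤ (Bal.card : ℝ) := by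
      exact_mod_cast card_bal_ge hr h
    have hk' : (0 : ℝ) ≤ 2 * (k : ℝ) := by positivity
    calc (4 : ℝ) ^ k ≤ 2 * (k : ℝ) * (Nat.centralBinom k : ℝ) := h1
      _ ≤ 2 * (k : ℝ) * (Bal.card : ℝ) := mul_le_mul_of_nonneg_left h2 hk'
  have hbalpos : (0 : ℝ) < (Bal.card : ℝ) := by
    have h4 : (0 : ℝ) < 4 ^ k := by positivity
    have hk' : (0 : ℝ) < 2 * (k : ℝ) := by positivity
    by_contra hneg
    have : (Bal.card : ℝ) ≤ 0 := not_lt.1 hneg
    nlinarith
  rw [hmean, div_le_iff₀ hbalpos]
  calc ∑ t ∈ Bal, Ψ t ≤ 4 ^ k * (2 * E) := hnum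
    _ ≤ (2 * (k : ℝ) * (Bal.card : ℝ)) * (2 * E) :=
        mul_le_mul_of_nonneg_right hbal (by positivity)
    _ = 4 * 2 ^ r * E * (Bal.card : ℝ) := by rw [hkr]; ring

end

end Vale.Agent.P162
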