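import Vale.Agent.P162.EntExtra

/-!
# P162: the multi-level inequality `MLkey` and its tensorisation (L3)   (task B1)

See `notes/P162_proof.md`, section 3, (L3).
-/

namespace Vale.Agent.P162

open Finset Vale.Agent.P335

open scoped Classical

set_option linter.unusedVariables false
set_option linter.unusedSectionVars false

noncomputable section

variable {Ω : Type*} [Fintype Ω] {K : Type*}

/-- Multi-level strong data processing inequality for the chain of keys `q 1, ..., q (r+1)`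
(finer to coarser) and the output key `l`. -/
def MLkey (r : ℕ) (ε : ℕ → ℝ) (q : ℕ → Ω → K) (l : Ω → K) : Prop :=
  ∀ F : Ω → ℝ, (∀ x, 0 < F x) →
    ent (avg l (avg (q 1) F)) - ent (avg (q (r + 1)) F)
      ≤ ∑ s ∈ Icc 1 r, ε s * (ent (avg (q s) F) - ent (avg (q (s + 1)) F))

/-- Abel summation: nonincreasing nonnegative weights, dominated sums from the bottom. -/
theorem abel_le (r : ℕ) (ε : ℕ → ℝ) (hε0 : ∀ s, 1 ≤ s → s ≤ r → 0 ≤ ε s)
    (hεa : ∀ s, 1 ≤ s → s + 1 ≤ r → ε (s + 1) ≤ ε s) (x y : ℕ → ℝ)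
    (h : ∀ S, 1 ≤ S → S ≤ r → ∑ s ∈ Icc 1 S, x s ≤ ∑ s ∈ Icc 1 S, y s) :
    ∑ s ∈ Icc 1 r, ε s * x s ≤ ∑ s ∈ Icc 1 r, ε s * y s := by
  have key : ∀ M, 1 ≤ M → M ≤ r →
      ∑ s ∈ Icc 1 M, ε s * (x s - y s) ≤ ε M * ∑ s ∈ Icc 1 M, (x s - y s) := by
    intro M hM
    induction M, hM using Nat.le_induction with
    | base => intro _; simp
    | succ M hM ih =>
      intro hMr
      have h1 := ih (by omega)
      have h2 : ∑ s ∈ Icc 1 M, (x s - y s) ≤ 0 := by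
        have := h M hM (by omega)
        rw [sum_sub_distrib]
        linarith
      have h3 := hεa M hM hMr
      rw [Finset.sum_Icc_succ_top (by omega), Finset.sum_Icc_succ_top (by omega)]
      nlinarith
  rcases Nat.eq_zero_or_pos r with hr | hr
  · subst hr; simp
  · have h1 := key r hr le_rfl
    have h2 : ∑ s ∈ Icc 1 r, (x s - y s) ≤ 0 := by
      have := h r hr le_rfl
      rw [sum_sub_distrib]
      linarith
    have h3 := hε0 r hr le_rfl
    have h4 : ∑ s ∈ Icc 1 r, ε s * (x s - y s)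
        = ∑ s ∈ Icc 1 r, ε s * x s - ∑ s ∈ Icc 1 r, ε s * y s := by
      rw [← sum_sub_distrib]
      exact sum_congr rfl (fun s _ => by ring)
    nlinarith

/-- Weights can be increased. -/
theorem MLkey.mono {r : ℕ} {ε ε' : ℕ → ℝ} {q : ℕ → Ω → K} {l : Ω → K}
    (hq : ∀ s, 1 ≤ s → s ≤ r → ∀ x y, q s x = q s y → q (s + 1) x = q (s + 1) y)
    (h : MLkey r ε q l) (hε : ∀ s, 1 ≤ s → s ≤ r → ε s ≤ ε' s) : MLkey r ε' q l := by
  intro F hF
  refine (h F hF).trans ?_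
  apply sum_le_sum
  intro s hs
  obtain ⟨hs1, hs2⟩ := mem_Icc.1 hs
  have h1 : ent (avg (q (s + 1)) F) ≤ ent (avg (q s) F) := ent_avg_le_of_finer (hq s hs1 hs2) hF
  exact mul_le_mul_of_nonneg_right (hε s hs1 hs2) (by linarith)

theorem chain_finer {r : ℕ} {q : ℕ → Ω → K}
    (h : ∀ s, 1 ≤ s → s ≤ r → ∀ x y, q s x = q s y → q (s + 1) x = q (s + 1) y)
    (s t : ℕ) (hs : 1 ≤ s) (hst : s ≤ t) (ht : t ≤ r + 1) :
    ∀ x y, q s x = q s y → q t x = q t y := by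
  induction t, hst using Nat.le_induction with
  | base => intro x y h; exact h
  | succ t hst ih =>
    intro x y hxy
    exact h t (by omega) (by omega) x y (ih (by omega) x y hxy)

theorem sum_Icc_tel (f : ℕ → ℝ) (S : ℕ) :
    ∑ s ∈ Icc 1 S, (f s - f (s + 1)) = f 1 - f (S + 1) := by
  induction S with
  | zero => simp
  | succ S ih =>
    rw [Finset.sum_Icc_succ_top (by omega), ih]
    ring

/-- (L3) tensorisation for two commuting blocks. -/
theorem MLkey.tensor [Nonempty Ω] (r : ℕ) (ε : ℕ → ℝ) (hε0 : ∀ s, 1 ≤ s → s ≤ r → 0 ≤ ε s)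
    (hεa : ∀ s, 1 ≤ s → s + 1 ≤ r → ε (s + 1) ≤ ε s)
    (q1 q2 qp : ℕ → Ω → K) (l1 l2 lp : Ω → K)
    (h1 : ∀ s, 1 ≤ s → s ≤ r → ∀ x y, q1 s x = q1 s y → q1 (s + 1) x = q1 (s + 1) y)
    (h2 : ∀ s, 1 ≤ s → s ≤ r → ∀ x y, q2 s x = q2 s y → q2 (s + 1) x = q2 (s + 1) y)
    (hl1 : ∀ x y, l1 x = l1 y → q1 (r + 1) x = q1 (r + 1) y)
    (hl2 : ∀ x y, l2 x = l2 y → q2 (r + 1) x = q2 (r + 1) y)
    (cqq : ∀ s s', 1 ≤ s → s ≤ r + 1 → 1 ≤ s' → s' ≤ r + 1 → ∀ F : Ω → ℝ,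
      avg (q1 s) (avg (q2 s') F) = avg (q2 s') (avg (q1 s) F))
    (clq : ∀ s, 1 ≤ s → s ≤ r + 1 → ∀ F : Ω → ℝ,
      avg l1 (avg (q2 s) F) = avg (q2 s) (avg l1 F))
    (cql : ∀ s, 1 ≤ s → s ≤ r + 1 → ∀ F : Ω → ℝ,
      avg (q1 s) (avg l2 F) = avg l2 (avg (q1 s) F))
    (hp : ∀ s, 1 ≤ s → s ≤ r + 1 → ∀ F : Ω → ℝ, avg (qp s) F = avg (q1 s) (avg (q2 s) F))
    (hlp : ∀ F : Ω → ℝ, avg lp F = avg l1 (avg l2 F))
    (M1 : MLkey r ε q1 l1) (M2 : MLkey r ε q2 l2) : MLkey r ε qp lp := by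
  intro F hF
  obtain ⟨G, hG⟩ : ∃ G, G = avg l2 (avg (q2 1) F) := ⟨_, rfl⟩
  obtain ⟨F', hF'⟩ : ∃ F', F' = avg (q1 (r + 1)) F := ⟨_, rfl⟩
  have hGpos : ∀ x, 0 < G x := by rw [hG]; exact avg_pos _ (avg_pos _ hF)
  have hF'pos : ∀ x, 0 < F' x := by rw [hF']; exact avg_pos _ hF
  have m1 := M1 G hGpos
  have m2 := M2 F' hF'pos
  have e1 : avg lp (avg (qp 1) F) = avg l1 (avg (q1 1) G) := by
    rw [hlp, hp 1 le_rfl (by omega), hG, cql 1 le_rfl (by omega)]
  have e2 : avg (q1 (r + 1)) G = avg l2 (avg (q2 1) F') := by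
    rw [hG, hF', cql (r + 1) (by omega) le_rfl, cqq (r + 1) 1 (by omega) le_rfl le_rfl (by omega)]
  have e3 : avg (qp (r + 1)) F = avg (q2 (r + 1)) F' := by
    rw [hp (r + 1) (by omega) le_rfl, hF', cqq (r + 1) (r + 1) (by omega) le_rfl (by omega) le_rfl]
  have hab : ∑ s ∈ Icc 1 r, ε s * ((ent (avg (q1 s) G) - ent (avg (q1 (s + 1)) G))
        + (ent (avg (q2 s) F') - ent (avg (q2 (s + 1)) F')))
      ≤ ∑ s ∈ Icc 1 r, ε s * (ent (avg (qp s) F) - ent (avg (qp (s + 1)) F)) := by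
    apply abel_le r ε hε0 hεa
    intro S hS1 hSr
    rw [sum_add_distrib, sum_Icc_tel (fun s => ent (avg (q1 s) G)),
      sum_Icc_tel (fun s => ent (avg (q2 s) F')), sum_Icc_tel (fun s => ent (avg (qp s) F))]
    -- first use of supermodularity
    have s1 := ent_supermodular (q1 (S + 1)) l2 (cql (S + 1) (by omega) (by omega))
      (Φ := avg (q1 1) (avg (q2 1) F)) (avg_pos _ (avg_pos _ hF))
    have a1 : avg (q1 (S + 1)) (avg (q1 1) (avg (q2 1) F)) = avg (q1 (S + 1)) (avg (q2 1) F) :=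
      avg_avg_of_finer (chain_finer h1 1 (S + 1) le_rfl (by omega) (by omega)) _
    have a2 : avg l2 (avg (q1 1) (avg (q2 1) F)) = avg (q1 1) G := by
      rw [hG, cql 1 le_rfl (by omega)]
    have a3 : avg (q1 (S + 1)) (avg (q1 1) G) = avg (q1 (S + 1)) G :=
      avg_avg_of_finer (chain_finer h1 1 (S + 1) le_rfl (by omega) (by omega)) _
    have a4 : avg (q1 1) (avg (q2 1) F) = avg (qp 1) F := (hp 1 le_rfl (by omega) F).symm
    rw [a1, a2, a3, a4] at s1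
    -- second use
    have s2 := ent_supermodular (q2 (S + 1)) (q1 (r + 1))
      (fun G => (cqq (r + 1) (S + 1) (by omega) le_rfl (by omega) (by omega) G).symm)
      (Φ := avg (q2 1) (avg (q1 (S + 1)) F)) (avg_pos _ (avg_pos _ hF))
    have b1 : avg (q2 (S + 1)) (avg (q2 1) (avg (q1 (S + 1)) F)) = avg (qp (S + 1)) F := by
      rw [avg_avg_of_finer (chain_finer h2 1 (S + 1) le_rfl (by omega) (by omega)),
        hp (S + 1) (by omega) (by omega),
        cqq (S + 1) (S + 1) (by omega) (by omega) (by omega) (by omega)]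
    have b2 : avg (q1 (r + 1)) (avg (q2 1) (avg (q1 (S + 1)) F)) = avg (q2 1) F' := by
      rw [cqq (r + 1) 1 (by omega) le_rfl le_rfl (by omega),
        avg_avg_of_finer (chain_finer h1 (S + 1) (r + 1) (by omega) (by omega) le_rfl), hF']
    have b3 : avg (q2 (S + 1)) (avg (q2 1) F') = avg (q2 (S + 1)) F' :=
      avg_avg_of_finer (chain_finer h2 1 (S + 1) le_rfl (by omega) (by omega)) _
    have b4 : avg (q2 1) (avg (q1 (S + 1)) F) = avg (q1 (S + 1)) (avg (q2 1) F) :=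
      (cqq (S + 1) 1 (by omega) (by omega) le_rfl (by omega) F).symm
    rw [b1, b2, b3, b4] at s2
    linarith
  have hsplit : ∑ s ∈ Icc 1 r, ε s * ((ent (avg (q1 s) G) - ent (avg (q1 (s + 1)) G))
        + (ent (avg (q2 s) F') - ent (avg (q2 (s + 1)) F')))
      = ∑ s ∈ Icc 1 r, ε s * (ent (avg (q1 s) G) - ent (avg (q1 (s + 1)) G))
        + ∑ s ∈ Icc 1 r, ε s * (ent (avg (q2 s) F') - ent (avg (q2 (s + 1)) F')) := by
    rw [← sum_add_distrib]
    exact sum_congr rfl (fun s _ => by ring)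
  rw [e1, e3]
  rw [e2] at m1
  linarith

end

end Vale.Agent.P162
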