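import Vale.Agent.P162.LinkPass
import Vale.Agent.P162.MLind

/-!
# P162: the upper bound `t_mix (2 ^ d) ≤ C d ^ 2`   (task G3)

`F' = (pointMass 1 + 1)/2 > 0`, `mean F' = 1`, `pass^[t] F' - 1 = (pass^[t] (pointMass 1) - 1)/2`,
`ent (pass^[t] F') ≤ (1 - cW)^t * log (card)`, `log card ≤ d * 2 ^ d`, Pinsker, monotonicity of TV.
-/

namespace Vale.Agent.P162

open Finset Vale.Agent.P335

open scoped Classical

noncomputable section

variable {d : ℕ}

theorem passSeq_add (F G : Equiv.Perm (Cube d) → ℝ) (j : ℕ) :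
    passSeq (fun g => F g + G g) j = fun g => passSeq F j g + passSeq G j g := by
  induction j with
  | zero => rfl
  | succ j ih =>
    simp only [passSeq]
    rw [ih]
    exact avg_add _ (passSeq F j) (passSeq G j)

theorem passSeq_smul (c : ℝ) (F : Equiv.Perm (Cube d) → ℝ) (j : ℕ) :
    passSeq (fun g => c * F g) j = fun g => c * passSeq F j g := by
  induction j with
  | zero => rfl
  | succ j ih =>
    simp only [passSeq]
    rw [ih]
    exact avg_smul _ c (passSeq F j)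

theorem passSeq_const (c : ℝ) (j : ℕ) :
    passSeq (fun _ : Equiv.Perm (Cube d) => c) j = fun _ => c := by
  induction j with
  | zero => rfl
  | succ j ih =>
    simp only [passSeq]
    rw [ih]
    exact avg_const _ c

theorem mean_passSeq (F : Equiv.Perm (Cube d) → ℝ) (j : ℕ) : mean (passSeq F j) = mean F := by
  induction j with
  | zero => rfl
  | succ j ih =>
    simp only [passSeq]
    rw [mean_avg, ih]

theorem pass_add (F G : Equiv.Perm (Cube d) → ℝ) :
    pass (fun g => F g + G g) = fun g => pass F g + pass G g :=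
  passSeq_add F G d

theorem pass_smul (c : ℝ) (F : Equiv.Perm (Cube d) → ℝ) :
    pass (fun g => c * F g) = fun g => c * pass F g :=
  passSeq_smul c F d

theorem pass_const (c : ℝ) : pass (fun _ : Equiv.Perm (Cube d) => c) = fun _ => c :=
  passSeq_const c d

theorem pass_pos (F : Equiv.Perm (Cube d) → ℝ) (hF : ∀ g, 0 < F g) : ∀ g, 0 < pass F g :=
  passSeq_pos F hF d

theorem mean_pass (F : Equiv.Perm (Cube d) → ℝ) : mean (pass F) = mean F :=
  mean_passSeq F d

theorem pass_iterate_pos (F : Equiv.Perm (Cube d) → ℝ) (hF : ∀ g, 0 < F g) (t : ℕ) :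
    ∀ g, 0 < pass^[t] F g := by
  induction t with
  | zero => exact hF
  | succ t ih =>
    rw [Function.iterate_succ_apply']
    exact pass_pos _ ih

theorem mean_pass_iterate (F : Equiv.Perm (Cube d) → ℝ) (t : ℕ) :
    mean (pass^[t] F) = mean F := by
  induction t with
  | zero => rfl
  | succ t ih =>
    rw [Function.iterate_succ_apply', mean_pass, ih]

theorem ent_pass_iterate (hd : 1 ≤ d) (F : Equiv.Perm (Cube d) → ℝ) (hF : ∀ g, 0 < F g) (t : ℕ) :
    ent (pass^[t] F) ≤ (1 - cW) ^ t * ent F := by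
  induction t with
  | zero => simp
  | succ t ih =>
    rw [Function.iterate_succ_apply']
    have h1 := pass_contraction hd (pass^[t] F) (pass_iterate_pos F hF t)
    have h0 : 0 ≤ 1 - cW := by linarith [cW_le_one]
    calc ent (pass (pass^[t] F)) ≤ (1 - cW) * ent (pass^[t] F) := h1
      _ ≤ (1 - cW) * ((1 - cW) ^ t * ent F) := mul_le_mul_of_nonneg_left ih h0
      _ = (1 - cW) ^ (t + 1) * ent F := by ring

theorem log_card_perm_cube (d : ℕ) :
    Real.log (Fintype.card (Equiv.Perm (Cube d))) ≤ d * 2 ^ d := by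
  have hc : Fintype.card (Equiv.Perm (Cube d)) = (2 ^ d).factorial := by
    rw [Fintype.card_perm]
    simp [Cube]
  rw [hc]
  have h1 : ((2 ^ d).factorial : ℝ) ≤ ((2 : ℝ) ^ d) ^ (2 ^ d) := by
    exact_mod_cast Nat.factorial_le_pow (2 ^ d)
  have h0 : (0 : ℝ) < ((2 ^ d).factorial : ℝ) := by exact_mod_cast Nat.factorial_pos _
  calc Real.log ((2 ^ d).factorial : ℝ) ≤ Real.log (((2 : ℝ) ^ d) ^ (2 ^ d)) :=
        Real.log_le_log h0 h1
    _ = (2 ^ d : ℕ) * (d * Real.log 2) := by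
        rw [Real.log_pow, Real.log_pow]
    _ ≤ (2 ^ d : ℕ) * (d * 1) := by
        have hl : Real.log 2 ≤ 1 := by
          have := Real.log_two_lt_d9
          linarith
        gcongr
    _ = d * 2 ^ d := by push_cast; ring

/-- the half-lazy density. -/
def halfMass (d : ℕ) : Equiv.Perm (Cube d) → ℝ := fun g => 1 / 2 * pointMass 1 g + 1 / 2

theorem halfMass_pos (d : ℕ) : ∀ g, 0 < halfMass d g := by
  intro g
  unfold halfMass pointMass
  split_ifs
  · positivity
  · norm_num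

theorem mean_halfMass (d : ℕ) : mean (halfMass d) = 1 := by
  unfold halfMass
  rw [mean_add, mean_const_mul, mean_pointMass, mean_const]
  norm_num

theorem pass_iterate_halfMass (d t : ℕ) :
    pass^[t] (halfMass d) = fun g => 1 / 2 * pass^[t] (pointMass 1) g + 1 / 2 := by
  induction t with
  | zero => rfl
  | succ t ih =>
    rw [Function.iterate_succ_apply', Function.iterate_succ_apply', ih]
    have h := pass_add (fun g => 1 / 2 * pass^[t] (pointMass 1) g)
      (fun _ : Equiv.Perm (Cube d) => (1 / 2 : ℝ))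
    rw [h, pass_smul, pass_const]

/-- distance after `t` passes. -/
theorem thorpDist_pass_le (e t : ℕ) :
    thorpDist (2 ^ e) ((e + 1) * t) ≤ Real.sqrt (2 * ((1 - cW) ^ t * ((e + 1) * 2 ^ (e + 1)))) := by
  rw [thorpDist_eq, dens_mul]
  have h1 : 1 / 2 * mean (fun g : Equiv.Perm (Cube (e + 1)) => |pass^[t] (pointMass 1) g - 1|)
      = mean (fun g => |pass^[t] (halfMass (e + 1)) g - 1|) := by
    rw [← mean_const_mul]
    apply mean_congr
    intro g
    rw [pass_iterate_halfMass]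
    have : (1 / 2 * pass^[t] (pointMass 1) g + 1 / 2 - 1 : ℝ)
        = 1 / 2 * (pass^[t] (pointMass 1) g - 1) := by ring
    rw [this, abs_mul, abs_of_pos (by norm_num : (0 : ℝ) < 1 / 2)]
  rw [h1]
  have hpos := pass_iterate_pos (halfMass (e + 1)) (halfMass_pos _) t
  have hmean : mean (pass^[t] (halfMass (e + 1))) = 1 := by
    rw [mean_pass_iterate, mean_halfMass]
  refine (pinsker hpos hmean).trans (Real.sqrt_le_sqrt ?_)
  have h0 : 0 ≤ (1 - cW) ^ t := pow_nonneg (by linarith [cW_le_one]) t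
  have h2 := ent_pass_iterate (by omega : 1 ≤ e + 1) (halfMass (e + 1)) (halfMass_pos _) t
  have h3 : ent (halfMass (e + 1)) ≤ ((e + 1 : ℕ) : ℝ) * 2 ^ (e + 1) :=
    (ent_le_log_card (halfMass_pos _) (mean_halfMass _)).trans (log_card_perm_cube (e + 1))
  have h4 : (1 - cW) ^ t * ent (halfMass (e + 1)) ≤ (1 - cW) ^ t * ((e + 1) * 2 ^ (e + 1)) := by
    refine mul_le_mul_of_nonneg_left ?_ h0
    push_cast at h3
    exact h3
  linarith

theorem exp_five_ge : (128 : ℝ) ≤ Real.exp 5 := by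
  have h1 : (2.7 : ℝ) ≤ Real.exp 1 := by
    have := Real.exp_one_gt_d9
    linarith
  have h2 : Real.exp 5 = Real.exp 1 ^ 5 := by
    rw [← Real.exp_nat_mul]
    norm_num
  rw [h2]
  calc (128 : ℝ) ≤ 2.7 ^ 5 := by norm_num
    _ ≤ Real.exp 1 ^ 5 := pow_le_pow_left₀ (by norm_num) h1 5

theorem thorp_upper : ∃ C : ℕ, ∀ d : ℕ, 1 ≤ d → ∀ t : ℕ, C * d ^ 2 ≤ t →
    thorpDist (2 ^ (d - 1)) t ≤ 1 / 4 := by
  refine ⟨⌈5 / cW⌉₊, ?_⟩
  intro d hd t ht
  obtain ⟨e, rfl⟩ : ∃ e, d = e + 1 := ⟨d - 1, by omega⟩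
  simp only [Nat.add_sub_cancel]
  set C := ⌈5 / cW⌉₊ with hC
  set s := t / (e + 1) with hs
  have hCs : C * (e + 1) ≤ s := by
    rw [hs, Nat.le_div_iff_mul_le (by omega)]
    calc C * (e + 1) * (e + 1) = C * (e + 1) ^ 2 := by ring
      _ ≤ t := ht
  have hst : (e + 1) * s ≤ t := Nat.mul_div_le t (e + 1)
  have hmono : thorpDist (2 ^ e) t ≤ thorpDist (2 ^ e) ((e + 1) * s) :=
    tvDist_convPow_antitone (thorpLaw (2 ^ e)) (thorpLaw_nonneg _) (sum_thorpLaw _) hst
  refine hmono.trans ((thorpDist_pass_le e s).trans ?_)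
  rw [Real.sqrt_le_iff]
  refine ⟨by norm_num, ?_⟩
  have hcW := cW_pos
  have h0 : 0 ≤ 1 - cW := by linarith [cW_le_one]
  -- (1 - cW)^s ≤ exp (-(5 (e+1)))
  have h1 : (1 - cW) ^ s ≤ Real.exp (-(5 * ((e : ℝ) + 1))) := by
    have ha : 1 - cW ≤ Real.exp (-cW) := by
      have := Real.add_one_le_exp (-cW)
      linarith
    calc (1 - cW) ^ s ≤ Real.exp (-cW) ^ s := pow_le_pow_left₀ h0 ha s
      _ = Real.exp (-(cW * s)) := by
          rw [← Real.exp_nat_mul]
          congr 1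
          ring
      _ ≤ Real.exp (-(5 * ((e : ℝ) + 1))) := by
          apply Real.exp_le_exp.mpr
          have hb : (5 / cW : ℝ) ≤ C := Nat.le_ceil _
          have hc : ((C * (e + 1) : ℕ) : ℝ) ≤ s := by exact_mod_cast hCs
          push_cast at hc
          have hd' : 5 * ((e : ℝ) + 1) ≤ cW * ((C : ℝ) * ((e : ℝ) + 1)) := by
            have : 5 ≤ cW * (C : ℝ) := by
              rw [div_le_iff₀ hcW] at hb
              linarith
            nlinarith
          have he : cW * ((C : ℝ) * ((e : ℝ) + 1)) ≤ cW * s :=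
            mul_le_mul_of_nonneg_left hc hcW.le
          linarith
  -- (e+1) 2^(e+1) * 32 ≤ 128^(e+1) ≤ exp (5 (e+1))
  have h2 : ((e : ℝ) + 1) * 2 ^ (e + 1) * 32 ≤ Real.exp (5 * ((e : ℝ) + 1)) := by
    have ha : ((e : ℝ) + 1) ≤ 2 ^ (e + 1) := by
      have : (e + 1 : ℕ) ≤ 2 ^ (e + 1) := Nat.lt_two_pow_self.le
      exact_mod_cast this
    have hb : (32 : ℝ) ≤ 32 ^ (e + 1) := by
      calc (32 : ℝ) = 32 ^ 1 := by norm_num
        _ ≤ 32 ^ (e + 1) := pow_le_pow_right₀ (by norm_num) (by omega)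
    have hc : Real.exp (5 * ((e : ℝ) + 1)) = Real.exp 5 ^ (e + 1) := by
      rw [← Real.exp_nat_mul]
      congr 1
      push_cast
      ring
    rw [hc]
    calc ((e : ℝ) + 1) * 2 ^ (e + 1) * 32 ≤ 2 ^ (e + 1) * 2 ^ (e + 1) * 32 ^ (e + 1) := by
          gcongr
      _ = 128 ^ (e + 1) := by
          rw [← mul_pow, ← mul_pow]
          norm_num
      _ ≤ Real.exp 5 ^ (e + 1) := pow_le_pow_left₀ (by norm_num) exp_five_ge _
  have h3 : 0 < Real.exp (5 * ((e : ℝ) + 1)) := Real.exp_pos _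
  have h4 : Real.exp (-(5 * ((e : ℝ) + 1))) * Real.exp (5 * ((e : ℝ) + 1)) = 1 := by
    rw [← Real.exp_add]
    simp
  have h5 : 0 ≤ ((e : ℝ) + 1) * 2 ^ (e + 1) := by positivity
  have h6 : (1 - cW) ^ s * (((e : ℝ) + 1) * 2 ^ (e + 1)) * 32 ≤ 1 := by
    calc (1 - cW) ^ s * (((e : ℝ) + 1) * 2 ^ (e + 1)) * 32
        ≤ Real.exp (-(5 * ((e : ℝ) + 1))) * (((e : ℝ) + 1) * 2 ^ (e + 1)) * 32 := by
          gcongr
      _ = Real.exp (-(5 * ((e : ℝ) + 1))) * (((e : ℝ) + 1) * 2 ^ (e + 1) * 32) := by ring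
      _ ≤ Real.exp (-(5 * ((e : ℝ) + 1))) * Real.exp (5 * ((e : ℝ) + 1)) :=
          mul_le_mul_of_nonneg_left h2 (Real.exp_pos _).le
      _ = 1 := h4
  nlinarith

end

end Vale.Agent.P162
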